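import Vale.Agent.EGH.Basic

/-! The ascending chain condition for graded families over a division ring. -/

namespace Vale.Agent.EGH

open Module MvPolynomial Filter

universe u

variable {D : Type*} [DivisionRing D] {G : Type*} [AddCommGroup G]
variable {V : Type*} [AddCommGroup V] [Module D V]
variable {I : Type*} [Finite I] {T : I → Module.End D V} {e : I → G}

namespace ACCAux

omit [Finite I] in
theorem exists_Tm (hT : ∀ i j, Commute (T i) (T j)) : ∃ Tm : (I →₀ ℕ) → Module.End D V,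
    Tm 0 = 1 ∧ (∀ α β, Tm (α + β) = Tm α * Tm β) ∧ (∀ i, Tm (Finsupp.single i 1) = T i) ∧
      ∀ W : G → Submodule D V, Stable T e W → ∀ α, Maps (Tm α) (Finsupp.weight e α) W W := by
  obtain ⟨θ, hθ⟩ := exists_algHom_of_commute (Z := ℤ) T hT
  have h0 : θ (monomial 0 1) = 1 := map_one θ
  have h1 : ∀ α β, θ (monomial (α + β) 1) = θ (monomial α 1) * θ (monomial β 1) := fun α β => by
    rw [← map_mul, monomial_mul, mul_one]
  refine ⟨fun α => θ (monomial α 1), h0, h1, hθ, fun W hW α => ?_⟩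
  beta_reduce
  induction α using Finsupp.induction_linear with
  | zero => intro g v hv; simpa [h0] using hv
  | add α β ha hb =>
    rw [h1, map_add, add_comm]
    exact ha.mul hb
  | single i b =>
    induction b with
    | zero => intro g v hv; simpa [h0] using hv
    | succ b ih =>
      rw [Finsupp.single_add, h1, map_add, add_comm]
      refine ih.mul ?_
      have : θ (monomial (Finsupp.single i 1) 1) = T i := hθ i
      rw [this, Finsupp.weight_single, one_smul]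
      exact hW i

theorem dickson {J : Type*} [Finite J] (Λ : Set ((I →₀ ℕ) × J)) :
    ∃ F : Set ((I →₀ ℕ) × J), F.Finite ∧ F ⊆ Λ ∧ ∀ m ∈ Λ, ∃ m0 ∈ F, ∃ β, m = (β + m0.1, m0.2) := by
  refine ⟨⋃ j, (fun α => (α, j)) '' {α | Minimal (fun α => (α, j) ∈ Λ) α},
    Set.finite_iUnion fun j => Set.Finite.image _
      ((setOfPred_minimal_antichain _).finite_of_partiallyWellOrderedOn
        (Set.isPWO_of_wellQuasiOrderedLE _)), ?_, ?_⟩
  · rintro _ ⟨_, ⟨j, rfl⟩, α, hα, rfl⟩
    exact hα.1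
  · rintro ⟨α, j⟩ hm
    obtain ⟨z, hz, hz'⟩ := (Set.isPWO_of_wellQuasiOrderedLE {α | (α, j) ∈ Λ}).exists_le_minimal hm
    obtain ⟨β, rfl⟩ := le_iff_exists_add'.1 hz
    exact ⟨(z, j), Set.mem_iUnion.2 ⟨j, z, hz', rfl⟩, β, rfl⟩

omit [AddCommGroup G] in
theorem split {M K : Type*} [LinearOrder K] {key : M → K} (hkey : Function.Injective key)
    (deg : M → G) (vec : M → V) (B : Submodule D V) {g : G} {n : K} {w : V}
    (hw : w ∈ B ⊔ Submodule.span D (vec '' {m | deg m = g ∧ key m < n})) :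
    w ∈ B ∨ ∃ m, deg m = g ∧ key m < n ∧ ∃ c : D,
      w - c • vec m ∈ B ⊔ Submodule.span D (vec '' {m' | deg m' = g ∧ key m' < key m}) := by
  classical
  obtain ⟨y, hy, z, hz, rfl⟩ := Submodule.mem_sup.1 hw
  obtain ⟨A', hA', hz'⟩ := Submodule.mem_span_finite_of_mem_span hz
  obtain ⟨A, hA, rfl⟩ := Finset.subset_set_image_iff.1 hA'
  rcases A.eq_empty_or_nonempty with rfl | hne
  · left
    have : z = 0 := by simpa using hz'
    simpa [this] using hy
  · obtain ⟨m, hm, hmax⟩ := A.exists_max_image key hne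
    refine Or.inr ⟨m, (hA hm).1, (hA hm).2, ?_⟩
    have h1 : z ∈ Submodule.span D
        (insert (vec m) (vec '' {m' | deg m' = g ∧ key m' < key m})) := by
      refine Submodule.span_mono ?_ hz'
      rw [Finset.coe_image]
      rintro _ ⟨m', hm', rfl⟩
      rcases (hmax m' hm').eq_or_lt with h | h
      · exact Or.inl (congrArg vec (hkey h))
      · exact Or.inr ⟨m', ⟨(hA hm').1, h⟩, rfl⟩
    obtain ⟨c, z', hz'', rfl⟩ := Submodule.mem_span_insert.1 h1
    refine ⟨c, ?_⟩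
    have : y + (c • vec m + z') - c • vec m = y + z' := by abel
    rw [this]
    exact Submodule.add_mem_sup hy hz''

end ACCAux

/-- Stable subfamilies of finitely generated subquotients are finitely generated. -/
theorem fg_of_le (hT : ∀ i j, Commute (T i) (T j)) {U' W : G → Submodule D V}
    (hU' : Stable T e U') (hW : Stable T e W) (h1 : U' ≤ W) {s : Set (G × V)} (hs : s.Finite)
    (h2 : W ≤ U' ⊔ Gen T e s) :
    ∃ s' : Set (G × V), s'.Finite ∧ (∀ p ∈ s', p.2 ∈ W p.1) ∧ W ≤ U' ⊔ Gen T e s' := by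
  obtain ⟨Tm, h0, hadd, hone, hmaps⟩ := ACCAux.exists_Tm (e := e) hT
  have : Finite s := hs
  obtain ⟨_, _⟩ := exists_wellFoundedGT I
  obtain ⟨_, _⟩ := exists_wellFoundedLT s
  obtain ⟨key, hkey⟩ : ∃ key : (I →₀ ℕ) × s → WithTop ((MonomialOrder.lex (σ := I)).syn ×ₗ s),
    ∀ m, key m = ↑(toLex (MonomialOrder.lex.toSyn m.1, m.2)) := ⟨_, fun _ => rfl⟩
  have hinj : Function.Injective key := by
    intro m m' h
    rw [hkey, hkey, WithTop.coe_inj, toLex.injective.eq_iff, Prod.mk.injEq,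
      EmbeddingLike.apply_eq_iff_eq] at h
    exact Prod.ext h.1 h.2
  have hmono : ∀ β m m', key m < key m' → key (β + m.1, m.2) < key (β + m'.1, m'.2) := by
    intro β m m' h
    simp only [hkey, WithTop.coe_lt_coe, Prod.Lex.toLex_lt_toLex, map_add, add_lt_add_iff_left,
      add_right_inj] at h ⊢
    exact h
  obtain ⟨deg, hdeg⟩ : ∃ deg : (I →₀ ℕ) × s → G, ∀ m, deg m = m.2.1.1 + Finsupp.weight e m.1 :=
    ⟨_, fun _ => rfl⟩
  obtain ⟨vec, hvec⟩ : ∃ vec : (I →₀ ℕ) × s → V, ∀ m, vec m = Tm m.1 m.2.1.2 :=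
    ⟨_, fun _ => rfl⟩
  have hdeg' : ∀ β m, deg (β + m.1, m.2) = deg m + Finsupp.weight e β := fun β m => by
    rw [hdeg, hdeg, map_add]; abel
  have hvec' : ∀ β m, vec (β + m.1, m.2) = Tm β (vec m) := fun β m => by
    rw [hvec, hvec, hadd]; rfl
  obtain ⟨Lo, hLo⟩ : ∃ Lo : G → _ → Submodule D V, ∀ g n,
    Lo g n = U' g ⊔ Submodule.span D (vec '' {m | deg m = g ∧ key m < n}) := ⟨_, fun _ _ => rfl⟩
  have hLoT : ∀ β m x, x ∈ Lo (deg m) (key m) →
      Tm β x ∈ Lo (deg (β + m.1, m.2)) (key (β + m.1, m.2)) := by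
    intro β m
    change Lo _ _ ≤ (Lo _ _).comap (Tm β)
    rw [hLo, hLo]
    refine sup_le (fun x hx => Submodule.mem_sup_left ?_) (Submodule.span_le.2 ?_)
    · rw [hdeg']; exact hmaps U' hU' β _ x hx
    · rintro _ ⟨m', hm', rfl⟩
      exact Submodule.mem_sup_right (Submodule.subset_span
        ⟨(β + m'.1, m'.2), ⟨by rw [hdeg', hdeg', hm'.1], hmono β _ _ hm'.2⟩, hvec' β m'⟩)
  obtain ⟨F, hF, hFΛ, hmin⟩ := ACCAux.dickson
    {m | ∃ x ∈ W (deg m), x - vec m ∈ Lo (deg m) (key m)}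
  have hFΛ' : ∀ m, m ∈ F → ∃ x ∈ W (deg m), x - vec m ∈ Lo (deg m) (key m) := fun m hm => hFΛ hm
  choose! wit hw1 hw2 using hFΛ'
  refine ⟨(fun m => (deg m, wit m)) '' F, hF.image _, by rintro _ ⟨m, hm, rfl⟩; exact hw1 _ hm, ?_⟩
  have main : ∀ n g w, w ∈ W g → w ∈ Lo g n →
      w ∈ (U' ⊔ Gen T e ((fun m => (deg m, wit m)) '' F)) g := by
    intro n
    induction n using WellFoundedLT.induction with
    | ind n ih =>
    intro g w hw hlo
    rw [hLo] at hlo
    rcases ACCAux.split hinj deg vec _ hlo with h | ⟨m, rfl, hm, c, hc⟩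
    · exact Submodule.mem_sup_left h
    rw [← hLo] at hc
    rcases eq_or_ne c 0 with rfl | hc0
    · exact ih _ hm _ w hw (by simpa using hc)
    obtain ⟨m0, hm0, β, rfl⟩ := hmin m ⟨c⁻¹ • w, Submodule.smul_mem _ _ hw, by
      simpa [smul_sub, smul_smul, hc0] using Submodule.smul_mem _ c⁻¹ hc⟩
    have e1 := hLoT β m0 _ (hw2 _ hm0)
    rw [map_sub, ← hvec'] at e1
    have e2 : Tm β (wit m0) ∈ W (deg (β + m0.1, m0.2)) := by
      rw [hdeg']; exact hmaps W hW β _ _ (hw1 _ hm0)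
    have e3 : Tm β (wit m0) ∈ Gen T e ((fun m => (deg m, wit m)) '' F) (deg (β + m0.1, m0.2)) := by
      rw [hdeg']
      exact hmaps _ (Gen_stable T e _) β _ _ (mem_Gen T e (p := (deg m0, wit m0)) ⟨m0, hm0, rfl⟩)
    have e4 := ih _ hm _ (w - c • Tm β (wit m0)) (sub_mem hw (Submodule.smul_mem _ _ e2)) (by
      have := sub_mem hc (Submodule.smul_mem _ c e1)
      rwa [smul_sub, sub_sub_sub_cancel_right] at this)
    have e5 := add_mem e4 (Submodule.mem_sup_right (S := U' _) (Submodule.smul_mem _ c e3))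
    rwa [sub_add_cancel] at e5
  have htop : ∀ m, key m < ⊤ := fun m => by rw [hkey]; exact WithTop.coe_lt_top _
  have hst : Stable T e fun g => Lo g ⊤ := by
    intro i g
    change Lo _ _ ≤ (Lo _ _).comap (T i)
    rw [hLo, hLo]
    refine sup_le (fun x hx => Submodule.mem_sup_left (hU' i g x hx)) (Submodule.span_le.2 ?_)
    rintro _ ⟨m, hm, rfl⟩
    refine Submodule.mem_sup_right (Submodule.subset_span
      ⟨(Finsupp.single i 1 + m.1, m.2), ⟨?_, htop _⟩, by rw [hvec', hone]⟩)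
    rw [hdeg', hm.1, Finsupp.weight_single, one_smul]
  have h3 := h2.trans (sup_le (fun g => by rw [hLo]; exact le_sup_left) (Gen_le hst fun p hp => by
    rw [hLo]
    exact Submodule.mem_sup_right (Submodule.subset_span
      ⟨(0, ⟨p, hp⟩), ⟨by simp [hdeg], htop _⟩, by simp [hvec, h0]⟩)))
  exact fun g w hw => main ⊤ g w hw (h3 g hw)

theorem Pair.sub (hT : ∀ i j, Commute (T i) (T j)) {U' U W : G → Submodule D V}
    (h : Pair T e U' U) (hW : Stable T e W) (h1 : U' ≤ W) (h2 : W ≤ U) : Pair T e U' W := by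
  obtain ⟨s, hs, -, hs2⟩ := h.fg
  exact ⟨h.st', hW, h1, h.fd_of_le h2, fg_of_le hT h.st' hW h1 hs (h2.trans hs2)⟩

end Vale.Agent.EGH
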