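import Vale.Agent.EGH.Defs

/-! Basic properties of families, of the group ring action and of nodes. -/

namespace Vale.Agent.EGH

open Module MvPolynomial Filter

universe u

section Fam

variable {D : Type*} [DivisionRing D] {G : Type*} [AddCommGroup G]
variable {V : Type*} [AddCommGroup V] [Module D V]
variable {I : Type*} {T : I → Module.End D V} {e : I → G}

theorem mem_Gen_iff {s : Set (G × V)} {g : G} {v : V} :
    v ∈ Gen T e s g ↔
      ∀ W : G → Submodule D V, Stable T e W → (∀ p ∈ s, p.2 ∈ W p.1) → v ∈ W g := by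
  simp only [Gen, sInf_apply, Submodule.mem_iInf, Subtype.forall, Set.mem_ofPred_eq]
  exact ⟨fun h W h1 h2 => h W ⟨h1, h2⟩, fun h W hW => h W hW.1 hW.2⟩

theorem Gen_stable (T : I → Module.End D V) (e : I → G) (s : Set (G × V)) :
    Stable T e (Gen T e s) := fun i g v hv =>
  mem_Gen_iff.2 fun W h1 h2 => h1 i g v (mem_Gen_iff.1 hv W h1 h2)

theorem mem_Gen (T : I → Module.End D V) (e : I → G) {s : Set (G × V)} {p : G × V}
    (hp : p ∈ s) : p.2 ∈ Gen T e s p.1 :=
  mem_Gen_iff.2 fun _ _ h2 => h2 p hp

theorem Gen_le {s : Set (G × V)} {W : G → Submodule D V}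
    (h1 : Stable T e W) (h2 : ∀ p ∈ s, p.2 ∈ W p.1) : Gen T e s ≤ W :=
  fun _ _ hv => mem_Gen_iff.1 hv W h1 h2

theorem Gen_mono {s s' : Set (G × V)} (h : s ⊆ s') : Gen T e s ≤ Gen T e s' :=
  Gen_le (Gen_stable T e s') fun _ hp => mem_Gen T e (h hp)

theorem Maps.mono {f : Module.End D V} {a : G} {U W U' W' : G → Submodule D V}
    (h : Maps f a U W) (hU : U' ≤ U) (hW : W ≤ W') : Maps f a U' W' :=
  fun g v hv => hW _ (h g v (hU g hv))

theorem Maps.mul {f f' : Module.End D V} {a a' : G} {U W W' : G → Submodule D V}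
    (h' : Maps f' a' W W') (h : Maps f a U W) : Maps (f' * f) (a + a') U W' :=
  fun g v hv => by
    rw [← add_assoc]
    exact h' _ _ (h g v hv)

theorem stable_bot (T : I → Module.End D V) (e : I → G) :
    Stable T e (⊥ : G → Submodule D V) := fun i g v hv => by
  rw [Pi.bot_apply, Submodule.mem_bot] at hv ⊢
  rw [hv, map_zero]

theorem Stable.sup {U W : G → Submodule D V} (hU : Stable T e U) (hW : Stable T e W) :
    Stable T e (U ⊔ W) := fun i g v hv => by
  obtain ⟨x, hx, y, hy, rfl⟩ := Submodule.mem_sup.1 hv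
  rw [map_add]
  exact Submodule.add_mem_sup (hU i g x hx) (hW i g y hy)

theorem Stable.inf {U W : G → Submodule D V} (hU : Stable T e U) (hW : Stable T e W) :
    Stable T e (U ⊓ W) := fun i g v hv => ⟨hU i g v hv.1, hW i g v hv.2⟩

omit [AddCommGroup G] in
@[simp] theorem hf_bot : hf (⊥ : G → Submodule D V) = 0 := by
  funext g
  simp [hf]

omit [AddCommGroup G] in
theorem hf_nonneg (U : G → Submodule D V) (g : G) : 0 ≤ hf U g := Int.natCast_nonneg _

theorem le_supMap (f : Module.End D V) (a : G) (U U' : G → Submodule D V) :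
    U' ≤ supMap f a U U' := fun _ => le_sup_left

theorem supMap_le {f : Module.End D V} {a : G} {U U' W : G → Submodule D V} (hle : U' ≤ W)
    (hr : Maps f a U W) : supMap f a U U' ≤ W := fun g => by
  refine sup_le (hle g) ?_
  rintro _ ⟨v, hv, rfl⟩
  have := hr _ v hv
  rwa [sub_add_cancel] at this

theorem maps_supMap (f : Module.End D V) (a : G) (U U' : G → Submodule D V) :
    Maps f a U (supMap f a U U') :=
  fun g v hv => Submodule.mem_sup_right ⟨v, by rwa [add_sub_cancel_right], rfl⟩

theorem Maps.supMap {f f' : Module.End D V} {a a' : G} {U U' W : G → Submodule D V}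
    (h1 : Maps f' a' U' W) (h2 : Maps (f' * f) (a + a') U W) :
    Maps f' a' (supMap f a U U') W := by
  intro g v hv
  obtain ⟨x, hx, _, ⟨y, hy, rfl⟩, rfl⟩ := Submodule.mem_sup.1 hv
  rw [map_add]
  refine (W _).add_mem (h1 g x hx) ?_
  have := h2 _ y hy
  rw [← add_assoc, sub_add_cancel] at this
  exact this

theorem stable_supMap {f : Module.End D V} (hf : ∀ i, Commute f (T i)) (a : G)
    {U U' : G → Submodule D V} (hU : Stable T e U) (hU' : Stable T e U') :
    Stable T e (supMap f a U U') := fun i => by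
  refine Maps.supMap (fun g v hv => le_supMap f a U U' _ (hU' i g v hv)) fun g v hv => ?_
  have := maps_supMap f a U U' _ _ (hU i g v hv)
  rw [← (hf i).eq, add_comm a, ← add_assoc]
  exact this

theorem infComap_le (f : Module.End D V) (a : G) (U U' : G → Submodule D V) :
    infComap f a U U' ≤ U := fun _ => inf_le_left

theorem le_infComap {f : Module.End D V} {a : G} {U U' W : G → Submodule D V} (hle : W ≤ U)
    (hr : Maps f a W U') : W ≤ infComap f a U U' :=
  fun g _ hv => ⟨hle g hv, hr g _ hv⟩

theorem maps_infComap (f : Module.End D V) (a : G) (U U' : G → Submodule D V) :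
    Maps f a (infComap f a U U') U' := fun _ _ hv => hv.2

theorem stable_infComap {f : Module.End D V} (hf : ∀ i, Commute f (T i)) (a : G)
    {U U' : G → Submodule D V} (hU : Stable T e U) (hU' : Stable T e U') :
    Stable T e (infComap f a U U') := fun i g v hv => by
  refine ⟨hU i g v hv.1, ?_⟩
  have := hU' i _ _ hv.2
  change (f * T i) v ∈ U' (g + e i + a)
  rw [(hf i).eq, add_right_comm]
  exact this

theorem finrank_map_add_finrank_inf_ker {V' : Type*} [AddCommGroup V'] [Module D V']
    (f : V →ₗ[D] V') (A : Submodule D V) [FiniteDimensional D A] :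
    finrank D (A.map f) + finrank D (A ⊓ LinearMap.ker f : Submodule D V) = finrank D A := by
  have h := LinearMap.finrank_range_add_finrank_ker (f.domRestrict A)
  rw [LinearMap.range_domRestrict, LinearMap.ker_domRestrict,
    ← Submodule.finrank_map_subtype_eq A, Submodule.map_comap_subtype] at h
  exact h

theorem finrank_sup_map_add {V' : Type*} [AddCommGroup V'] [Module D V']
    (f : V →ₗ[D] V') (A : Submodule D V) (B : Submodule D V') [FiniteDimensional D A]
    [FiniteDimensional D B] :
    finrank D (B ⊔ A.map f : Submodule D V') + finrank D (A ⊓ B.comap f : Submodule D V) =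
      finrank D A + finrank D B := by
  have h1 := Submodule.finrank_sup_add_finrank_inf_eq B (A.map f)
  have h2 := finrank_map_add_finrank_inf_ker f A
  have : FiniteDimensional D (A ⊓ B.comap f : Submodule D V) :=
    Submodule.finiteDimensional_of_le inf_le_left
  have h3 := finrank_map_add_finrank_inf_ker f (A ⊓ B.comap f)
  have h4 : (A ⊓ B.comap f).map f = B ⊓ A.map f := by
    rw [inf_comm B, Submodule.map_inf_eq_map_inf_comap]
  have h5 : A ⊓ B.comap f ⊓ LinearMap.ker f = A ⊓ LinearMap.ker f := by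
    rw [inf_assoc, inf_eq_right.2 (LinearMap.ker_le_comap f)]
  rw [h4, h5] at h3
  omega

theorem Pair.fd_of_le {U' U W : G → Submodule D V} (h : Pair T e U' U) (hW : W ≤ U) (g : G) :
    FiniteDimensional D (W g) := by
  have := h.fd g
  exact Submodule.finiteDimensional_of_le (hW g)

theorem Pair.quot {U' U W : G → Submodule D V} (h : Pair T e U' U) (hW : Stable T e W)
    (h1 : U' ≤ W) (h2 : W ≤ U) : Pair T e W U := by
  obtain ⟨s, hs, hs1, hs2⟩ := h.fg
  exact ⟨hW, h.st, h2, h.fd, s, hs, hs1, hs2.trans (sup_le_sup_right h1 _)⟩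

end Fam

section Act

variable {G : Type*} [AddCommGroup G]

@[simp] theorem act_mon (a : G) : act (mon a) = shift a := by
  simp [act, mon, shiftHom]

theorem mon_add (a b : G) : mon (a + b) = mon a * mon b := by
  simp [mon, AddMonoidAlgebra.single_mul_single]

@[simp] theorem mon_zero : mon (0 : G) = 1 := rfl

theorem mon_nsmul (b : ℕ) (a : G) : mon (b • a) = mon a ^ b := by
  simp [mon, AddMonoidAlgebra.single_pow]

theorem one_sub_mon_mul_geo (a : G) (b : ℕ) : (1 - mon a) * geo a b = 1 - mon (b • a) := by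
  rw [geo, mul_neg_geom_sum, mon_nsmul]

theorem act_apply (q : AddMonoidAlgebra ℤ G) (h : G → ℤ) (g : G) :
    act q h g = ∑ a ∈ q.coeff.support, q.coeff a * h (g - a) := by
  simp [act, AddMonoidAlgebra.lift_apply, Finsupp.sum, shiftHom, LinearMap.sum_apply]

theorem act_act (p q : AddMonoidAlgebra ℤ G) (h : G → ℤ) : act p (act q h) = act (p * q) h := by
  rw [map_mul]; rfl

theorem act_one_sub_mon {D : Type*} [DivisionRing D] {V : Type*} [AddCommGroup V] [Module D V]
    (f : Module.End D V) (a : G) (U U' : G → Submodule D V)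
    (h : ∀ g, FiniteDimensional D (U g)) (h' : ∀ g, FiniteDimensional D (U' g)) :
    act (1 - mon a) (hf U - hf U') = (hf U - hf (supMap f a U U')) -
      act (mon a) (hf (infComap f a U U') - hf U') := by
  funext g
  have := h (g - a)
  have := h' g
  have h1 := finrank_sup_map_add f (U (g - a)) (U' g)
  have h2 : infComap f a U U' (g - a) = U (g - a) ⊓ (U' g).comap f := by
    rw [infComap, sub_add_cancel]
  have h3 : supMap f a U U' g = U' g ⊔ (U (g - a)).map f := rfl
  rw [← h2, ← h3] at h1
  simp only [map_sub, map_one, act_mon, LinearMap.sub_apply, Module.End.one_apply, Pi.sub_apply,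
    shift_apply, hf]
  omega

theorem Closed.neg {L : (G → ℤ) → Prop} (hL : Closed L) {h : G → ℤ} (hh : L h) : L (-h) := by
  simpa using hL.act (-1) h hh

theorem Closed.sub {L : (G → ℤ) → Prop} (hL : Closed L) {h h' : G → ℤ} (hh : L h) (hh' : L h') :
    L (h - h') := by
  rw [sub_eq_add_neg]; exact hL.add _ _ hh (hL.neg hh')

theorem Closed.comp_act {L : (G → ℤ) → Prop} (hL : Closed L) (q : AddMonoidAlgebra ℤ G) :
    Closed fun h => L (EGH.act q h) where
  zero := by simpa using hL.zero
  add h h' hh hh' := by simpa using hL.add _ _ hh hh'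
  act p h hh := by
    have := hL.act p _ hh
    rwa [act_act, mul_comm, ← act_act] at this

section Ord

variable [PartialOrder G] [IsOrderedAddMonoid G]

theorem eventually_act_congr (q : AddMonoidAlgebra ℤ G) {h h' : G → ℤ}
    (hh : ∀ᶠ g in atTop, h g = h' g) : ∀ᶠ g in atTop, act q h g = act q h' g := by
  have : ∀ᶠ g in atTop, ∀ a ∈ q.coeff.support, h (g - a) = h' (g - a) := by
    rw [eventually_all_finset]
    intro a _
    simp only [sub_eq_add_neg]
    exact (tendsto_atTop_add_const_right atTop (-a) tendsto_id).eventually hh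
  filter_upwards [this] with g hg
  rw [act_apply, act_apply]
  exact Finset.sum_congr rfl fun a ha => by rw [hg a ha]

theorem closed_Lat (PP : G → ℤ) : Closed (Lat PP) where
  zero := ⟨0, by simp⟩
  add := by
    rintro h h' ⟨q, hq⟩ ⟨q', hq'⟩
    refine ⟨q + q', ?_⟩
    filter_upwards [hq, hq'] with g h1 h2
    simp [h1, h2]
  act := by
    rintro p h ⟨q, hq⟩
    refine ⟨p * q, ?_⟩
    filter_upwards [eventually_act_congr p hq] with g h1
    rw [h1, act_act]

theorem closed_EvZero : Closed (EvZero : (G → ℤ) → Prop) where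
  zero := Eventually.of_forall fun _ => rfl
  add h h' hh hh' := by
    filter_upwards [hh, hh'] with g h1 h2
    simp [h1, h2]
  act p h hh := by
    filter_upwards [eventually_act_congr p (h' := 0) hh] with g h1
    simpa using h1

omit [IsOrderedAddMonoid G] in
theorem EvZero.lat {h : G → ℤ} (hh : EvZero h) (PP : G → ℤ) : Lat PP h :=
  ⟨0, hh.mono fun g hg => by simpa using hg⟩

omit [IsOrderedAddMonoid G] in
theorem Lat.congr {PP h h' : G → ℤ} (hh : Lat PP h) (e : ∀ᶠ g in atTop, h g = h' g) :
    Lat PP h' := by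
  obtain ⟨q, hq⟩ := hh
  refine ⟨q, ?_⟩
  filter_upwards [hq, e] with g h1 h2
  rw [← h2, h1]

theorem Lat.act_act {PP h : G → ℤ} (hh : Lat PP h) (p : AddMonoidAlgebra ℤ G) :
    Lat (act p PP) (act p h) := by
  obtain ⟨q, hq⟩ := hh
  refine ⟨q, ?_⟩
  filter_upwards [eventually_act_congr p hq] with g h1
  rw [h1, EGH.act_act, EGH.act_act, mul_comm]

end Ord

/-- Transport of `Lat` along an isomorphism of ordered groups. -/
theorem Lat.of_comp {G' : Type*} [AddCommGroup G'] [Preorder G] [Preorder G'] (φ : G ≃+ G')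
    (hφ : ∀ a b, φ a ≤ φ b ↔ a ≤ b) {PP h : G' → ℤ} (hh : Lat (PP ∘ φ) (h ∘ φ)) : Lat PP h := by
  obtain ⟨q, hq⟩ := hh
  let e : G ≃o G' := { φ.toEquiv with map_rel_iff' := hφ _ _ }
  refine ⟨∑ a ∈ q.coeff.support, q.coeff a • mon (φ a), ?_⟩
  filter_upwards [e.symm.tendsto_atTop.eventually hq] with g hg
  have h1 : φ (e.symm g) = g := e.apply_symm_apply g
  simp only [Function.comp, act_apply, map_sub, h1] at hg
  simp [hg, LinearMap.sum_apply]

end Act

section Aff

theorem Aff.unique {m c : ℤ} (hm : m ≠ 0) {h : ℤ → ℤ} {r s r' s' : ℤ} (h1 : Aff m c h r s)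
    (h2 : Aff m c h r' s') : r = r' ∧ s = s' := by
  obtain ⟨i, hi⟩ := eventually_atTop.1 (h1.and h2)
  obtain ⟨a1, a2⟩ := hi i le_rfl
  obtain ⟨b1, b2⟩ := hi (i + 1) (by omega)
  have e : r = r' := mul_right_cancel₀ hm (by linarith)
  subst e
  exact ⟨rfl, mul_right_cancel₀ hm (by linarith)⟩

theorem Aff.add {m c : ℤ} {h h' : ℤ → ℤ} {r s r' s' : ℤ} (h1 : Aff m c h r s)
    (h2 : Aff m c h' r' s') : Aff m c (h + h') (r + r') (s + s') := by
  filter_upwards [h1, h2] with i e1 e2
  rw [Pi.add_apply, e1, e2]; ring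

theorem Aff.sub {m c : ℤ} {h h' : ℤ → ℤ} {r s r' s' : ℤ} (h1 : Aff m c h r s)
    (h2 : Aff m c h' r' s') : Aff m c (h - h') (r - r') (s - s') := by
  filter_upwards [h1, h2] with i e1 e2
  rw [Pi.sub_apply, e1, e2]; ring

theorem Aff.congr {m c : ℤ} {h h' : ℤ → ℤ} {r s : ℤ} (h1 : Aff m c h r s)
    (e : ∀ᶠ i in atTop, h i = h' i) : Aff m c h' r s := by
  filter_upwards [h1, e] with i e1 e2
  rw [← e2, e1]

theorem Lat.aff {m c : ℤ} {h : ℤ → ℤ} (hh : Lat (fun i => m * i + c) h) :
    ∃ r s, Aff m c h r s := by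
  obtain ⟨q, hq⟩ := hh
  refine ⟨∑ a ∈ q.coeff.support, q.coeff a, -∑ a ∈ q.coeff.support, q.coeff a * a,
    hq.mono fun i hi => ?_⟩
  rw [hi, act_apply, Finset.sum_mul, neg_mul, Finset.sum_mul, ← sub_eq_add_neg,
    ← Finset.sum_sub_distrib]
  exact Finset.sum_congr rfl fun a _ => by ring

end Aff

/-- Commuting elements define an algebra map from the polynomial ring. -/
theorem exists_algHom_of_commute {Z : Type*} [CommRing Z] {A : Type*} [Ring A] [Algebra Z A]
    {σ : Type*} (x : σ → A) (hx : ∀ i j, Commute (x i) (x j)) :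
    ∃ θ : MvPolynomial σ Z →ₐ[Z] A, ∀ i, θ (X i) = x i := by
  have := Algebra.isMulCommutative_adjoin Z (s := Set.range x)
    (by rintro _ ⟨i, rfl⟩ _ ⟨j, rfl⟩; exact hx i j)
  open scoped IsMulCommutative in
  exact ⟨(Algebra.adjoin Z (Set.range x)).val.comp
    (aeval fun i => ⟨x i, Algebra.subset_adjoin ⟨i, rfl⟩⟩), fun i => by simp⟩

/-- A weak form of the Nullstellensatz. -/
theorem mem_radical_of_points {Z : Type u} [Field Z] {σ : Type} (J : Ideal (MvPolynomial σ Z))
    (y : MvPolynomial σ Z)
    (h : ∀ (L : Type u) [Field L] [IsAlgClosed L] (f : Z →+* L) (p : σ → L),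
      (∀ x ∈ J, eval₂ f p x = 0) → eval₂ f p y = 0) : y ∈ J.radical := by
  rw [Ideal.radical_eq_sInf, Submodule.mem_sInf]
  rintro p ⟨h1, h2⟩
  let g : MvPolynomial σ Z →+* AlgebraicClosure (FractionRing (MvPolynomial σ Z ⧸ p)) :=
    ((algebraMap (FractionRing (MvPolynomial σ Z ⧸ p)) _).comp
      (algebraMap (MvPolynomial σ Z ⧸ p) _)).comp (Ideal.Quotient.mk p)
  have e1 : ∀ x, eval₂ (g.comp C) (fun v => g (X v)) x = g x := fun x =>
    DFunLike.congr_fun (ringHom_ext (f := eval₂Hom (g.comp C) fun v => g (X v)) (g := g)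
      (by simp) (by simp)) x
  have e2 : ∀ x, g x = 0 ↔ x ∈ p := fun x => by
    simp only [g, RingHom.comp_apply, FaithfulSMul.algebraMap_eq_zero_iff,
      Ideal.Quotient.eq_zero_iff_mem]
  rw [← e2, ← e1]
  exact h _ _ _ fun x hx => by rw [e1, e2]; exact h1 hx

theorem eq_sum_of_isHomogeneous_one {Z : Type*} [CommRing Z] {σ : Type*} [Fintype σ]
    {p : MvPolynomial σ Z} (hp : p.IsHomogeneous 1) :
    p = ∑ v, C (coeff (Finsupp.single v 1) p) * X v := by
  classical
  ext d
  simp only [coeff_sum, coeff_C_mul, coeff_X, mul_ite, mul_one, mul_zero]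
  by_cases hd : d.degree = 1
  · obtain ⟨v, rfl⟩ : d ∈ Set.range fun a : σ => Finsupp.single a 1 := by
      rw [Finsupp.range_single_one]; exact hd
    simp [Finsupp.single_left_inj]
  · rw [hp.coeff_eq_zero hd]
    exact (Finset.sum_eq_zero fun v _ => if_neg fun h => hd (by simp [← h])).symm

section Rep

variable {Z : Type u} [Field Z] {D : Type u} [DivisionRing D] [Algebra Z D]
variable {σ G : Type} [AddCommGroup G] {dg : σ → G}
variable {V : Type*} [AddCommGroup V] [Module D V] {θ : MvPolynomial σ Z →+* Module.End D V}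

omit [Algebra Z D] in
theorem rep_commute (θ : MvPolynomial σ Z →+* Module.End D V) (p q : MvPolynomial σ Z) :
    Commute (θ p) (θ q) := (Commute.all p q).map θ

omit [Algebra Z D] in
theorem Maps.of_monomial {U : G → Submodule D V} (hU : Stable (fun v => θ (X v)) dg U)
    (α : σ →₀ ℕ) : Maps (θ (monomial α 1)) (Finsupp.weight dg α) U U := by
  induction α using Finsupp.induction_linear with
  | zero => intro g v hv; simpa using hv
  | add a b ha hb =>
    rw [map_add, add_comm a, ← one_mul (1 : Z), ← monomial_mul, map_mul]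
    exact hb.mul ha
  | single x n =>
    induction n with
    | zero => intro g v hv; simpa using hv
    | succ n ih =>
      rw [Finsupp.single_add, map_add, add_comm (Finsupp.single x n), ← one_mul (1 : Z),
        ← monomial_mul, map_mul, Finsupp.weight_single dg x 1, one_smul]
      exact (hU x).mul ih

/-- Homogeneous polynomials preserve stable families. -/
theorem Maps.of_hom (hθ : IsRep θ) {U : G → Submodule D V}
    (hU : Stable (fun v => θ (X v)) dg U) {p : MvPolynomial σ Z} {γ : G}
    (hp : IsWeightedHomogeneous dg p γ) : Maps (θ p) γ U U := by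
  induction hp using IsWeightedHomogeneous.induction_on with
  | zero => intro g v _; simp
  | add p q _ _ h1 h2 =>
    intro g v hv
    rw [map_add]
    exact (U _).add_mem (h1 g v hv) (h2 g v hv)
  | monomial d r hr =>
    intro g v hv
    rw [← mul_one r, ← C_mul_monomial, map_mul, Module.End.mul_apply, hθ, ← hr]
    exact (U _).smul_mem _ (Maps.of_monomial hU d g v hv)

/-- Homogeneous elements of the ideal generated by homogeneous annihilators annihilate. -/
theorem Maps.of_mem_span (hθ : IsRep θ) {U U' : G → Submodule D V}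
    (hU' : Stable (fun v => θ (X v)) dg U') {S : Set (G × MvPolynomial σ Z)} (hS : Homog dg S)
    (hk : ∀ p ∈ S, Maps (θ p.2) p.1 U U') {q : MvPolynomial σ Z} {γ : G}
    (hq : IsWeightedHomogeneous dg q γ) (hqS : q ∈ Ideal.span (Prod.snd '' S)) :
    Maps (θ q) γ U U' := by
  have key : ∀ c, Maps (θ (weightedHomogeneousComponent dg γ (c * q))) γ U U' := by
    clear hq
    induction hqS using Submodule.span_induction with
    | mem s hs =>
      obtain ⟨p, hp, rfl⟩ := hs
      intro c
      induction c using MvPolynomial.induction_on' with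
      | monomial α z =>
        have h1 := isWeightedHomogeneous_monomial dg α z rfl
        have h2 := h1.mul (hS p hp)
        by_cases e : γ = Finsupp.weight dg α + p.1
        · rw [e, h2.weightedHomogeneousComponent_same, map_mul, add_comm]
          exact (Maps.of_hom hθ hU' h1).mul (hk p hp)
        · rw [h2.weightedHomogeneousComponent_ne γ e]
          intro g v _
          simp
      | add a b ha hb =>
        intro g v hv
        rw [add_mul, map_add, map_add]
        exact (U' _).add_mem (ha g v hv) (hb g v hv)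
    | zero => intro c g v _; simp
    | add a b _ _ ha hb =>
      intro c g v hv
      rw [mul_add, map_add, map_add]
      exact (U' _).add_mem (ha c g v hv) (hb c g v hv)
    | smul a b _ hb =>
      intro c
      rw [smul_eq_mul, ← mul_assoc]
      exact hb _
  simpa only [one_mul, hq.weightedHomogeneousComponent_same] using key 1

theorem isRep_thF : IsRep (thF Z D σ) := by
  intro z v
  change v * AddMonoidAlgebra.mapRingHom _ _ (AddMonoidAlgebra.single 0 z) = _
  rw [AddMonoidAlgebra.mapRingHom_single]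
  ext α
  rw [AddMonoidAlgebra.coeff_mul_single_zero, ← Algebra.commutes]
  rfl

theorem thF_self (p x : MvPolynomial σ Z) : thF Z Z σ p x = p * x := by
  change x * AddMonoidAlgebra.mapRingHom _ (RingHom.id Z) p = _
  rw [AddMonoidAlgebra.mapRingHom_id, mul_comm]
  rfl

theorem mem_Fr_self {x : MvPolynomial σ Z} {g : G} :
    x ∈ Fr Z dg g ↔ IsWeightedHomogeneous dg x g := Iff.rfl

end Rep

theorem isWH_one_iff {R : Type*} [CommSemiring R] {σ : Type*} {p : MvPolynomial σ R} {k : ℕ} :
    IsWeightedHomogeneous (fun _ => (1 : ℤ)) p (k : ℤ) ↔ p.IsHomogeneous k := by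
  have e : ∀ d : σ →₀ ℕ, Finsupp.weight (fun _ => (1 : ℤ)) d = (Finsupp.weight 1 d : ℕ) :=
    fun d => by simp [Finsupp.weight_apply, Finsupp.sum]
  simp only [IsHomogeneous, IsWeightedHomogeneous, e, Nat.cast_inj]

/-- Renaming along a map of variables that is compatible with the weights. -/
theorem isWH_rename {R : Type*} [CommSemiring R] {σ σ' G G' : Type*} [AddCommMonoid G]
    [AddCommMonoid G'] {dg : σ → G} {dg' : σ' → G'} (j : σ → σ') (φ : G →+ G')
    (hj : ∀ v, dg' (j v) = φ (dg v)) {p : MvPolynomial σ R} {γ : G}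
    (hp : IsWeightedHomogeneous dg p γ) : IsWeightedHomogeneous dg' (rename j p) (φ γ) := by
  induction hp using IsWeightedHomogeneous.induction_on with
  | zero => rw [map_zero]; exact isWeightedHomogeneous_zero _ _ _
  | add p q _ _ h1 h2 => rw [map_add]; exact h1.add h2
  | monomial d r hr =>
    rw [rename_monomial]
    refine isWeightedHomogeneous_monomial _ _ _ ?_
    rw [← hr, Finsupp.weight_apply, Finsupp.weight_apply,
      Finsupp.sum_mapDomain_index (by simp) (fun _ _ _ => add_smul _ _ _), map_finsuppSum]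
    simp [hj]

theorem isWH_map {R R' : Type*} [CommSemiring R] [CommSemiring R'] {σ G : Type*}
    [AddCommMonoid G] {dg : σ → G} (f : R →+* R') {p : MvPolynomial σ R} {γ : G}
    (hp : IsWeightedHomogeneous dg p γ) : IsWeightedHomogeneous dg (MvPolynomial.map f p) γ := by
  intro d hd
  rw [coeff_map] at hd
  exact hp fun h => hd (by rw [h, map_zero])

end Vale.Agent.EGH
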