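import Vale.Agent.EGH.Level

/-! Extensions of configurations and sums of powers of linear forms. -/

namespace Vale.Agent.EGH

open MvPolynomial

universe u

variable {K : Type u} [Field K] {n : ℕ}

namespace Ext

variable {C C' C'' : Cfg K n}

theorem tr_apply (x : Ext C C') (p : C.R) :
    x.tr p = rename x.ψ (MvPolynomial.map x.φ.toRingHom p) := rfl

theorem tr_J (x : Ext C C') {p : C.R} (hp : p ∈ C.J) : x.tr p ∈ C'.J := x.mapJ p hp

/-- The identity extension. -/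
def refl (C : Cfg K n) : Ext C C where
  φ := AlgHom.id K C.Z
  ψ := id
  ψ_inl _ := rfl
  mapJ p hp := by
    rw [show (AlgHom.id K C.Z).toRingHom = RingHom.id _ from rfl, map_id, rename_id]
    exact hp

theorem tr_refl (p : C.R) : (refl C).tr p = p := by
  rw [tr_apply, show (refl C).φ.toRingHom = RingHom.id _ from rfl, map_id]
  exact congrFun (congrArg DFunLike.coe rename_id) p

theorem tr_tr (x : Ext C C') (y : Ext C' C'') (p : C.R) :
    y.tr (x.tr p) = rename (y.ψ ∘ x.ψ) (MvPolynomial.map (y.φ.comp x.φ).toRingHom p) := by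
  rw [tr_apply, tr_apply, map_rename, rename_rename, map_map]
  rfl

/-- Composition of extensions. -/
def trans (x : Ext C C') (y : Ext C' C'') : Ext C C'' where
  φ := y.φ.comp x.φ
  ψ := y.ψ ∘ x.ψ
  ψ_inl j := by rw [Function.comp_apply, x.ψ_inl, y.ψ_inl]
  mapJ p hp := by rw [← tr_tr]; exact y.tr_J (x.tr_J hp)

theorem tr_trans (x : Ext C C') (y : Ext C' C'') (p : C.R) :
    (x.trans y).tr p = y.tr (x.tr p) := (tr_tr x y p).symm

theorem tr_hom (x : Ext C C') {p : C.R} {k : ℕ} (hp : p.IsHomogeneous k) :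
    (x.tr p).IsHomogeneous k := (hp.map _).rename_isHomogeneous

theorem tr_base (x : Ext C C') (f : MvPolynomial (Fin n) K) : x.tr (C.base f) = C'.base f := by
  have : x.tr.comp C.base = C'.base := by
    refine MvPolynomial.ringHom_ext (fun r => ?_) fun j => ?_
    · simp [Cfg.base, tr_apply]
    · simp [Cfg.base, tr_apply, x.ψ_inl]
  exact congrFun (congrArg DFunLike.coe this) f

theorem tr_smul (x : Ext C C') (c : C.Z) (p : C.R) : x.tr (c • p) = x.φ c • x.tr p := by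
  rw [smul_eq_C_mul, smul_eq_C_mul, map_mul]
  simp [tr_apply]

theorem eval₂_tr (x : Ext C C') {L : Type*} [CommRing L] (f : C'.Z →+* L) (p : C'.Wi → L)
    (q : C.R) : eval₂ f p (x.tr q) = eval₂ (f.comp x.φ.toRingHom) (p ∘ x.ψ) q := by
  rw [tr_apply, eval₂_rename, eval₂_map]

theorem nb (x : Ext C C') {S : Set C.R} (h : C.NB S) : C'.NB (x.tr '' S) := by
  intro L _ _ f p hJ hS j
  rw [← x.ψ_inl]
  exact h L (f.comp x.φ.toRingHom) (p ∘ x.ψ)
    (fun q hq => by rw [← eval₂_tr]; exact hJ _ (x.tr_J hq))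
    (fun q hq => by rw [← eval₂_tr]; exact hS _ ⟨q, hq, rfl⟩) j

end Ext

namespace Cfg

theorem NB.mono {C : Cfg K n} {S S' : Set C.R} (h : C.NB S) (hS : S ⊆ S') : C.NB S' :=
  fun L _ _ f p hJ hS' => h L f p hJ fun x hx => hS' x (hS hx)

theorem base_X (C : Cfg K n) (j : Fin n) : C.base (X j) = X (Sum.inl j) := by
  simp [base]

theorem base_smul (C : Cfg K n) (c : K) (f : MvPolynomial (Fin n) K) :
    C.base (c • f) = algebraMap K C.Z c • C.base f := by
  rw [smul_eq_C_mul, smul_eq_C_mul, map_mul]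
  simp [base]

/-- The span of the `d`-th powers of linear forms modulo the equations. -/
noncomputable def Pw (C : Cfg K n) (d : ℕ) : Submodule C.Z C.R :=
  Submodule.span C.Z {p | ∃ l : C.R, l.IsHomogeneous 1 ∧ p = l ^ d} ⊔ C.J.restrictScalars C.Z

theorem Pw_le_Bin (C : Cfg K n) (d : ℕ) : C.Pw d ≤ C.Bin d := by
  refine sup_le_sup_right (Submodule.span_mono ?_) _
  rintro _ ⟨l, hl, rfl⟩
  exact ⟨l, l, d, hl, hl, le_rfl, by simp⟩

theorem pow_mem_Pw (C : Cfg K n) (d : ℕ) {l : C.R} (hl : l.IsHomogeneous 1) : l ^ d ∈ C.Pw d :=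
  Submodule.mem_sup_left (Submodule.subset_span ⟨l, hl, rfl⟩)

theorem mem_Pw_of_J (C : Cfg K n) (d : ℕ) {p : C.R} (hp : p ∈ C.J) : p ∈ C.Pw d :=
  Submodule.mem_sup_right hp

theorem Pw_le {C : Cfg K n} {d : ℕ} {M : Submodule C.Z C.R}
    (h1 : ∀ l : C.R, l.IsHomogeneous 1 → l ^ d ∈ M) (h2 : ∀ p ∈ C.J, p ∈ M) : C.Pw d ≤ M := by
  refine sup_le (Submodule.span_le.2 ?_) h2
  rintro _ ⟨l, hl, rfl⟩
  exact h1 l hl

theorem tr_Pw {C C' : Cfg K n} (x : Ext C C') {d : ℕ} {p : C.R} (hp : p ∈ C.Pw d) :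
    x.tr p ∈ C'.Pw d := by
  let M : Submodule C.Z C.R :=
    { carrier := {p | x.tr p ∈ C'.Pw d}
      add_mem' := fun {a b} ha hb => by
        change x.tr (a + b) ∈ C'.Pw d
        rw [map_add]; exact add_mem ha hb
      zero_mem' := by
        change x.tr 0 ∈ C'.Pw d
        rw [map_zero]; exact zero_mem _
      smul_mem' := fun c a ha => by
        change x.tr (c • a) ∈ C'.Pw d
        rw [x.tr_smul]; exact Submodule.smul_mem _ _ ha }
  refine Pw_le (M := M) (fun l hl => ?_) (fun p hp => C'.mem_Pw_of_J d (x.tr_J hp)) hp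
  change x.tr (l ^ d) ∈ C'.Pw d
  rw [map_pow]
  exact C'.pow_mem_Pw d (x.tr_hom hl)

/-- The elements that become sums of powers in an extension of any extension. -/
def Good (C : Cfg K n) (d : ℕ) : Submodule C.Z C.R where
  carrier := {p | ∀ (C₁ : Cfg K n) (y : Ext C C₁), ∃ (C₂ : Cfg K n) (x : Ext C₁ C₂),
    x.tr (y.tr p) ∈ C₂.Pw d}
  add_mem' := fun {a b} ha hb C₁ y => by
    obtain ⟨C₂, x, hx⟩ := ha C₁ y
    obtain ⟨C₃, z, hz⟩ := hb C₂ (y.trans x)
    refine ⟨C₃, x.trans z, ?_⟩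
    rw [Ext.tr_trans, map_add, map_add, map_add]
    rw [Ext.tr_trans] at hz
    exact add_mem (tr_Pw z hx) hz
  zero_mem' := fun C₁ y => ⟨C₁, Ext.refl _, by simp⟩
  smul_mem' := fun c a ha C₁ y => by
    obtain ⟨C₂, x, hx⟩ := ha C₁ y
    refine ⟨C₂, x, ?_⟩
    rw [Ext.tr_smul, Ext.tr_smul]
    exact Submodule.smul_mem _ _ hx

theorem Pw_le_Good (C : Cfg K n) (d : ℕ) : C.Pw d ≤ C.Good d := fun _ hp C₁ y =>
  ⟨C₁, Ext.refl _, by rw [Ext.tr_refl]; exact tr_Pw y hp⟩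

theorem exists_X_mul_pow (C : Cfg K n) (d : ℕ) (j : Fin n) {l : C.R} (hl : l.IsHomogeneous 1) :
    ∃ (C' : Cfg K n) (x : Ext C C'), x.tr (C.base (X j) * l ^ d) ∈ C'.Pw (d + 1) := by
  have hX : ∀ (C : Cfg K n) i, (C.base (X i)).IsHomogeneous 1 := fun C i => by
    rw [base_X]; exact isHomogeneous_X _ _
  obtain ⟨C', x, v, k, c, hv, hk, h⟩ := level C (Nat.succ_pos d)
    (fun i => C.base (X i) ^ (d + 1)) (C.base (X j) * l ^ d)
    (fun i => C.Pw_le_Bin _ (C.pow_mem_Pw _ (hX C i)))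
    (Submodule.mem_sup_left (Submodule.subset_span ⟨_, l, 1, hX C j, hl, by omega, by simp⟩))
    (fun L _ _ f p _ hS i => by
      have := hS _ (Set.mem_insert_of_mem _ ⟨i, rfl⟩)
      simp only [base_X, eval₂_pow, eval₂_X] at this
      exact pow_eq_zero_iff (Nat.succ_ne_zero d) |>.1 this)
  refine ⟨C', x, (Submodule.smul_mem_iff _ hk).1 ?_⟩
  have h1 : ∑ i, c i • x.tr (C.base (X i) ^ (d + 1)) ∈ C'.Pw (d + 1) :=
    Submodule.sum_mem _ fun i _ => Submodule.smul_mem _ _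
      (tr_Pw x (C.pow_mem_Pw _ (hX C i)))
  have h2 := sub_mem (sub_mem (C'.pow_mem_Pw (d + 1) hv) h1) (C'.mem_Pw_of_J (d + 1) h)
  rw [sub_right_comm (v ^ d.succ) (k • _), sub_sub_cancel] at h2
  exact h2

theorem Good.X_mul {C : Cfg K n} {d : ℕ} (j : Fin n) {p : C.R} (hp : p ∈ C.Good d) :
    C.base (X j) * p ∈ C.Good (d + 1) := by
  intro C₁ y
  obtain ⟨C₂, x, hx⟩ := hp C₁ y
  have : C₂.Pw d ≤ (C₂.Good (d + 1)).comap (LinearMap.mulLeft C₂.Z (C₂.base (X j))) := by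
    refine Pw_le (fun l hl C₃ z => ?_) fun q hq =>
      C₂.Pw_le_Good _ (C₂.mem_Pw_of_J _ (C₂.J.mul_mem_left _ hq))
    obtain ⟨C₄, w, hw⟩ := C₃.exists_X_mul_pow d j (z.tr_hom hl)
    refine ⟨C₄, w, ?_⟩
    rwa [LinearMap.mulLeft_apply, map_mul, map_pow, Ext.tr_base]
  obtain ⟨C₃, z, hz⟩ := this hx C₂ (Ext.refl _)
  refine ⟨C₃, x.trans z, ?_⟩
  rw [Ext.tr_refl, LinearMap.mulLeft_apply] at hz
  rwa [Ext.tr_trans, map_mul y.tr, map_mul x.tr, Ext.tr_base, Ext.tr_base]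

theorem base_mem_Good (C : Cfg K n) {d : ℕ} {f : MvPolynomial (Fin n) K}
    (hf : f.IsHomogeneous d) : C.base f ∈ C.Good d := by
  have hm : ∀ (d : ℕ) (α : Fin n →₀ ℕ), α.degree = d → C.base (monomial α 1) ∈ C.Good d := by
    intro d
    induction d with
    | zero =>
      intro α hα
      rw [(Finsupp.degree_eq_zero_iff α).1 hα, monomial_zero', map_one, map_one, ← pow_zero 0]
      exact C.Pw_le_Good _ (C.pow_mem_Pw 0 (isHomogeneous_zero _ _ _))
    | succ d ih =>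
      intro α hα
      obtain ⟨j, hj⟩ : ∃ j, α j ≠ 0 := by
        by_contra h
        push Not at h
        rw [show α = 0 from Finsupp.ext h] at hα
        simp at hα
      have h1 : α = Finsupp.single j 1 + (α - Finsupp.single j 1) :=
        (add_tsub_cancel_of_le (Finsupp.single_le_iff.mpr (Nat.one_le_iff_ne_zero.mpr hj))).symm
      have h2 : (α - Finsupp.single j 1).degree = d := by
        rw [h1, map_add, Finsupp.degree_single] at hα
        omega
      rw [h1, ← one_mul (1 : K), ← monomial_mul, map_mul]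
      exact Good.X_mul j (ih _ h2)
  rw [f.as_sum, map_sum]
  refine Submodule.sum_mem _ fun α hα => ?_
  rw [← mul_one (coeff α f), ← smul_eq_mul, ← smul_monomial, base_smul]
  refine Submodule.smul_mem _ _ (hm d α ?_)
  by_contra h
  exact mem_support_iff.1 hα (hf.coeff_eq_zero h)

theorem exists_ext_Pw (C : Cfg K n) (d : ℕ) {s : Set C.R} (hs : s.Finite)
    (h : ∀ p ∈ s, p ∈ C.Good d) :
    ∃ (C' : Cfg K n) (x : Ext C C'), ∀ p ∈ s, x.tr p ∈ C'.Pw d := by
  induction s, hs using Set.Finite.induction_on with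
  | empty => exact ⟨C, Ext.refl _, by simp⟩
  | insert _ _ ih =>
    obtain ⟨C₁, y, hy⟩ := ih fun p hp => h p (Set.mem_insert_of_mem _ hp)
    obtain ⟨C₂, x, hx⟩ := h _ (Set.mem_insert _ _) C₁ y
    refine ⟨C₂, y.trans x, ?_⟩
    rintro p (rfl | hp) <;> rw [Ext.tr_trans]
    · exact hx
    · exact tr_Pw x (hy p hp)

theorem level' (C : Cfg K n) {b : ℕ} (hb : 0 < b) {A : Type} [Fintype A] (a : A → C.R)
    (μ : C.R) (ha : ∀ i, a i ∈ C.Good b) (hμ : μ ∈ C.Good b)
    (hNB : C.NB (insert μ (Set.range a))) :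
    ∃ (C' : Cfg K n) (x : Ext C C') (v : C'.R) (k : C'.Z) (c : A → C'.Z),
      v.IsHomogeneous 1 ∧ k ≠ 0 ∧ v ^ b - k • x.tr μ - ∑ i, c i • x.tr (a i) ∈ C'.J := by
  obtain ⟨C₁, y, hy⟩ := C.exists_ext_Pw b ((Set.finite_range a).insert μ) (by
    rintro _ (rfl | ⟨i, rfl⟩)
    exacts [hμ, ha i])
  obtain ⟨C₂, x, v, k, c, h⟩ := level C₁ hb (fun i => y.tr (a i)) (y.tr μ)
    (fun i => C₁.Pw_le_Bin _ (hy _ (Set.mem_insert_of_mem _ ⟨i, rfl⟩)))
    (C₁.Pw_le_Bin _ (hy _ (Set.mem_insert _ _)))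
    ((y.nb hNB).mono (by
      rintro _ ⟨_, rfl | ⟨i, rfl⟩, rfl⟩
      exacts [Set.mem_insert _ _, Set.mem_insert_of_mem _ ⟨i, rfl⟩]))
  exact ⟨C₂, y.trans x, v, k, c, by simpa only [Ext.tr_trans] using h⟩

end Cfg

variable (K n) in
/-- The configuration without nodes. -/
noncomputable def cfg0 : Cfg K n where
  Z := AlgebraicClosure K
  E := Empty
  N := fun _ => Node.free _
  ok := fun _ => Node.free_ok
  hyp := allHyp_free _ _
  rk := Empty.elim
  inp := fun e => e.elim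
  inp_hom := fun e => e.elim
  inp_rk := fun e => e.elim

end Vale.Agent.EGH
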