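import Vale.Agent.EGH.Defs

/-! Wired configurations of nodes. -/

namespace Vale.Agent.EGH

open MvPolynomial

universe u

/-- A system of nodes over a field extension together with the wiring of the inputs. -/
structure Cfg (K : Type u) [Field K] (n : ℕ) where
  /-- the field of constants -/
  Z : Type u
  [fld : Field Z]
  [alg : Algebra K Z]
  [inf : Infinite Z]
  /-- the nodes -/
  E : Type
  [finE : Fintype E]
  [decE : DecidableEq E]
  /-- the node data -/
  N : E → Node Z
  ok : ∀ e, (N e).OK
  hyp : AllHyp N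
  /-- the height of a node in the wiring -/
  rk : E → ℕ
  /-- the inputs are linear forms in the wires -/
  inp : E → Fin 2 → MvPolynomial (Fin n ⊕ Σ e, (N e).W) Z
  inp_hom : ∀ e i, (inp e i).IsHomogeneous 1
  inp_rk : ∀ e i e' w, Sum.inr ⟨e', w⟩ ∈ (inp e i).vars → rk e' < rk e

namespace Cfg

variable {K : Type u} [Field K] {n : ℕ} (C : Cfg K n)

instance : Field C.Z := C.fld
instance : Algebra K C.Z := C.alg
instance : Infinite C.Z := C.inf
instance : Fintype C.E := C.finE
instance : DecidableEq C.E := C.decE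

/-- The wires. -/
abbrev Wi : Type := Fin n ⊕ Σ e, (C.N e).W

/-- Polynomials in the wires. -/
abbrev R : Type u := MvPolynomial C.Wi C.Z

/-- Substitution of the wires for the variables of a node. -/
noncomputable def sub (e : C.E) : MvPolynomial (C.N e).Var C.Z →ₐ[C.Z] C.R :=
  aeval (Sum.elim (C.inp e) fun w => X (Sum.inr ⟨e, w⟩))

/-- The ideal of the equations. -/
noncomputable def J : Ideal C.R :=
  Ideal.span (Set.range fun x : Σ e, (C.N e).W => C.sub x.1 ((C.N x.1).eqn x.2))

/-- The polynomials in the original variables. -/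
noncomputable def base : MvPolynomial (Fin n) K →+* C.R :=
  (rename Sum.inl : MvPolynomial (Fin n) C.Z →ₐ[C.Z] C.R).toRingHom.comp
    (MvPolynomial.map (algebraMap K C.Z))

/-- The span of the binary forms of degree `b` modulo the equations. -/
noncomputable def Bin (b : ℕ) : Submodule C.Z C.R :=
  Submodule.span C.Z {p | ∃ (l m : C.R) (i : ℕ), l.IsHomogeneous 1 ∧ m.IsHomogeneous 1 ∧ i ≤ b ∧
    p = l ^ i * m ^ (b - i)} ⊔ C.J.restrictScalars C.Z

/-- The common zeros of `J` and `S` have vanishing original coordinates. -/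
def NB (S : Set C.R) : Prop :=
  ∀ (L : Type u) [Field L] [IsAlgClosed L] (f : C.Z →+* L) (p : C.Wi → L),
    (∀ x ∈ C.J, eval₂ f p x = 0) → (∀ x ∈ S, eval₂ f p x = 0) → ∀ j, p (Sum.inl j) = 0

/-- The old nodes together with new free nodes. -/
def srcN (Lf : Type) : C.E ⊕ Lf → Node C.Z := Sum.elim C.N fun _ => Node.free C.Z

/-- Substitution for the old nodes and for new free nodes with inputs `lf`. -/
noncomputable def srcSub {Lf : Type} (lf : Lf → Fin 2 → C.R) :
    ∀ s : C.E ⊕ Lf, MvPolynomial (C.srcN Lf s).Var C.Z →ₐ[C.Z] C.R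
  | Sum.inl e => C.sub e
  | Sum.inr l => aeval (Sum.elim (lf l) Empty.elim)

end Cfg

/-- An extension of configurations. -/
structure Ext {K : Type u} [Field K] {n : ℕ} (C C' : Cfg K n) where
  /-- the map of fields -/
  φ : C.Z →ₐ[K] C'.Z
  /-- the map of wires -/
  ψ : C.Wi → C'.Wi
  ψ_inl : ∀ j, ψ (Sum.inl j) = Sum.inl j
  mapJ : ∀ p ∈ C.J, rename ψ (MvPolynomial.map φ.toRingHom p) ∈ C'.J

/-- The induced map of polynomial rings. -/
noncomputable def Ext.tr {K : Type u} [Field K] {n : ℕ} {C C' : Cfg K n} (x : Ext C C') :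
    C.R →+* C'.R :=
  (rename x.ψ : MvPolynomial C.Wi C'.Z →ₐ[C'.Z] C'.R).toRingHom.comp
    (MvPolynomial.map x.φ.toRingHom)

end Vale.Agent.EGH
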