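import Mathlib

/-! The Clements-Lindstrom theorem. -/

namespace Vale.Agent.EGH

/-- The exponent vectors outside the ideal of pure powers. -/
def Box {n : ℕ} (a : Fin n → ℕ∞) (α : Fin n →₀ ℕ) : Prop := ∀ i, (α i : ℕ∞) < a i

namespace CLAux

open Finset Finsupp

variable {n : ℕ} {a : Fin n → ℕ∞} {F : Finset (Fin n)} {γ : Fin n → ℕ} {d : ℕ}

open Classical in
/-- Box vectors of degree `d` that agree with `γ` outside `F`. -/
noncomputable def B (a : Fin n → ℕ∞) (F : Finset (Fin n)) (γ : Fin n → ℕ) (d : ℕ) :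
    Finset (Fin n →₀ ℕ) :=
  (finite_of_degree_eq d).toFinset.filter fun α => Box a α ∧ ∀ j ∉ F, α j = γ j

theorem mem_B {α : Fin n →₀ ℕ} :
    α ∈ B a F γ d ↔ α.degree = d ∧ Box a α ∧ ∀ j ∉ F, α j = γ j := by simp [B]

open Classical in
/-- The upper shadow in the directions `F`. -/
noncomputable def sh (a : Fin n → ℕ∞) (F : Finset (Fin n)) (A : Finset (Fin n →₀ ℕ)) :
    Finset (Fin n →₀ ℕ) :=
  ((A ×ˢ F).image fun x => x.1 + single x.2 1).filter (Box a)

theorem mem_sh {A : Finset (Fin n →₀ ℕ)} {δ : Fin n →₀ ℕ} :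
    δ ∈ sh a F A ↔ Box a δ ∧ ∃ α ∈ A, ∃ i ∈ F, α + single i 1 = δ := by
  simp only [sh, mem_filter, mem_image, mem_product, Prod.exists]
  exact ⟨fun ⟨⟨α, i, ⟨h1, h2⟩, h3⟩, h⟩ => ⟨h, α, h1, i, h2, h3⟩,
    fun ⟨h, α, h1, i, h2, h3⟩ => ⟨⟨α, i, ⟨h1, h2⟩, h3⟩, h⟩⟩

/-- Upper sets for the lexicographic order. -/
def Up (S L : Finset (Fin n →₀ ℕ)) : Prop :=
  L ⊆ S ∧ ∀ α ∈ L, ∀ β ∈ S, toLex α < toLex β → β ∈ L

theorem Up.nested {S L L' : Finset (Fin n →₀ ℕ)} (h : Up S L) (h' : Up S L') :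
    L ⊆ L' ∨ L' ⊆ L := by
  by_contra hc
  simp only [not_or, not_subset] at hc
  obtain ⟨⟨x, hx, hx'⟩, y, hy, hy'⟩ := hc
  rcases lt_trichotomy (toLex x) (toLex y) with k | k | k
  · exact hy' (h.2 x hx y (h'.1 hy) k)
  · exact hy' (toLex.injective k ▸ hx)
  · exact hx' (h'.2 y hy x (h.1 hx) k)

theorem lt_iff {α β : Fin n →₀ ℕ} :
    toLex α < toLex β ↔ ∃ i, (∀ j < i, α j = β j) ∧ α i < β i := Iff.rfl

theorem add_lt_iff {α β δ : Fin n →₀ ℕ} :
    toLex (α + δ) < toLex (β + δ) ↔ toLex α < toLex β := by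
  rw [toLex_add, toLex_add, add_lt_add_iff_right]

theorem mv_lt {α : Fin n →₀ ℕ} {i j : Fin n} (h : i < j) :
    toLex (α + single j 1) < toLex (α + single i 1) := by
  rw [toLex_add, toLex_add, add_lt_add_iff_left, Finsupp.Lex.single_lt_iff]
  exact h

theorem exists_pred {α : Fin n →₀ ℕ} {j : Fin n} (h : α j ≠ 0) : ∃ β, α = β + single j 1 :=
  ⟨_, (sub_add_single_one_cancel h).symm⟩

theorem box_mono {α β : Fin n →₀ ℕ} (h : Box a β) (hle : ∀ j, α j ≤ β j) : Box a α :=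
  fun j => lt_of_le_of_lt (by exact_mod_cast hle j) (h j)

theorem box_pred {α : Fin n →₀ ℕ} {i : Fin n} (h : Box a (α + single i 1)) : Box a α :=
  box_mono h fun j => by simp

theorem box_add {α : Fin n →₀ ℕ} {i : Fin n} (h : Box a α) (hi : ((α i + 1 : ℕ) : ℕ∞) < a i) :
    Box a (α + single i 1) := fun j => by
  by_cases e : i = j
  · subst e
    simpa using hi
  · simpa [e] using h j

theorem deg_lt {α β : Fin n →₀ ℕ} (h : ∀ j, α j ≤ β j) {k : Fin n} (hk : α k < β k) :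
    α.degree < β.degree := by
  rw [degree_eq_sum, degree_eq_sum]
  exact sum_lt_sum (fun j _ => h j) ⟨k, mem_univ _, hk⟩

theorem add_mem_B {α : Fin n →₀ ℕ} {i : Fin n} (hi : i ∈ F) :
    α + single i 1 ∈ B a F γ (d + 1) ↔ α ∈ B a F γ d ∧ Box a (α + single i 1) := by
  have : ∀ j ∉ F, (α + single i 1 : Fin n →₀ ℕ) j = α j := fun j hj => by
    simp [ne_of_mem_of_not_mem hi hj]
  simp only [mem_B, map_add, degree_single, add_left_inj]
  exact ⟨fun ⟨h1, h2, h3⟩ => ⟨⟨h1, box_pred h2, fun j hj => this j hj ▸ h3 j hj⟩, h2⟩,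
    fun ⟨⟨h1, _, h3⟩, h2⟩ => ⟨h1, h2, fun j hj => (this j hj).trans (h3 j hj)⟩⟩

/-- Moving one unit from coordinate `j` to coordinate `i`. -/
theorem mv_mem_B {α : Fin n →₀ ℕ} {i j : Fin n} (hi : i ∈ F) (hj : j ∈ F)
    (h : α + single j 1 ∈ B a F γ d) (hb : ((α i + 1 : ℕ) : ℕ∞) < a i) :
    α + single i 1 ∈ B a F γ d := by
  obtain ⟨d, rfl⟩ : ∃ d', d = d' + 1 := ⟨α.degree, by simpa using (mem_B.1 h).1.symm⟩
  have := ((add_mem_B hj).1 h).1
  exact (add_mem_B hi).2 ⟨this, box_add (mem_B.1 this).2.1 hb⟩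

theorem first_mem {α β : Fin n →₀ ℕ} {d' : ℕ} (hα : α ∈ B a F γ d) (hβ : β ∈ B a F γ d')
    {k : Fin n} (h : α k ≠ β k) : k ∈ F := by
  by_contra hk
  exact h (((mem_B.1 hα).2.2 k hk).trans ((mem_B.1 hβ).2.2 k hk).symm)

theorem Up.sh {L : Finset (Fin n →₀ ℕ)} (h : Up (B a F γ d) L) :
    Up (B a F γ (d + 1)) (sh a F L) := by
  have h0 : CLAux.sh a F L ⊆ B a F γ (d + 1) := fun δ hδ => by
    obtain ⟨h1, α, hα, i, hi, rfl⟩ := mem_sh.1 hδ
    exact (add_mem_B hi).2 ⟨h.1 hα, h1⟩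
  refine ⟨h0, fun δ hδ β hβ hlt => ?_⟩
  have hδ' := h0 hδ
  obtain ⟨h1, α, hα, i, hi, rfl⟩ := mem_sh.1 hδ
  obtain ⟨k, hk1, hk2⟩ := lt_iff.1 hlt
  obtain ⟨j, hj, hmax⟩ := exists_max_image (F.filter fun j => β j ≠ 0) id
    ⟨k, mem_filter.2 ⟨first_mem hδ' hβ hk2.ne, by omega⟩⟩
  rw [mem_filter] at hj
  obtain ⟨β, rfl⟩ := exists_pred hj.2
  obtain ⟨hβ', hb⟩ := (add_mem_B hj.1).1 hβ
  refine mem_sh.2 ⟨hb, β, ?_, j, hj.1, rfl⟩
  rcases lt_trichotomy (toLex α) (toLex β) with k | k | k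
  · exact h.2 α hα β hβ' k
  · exact toLex.injective k ▸ hα
  exfalso
  rcases le_or_gt i j with hij | hij
  · refine hlt.not_gt ((add_lt_iff.2 k).trans_le ?_)
    exact hij.eq_or_lt.elim (fun e => e ▸ le_rfl) fun e => (mv_lt e).le
  obtain ⟨m, hm1, hm2⟩ := lt_iff.1 k
  rcases lt_or_ge m j with hmj | hmj
  · refine hlt.not_gt (lt_iff.2 ⟨m, fun l hl => ?_, ?_⟩)
    · simp [(hl.trans hmj).ne', (hl.trans (hmj.trans hij)).ne', hm1 l hl]
    · simpa [single_apply, hmj.ne', (hmj.trans hij).ne'] using hm2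
  · refine (deg_lt (fun l => ?_) hm2).ne ((mem_B.1 hβ').1.trans (mem_B.1 (h.1 hα)).1.symm)
    rcases lt_trichotomy l m with e | e | e
    · exact (hm1 l e).le
    · exact e ▸ hm2.le
    · by_contra hc
      have hl := first_mem hβ' (h.1 hα) (k := l) (by omega)
      have := hmax l (mem_filter.2 ⟨hl, by simp; omega⟩)
      exact absurd (hmj.trans_lt e) (not_lt.2 this)

/-- The statement proved by induction on the set of free coordinates. -/
def T (a : Fin n → ℕ∞) (F : Finset (Fin n)) : Prop :=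
  ∀ γ d, ∀ A ⊆ B a F γ d, ∃ L, Up (B a F γ d) L ∧ #L = #A ∧ #(sh a F L) ≤ #(sh a F A)

theorem T_small (h : #F ≤ 1) : T a F := fun γ d A hA => by
  refine ⟨A, ⟨hA, fun α hα β hβ hlt => ?_⟩, rfl, le_rfl⟩
  obtain ⟨k, -, hk⟩ := lt_iff.1 hlt
  refine absurd ((mem_B.1 (hA hα)).1.trans (mem_B.1 hβ).1.symm) (deg_lt (fun l => ?_) hk).ne
  by_contra hc
  have := card_le_one.1 h _ (first_mem (hA hα) hβ (k := l) (by omega)) _
    (first_mem (hA hα) hβ hk.ne)
  subst this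
  omega

theorem exists_up (S : Finset (Fin n →₀ ℕ)) : ∀ k ≤ #S, ∃ L, Up S L ∧ #L = k
  | 0, _ => ⟨∅, ⟨empty_subset _, by simp⟩, rfl⟩
  | k + 1, h => by
    classical
    obtain ⟨L, hL, rfl⟩ := exists_up S k (by omega)
    obtain ⟨β, hβ, hmax⟩ := exists_max_image (S \ L) toLex
      (sdiff_nonempty.2 fun hc => by have := card_le_card hc; omega)
    rw [mem_sdiff] at hβ
    refine ⟨insert β L, ⟨insert_subset hβ.1 hL.1, fun α hα δ hδ hlt => ?_⟩,
      card_insert_of_notMem hβ.2⟩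
    by_contra hc
    have hc' : δ ∉ L := fun h => hc (mem_insert_of_mem h)
    rcases mem_insert.1 hα with rfl | hα
    · exact hlt.not_ge (hmax δ (mem_sdiff.2 ⟨hδ, hc'⟩))
    · exact hc' (hL.2 α hα δ hδ hlt)

theorem two_sum {p q : Fin n} (hpq : p < q) {α β : Fin n →₀ ℕ} (hα : α ∈ B a {p, q} γ d)
    (hβ : β ∈ B a {p, q} γ d) : α p + α q = β p + β q := by
  have e := (mem_B.1 hα).1.trans (mem_B.1 hβ).1.symm
  have e' : ∑ j ∈ univ \ {p, q}, α j = ∑ j ∈ univ \ {p, q}, β j :=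
    sum_congr rfl fun j hj => ((mem_B.1 hα).2.2 j (mem_sdiff.1 hj).2).trans
      ((mem_B.1 hβ).2.2 j (mem_sdiff.1 hj).2).symm
  have h1 := sum_sdiff (f := α) (subset_univ {p, q})
  have h2 := sum_sdiff (f := β) (subset_univ {p, q})
  rw [sum_pair hpq.ne] at h1 h2
  rw [degree_eq_sum, degree_eq_sum] at e
  omega

theorem two_lt {p q : Fin n} (hpq : p < q) {α β : Fin n →₀ ℕ} (hα : α ∈ B a {p, q} γ d)
    (hβ : β ∈ B a {p, q} γ d) (h : toLex α < toLex β) : α p < β p ∧ β q < α q := by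
  obtain ⟨k, hk1, hk2⟩ := lt_iff.1 h
  have e := two_sum hpq hα hβ
  rcases mem_insert.1 (first_mem hα hβ hk2.ne) with rfl | hk
  · omega
  · rw [mem_singleton.1 hk] at hk1 hk2
    have := hk1 p hpq
    omega

theorem T_two {p q : Fin n} (hpq : p < q) (ha : a p ≤ a q) : T a {p, q} := fun γ d A hA => by
  classical
  obtain ⟨L, hL, hc⟩ := exists_up _ _ (card_le_card hA)
  refine ⟨L, hL, hc, ?_⟩
  have hp : p ∈ ({p, q} : Finset (Fin n)) := by simp
  have hq : q ∈ ({p, q} : Finset (Fin n)) := by simp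
  have hinj : Function.Injective fun α : Fin n →₀ ℕ => α + single q 1 := add_left_injective _
  have h1 : ∀ α ∈ L, α q ≠ 0 → Box a (α + single p 1) →
      α + single p 1 ∈ L.image (· + single q 1) := fun α hα h0 hb => by
    obtain ⟨α, rfl⟩ := exists_pred h0
    refine mem_image.2 ⟨α + single p 1, hL.2 _ hα _ (mv_mem_B hp hq (hL.1 hα) ?_) (mv_lt hpq),
      add_right_comm _ _ _⟩
    simpa [single_apply, hpq.ne'] using hb p
  by_cases h2 : ∃ α ∈ L, α q = 0 ∧ Box a (α + single p 1)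
  · obtain ⟨α, hα, h0, hb⟩ := h2
    have hall : ∀ β ∈ B a {p, q} γ d, β p ≤ α p ∧ β q ≤ α p := fun β hβ => by
      have := two_sum hpq (hL.1 hα) hβ
      omega
    have hbp : ((α p + 1 : ℕ) : ℕ∞) < a p := by simpa using hb p
    obtain ⟨μ, hμ, hmax⟩ := exists_max_image A toLex (card_pos.1 (hc ▸ card_pos.2 ⟨α, hα⟩))
    have k1 : sh a {p, q} L ⊆ insert (α + single p 1) (L.image (· + single q 1)) := fun δ hδ => by
      obtain ⟨hb', β, hβ, i, hi, rfl⟩ := mem_sh.1 hδ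
      rcases mem_insert.1 hi with rfl | hi
      · by_cases h0' : β q = 0
        · rcases lt_trichotomy (toLex α) (toLex β) with k | k | k
          · have := two_lt hpq (hL.1 hα) (hL.1 hβ) k; omega
          · rw [toLex.injective k]; exact mem_insert_self _ _
          · have := two_lt hpq (hL.1 hβ) (hL.1 hα) k; omega
        · exact mem_insert_of_mem (h1 β hβ h0' hb')
      · exact mem_insert_of_mem (mem_image.2 ⟨β, hβ, by rw [mem_singleton.1 hi]⟩)
    have k2 : insert (μ + single p 1) (A.image (· + single q 1)) ⊆ sh a {p, q} A := by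
      refine insert_subset (mem_sh.2 ⟨box_add (mem_B.1 (hA hμ)).2.1 (lt_of_le_of_lt ?_ hbp),
        μ, hμ, p, hp, rfl⟩) (image_subset_iff.2 fun β hβ => mem_sh.2 ⟨box_add (mem_B.1 (hA hβ)).2.1
          (lt_of_le_of_lt ?_ (hbp.trans_le ha)), β, hβ, q, hq, rfl⟩)
      · exact_mod_cast Nat.succ_le_succ (hall μ (hA hμ)).1
      · exact_mod_cast Nat.succ_le_succ (hall β (hA hβ)).2
    have k3 : μ + single p 1 ∉ A.image (· + single q 1) := fun h => by
      obtain ⟨β, hβ, e⟩ := mem_image.1 h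
      have := (mv_lt (α := μ) hpq).trans_eq (congrArg toLex e.symm)
      exact (add_lt_iff.1 this).not_ge (hmax β hβ)
    have := card_le_card k2
    rw [card_insert_of_notMem k3, card_image_of_injective _ hinj] at this
    have := (card_le_card k1).trans (card_insert_le _ _)
    rw [card_image_of_injective _ hinj] at this
    omega
  by_cases h3 : B a {p, q} γ d ⊆ A
  · rw [eq_of_subset_of_card_le (hL.1.trans h3) hc.ge]
  obtain ⟨β, hβ, hβA⟩ := not_subset.1 h3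
  have k1 : sh a {p, q} L ⊆ L.image (· + single q 1) := fun δ hδ => by
    obtain ⟨hb', x, hx, i, hi, rfl⟩ := mem_sh.1 hδ
    rcases mem_insert.1 hi with rfl | hi
    · exact h1 x hx (fun h0 => h2 ⟨x, hx, h0, hb'⟩) hb'
    · exact mem_image.2 ⟨x, hx, by rw [mem_singleton.1 hi]⟩
  have hgt : ∀ α ∈ A, ¬ toLex α < toLex β → toLex β < toLex α := fun α hα h =>
    (not_lt.1 h).lt_of_ne fun e => hβA (toLex.injective e ▸ hα)
  refine ((card_le_card k1).trans card_image_le).trans (hc.le.trans (card_le_card_of_injOn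
    (fun α => if toLex α < toLex β then α + single p 1 else α + single q 1) (fun α hα => ?_)
    fun α hα α' hα' e => ?_))
  · have hb := (mem_B.1 hβ).2.1
    dsimp only
    split_ifs with h
    · refine mem_coe.2 (mem_sh.2 ⟨box_add (mem_B.1 (hA hα)).2.1 (lt_of_le_of_lt ?_ (hb p)),
        α, hα, p, hp, rfl⟩)
      exact_mod_cast (two_lt hpq (hA hα) hβ h).1
    · refine mem_coe.2 (mem_sh.2 ⟨box_add (mem_B.1 (hA hα)).2.1 (lt_of_le_of_lt ?_ (hb q)),
        α, hα, q, hq, rfl⟩)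
      exact_mod_cast (two_lt hpq hβ (hA hα) (hgt α hα h)).2
  · have key : ∀ x ∈ A, ∀ y ∈ A, toLex x < toLex β → ¬ toLex y < toLex β →
        x + single p 1 ≠ y + single q 1 := fun x hx y hy h h' e => by
      have e1 := DFunLike.congr_fun e p
      have := two_lt hpq (hA hx) hβ h
      have := two_lt hpq hβ (hA hy) (hgt y hy h')
      simp [hpq.ne'] at e1
      omega
    dsimp only at e
    split_ifs at e with h h' h'
    · exact add_right_cancel e
    · exact absurd e (key α hα α' hα' h h')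
    · exact absurd e.symm (key α' hα' α hα h' h)
    · exact add_right_cancel e

/-- Compressed sets. -/
def Comp (S A : Finset (Fin n →₀ ℕ)) (i : Fin n) : Prop :=
  ∀ α ∈ A, ∀ β ∈ S, β i = α i → toLex α < toLex β → β ∈ A

theorem mem_B_erase {i : Fin n} (hi : i ∈ F) {k : ℕ} {α : Fin n →₀ ℕ} :
    α ∈ B a (F.erase i) (Function.update γ i k) d ↔ α ∈ B a F γ d ∧ α i = k := by
  simp only [mem_B]
  refine ⟨fun ⟨h1, h2, h3⟩ => ⟨⟨h1, h2, fun j hj => ?_⟩, by simpa using h3 i (by simp)⟩,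
    fun ⟨⟨h1, h2, h3⟩, h4⟩ => ⟨h1, h2, fun j hj => ?_⟩⟩
  · rw [h3 j fun h => hj (mem_of_mem_erase h), Function.update_of_ne (ne_of_mem_of_not_mem hi hj).symm]
  · by_cases e : j = i
    · rw [e, h4, Function.update_self]
    · rw [Function.update_of_ne e, h3 j fun h => hj (mem_erase.2 ⟨e, h⟩)]

theorem card_le_of_layers {X Y : Finset (Fin n →₀ ℕ)} (i : Fin n)
    (h : ∀ k, #{x ∈ X | x i = k} ≤ #{y ∈ Y | y i = k}) : #X ≤ #Y := by
  classical
  rw [card_eq_sum_card_fiberwise (f := fun x => x i) (t := (X ∪ Y).image fun x => x i)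
      fun x hx => mem_image_of_mem _ (mem_union_left _ hx),
    card_eq_sum_card_fiberwise (s := Y) (f := fun x => x i) (t := (X ∪ Y).image fun x => x i)
      fun x hx => mem_image_of_mem _ (mem_union_right _ hx)]
  exact sum_le_sum fun k _ => h k

/-- Compression in the direction `i`. -/
theorem compress {i : Fin n} (hi : i ∈ F) (hT : T a (F.erase i)) {A : Finset (Fin n →₀ ℕ)}
    (hA : A ⊆ B a F γ d) : ∃ A' ⊆ B a F γ d, Comp (B a F γ d) A' i ∧ #A' = #A ∧
      #(sh a F A') ≤ #(sh a F A) ∧ ∀ α ∈ A, α ∉ A' → ∃ β ∈ A', β ∉ A ∧ toLex α ≤ toLex β := by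
  classical
  choose L hL hc hs using fun k => hT (Function.update γ i k) d {x ∈ A | x i = k} fun x hx =>
    (mem_B_erase hi).2 ⟨hA (mem_filter.1 hx).1, (mem_filter.1 hx).2⟩
  let A' := {x ∈ B a F γ d | x ∈ L (x i)}
  have hl : ∀ k, {x ∈ A' | x i = k} = L k := fun k => by
    ext x
    simp only [A', mem_filter]
    refine ⟨fun ⟨⟨_, h⟩, e⟩ => e ▸ h, fun h => ?_⟩
    obtain ⟨h1, rfl⟩ := (mem_B_erase hi).1 ((hL k).1 h)
    exact ⟨⟨h1, h⟩, rfl⟩
  have hC : Comp (B a F γ d) A' i := fun α hα β hβ e h => mem_filter.2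
    ⟨hβ, (hL _).2 α (e ▸ (mem_filter.1 hα).2) β ((mem_B_erase hi).2 ⟨hβ, rfl⟩) h⟩
  refine ⟨A', filter_subset _ _, hC, le_antisymm (card_le_of_layers i fun k => by rw [hl, hc])
    (card_le_of_layers i fun k => by rw [hl, hc]), card_le_of_layers i fun k => ?_,
    fun α hα hα' => ?_⟩
  · rcases eq_empty_or_nonempty {x ∈ sh a F A' | x i = k} with h | ⟨δ, hδ⟩
    · rw [h]; exact Nat.zero_le _
    have hk : (k : ℕ∞) < a i := (mem_filter.1 hδ).2 ▸ (mem_sh.1 (mem_filter.1 hδ).1).1 i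
    let U : Finset (Fin n →₀ ℕ) → Finset (Fin n →₀ ℕ) := fun X =>
      {x ∈ X | x i + 1 = k}.image (· + single i 1)
    have hU : ∀ X ⊆ B a F γ d, U X ⊆ {x ∈ sh a F X | x i = k} := fun X hX =>
      image_subset_iff.2 fun x hx => mem_filter.2 ⟨mem_sh.2 ⟨box_add (mem_B.1 (hX
        (mem_filter.1 hx).1)).2.1 ((mem_filter.1 hx).2 ▸ hk), x, (mem_filter.1 hx).1, i, hi, rfl⟩,
          by simpa using (mem_filter.1 hx).2⟩
    have h1 : #(sh a (F.erase i) (L k)) ≤ #{x ∈ sh a F A | x i = k} :=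
      (hs k).trans (card_le_card fun x hx => by
        obtain ⟨hb, y, hy, j, hj, rfl⟩ := mem_sh.1 hx
        exact mem_filter.2 ⟨mem_sh.2 ⟨hb, y, (mem_filter.1 hy).1, j, mem_of_mem_erase hj, rfl⟩,
          by simpa [ne_of_mem_erase hj] using (mem_filter.1 hy).2⟩)
    have h2 : #(U A') ≤ #{x ∈ sh a F A | x i = k} := by
      refine le_trans ?_ (card_le_card (hU A hA))
      rw [card_image_of_injective _ (add_left_injective _),
        card_image_of_injective _ (add_left_injective _)]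
      rcases k with _ | k
      · simp
      · simp only [add_left_inj, hl, hc, le_rfl]
    have h3 : Up (B a (F.erase i) (Function.update γ i k) (d + 1)) (U A') := by
      refine ⟨fun x hx => ?_, fun x hx β hβ hlt => ?_⟩
      · have := mem_filter.1 (hU A' (filter_subset _ _) hx)
        obtain ⟨y, hy, rfl⟩ := mem_image.1 hx
        exact (mem_B_erase hi).2 ⟨(add_mem_B hi).2
          ⟨(mem_filter.1 (mem_filter.1 hy).1).1, (mem_sh.1 this.1).1⟩, this.2⟩
      · obtain ⟨y, hy, rfl⟩ := mem_image.1 hx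
        rw [mem_filter] at hy
        obtain ⟨hβ, e⟩ := (mem_B_erase hi).1 hβ
        obtain ⟨β, rfl⟩ := exists_pred (α := β) (j := i) (by omega)
        have e' : β i + 1 = k := by simpa using e
        exact mem_image_of_mem _ (mem_filter.2 ⟨hC y hy.1 β ((add_mem_B hi).1 hβ).1 (by omega)
          (add_lt_iff.1 hlt), e'⟩)
    have h4 : {x ∈ sh a F A' | x i = k} ⊆ sh a (F.erase i) (L k) ∪ U A' := fun x hx => by
      obtain ⟨hx, e⟩ := mem_filter.1 hx
      obtain ⟨hb, y, hy, j, hj, rfl⟩ := mem_sh.1 hx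
      by_cases hji : j = i
      · subst hji
        exact mem_union_right _ (mem_image_of_mem _ (mem_filter.2 ⟨hy, by simpa using e⟩))
      · exact mem_union_left _ (mem_sh.2 ⟨hb, y, hl k ▸ mem_filter.2 ⟨hy, by simpa [hji] using e⟩,
          j, mem_erase.2 ⟨hji, hj⟩, rfl⟩)
    rcases (hL k).sh.nested h3 with h | h
    · rw [union_eq_right.2 h] at h4
      exact (card_le_card h4).trans h2
    · rw [union_eq_left.2 h] at h4
      exact (card_le_card h4).trans h1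
  · have h1 : α ∉ L (α i) := fun h => hα' (mem_filter.2 ⟨hA hα, h⟩)
    obtain ⟨β, hβ, hβ'⟩ : ∃ β ∈ L (α i), β ∉ {x ∈ A | x i = α i} := not_subset.1 fun h =>
      h1 (eq_of_subset_of_card_le h (hc _).ge ▸ mem_filter.2 ⟨hα, rfl⟩)
    have h2 := mem_filter.1 (hl _ ▸ hβ : β ∈ {x ∈ A' | x i = α i})
    refine ⟨β, h2.1, fun h => hβ' (mem_filter.2 ⟨h, h2.2⟩), not_lt.1 fun h => h1 ?_⟩
    exact (hL _).2 β hβ α ((mem_B_erase hi).2 ⟨hA hα, rfl⟩) h

section Three

variable {p m r : Fin n} (hp : p ∈ F) (hm : m ∈ F) (hr : r ∈ F) (hpm : p < m) (hmr : m < r)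
  (hmin : ∀ j ∈ F, p ≤ j) (hmax : ∀ j ∈ F, j ≤ r) {A : Finset (Fin n →₀ ℕ)}
  (hA : A ⊆ B a F γ d) (hC : ∀ i ∈ F, Comp (B a F γ d) A i)

include hp hmin hA hC in
theorem pair_ne {α β : Fin n →₀ ℕ} (hα : α ∈ A) (hβ : β ∈ B a F γ d) (hβ' : β ∉ A)
    (h : toLex α < toLex β) : (∀ j ∈ F, β j ≠ α j) ∧ α p < β p := by
  have h1 : ∀ j ∈ F, β j ≠ α j := fun j hj e => hβ' (hC j hj α hα β hβ e h)
  obtain ⟨k, hk1, hk2⟩ := lt_iff.1 h
  rcases (hmin k (first_mem (hA hα) hβ hk2.ne)).eq_or_lt with rfl | e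
  · exact ⟨h1, hk2⟩
  · exact absurd (hk1 p e).symm (h1 p hp)

include hmin in
theorem lt_of_first {α β : Fin n →₀ ℕ} (hα : α ∈ B a F γ d) (hβ : β ∈ B a F γ d)
    (h : α p < β p) : toLex α < toLex β :=
  lt_iff.2 ⟨p, fun j hj => by_contra fun e => hj.not_ge (hmin j (first_mem hα hβ e)), h⟩

include hm hpm hmr hr in
theorem deg_false {α β : Fin n →₀ ℕ} (hα : α ∈ B a F γ d) (hβ : β ∈ B a F γ d)
    (h1 : β p ≤ α p + 1) (h2 : ∀ j ∈ F, j ≠ p → β j < α j) : False := by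
  have := deg_lt (α := β + single m 1) (β := α + single p 1) (fun j => ?_) (k := r) ?_
  · simp [(mem_B.1 hα).1, (mem_B.1 hβ).1] at this
  · by_cases e : j = p
    · subst e; simpa [hpm.ne'] using h1
    by_cases e' : j = m
    · subst e'; simpa [hpm.ne] using h2 j hm e
    by_cases hj : j ∈ F
    · simpa [e, e'] using (h2 j hj e).le
    · simp [e, e', (mem_B.1 hα).2.2 j hj, (mem_B.1 hβ).2.2 j hj]
  · simpa [hmr.ne, (hpm.trans hmr).ne] using h2 r hr (hpm.trans hmr).ne'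

include hp hm hr hpm hmr hmin hmax hA hC in
theorem last_pos {α β : Fin n →₀ ℕ} (hα : α ∈ A) (hβ : β ∈ B a F γ d) (hβ' : β ∉ A)
    (h : toLex α < toLex β) : β r ≠ 0 := fun h0 => by
  classical
  obtain ⟨α, hα, hM⟩ := exists_max_image {x ∈ A | toLex x < toLex β} toLex
    ⟨α, mem_filter.2 ⟨hα, h⟩⟩
  obtain ⟨hα, h⟩ := mem_filter.1 hα
  obtain ⟨h1, h2⟩ := pair_ne hp hmin hA hC hα hβ hβ' h
  obtain ⟨α, rfl⟩ := exists_pred (h0 ▸ (h1 r hr).symm)
  have hb := (mem_B.1 hβ).2.1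
  have hpr := hpm.trans hmr
  have key : ∀ i ∈ F, i < r → ((α i + 1 : ℕ) : ℕ∞) < a i → ∀ j ∈ F, j ≠ i → j ≠ r →
      β p ≤ (α + single i 1 : Fin n →₀ ℕ) p := fun i hi hir hb j hj h3 h4 => by
    have k1 := mv_mem_B hi hr (hA hα) hb
    have k2 := hC j hj _ hα _ k1 (by simp [h3, h4]) (mv_lt hir)
    by_contra hc
    exact (mv_lt hir).not_ge
      (hM _ (mem_filter.2 ⟨k2, lt_of_first hmin k1 hβ (not_le.1 hc)⟩))
  have h2' : α p + 1 ≤ β p := by simpa [hpr.ne] using h2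
  refine deg_false hm hr hpm hmr (hA hα) hβ ?_ fun j hj hjp => ?_
  · simpa [hpr.ne] using key p hp hpr (lt_of_le_of_lt (by exact_mod_cast h2') (hb p))
      m hm hpm.ne' hmr.ne
  rcases (hmax j hj).eq_or_lt with rfl | hjr
  · simp [h0]
  by_contra hc
  have h3 := h1 j hj
  simp only [Finsupp.add_apply, single_eq_of_ne hjr.ne, add_zero] at hc h3
  have := key j hj hjr (lt_of_le_of_lt (by exact_mod_cast (by omega)) (hb j)) p hp hjp.symm hpr.ne
  simp only [Finsupp.add_apply, single_eq_of_ne hjp.symm, add_zero] at this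
  omega

include hp hm hr hpm hmr hmin hmax hA hC in
theorem last_box {α β : Fin n →₀ ℕ} (hα : α ∈ A) (hβ : β ∈ B a F γ d) (hβ' : β ∉ A)
    (h : toLex α < toLex β) : ((α r + 1 : ℕ) : ℕ∞) < a r := by
  classical
  by_contra h0
  obtain ⟨β, hβ, hM⟩ := exists_min_image {x ∈ B a F γ d | x ∉ A ∧ toLex α < toLex x} toLex
    ⟨β, mem_filter.2 ⟨hβ, hβ', h⟩⟩
  obtain ⟨hβ, hβ', h⟩ := mem_filter.1 hβ
  obtain ⟨h1, h2⟩ := pair_ne hp hmin hA hC hα hβ hβ' h
  have hpr := hpm.trans hmr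
  have hlast : β r < α r := by
    have := h1 r hr
    by_contra hc
    exact h0 (lt_of_le_of_lt (by exact_mod_cast (by omega)) ((mem_B.1 hβ).2.1 r))
  have key : ∀ i ∈ F, i < r → ∀ x, β = x + single i 1 → ∀ j ∈ F, j ≠ i → j ≠ r →
      x p ≤ α p := fun i hi hir x e j hj h3 h4 => by
    subst e
    have k1 := mv_mem_B hr hi hβ (lt_of_le_of_lt (by
      have : x r + 1 ≤ α r := by simpa [hir.ne'] using hlast
      exact_mod_cast this) ((mem_B.1 (hA hα)).2.1 r))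
    have k2 : x + single r 1 ∉ A := fun k =>
      hβ' (hC j hj _ k _ hβ (by simp [h3, h4]) (mv_lt hir))
    by_contra hc
    exact (mv_lt hir).not_ge (hM _ (mem_filter.2 ⟨k1, k2, lt_of_first hmin (hA hα) k1
      (by simpa [hpr.ne] using hc)⟩))
  refine deg_false hm hr hpm hmr (hA hα) hβ ?_ fun j hj hjp => ?_
  · obtain ⟨x, rfl⟩ := exists_pred (α := β) (j := p) (by omega)
    simpa using key p hp hpr x rfl m hm hpm.ne' hmr.ne
  rcases (hmax j hj).eq_or_lt with rfl | hjr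
  · exact hlast
  by_contra hc
  have h3 := h1 j hj
  obtain ⟨x, rfl⟩ := exists_pred (α := β) (j := j) (by omega)
  have := key j hj hjr x rfl p hp hjp.symm hpr.ne
  simp only [Finsupp.add_apply, single_eq_of_ne hjp.symm, add_zero] at h2
  omega

include hp hm hr hpm hmr hmin hmax hA hC in
theorem exchange (hU : ¬ Up (B a F γ d) A) : ∃ A' ⊆ B a F γ d, A' ≠ A ∧ #A' = #A ∧
    #(sh a F A') ≤ #(sh a F A) ∧ ∀ α ∈ A, α ∉ A' → ∃ β ∈ A', β ∉ A ∧ toLex α ≤ toLex β := by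
  classical
  simp only [Up, hA, true_and, not_forall] at hU
  obtain ⟨α₀, hα₀, β₀, hβ₀, h₀, hβ₀'⟩ := hU
  obtain ⟨α, hα, hmn⟩ := exists_min_image A toLex ⟨α₀, hα₀⟩
  obtain ⟨β, hβ, hmx⟩ := exists_max_image (B a F γ d \ A) toLex ⟨β₀, mem_sdiff.2 ⟨hβ₀, hβ₀'⟩⟩
  obtain ⟨hβ, hβ'⟩ := mem_sdiff.1 hβ
  have h := (hmn _ hα₀).trans_lt (h₀.trans_le (hmx _ (mem_sdiff.2 ⟨hβ₀, hβ₀'⟩)))
  have hb := box_add (mem_B.1 (hA hα)).2.1 (last_box hp hm hr hpm hmr hmin hmax hA hC hα hβ hβ' h)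
  obtain ⟨x, rfl⟩ := exists_pred (last_pos hp hm hr hpm hmr hmin hmax hA hC hα hβ hβ' h)
  refine ⟨insert (x + single r 1) (A.erase α), insert_subset hβ ((erase_subset _ _).trans hA),
    fun e => hβ' (e ▸ mem_insert_self _ _), ?_, ?_, fun y hy hy' => ⟨_, mem_insert_self _ _, hβ', ?_⟩⟩
  · rw [card_insert_of_notMem fun k => hβ' (mem_of_mem_erase k), card_erase_add_one hα]
  · rw [← card_erase_add_one (mem_sh.2 ⟨hb, α, hα, r, hr, rfl⟩)]
    refine le_trans (card_le_card fun δ hδ => ?_) (card_insert_le (x + single r 1 + single r 1) _)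
    have key : ∀ y ∈ A, y ≠ α → ∀ i ∈ F, Box a (y + single i 1) →
        y + single i 1 ∈ (sh a F A).erase (α + single r 1) := fun y hy hne i hi hb => by
      refine mem_erase.2 ⟨fun e => ?_, mem_sh.2 ⟨hb, y, hy, i, hi, rfl⟩⟩
      have k1 := add_lt_iff (δ := single r 1).2
        ((hmn y hy).lt_of_ne fun e => hne (toLex.injective e).symm)
      rw [← e] at k1
      exact k1.not_ge ((hmax i hi).eq_or_lt.elim (fun e => e ▸ le_rfl) fun e => (mv_lt e).le)
    obtain ⟨hb', y, hy, i, hi, rfl⟩ := mem_sh.1 hδ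
    rcases mem_insert.1 hy with rfl | hy
    · rcases (hmax i hi).eq_or_lt with rfl | hir
      · exact mem_insert_self _ _
      rw [add_right_comm x (single r 1) (single i 1)] at hb' ⊢
      have k1 := mv_mem_B hi hr hβ (by simpa [hir.ne] using hb' i)
      refine mem_insert_of_mem (key _ ?_ (fun e => ?_) r hr hb')
      · by_contra hc
        exact (mv_lt hir).not_ge (hmx _ (mem_sdiff.2 ⟨k1, hc⟩))
      · exact (h.trans (mv_lt hir)).ne (congrArg toLex e.symm)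
    · exact mem_insert_of_mem (key y (mem_of_mem_erase hy) (ne_of_mem_erase hy) i hi hb')
  · obtain rfl : y = α := by_contra fun e => hy' (mem_insert_of_mem (mem_erase.2 ⟨e, hy⟩))
    exact h.le

end Three

theorem T_three (h3 : 2 < #F) (hT : ∀ i ∈ F, T a (F.erase i)) : T a F := fun γ d A₀ hA₀ => by
  classical
  obtain ⟨A, hA, hM⟩ := exists_max_image
    {X ∈ (B a F γ d).powerset | #X = #A₀ ∧ #(sh a F X) ≤ #(sh a F A₀)}
    (fun X => toColex (X.map toLex.toEmbedding)) ⟨A₀, by simpa using hA₀⟩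
  simp only [mem_filter, mem_powerset] at hA hM
  have key : ∀ A' ⊆ B a F γ d, #A' = #A → #(sh a F A') ≤ #(sh a F A) →
      (∀ α ∈ A, α ∉ A' → ∃ β ∈ A', β ∉ A ∧ toLex α ≤ toLex β) → A' = A := fun A' h1 h2 h3 h4 => by
    refine map_injective toLex.toEmbedding (toColex.injective (le_antisymm
      (hM A' ⟨h1, h2.trans hA.2.1, h3.trans hA.2.2⟩) fun α k1 k2 => ?_))
    obtain ⟨β, k3, k4, k5⟩ := h4 (ofLex α) (by simpa using k1) (by simpa using k2)
    exact ⟨toLex β, by simpa using k3, by simpa using k4, k5⟩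
  have hC : ∀ i ∈ F, Comp (B a F γ d) A i := fun i hi => by
    obtain ⟨A', h1, h2, h3, h4, h5⟩ := compress hi (hT i hi) hA.1
    exact key A' h1 h3 h4 h5 ▸ h2
  have hne : F.Nonempty := card_pos.1 (by omega)
  obtain ⟨m, hm⟩ : ((F.erase (F.min' hne)).erase (F.max' hne)).Nonempty := card_pos.1 (by
    have := pred_card_le_card_erase (s := F) (a := F.min' hne)
    have := pred_card_le_card_erase (s := F.erase (F.min' hne)) (a := F.max' hne)
    omega)
  simp only [mem_erase] at hm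
  refine ⟨A, by_contra fun hU => ?_, hA.2⟩
  obtain ⟨A', h1, h2, h3, h4, h5⟩ := exchange (min'_mem F hne) hm.2.2 (max'_mem F hne)
    ((min'_le F m hm.2.2).lt_of_ne hm.2.1.symm) ((le_max' F m hm.2.2).lt_of_ne hm.1)
    (min'_le F) (le_max' F) hA.1 hC hU
  exact h2 (key A' h1 h3 h4 h5)

theorem T_all (ha : Monotone a) (F : Finset (Fin n)) : T a F := by
  induction F using Finset.strongInduction with
  | H F ih =>
    rcases lt_trichotomy (#F) 2 with h | h | h
    · exact T_small (by omega)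
    · obtain ⟨p, q, hpq, rfl⟩ := card_eq_two.1 h
      rcases lt_or_gt_of_ne hpq with e | e
      · exact T_two e (ha e.le)
      · rw [pair_comm]
        exact T_two e (ha e.le)
    · exact T_three h fun i hi => ih _ (erase_ssubset hi)

end CLAux

open CLAux Finset in
theorem clements_lindstrom {n : ℕ} (a : Fin n → ℕ∞) (ha : Monotone a) (s : Set (Fin n →₀ ℕ))
    (hs : ∀ α ∈ s, ∀ i, α + Finsupp.single i 1 ∈ s) (α : Fin n →₀ ℕ) (i : Fin n)
    (hi : Box a (α + Finsupp.single i 1))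
    (h : {β | β.degree = α.degree ∧ Box a β ∧ toLex α < toLex β}.ncard <
      {β | β.degree = α.degree ∧ Box a β ∧ β ∈ s}.ncard) :
    {β | β.degree = α.degree + 1 ∧ Box a β ∧ toLex (α + Finsupp.single i 1) < toLex β}.ncard <
      {β | β.degree = α.degree + 1 ∧ Box a β ∧ β ∈ s}.ncard := by
  classical
  have e : ∀ d (P : (Fin n →₀ ℕ) → Prop) [DecidablePred P], {β | β.degree = d ∧ Box a β ∧ P β}.ncard =
      #{β ∈ B a univ 0 d | P β} := fun d P _ => by
    rw [← Set.ncard_coe_finset]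
    congr 1
    ext β
    simp [mem_B, and_assoc]
  rw [e, e] at h ⊢
  obtain ⟨L, hL, hc, hs'⟩ := T_all ha univ 0 α.degree _ (filter_subset (· ∈ s) _)
  have hα : α ∈ B a univ 0 α.degree := mem_B.2 ⟨rfl, box_pred hi, by simp⟩
  have hαL : α ∈ L := by
    by_contra hc'
    refine (h.trans_eq hc.symm).not_ge (card_le_card fun β hβ => mem_filter.2 ⟨hL.1 hβ, ?_⟩)
    refine lt_of_le_of_ne (not_lt.1 fun k => hc' (hL.2 β hβ α hα k)) fun k => hc' ?_
    exact toLex.injective k ▸ hβ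
  have h1 : α + Finsupp.single i 1 ∈ sh a univ L := mem_sh.2 ⟨hi, α, hαL, i, mem_univ _, rfl⟩
  refine (card_lt_card ⟨fun β hβ => hL.sh.2 _ h1 β (mem_filter.1 hβ).1 (mem_filter.1 hβ).2,
    fun k => lt_irrefl _ (mem_filter.1 (k h1)).2⟩).trans_le (hs'.trans (card_le_card fun δ hδ => ?_))
  obtain ⟨hb, β, hβ, j, hj, rfl⟩ := mem_sh.1 hδ
  exact mem_filter.2 ⟨(add_mem_B hj).2 ⟨(mem_filter.1 hβ).1, hb⟩, hs β (mem_filter.1 hβ).2 j⟩

end Vale.Agent.EGH
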