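import Vale.Agent.EGH.ACC

/-! Devissage rules for the predicate `MG`. -/

namespace Vale.Agent.EGH

open Module MvPolynomial Filter

universe u

variable {Z : Type u} [Field Z] {D : Type u} [DivisionRing D] [Algebra Z D]
variable {σ G : Type} [AddCommGroup G] {dg : σ → G}
variable {S S' : Set (G × MvPolynomial σ Z)} {L L' : (G → ℤ) → Prop}

theorem MG.mono (h : MG Z D dg S L) (hS : S ⊆ S') : MG Z D dg S' L :=
  fun V _ _ θ hθ U' U hP hk => h V θ hθ U' U hP fun p hp => hk p (hS hp)

theorem MG.imp (h : MG Z D dg S L) (hL : ∀ f, L f → L' f) : MG Z D dg S L' :=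
  fun V _ _ θ hθ U' U hP hk => hL _ (h V θ hθ U' U hP hk)

theorem MG.of_span (h : MG Z D dg S L) (hS : Homog dg S) (hS' : Homog dg S')
    (hle : ∀ p ∈ S, p.2 ∈ Ideal.span (Prod.snd '' S')) : MG Z D dg S' L :=
  fun V _ _ θ hθ U' U hP hk => h V θ hθ U' U hP fun p hp =>
    Maps.of_mem_span hθ hP.st' hS' hk (hS p hp) (hle p hp)

/-- A subquotient vanishes in all degrees that cannot be reached from the generators. -/
theorem Calc.fam_trick {D : Type*} [DivisionRing D] {G : Type*} [AddCommGroup G]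
    {V : Type*} [AddCommGroup V] [Module D V] {I : Type*} {T : I → Module.End D V} {e : I → G}
    {U' U : G → Submodule D V} (hP : Pair T e U' U) {s : Set (G × V)}
    (hs1 : ∀ p ∈ s, p.2 ∈ U p.1) (hs2 : U ≤ U' ⊔ Gen T e s) (P : G → Prop)
    (hv : ∀ i, Maps (T i) (e i) U U' ∨ ∀ g, P (g + e i) → P g) (hs : ∀ p ∈ s, ¬ P p.1)
    (g : G) (hg : P g) : (hf U - hf U') g = 0 := by
  classical
  have h1 : U' ≤ fun g => if P g then U' g else U g := fun g => by
    dsimp only
    split_ifs
    · exact le_rfl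
    · exact hP.le g
  have h2 : (fun g => if P g then U' g else U g) ≤ U := fun g => by
    dsimp only
    split_ifs
    · exact hP.le g
    · exact le_rfl
  have h3 : Stable T e fun g => if P g then U' g else U g := by
    intro i g x hx
    rcases hv i with h | h
    · exact h1 _ (h g x (h2 g hx))
    · dsimp only at hx ⊢
      split_ifs with h4
      · rw [if_pos (h g h4)] at hx
        exact hP.st' i g x hx
      · exact hP.st i g x (h2 g hx)
  have h4 := hs2.trans (sup_le h1 (Gen_le h3 fun p hp => by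
    rw [if_neg (hs p hp)]; exact hs1 p hp)) g
  dsimp only at h4
  rw [if_pos hg] at h4
  rw [Pi.sub_apply, hf, hf, le_antisymm h4 (hP.le g), sub_self]

/-- Change of variables and of the grading group. Variables outside the range of `j` have to
annihilate. -/
theorem MG.transport {σ' G' : Type} [AddCommGroup G'] {dg' : σ' → G'}
    {S₁ : Set (G' × MvPolynomial σ' Z)} {L₁ : (G' → ℤ) → Prop} (h : MG Z D dg S L)
    (j : σ → σ') (φ : G ≃+ G') (hj : ∀ v, dg' (j v) = φ (dg v))
    (hsurj : ∀ v', v' ∈ Set.range j ∨ (dg' v', X v') ∈ S₁)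
    (hS : ∀ p ∈ S, (φ p.1, rename j p.2) ∈ S₁) (hL : ∀ f, L (f ∘ φ) → L₁ f) :
    MG Z D dg' S₁ L₁ := by
  intro V _ _ θ hθ U' U hP hk
  obtain ⟨s, hs, hs1, hs2⟩ := hP.fg
  have hX : ∀ v, (θ.comp (rename j : MvPolynomial σ Z →ₐ[Z] _).toRingHom) (X v) = θ (X (j v)) :=
    fun v => by simp
  have hst : ∀ {W : G' → Submodule D V}, Stable (fun v => θ (X v)) dg' W →
      Stable (fun v => (θ.comp (rename j : MvPolynomial σ Z →ₐ[Z] _).toRingHom) (X v)) dg
        (W ∘ φ) := by
    intro W hW v g x hx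
    have := hW (j v) (φ g) x hx
    rw [hj, ← map_add] at this
    simpa only [hX, Function.comp_apply] using this
  refine hL _ (h V (θ.comp (rename j : MvPolynomial σ Z →ₐ[Z] _).toRingHom)
    (fun z v => by simpa using hθ z v) (U' ∘ φ) (U ∘ φ)
    ⟨hst hP.st', hst hP.st, fun g => hP.le _, fun g => hP.fd _,
      (fun p => (φ.symm p.1, p.2)) '' s, hs.image _, ?_, ?_⟩ ?_)
  · rintro _ ⟨p, hp, rfl⟩
    simpa using hs1 p hp
  · obtain ⟨W, hW⟩ : ∃ W, W = Gen
      (fun v => (θ.comp (rename j : MvPolynomial σ Z →ₐ[Z] _).toRingHom) (X v)) dg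
        ((fun p => (φ.symm p.1, p.2)) '' s) := ⟨_, rfl⟩
    have hWU : W ≤ U ∘ φ := hW ▸ Gen_le (hst hP.st) (by
      rintro _ ⟨p, hp, rfl⟩
      simpa using hs1 p hp)
    have hWs := hW ▸ Gen_stable
      (fun v => (θ.comp (rename j : MvPolynomial σ Z →ₐ[Z] _).toRingHom) (X v)) dg
        ((fun p : G' × V => (φ.symm p.1, p.2)) '' s)
    have h1 : Stable (fun v => θ (X v)) dg' (U' ⊔ W ∘ φ.symm) := by
      intro v' g x hx
      obtain ⟨y, hy, z, hz, rfl⟩ := Submodule.mem_sup.1 hx
      rw [map_add]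
      refine Submodule.add_mem _ (Submodule.mem_sup_left (hP.st' v' g y hy)) ?_
      rcases hsurj v' with ⟨v, rfl⟩ | hv
      · have := hWs v (φ.symm g) z hz
        simp only [hX] at this
        refine Submodule.mem_sup_right ?_
        rw [hj, Function.comp_apply, map_add, φ.symm_apply_apply]
        exact this
      · refine Submodule.mem_sup_left (hk _ hv g z ?_)
        simpa using hWU _ hz
    have h2 := hs2.trans (sup_le le_sup_left (Gen_le h1 fun p hp =>
      Submodule.mem_sup_right (hW ▸ mem_Gen _ dg (p := (φ.symm p.1, p.2)) ⟨p, hp, rfl⟩)))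
    intro g
    rw [← hW]
    simpa using h2 (φ g)
  · intro p hp g x hx
    have := hk _ (hS p hp) (φ g) x hx
    rw [← map_add] at this
    exact this

variable [Finite σ]

theorem MG.mul (hL : Closed L) {a b : G} {p q : MvPolynomial σ Z}
    (hp : IsWeightedHomogeneous dg p a) (hq : IsWeightedHomogeneous dg q b)
    (h1 : MG Z D dg (insert (a, p) S) L) (h2 : MG Z D dg (insert (b, q) S) L) :
    MG Z D dg (insert (a + b, p * q) S) L := by
  intro V _ _ θ hθ U' U hP hk
  have hW := stable_supMap (fun v => rep_commute θ p (X v)) a hP.st hP.st'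
  have l1 := le_supMap (θ p) a U U'
  have l2 := supMap_le hP.le (Maps.of_hom hθ hP.st hp)
  have r1 := h1 V θ hθ _ U (hP.quot hW l1 l2) (by
    rintro x (rfl | hx)
    · exact maps_supMap _ _ _ _
    · exact (hk x (Or.inr hx)).mono le_rfl l1)
  have r2 := h2 V θ hθ U' _ (hP.sub (fun v w => rep_commute θ _ _) hW l1 l2) (by
    rintro x (rfl | hx)
    · refine Maps.supMap (Maps.of_hom hθ hP.st' hq) ?_
      have := hk _ (Or.inl rfl)
      rwa [mul_comm, map_mul] at this
    · exact (hk x (Or.inr hx)).mono l2 le_rfl)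
  simpa using hL.add _ _ r1 r2

omit [Finite σ] in
theorem Calc.one (hL : Closed L) : MG Z D dg (insert (0, 1) S) L := by
  intro V _ _ θ _ U' U hP hk
  have h1 : U ≤ U' := fun g x hx => by simpa using hk _ (Or.inl rfl) g x hx
  rw [le_antisymm h1 hP.le, sub_self]
  exact hL.zero

theorem Calc.prod (hL : Closed L) {ι : Type*} (s : Finset ι)
    (γ : ι → G) (p : ι → MvPolynomial σ Z) (hp : ∀ i ∈ s, IsWeightedHomogeneous dg (p i) (γ i))
    (h : ∀ i ∈ s, MG Z D dg (insert (γ i, p i) S) L) :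
    MG Z D dg (insert (∑ i ∈ s, γ i, ∏ i ∈ s, p i) S) L := by
  classical
  induction s using Finset.induction_on with
  | empty => simpa using Calc.one hL
  | insert a s ha ih =>
    rw [Finset.sum_insert ha, Finset.prod_insert ha]
    exact MG.mul hL (hp a (Finset.mem_insert_self a s))
      (IsWeightedHomogeneous.prod s p γ fun i hi => hp i (Finset.mem_insert_of_mem hi))
      (h a (Finset.mem_insert_self a s))
      (ih (fun i hi => hp i (Finset.mem_insert_of_mem hi))
        fun i hi => h i (Finset.mem_insert_of_mem hi))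

theorem Calc.pow (hL : Closed L) {γ : G} {p : MvPolynomial σ Z}
    (hp : IsWeightedHomogeneous dg p γ) (h : MG Z D dg (insert (γ, p) S) L) (k : ℕ) :
    MG Z D dg (insert (k • γ, p ^ k) S) L := by
  simpa using Calc.prod hL (Finset.range k) (fun _ => γ) (fun _ => p) (fun _ _ => hp)
    fun _ _ => h

theorem MG.of_prod_mem_radical (hL : Closed L) (hS : Homog dg S) {ι : Type*} (s : Finset ι)
    (γ : ι → G) (p : ι → MvPolynomial σ Z) (hp : ∀ i ∈ s, IsWeightedHomogeneous dg (p i) (γ i))
    (hrad : ∏ i ∈ s, p i ∈ (Ideal.span (Prod.snd '' S)).radical)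
    (h : ∀ i ∈ s, MG Z D dg (insert (γ i, p i) S) L) : MG Z D dg S L := by
  obtain ⟨k, hk⟩ := hrad
  have h1 := IsWeightedHomogeneous.prod s p γ hp
  refine (Calc.pow hL h1 (Calc.prod hL s γ p hp h) k).of_span ?_ hS ?_
  · rintro x (rfl | hx)
    · exact h1.pow k
    · exact hS x hx
  · rintro x (rfl | hx)
    · exact hk
    · exact Ideal.subset_span ⟨x, hx, rfl⟩

theorem MG.of_mem_radical (hL : Closed L) (hS : Homog dg S) {ι : Type*} (s : Finset ι)
    (γ : ι → G) (p : ι → MvPolynomial σ Z) (hp : ∀ i ∈ s, IsWeightedHomogeneous dg (p i) (γ i))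
    (hrad : ∀ i ∈ s, p i ∈ (Ideal.span (Prod.snd '' S)).radical)
    (h : MG Z D dg (S ∪ (fun i => (γ i, p i)) '' s) L) : MG Z D dg S L := by
  classical
  induction s using Finset.induction_on with
  | empty => simpa using h
  | insert a s ha ih =>
    refine ih (fun i hi => hp i (Finset.mem_insert_of_mem hi))
      (fun i hi => hrad i (Finset.mem_insert_of_mem hi)) ?_
    refine MG.of_prod_mem_radical hL ?_ {a} γ p ?_ ?_ ?_
    · rintro x (hx | ⟨i, hi, rfl⟩)
      · exact hS x hx
      · exact hp i (Finset.mem_insert_of_mem hi)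
    · simpa using hp a (Finset.mem_insert_self a s)
    · rw [Finset.prod_singleton]
      exact Ideal.radical_mono (Ideal.span_mono (Set.image_mono Set.subset_union_left))
        (hrad a (Finset.mem_insert_self a s))
    · intro i hi
      rw [Finset.mem_singleton.1 hi]
      rwa [Finset.coe_insert, Set.image_insert_eq, Set.union_insert] at h

/-- The Hilbert-Serre step. -/
theorem MG.hs (hL : Closed L) {γ : G} {p : MvPolynomial σ Z} (hp : IsWeightedHomogeneous dg p γ)
    (h : MG Z D dg (insert (γ, p) S) L) : MG Z D dg S fun f => L (act (1 - mon γ) f) := by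
  intro V _ _ θ hθ U' U hP hk
  have hW := stable_supMap (fun v => rep_commute θ p (X v)) γ hP.st hP.st'
  have l1 := le_supMap (θ p) γ U U'
  have l2 := supMap_le hP.le (Maps.of_hom hθ hP.st hp)
  have r1 := h V θ hθ _ U (hP.quot hW l1 l2) (by
    rintro x (rfl | hx)
    · exact maps_supMap _ _ _ _
    · exact (hk x hx).mono le_rfl l1)
  have hW' := stable_infComap (fun v => rep_commute θ p (X v)) γ hP.st hP.st'
  have l3 := le_infComap hP.le (Maps.of_hom hθ hP.st' hp)
  have l4 := infComap_le (θ p) γ U U'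
  have r2 := h V θ hθ U' _ (hP.sub (fun v w => rep_commute θ _ _) hW' l3 l4) (by
    rintro x (rfl | hx)
    · exact maps_infComap _ _ _ _
    · exact (hk x hx).mono l4 le_rfl)
  rw [act_one_sub_mon (θ p) γ U U' hP.fd (hP.fd_of_le hP.le)]
  exact hL.sub r1 (hL.act _ _ r2)

theorem MG.hs_prod (hL : Closed L) {ι : Type*} (s : Finset ι) (γ : ι → G)
    (p : ι → MvPolynomial σ Z) (hp : ∀ i ∈ s, IsWeightedHomogeneous dg (p i) (γ i))
    (h : MG Z D dg (S ∪ (fun i => (γ i, p i)) '' s) L) :
    MG Z D dg S fun f => L (act (∏ i ∈ s, (1 - mon (γ i))) f) := by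
  classical
  induction s using Finset.induction_on generalizing L with
  | empty => simpa using h
  | insert a s ha ih =>
    rw [Finset.coe_insert, Set.image_insert_eq, Set.union_insert] at h
    refine (ih (hL.comp_act _) (fun i hi => hp i (Finset.mem_insert_of_mem hi))
      (MG.hs hL (hp a (Finset.mem_insert_self a s)) h)).imp fun f hf => ?_
    rwa [Finset.prod_insert ha, ← act_act]

/-- Modules on which `p` acts locally nilpotently. -/
theorem MG.torsion (hL : Closed L) {γ : G} {p : MvPolynomial σ Z}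
    (hp : IsWeightedHomogeneous dg p γ) (h : MG Z D dg (insert (γ, p) S) L)
    {V : Type u} [AddCommGroup V] [Module D V] {θ : MvPolynomial σ Z →+* Module.End D V}
    (hθ : IsRep θ) {U' U : G → Submodule D V} (hP : Pair (fun v => θ (X v)) dg U' U)
    (hk : ∀ x ∈ S, Maps (θ x.2) x.1 U U')
    (ht : ∀ g, ∀ v ∈ U g, ∃ k : ℕ, θ (p ^ k) v ∈ U' (g + k • γ)) : L (hf U - hf U') := by
  obtain ⟨s, hs, hs1, hs2⟩ := hP.fg
  choose! k hk' using fun x : G × V => ht x.1 x.2
  obtain ⟨K, hK⟩ := (hs.image k).bddAbove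
  have h1 : U ≤ infComap (θ (p ^ K)) (K • γ) U U' := by
    refine hs2.trans (sup_le (le_infComap hP.le (Maps.of_hom hθ hP.st' (hp.pow K)))
      (Gen_le (stable_infComap (fun v => rep_commute θ _ (X v)) _ hP.st hP.st') fun x hx =>
        ⟨hs1 x hx, ?_⟩))
    obtain ⟨m, rfl⟩ := Nat.exists_eq_add_of_le (hK ⟨x, hx, rfl⟩)
    have := Maps.of_hom hθ hP.st' (hp.pow m) _ _ (hk' x (hs1 x hx))
    rw [add_assoc, ← add_nsmul] at this
    rw [pow_add, mul_comm, map_mul]
    exact this
  refine Calc.pow hL hp h K V θ hθ U' U hP ?_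
  rintro x (rfl | hx)
  · exact (maps_infComap _ _ U U').mono h1 le_rfl
  · exact hk x hx

/-- If all variables of one node are nilpotent, the Hilbert function vanishes in large
degrees. -/
theorem MG.evZero {E : Type} [Fintype E] [DecidableEq E] (nd : σ → E) (e : E)
    {S : Set ((E → ℤ) × MvPolynomial σ Z)} (hS : Homog (dgs nd) S)
    (h : ∀ v, nd v = e → X v ∈ (Ideal.span (Prod.snd '' S)).radical) :
    MG Z D (dgs nd) S EvZero := by
  have := Fintype.ofFinite σ
  refine MG.of_mem_radical closed_EvZero hS (Finset.univ.filter fun v => nd v = e) (dgs nd)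
    (fun v => X v) (fun v _ => isWeightedHomogeneous_X Z (dgs nd) v)
    (fun v hv => h v (Finset.mem_filter.1 hv).2) ?_
  intro V _ _ θ hθ U' U hP hk
  obtain ⟨s, hs, hs1, hs2⟩ := hP.fg
  obtain ⟨M, hM⟩ := (hs.image fun x => x.1 e).bddAbove
  filter_upwards [eventually_ge_atTop fun _ : E => M + 1] with g hg
  refine Calc.fam_trick hP hs1 hs2 (fun g => M < g e) (fun v => ?_)
    (fun x hx => not_lt.2 (hM ⟨x, hx, rfl⟩)) g (hg e)
  by_cases hv : nd v = e
  · exact Or.inl (hk (dgs nd v, X v) (Or.inr ⟨v, by simpa using hv, rfl⟩))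
  · refine Or.inr fun g hg => ?_
    simpa [dgs, eps, Pi.single_eq_of_ne (Ne.symm hv)] using hg

theorem MG.evZero_one {S : Set (ℤ × MvPolynomial σ Z)} (hS : Homog (fun _ => (1 : ℤ)) S)
    (h : ∀ v, X v ∈ (Ideal.span (Prod.snd '' S)).radical) :
    MG Z D (fun _ => (1 : ℤ)) S EvZero := by
  have := Fintype.ofFinite σ
  refine MG.of_mem_radical closed_EvZero hS Finset.univ (fun _ => (1 : ℤ))
    (fun v => X v) (fun v _ => isWeightedHomogeneous_X Z (fun _ => (1 : ℤ)) v)
    (fun v _ => h v) ?_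
  intro V _ _ θ hθ U' U hP hk
  obtain ⟨s, hs, hs1, hs2⟩ := hP.fg
  obtain ⟨M, hM⟩ := (hs.image fun x => x.1).bddAbove
  filter_upwards [eventually_gt_atTop M] with g hg
  exact Calc.fam_trick hP hs1 hs2 (fun g => M < g)
    (fun v => Or.inl (hk (1, X v) (Or.inr ⟨v, by simp, rfl⟩)))
    (fun x hx => not_lt.2 (hM ⟨x, hx, rfl⟩)) g hg

end Vale.Agent.EGH
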