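import Vale.Agent.EGH.Basic

/-! Basic properties of nodes. -/

namespace Vale.Agent.EGH

open Module MvPolynomial Filter

universe u

namespace Node

variable {Z : Type u} [Field Z]

theorem OK.eqn_hom {N : Node Z} (h : N.OK) (w : N.W) : (N.eqn w).IsHomogeneous (N.b w) := by
  exact (isHomogeneous_X_pow _ _).sub (h.hom w)

theorem OK.homog_eqs {N : Node Z} (h : N.OK) : Homog (fun _ => (1 : ℤ)) N.eqs := by
  rintro _ ⟨w, rfl⟩
  exact isWH_one_iff.2 (h.eqn_hom w)

theorem OK.deg_pos {N : Node Z} (h : N.OK) : 0 < N.deg :=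
  Finset.prod_pos fun w _ => by exact_mod_cast h.pos w

theorem exists_P1 (N : Node Z) : ∃ c : ℤ, N.P1 = fun i => N.deg * i + c := by
  have h1 : ∀ (b : ℕ) (m c : ℤ), ∃ c', act (geo (1 : ℤ) b) (fun i => m * i + c) =
      fun i => b * m * i + c' := fun b m c => by
    induction b with
    | zero => exact ⟨0, by funext i; simp [geo]⟩
    | succ b ih =>
      obtain ⟨c', h⟩ := ih
      refine ⟨c' + c - m * b, funext fun i => ?_⟩
      have := congrFun h i
      rw [geo] at this
      rw [geo, Finset.sum_range_succ, map_add, ← mon_nsmul, act_mon, LinearMap.add_apply,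
        Pi.add_apply, this, shift_apply]
      simp
      ring
  have h2 : ∀ s : Finset N.W, ∃ c : ℤ, act (∏ w ∈ s, geo (1 : ℤ) (N.b w)) (fun i => i + 1) =
      fun i => (∏ w ∈ s, (N.b w : ℤ)) * i + c := fun s => by
    classical
    induction s using Finset.induction_on with
    | empty => exact ⟨1, by funext i; simp⟩
    | insert w s hw ih =>
      obtain ⟨c, h⟩ := ih
      rw [Finset.prod_insert hw, Finset.prod_insert hw, ← act_act, h]
      exact h1 _ _ _
  exact h2 _

theorem free_ok : (free Z).OK := by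
  exact ⟨fun w => w.elim, fun w => w.elim, fun w => w.elim, fun w => w.elim⟩

theorem OK.map {Z' : Type u} [Field Z'] (φ : Z →+* Z') {N : Node Z} (h : N.OK) :
    (N.map φ).OK := by
  obtain ⟨rk, hr⟩ := h.tri
  exact ⟨h.pos, fun w => (h.hom w).map φ, rk, fun w w' k => hr w w' (vars_map _ _ k)⟩

theorem OK.ext {Z' : Type u} [Field Z'] (φ : Z →+* Z') {κ : Type} [Fintype κ] (t : κ → Z')
    {N : Node Z} (h : N.OK) {Λ : Type} [Fintype Λ] {bb : Λ → ℕ} (hbb : ∀ l, 0 < bb l)
    {q : κ → Λ → MvPolynomial N.Var Z} (hq : ∀ k l, (q k l).IsHomogeneous (bb l)) :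
    (N.ext φ t Λ bb q).OK := by
  classical
  obtain ⟨rk, hr⟩ := h.tri
  have hv : ∀ (p : MvPolynomial N.Var Z) (w' : N.W ⊕ Λ), Sum.inr w' ∈ (rename
      (Sum.map id Sum.inl : N.Var → Fin 2 ⊕ N.W ⊕ Λ) (MvPolynomial.map φ p)).vars →
      ∃ w, w' = Sum.inl w ∧ Sum.inr w ∈ p.vars := fun p w' k => by
    obtain ⟨v, hv, e⟩ := mem_vars_rename _ _ k
    rcases v with v | v
    · simp at e
    · exact ⟨v, by simpa using e.symm, vars_map _ _ hv⟩
  refine ⟨?_, ?_, Sum.elim rk fun _ => Finset.univ.sup rk + 1, ?_⟩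
  · rintro (w | l)
    · exact h.pos w
    · exact hbb l
  · rintro (w | l)
    · exact ((h.hom w).map φ).rename_isHomogeneous
    · exact IsHomogeneous.sum _ _ _ fun k _ => ((hq k l).map φ).rename_isHomogeneous.C_mul _
  · rintro (w | l) w' k
    · obtain ⟨v, rfl, hv'⟩ := hv _ _ k
      exact hr w v hv'
    · obtain ⟨a, -, ha⟩ := Finset.mem_biUnion.1 (vars_sum_subset _ _ k)
      obtain ⟨v, rfl, -⟩ := hv _ _ ((Finset.mem_union.1 (vars_mul _ _ ha)).resolve_left
        fun k => Finset.notMem_empty _ (vars_C.subset k))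
      exact Nat.lt_succ_of_le (Finset.le_sup (f := rk) (Finset.mem_univ v))

theorem map_eqn {Z' : Type u} [Field Z'] (φ : Z →+* Z') (N : Node Z) (w : N.W) :
    (N.map φ).eqn w = MvPolynomial.map φ (N.eqn w) := by
  simp only [eqn, map_sub, map_pow, map_X]
  rfl

theorem ext_eqn_inl {Z' : Type u} [Field Z'] (φ : Z →+* Z') {κ : Type} [Fintype κ] (t : κ → Z')
    (N : Node Z) (Λ : Type) [Fintype Λ] (bb : Λ → ℕ) (q : κ → Λ → MvPolynomial N.Var Z)
    (w : N.W) : (N.ext φ t Λ bb q).eqn (Sum.inl w) =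
      rename (Sum.map id Sum.inl) (MvPolynomial.map φ (N.eqn w)) := by
  simp only [eqn, map_sub, map_pow, map_X, rename_X]
  rfl

theorem map_id (N : Node Z) : N.map (algebraMap Z Z) = N := by
  obtain ⟨W, b, G⟩ := N
  simp only [map]
  congr
  funext w
  exact MvPolynomial.map_id _

/-- Over an algebraically closed field every input has a solution. -/
theorem OK.exists_point {N : Node Z} (h : N.OK) {L : Type*} [Field L] [IsAlgClosed L]
    (f : Z →+* L) (y : Fin 2 → L) :
    ∃ ξ : N.Var → L, (∀ i, ξ (Sum.inl i) = y i) ∧ ∀ w, eval₂ f ξ (N.eqn w) = 0 := by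
  classical
  obtain ⟨rk, hr⟩ := h.tri
  have key : ∀ n, ∃ ξ : N.Var → L, (∀ i, ξ (Sum.inl i) = y i) ∧
      ∀ w, rk w < n → eval₂ f ξ (N.eqn w) = 0 := fun n => by
    induction n with
    | zero => exact ⟨Sum.elim y 0, fun _ => rfl, by simp⟩
    | succ n ih =>
      obtain ⟨ξ, h1, h2⟩ := ih
      choose z hz using fun w => IsAlgClosed.exists_pow_nat_eq (eval₂ f ξ (N.G w)) (h.pos w)
      refine ⟨Sum.elim y fun w => if rk w = n then z w else ξ (Sum.inr w), fun _ => rfl,
        fun w hw => ?_⟩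
      have e : eval₂ f (Sum.elim y fun w => if rk w = n then z w else ξ (Sum.inr w)) (N.G w) =
          eval₂ f ξ (N.G w) := by
        refine eval₂Hom_congr' rfl ?_ rfl
        rintro (i | w') k -
        · exact (h1 i).symm
        · exact if_neg (by have := hr w w' k; omega)
      have := h2 w
      simp only [eqn, eval₂_sub, eval₂_pow, eval₂_X, e, Sum.elim_inr] at this ⊢
      split_ifs with k
      · rw [hz, sub_self]
      · exact this (by omega)
  obtain ⟨ξ, h1, h2⟩ := key (Finset.univ.sup rk + 1)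
  exact ⟨ξ, h1, fun w => h2 w (Nat.lt_succ_of_le (Finset.le_sup (f := rk) (Finset.mem_univ w)))⟩

/-- The outputs are nilpotent modulo the inputs and the equations. -/
theorem OK.eq_zero_of_inp {N : Node Z} (h : N.OK) {L : Type*} [Field L]
    (f : Z →+* L) (ξ : N.Var → L) (h0 : ∀ i, ξ (Sum.inl i) = 0)
    (he : ∀ w, eval₂ f ξ (N.eqn w) = 0) : ξ = 0 := by
  obtain ⟨rk, hr⟩ := h.tri
  have key : ∀ n w, rk w < n → ξ (Sum.inr w) = 0 := fun n => by
    induction n with
    | zero => simp
    | succ n ih =>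
      intro w hw
      have e : eval₂ f ξ (N.G w) = eval₂ f 0 (N.G w) := by
        refine eval₂Hom_congr' rfl ?_ rfl
        rintro (i | w') k -
        · exact h0 i
        · exact ih w' (by have := hr w w' k; omega)
      have e2 : eval₂ f (0 : N.Var → L) (N.G w) = 0 := by
        have := h.pos w
        rw [← coe_eval₂Hom, eval₂Hom_zero_apply, constantCoeff_eq,
          (h.hom w).coeff_eq_zero (by simp; omega), map_zero]
      have := he w
      simp only [eqn, eval₂_sub, eval₂_pow, eval₂_X, e, e2, sub_zero] at this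
      exact pow_eq_zero_iff (h.pos w).ne' |>.1 this
  funext v
  rcases v with i | w
  · exact h0 i
  · exact key _ w (Nat.lt_succ_self _)

end Node

theorem homog_sysEqs {Z : Type u} [Field Z] {E : Type} [DecidableEq E] {N : E → Node Z}
    (h : ∀ e, (N e).OK) : Homog (dgs (Sigma.fst : (Σ e, (N e).Var) → E)) (sysEqs N) := by
  rintro _ ⟨x, rfl⟩
  have := isWH_rename (dg' := dgs (Sigma.fst : (Σ e, (N e).Var) → E)) (Sigma.mk x.1)
    (zmultiplesHom (E → ℤ) (eps x.1)) (fun v => by simp [dgs])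
    (isWH_one_iff.2 ((h x.1).eqn_hom x.2))
  simpa using this

end Vale.Agent.EGH
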