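import Vale.Agent.EGH.ODefs

/-! Formal consequences of additivity of rank and defect. -/

namespace Vale.Agent.EGH

open Module MvPolynomial Filter

universe u

namespace RD

variable {O : Type u} [Ring O] {R : RD O}
variable {V V' : Type u} [AddCommGroup V] [Module O V] [AddCommGroup V'] [Module O V']

theorem C_sub (h : R.C V) (N : Submodule O V) : R.C N :=
  R.C_inj _ _ N.subtype N.subtype_injective h

theorem C_quot (h : R.C V) (N : Submodule O V) : R.C (V ⧸ N) :=
  R.C_surj _ _ N.mkQ N.mkQ_surjective h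

theorem C_range (h : R.C V) (f : V →ₗ[O] V') : R.C (LinearMap.range f) :=
  R.C_surj _ _ f.rangeRestrict f.surjective_rangeRestrict h

theorem add_quot (h : R.C V) (N : Submodule O V) :
    R.r V = R.r N + R.r (V ⧸ N) ∧ R.d V = R.d N + R.d (V ⧸ N) := by
  exact R.add _ _ _ N.subtype N.mkQ N.subtype_injective N.mkQ_surjective
    (LinearMap.exact_subtype_mkQ N) h

theorem add_range (h : R.C V) (f : V →ₗ[O] V') :
    R.r V = R.r (LinearMap.ker f) + R.r (LinearMap.range f) ∧
      R.d V = R.d (LinearMap.ker f) + R.d (LinearMap.range f) := by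
  refine R.add _ _ _ (LinearMap.ker f).subtype f.rangeRestrict (Submodule.subtype_injective _)
    f.surjective_rangeRestrict (fun y => ?_) h
  simp [Subtype.ext_iff]

theorem of_subsingleton (h : R.C V) [Subsingleton V] : R.r V = 0 ∧ R.d V = 0 := by
  have := R.add V V V LinearMap.id LinearMap.id Function.injective_id Function.surjective_id
    (fun y => ⟨fun _ => ⟨y, rfl⟩, fun _ => Subsingleton.elim _ _⟩) h
  omega

theorem bot (h : R.C V) : R.r (⊥ : Submodule O V) = 0 ∧ R.d (⊥ : Submodule O V) = 0 := by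
  exact of_subsingleton (C_sub h ⊥)

theorem congr (h : R.C V) (e : V ≃ₗ[O] V') : R.C V' ∧ R.r V' = R.r V ∧ R.d V' = R.d V := by
  have h1 := R.add (⊥ : Submodule O V) V V' (Submodule.subtype _) e.toLinearMap
    (Submodule.subtype_injective _) e.surjective (fun y => by simp) h
  have h2 := bot h
  exact ⟨R.C_surj _ _ e.toLinearMap e.surjective h, by omega, by omega⟩

theorem top (h : R.C V) : R.r (⊤ : Submodule O V) = R.r V ∧ R.d (⊤ : Submodule O V) = R.d V := by
  exact (congr h Submodule.topEquiv.symm).2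

/-- Additivity for the restriction of a linear map to a submodule. -/
theorem add_map (M : Submodule O V) (h : R.C M) (f : V →ₗ[O] V') :
    R.C (M.map f) ∧ R.C (M ⊓ LinearMap.ker f : Submodule O V) ∧
      R.r M = R.r (M ⊓ LinearMap.ker f : Submodule O V) + R.r (M.map f) ∧
      R.d M = R.d (M ⊓ LinearMap.ker f : Submodule O V) + R.d (M.map f) := by
  have h1 : R.C (M.map f) := R.C_surj _ _ (f.submoduleMap M) (f.submoduleMap_surjective M) h
  have h2 : R.C (M ⊓ LinearMap.ker f : Submodule O V) :=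
    R.C_inj _ _ (Submodule.inclusion inf_le_left) (Submodule.inclusion_injective _) h
  refine ⟨h1, h2, R.add _ _ _ (Submodule.inclusion inf_le_left) (f.submoduleMap M)
    (Submodule.inclusion_injective _) (f.submoduleMap_surjective M) (fun y => ?_) h⟩
  constructor
  · intro hy
    exact ⟨⟨y.1, y.2, congrArg Subtype.val hy⟩, rfl⟩
  · rintro ⟨x, rfl⟩
    exact Subtype.ext x.2.2

theorem map_inj (M : Submodule O V) (h : R.C M) (f : V →ₗ[O] V') (hf : Function.Injective f) :
    R.C (M.map f) ∧ R.r (M.map f) = R.r M ∧ R.d (M.map f) = R.d M := by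
  exact congr h (Submodule.equivMapOfInjective f hf M)

theorem C_of_le {M M' : Submodule O V} (h : R.C M') (hle : M ≤ M') : R.C M :=
  R.C_inj _ _ (Submodule.inclusion hle) (Submodule.inclusion_injective hle) h

theorem r_mono {M M' : Submodule O V} (h : R.C M') (hle : M ≤ M') : R.r M ≤ R.r M' := by
  have h1 := add_quot h (M.comap M'.subtype)
  have h2 := congr (C_sub h (M.comap M'.subtype)) (Submodule.comapSubtypeEquivOfLe hle)
  have h3 := R.r_nonneg _ (C_quot h (M.comap M'.subtype))
  omega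

/-- A submodule of the same rank has at least the same defect. -/
theorem d_le_of_r_eq {M M' : Submodule O V} (h : R.C M') (hle : M ≤ M') (hr : R.r M = R.r M') :
    R.d M' ≤ R.d M := by
  have h1 := add_quot h (M.comap M'.subtype)
  have h2 := congr (C_sub h (M.comap M'.subtype)) (Submodule.comapSubtypeEquivOfLe hle)
  have h3 := R.d_nonpos _ (C_quot h (M.comap M'.subtype)) (by omega)
  omega

theorem prod (h : R.C V) (h' : R.C V') :
    R.r (V × V') = R.r V + R.r V' ∧ R.d (V × V') = R.d V + R.d V' := by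
  exact R.add _ _ _ (LinearMap.inl O V V') (LinearMap.snd O V V') LinearMap.inl_injective
    LinearMap.snd_surjective Function.Exact.inl_snd (R.C_prod _ _ h h')

theorem pi (h : R.C V) (n : ℕ) :
    R.C (Fin n → V) ∧ R.r (Fin n → V) = n * R.r V ∧ R.d (Fin n → V) = n * R.d V := by
  induction n with
  | zero =>
    have h1 : R.C (Fin 0 → V) := R.C_inj _ _ 0 (Function.injective_of_subsingleton _) h
    simpa using ⟨h1, of_subsingleton h1⟩
  | succ n ih =>
    have h1 := congr (R.C_prod _ _ h ih.1) (Fin.consLinearEquiv O fun _ : Fin (n + 1) => V)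
    have h2 := prod h ih.1
    refine ⟨h1.1, ?_, ?_⟩
    · rw [h1.2.1, h2.1, ih.2.1]
      push_cast
      ring
    · rw [h1.2.2, h2.2, ih.2.2]
      push_cast
      ring

theorem TF.pi (h : R.C V) (ht : R.TF V) (n : ℕ) : R.TF (Fin n → V) := by
  intro N hN
  refine (Submodule.eq_bot_iff _).2 fun v hv => funext fun j => ?_
  have h1 := add_map N (C_sub (RD.pi h n).1 N) (LinearMap.proj j : (Fin n → V) →ₗ[O] V)
  have h2 := R.r_nonneg _ h1.1
  have h3 := R.r_nonneg _ h1.2.1
  have h4 := ht (N.map (LinearMap.proj j : (Fin n → V) →ₗ[O] V)) (by omega)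
  exact (Submodule.eq_bot_iff _).1 h4 _ (Submodule.mem_map_of_mem hv)

theorem Pos.tf (h : R.C V) (hp : R.Pos V) : R.TF V := by
  intro N hN
  by_contra hne
  have h1 := hp N hne
  have h2 := R.d_nonpos _ (C_sub h N) hN
  omega

theorem TF.of_inj (h : R.C V) (ht : R.TF V) (f : V' →ₗ[O] V) (hf : Function.Injective f) :
    R.TF V' := by
  intro N hN
  have h1 := map_inj N (C_sub (R.C_inj _ _ f hf h) N) f hf
  have h2 := ht (N.map f) (by omega)
  refine (Submodule.eq_bot_iff _).2 fun v hv => hf ?_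
  rw [map_zero]
  exact (Submodule.eq_bot_iff _).1 h2 _ (Submodule.mem_map_of_mem hv)

/-- The quotient by a maximal submodule of rank zero. -/
theorem exists_tf_quot (h : R.C V) : ∃ N : Submodule O V, R.r N = 0 ∧ R.TF (V ⧸ N) := by
  have := R.noeth V h
  obtain ⟨N, hN, hmax⟩ := set_has_maximal_iff_noetherian.2 this {N : Submodule O V | R.r N = 0}
    ⟨⊥, (bot h).1⟩
  refine ⟨N, hN, fun M hM => ?_⟩
  have h1 := add_map (M.comap N.mkQ) (C_sub h _) N.mkQ
  rw [Submodule.map_comap_eq_of_surjective N.mkQ_surjective, Submodule.ker_mkQ,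
    inf_eq_right.2 (N.le_comap_mkQ M)] at h1
  have h2 : R.r N = 0 := hN
  have h3 : M.comap N.mkQ = N :=
    ((N.le_comap_mkQ M).eq_or_lt.resolve_right (hmax _ (show R.r _ = 0 by omega))).symm
  rw [← Submodule.map_comap_eq_of_surjective N.mkQ_surjective M, h3, Submodule.mkQ_map_self]

/-- Submodules of a module of rank and defect zero. -/
theorem d_sub_eq_zero (h : R.C V) (hr : R.r V = 0) (hd : R.d V = 0) (N : Submodule O V) :
    R.d N = 0 := by
  have h1 := add_quot h N
  have h2 := R.r_nonneg _ (C_sub h N)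
  have h3 := R.r_nonneg _ (C_quot h N)
  have h4 := R.d_nonpos _ (C_sub h N) (by omega)
  have h5 := R.d_nonpos _ (C_quot h N) (by omega)
  omega

theorem d_inf_ker {n : ℕ} (M : Submodule O (Fin (n + 1) → V))
    (h : R.C (M ⊓ LinearMap.ker (LinearMap.funLeft O V Fin.succ) : Submodule O _)) :
    R.d (M ⊓ LinearMap.ker (LinearMap.funLeft O V Fin.succ) : Submodule O _) =
      R.d ((M ⊓ LinearMap.ker (LinearMap.funLeft O V Fin.succ)).map
        (LinearMap.proj 0 : (Fin (n + 1) → V) →ₗ[O] V)) := by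
  have h1 := add_map _ h (LinearMap.proj 0 : (Fin (n + 1) → V) →ₗ[O] V)
  have h2 : M ⊓ LinearMap.ker (LinearMap.funLeft O V Fin.succ) ⊓
      LinearMap.ker (LinearMap.proj 0 : (Fin (n + 1) → V) →ₗ[O] V) = ⊥ := by
    refine (Submodule.eq_bot_iff _).2 fun v hv => funext fun j => ?_
    refine Fin.cases hv.2 (fun i => ?_) j
    exact congrFun hv.1.2 i
  rw [h2] at h1
  have h3 := of_subsingleton h1.2.1
  omega

theorem d_nonneg_pi (h : R.C V) (hd : ∀ N : Submodule O V, 0 ≤ R.d N) (n : ℕ)
    (M : Submodule O (Fin n → V)) : 0 ≤ R.d M := by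
  induction n with
  | zero => exact (of_subsingleton (C_sub (pi h 0).1 M)).2.ge
  | succ n ih =>
    have h1 := add_map M (C_sub (pi h _).1 M) (LinearMap.funLeft O V Fin.succ)
    have h2 := d_inf_ker M h1.2.1
    have h3 := hd ((M ⊓ LinearMap.ker (LinearMap.funLeft O V Fin.succ)).map (LinearMap.proj 0))
    have h4 := ih (M.map (LinearMap.funLeft O V Fin.succ))
    omega

theorem le_d_of_pi (G : Submodule O V) (h : R.C G) (hp : R.Pos G) (x : V) (hx : x ≠ 0) (n : ℕ)
    (M : Submodule O (Fin n → V)) (hM : ∀ v ∈ M, ∀ j, v j ∈ G)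
    (hxM : ∀ j, Pi.single j x ∈ M) : R.C M ∧ (n : ℤ) ≤ R.d M := by
  have hC : ∀ n (M : Submodule O (Fin n → V)), (∀ v ∈ M, ∀ j, v j ∈ G) → R.C M := by
    intro n M hM
    refine R.C_inj _ _ (LinearMap.pi fun j => LinearMap.codRestrict G
      ((LinearMap.proj j : (Fin n → V) →ₗ[O] V) ∘ₗ M.subtype) fun v => hM v v.2 j) ?_ (pi h n).1
    intro v w e
    exact Subtype.ext (funext fun j => congrArg Subtype.val (congrFun e j))
  refine ⟨hC n M hM, ?_⟩
  induction n with
  | zero => exact (of_subsingleton (hC 0 M hM)).2.ge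
  | succ n ih =>
    have h1 := add_map M (hC _ M hM) (LinearMap.funLeft O V Fin.succ)
    have h2 := d_inf_ker M h1.2.1
    have h4 := ih (M.map (LinearMap.funLeft O V Fin.succ))
      (by
        rintro _ ⟨v, hv, rfl⟩ j
        exact hM v hv _)
      (fun j => ⟨_, hxM j.succ, funext fun i => by simp [Pi.single_apply]⟩)
    set L := (M ⊓ LinearMap.ker (LinearMap.funLeft O V Fin.succ)).map
      (LinearMap.proj 0 : (Fin (n + 1) → V) →ₗ[O] V) with hL
    have h5 : L ≤ G := by
      rintro _ ⟨v, hv, rfl⟩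
      exact hM v hv.1 0
    have h6 : x ∈ L := ⟨Pi.single 0 x, ⟨hxM 0, funext fun i => by simp⟩, by simp⟩
    have h7 := hp (L.comap G.subtype) fun e => hx (congrArg Subtype.val
      ((Submodule.eq_bot_iff _).1 e ⟨x, h5 h6⟩ h6))
    have h8 := congr (C_sub h (L.comap G.subtype)) (Submodule.comapSubtypeEquivOfLe h5)
    push_cast
    omega

end RD

end Vale.Agent.EGH
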