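import Vale.Agent.EGH.GrBasic
import Vale.Agent.EGH.Calc
import Vale.Agent.EGH.NodeBasic
import Vale.Agent.EGH.RDBasic

/-! Cyclic graded modules and modules of finite length. -/

namespace Vale.Agent.EGH

open Module MvPolynomial Filter

universe u

namespace CycAux

theorem nonpos_of_eventually {a b : ℤ} (h : ∀ᶠ i in atTop, a * i ≤ b) : a ≤ 0 := by
  by_contra ha
  obtain ⟨i, hi, hi'⟩ := (h.and (eventually_gt_atTop (max b 0))).exists
  have h1 : b < i := lt_of_le_of_lt (le_max_left _ _) hi'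
  have h2 : 0 < i := lt_of_le_of_lt (le_max_right _ _) hi'
  nlinarith

variable {Z : Type u} [Field Z] {N : Node Z}

/-- Every monomial is a combination of reduced monomials modulo the equations. -/
theorem mem_red (hN : N.OK) (M : Submodule Z (MvPolynomial N.Var Z)) (k : ℕ)
    (h1 : ∀ α : N.Var →₀ ℕ, α.degree = k → (∀ w, α (Sum.inr w) < N.b w) → monomial α 1 ∈ M)
    (h2 : ∀ x w, x * N.eqn w ∈ M) (α : N.Var →₀ ℕ) (hα : α.degree = k) : monomial α 1 ∈ M := by
  obtain ⟨rk, hrk⟩ := hN.tri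
  let om : N.Var → ℕ := Sum.elim (fun _ => 0) fun w => rk w + 1
  induction hn : Finsupp.weight om α using Nat.strong_induction_on generalizing α with
  | _ n ih =>
    by_cases hred : ∀ w, α (Sum.inr w) < N.b w
    · exact h1 α hα hred
    push Not at hred
    obtain ⟨w, hw⟩ := hred
    obtain ⟨β, rfl⟩ : ∃ β, α = β + Finsupp.single (Sum.inr w) (N.b w) :=
      ⟨α - Finsupp.single (Sum.inr w) (N.b w),
        (tsub_add_cancel_of_le (Finsupp.single_le_iff.2 hw)).symm⟩
    have e1 : (monomial (β + Finsupp.single (Sum.inr w) (N.b w)) 1 : MvPolynomial N.Var Z) =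
        monomial β 1 * N.eqn w + monomial β 1 * N.G w := by
      rw [Node.eqn, ← mul_add, sub_add_cancel, X_pow_eq_monomial, monomial_mul, mul_one]
    rw [e1, (N.G w).as_sum, Finset.mul_sum]
    refine M.add_mem (h2 _ _) (M.sum_mem fun γ hγ => ?_)
    have hγ1 : γ.degree = N.b w := by
      by_contra h
      exact mem_support_iff.1 hγ ((hN.hom w).coeff_eq_zero h)
    have hγ2 : Finsupp.weight om γ ≤ N.b w * rk w := by
      rw [← hγ1, Finsupp.weight_apply, Finsupp.degree_apply, Finsupp.sum, Finset.sum_mul]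
      refine Finset.sum_le_sum fun v hv => ?_
      rw [smul_eq_mul]
      refine Nat.mul_le_mul_left _ ?_
      rcases v with i | w'
      · exact Nat.zero_le _
      · exact hrk w w' ((mem_vars_iff_mem_support _).2 ⟨γ, hγ, hv⟩)
    rw [monomial_mul, one_mul, ← mul_one (coeff γ _), ← smul_eq_mul, ← smul_monomial]
    refine M.smul_mem _ (ih _ ?_ _ ?_ rfl)
    · rw [← hn, map_add, map_add, Finsupp.weight_single, smul_eq_mul]
      have := hN.pos w
      change _ < _ + N.b w * (rk w + 1)
      nlinarith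
    · rw [← hα, map_add, map_add, hγ1, Finsupp.degree_single]

variable {D : Type u} [DivisionRing D] [Algebra Z D]

theorem finrank_Gen_le (hN : N.OK) {V : Type*} [AddCommGroup V] [Module D V]
    {θ : MvPolynomial N.Var Z →+* Module.End D V} (hθ : IsRep θ) (p : V)
    (hp : ∀ w, θ (N.eqn w) p = 0) (j : ℤ) (k : ℕ) :
    (finrank D (Gen (fun x => θ (X x)) (fun _ => (1 : ℤ)) {(j, p)} (j + k)) : ℤ) ≤
      N.deg * (k + 1) := by
  classical
  let W : ℤ → Submodule D V := fun i =>
    Submodule.span D {v | ∃ α : N.Var →₀ ℕ, j + α.degree = i ∧ v = θ (monomial α 1) p}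
  have hW : Stable (fun x => θ (X x)) (fun _ => (1 : ℤ)) W := by
    intro x i v hv
    have : W i ≤ (W (i + 1)).comap (θ (X x)) := by
      refine Submodule.span_le.2 ?_
      rintro _ ⟨α, hα, rfl⟩
      refine Submodule.subset_span ⟨Finsupp.single x 1 + α, ?_, ?_⟩
      · rw [map_add, Finsupp.degree_single, ← hα]; push_cast; ring
      · rw [← Module.End.mul_apply, ← map_mul, X, monomial_mul, one_mul]
    exact this hv
  have h1 : Gen (fun x => θ (X x)) (fun _ => (1 : ℤ)) {(j, p)} ≤ W := by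
    refine Gen_le hW ?_
    rintro _ rfl
    exact Submodule.subset_span ⟨0, by simp, by simp⟩
  let e : (N.W → ℕ) × ℕ → (N.Var →₀ ℕ) := fun x =>
    Finsupp.equivFunOnFinite.symm (Sum.elim ![x.2, k - x.2 - ∑ w, x.1 w] x.1)
  let T : Finset ((N.W → ℕ) × ℕ) :=
    (Fintype.piFinset fun w => Finset.range (N.b w)) ×ˢ Finset.range (k + 1)
  let S : Submodule D V :=
    Submodule.span D (T.image fun x => θ (monomial (e x) 1) p : Finset V)
  let M : Submodule Z (MvPolynomial N.Var Z) :=
    { carrier := {q | θ q p ∈ S}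
      add_mem' := fun {a b} ha hb => by
        change θ (a + b) p ∈ S
        rw [map_add]; exact S.add_mem ha hb
      zero_mem' := by
        change θ 0 p ∈ S
        rw [map_zero]; exact S.zero_mem
      smul_mem' := fun c a ha => by
        change θ (c • a) p ∈ S
        rw [smul_eq_C_mul, map_mul, Module.End.mul_apply, hθ]
        exact S.smul_mem _ ha }
  have h2 : W (j + k) ≤ S := by
    refine Submodule.span_le.2 ?_
    rintro _ ⟨α, hα, rfl⟩
    refine mem_red hN M k (fun β hβ hred => ?_) (fun x w => ?_) α (by omega)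
    · have hsum : β (Sum.inl 0) + β (Sum.inl 1) + ∑ w, β (Sum.inr w) = k := by
        rw [← hβ, Finsupp.degree_eq_sum, Fintype.sum_sum_type, Fin.sum_univ_two]
      refine Submodule.subset_span (Finset.mem_coe.2 (Finset.mem_image.2
        ⟨(fun w => β (Sum.inr w), β (Sum.inl 0)), ?_, ?_⟩))
      · simp only [T, Finset.mem_product, Fintype.mem_piFinset, Finset.mem_range]
        exact ⟨hred, by omega⟩
      · have : e (fun w => β (Sum.inr w), β (Sum.inl 0)) = β := by
          ext v
          rcases v with i | w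
          · fin_cases i
            · simp [e]
            · simp [e]; omega
          · simp [e]
        rw [this]
    · change θ (x * N.eqn w) p ∈ S
      rw [map_mul, Module.End.mul_apply, hp, map_zero]
      exact S.zero_mem
  have : FiniteDimensional D S := FiniteDimensional.span_finset D _
  have h3 := Submodule.finrank_mono ((h1 (j + k)).trans h2)
  have h4 : finrank D S ≤ _ := finrank_span_finset_le_card _
  have h5 := Finset.card_image_le (s := T) (f := fun x => θ (monomial (e x) 1) p)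
  have h6 : (T.card : ℤ) = N.deg * (k + 1) := by
    simp [T, Node.deg]
  omega

theorem evz (hN : N.OK) (a b : ℕ) :
    MG Z D (fun _ => (1 : ℤ)) (insert ((a : ℤ), X (Sum.inl 0) ^ a)
      (insert ((b : ℤ), X (Sum.inl 1) ^ b) N.eqs)) EvZero := by
  refine MG.evZero_one ?_ fun v => mem_radical_of_points _ _ fun L _ _ f p hp => ?_
  · rintro _ (rfl | rfl | hx)
    · simpa using isWH_one_iff.2 ((isHomogeneous_X Z (Sum.inl 0 : N.Var)).pow a)
    · simpa using isWH_one_iff.2 ((isHomogeneous_X Z (Sum.inl 1 : N.Var)).pow b)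
    · exact hN.homog_eqs _ hx
  · have h0 := hp _ (Ideal.subset_span ⟨_, Or.inl rfl, rfl⟩)
    have h1 := hp _ (Ideal.subset_span ⟨_, Or.inr (Or.inl rfl), rfl⟩)
    simp only [eval₂_pow, eval₂_X] at h0 h1
    rw [eval₂_X, hN.eq_zero_of_inp f p
      (Fin.forall_fin_two.2 ⟨pow_eq_zero_iff' |>.1 h0 |>.1, pow_eq_zero_iff' |>.1 h1 |>.1⟩)
      fun w => hp _ (Ideal.subset_span ⟨_, Or.inr (Or.inr ⟨w, rfl⟩), rfl⟩)]
    rfl

theorem hfO_span {V : Type u} [AddCommGroup V] [Module (Oo D N.Var) V] (h : Gr D N V) {j : ℤ}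
    {p : V} (hp : pr D N.Var j • p = p) :
    hfO D N.Var (Submodule.span (Oo D N.Var) {p}) =
      hf (Gen (fun x => thV Z D N.Var V (X x)) (fun _ => (1 : ℤ)) {(j, Und.mk D N.Var p)}) := by
  funext i
  have := h.span_piece {(j, Und.mk D N.Var p)} (by rintro _ rfl; exact hp) i
  rw [Set.image_singleton] at this
  rw [hfO_sub, hf, ← this]
  rfl

theorem hf_Gen_shift {D V I : Type*} [DivisionRing D] [AddCommGroup V] [Module D V]
    {T : I → Module.End D V} (f : Module.End D V) (hc : ∀ x, Commute f (T x))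
    (hinj : Function.Injective f) (j : ℤ) (p : V) (i : ℤ) :
    hf (Gen T (fun _ => (1 : ℤ)) {(j + 1, f p)}) i =
      hf (Gen T (fun _ => (1 : ℤ)) {(j, p)}) (i - 1) := by
  set U := Gen T (fun _ => (1 : ℤ)) {(j, p)}
  set U' := Gen T (fun _ => (1 : ℤ)) {(j + 1, f p)}
  have e1 : U' ≤ supMap f 1 U ⊥ := by
    refine Gen_le (stable_supMap hc 1 (Gen_stable _ _ _) (stable_bot _ _)) ?_
    rintro _ rfl
    exact maps_supMap f 1 U ⊥ j p (mem_Gen T _ (p := (j, p)) (Set.mem_singleton _))
  have e2 : U ≤ infComap f 1 U U' := by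
    refine Gen_le (stable_infComap hc 1 (Gen_stable _ _ _) (Gen_stable _ _ _)) ?_
    rintro _ rfl
    exact ⟨mem_Gen T _ (p := (j, p)) (Set.mem_singleton _),
      mem_Gen T _ (p := (j + 1, f p)) (Set.mem_singleton _)⟩
  have : U' i = (U (i - 1)).map f := by
    refine le_antisymm ((e1 i).trans (sup_le bot_le le_rfl)) ?_
    rintro _ ⟨v, hv, rfl⟩
    have := (e2 _ hv).2
    rwa [sub_add_cancel] at this
  rw [hf, hf, this, ← LinearEquiv.finrank_eq (Submodule.equivMapOfInjective f hinj _)]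

end CycAux

open CycAux

variable {Z : Type u} [Field Z] {D : Type u} [DivisionRing D] [Algebra Z D] {N : Node Z}
variable {R : RD (Oo D N.Var)} {c k0 : ℤ}
variable {V : Type u} [AddCommGroup V] [Module (Oo D N.Var) V]

theorem IsRD.C_span (hR : IsRD R c k0) (h : Gr D N V) (p : V) :
    R.C (Submodule.span (Oo D N.Var) {p}) :=
  (hR.C_iff _).2 ⟨h.of_inj (Submodule.subtype _) (Submodule.subtype_injective _), inferInstance⟩

/-- Cyclic modules have rank at most one. -/
theorem IsRD.r_cyc_le (hN : N.OK) (hR : IsRD R c k0) (h : Gr D N V) {j : ℤ} {p : V}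
    (hp : pr D N.Var j • p = p) : R.r (Submodule.span (Oo D N.Var) {p}) ≤ 1 := by
  have h1 := hR.aff _ (hR.C_span h p)
  rw [hfO_span h hp] at h1
  set r := R.r (Submodule.span (Oo D N.Var) {p})
  set d := R.d (Submodule.span (Oo D N.Var) {p})
  have h2 : (r - 1) * N.deg ≤ 0 := by
    refine nonpos_of_eventually (b := N.deg * (1 - j) - r * c - (r * k0 - d) * N.deg) ?_
    filter_upwards [h1, eventually_ge_atTop j] with i e1 e2
    obtain ⟨k, rfl⟩ := Int.le.dest e2
    have := finrank_Gen_le hN (isRep_thV (V := V)) (Und.mk D N.Var p) (fun w => h.eqn w p) j k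
    rw [hf] at e1
    rw [e1] at this
    linarith
  have := hN.deg_pos
  by_contra h3
  nlinarith

theorem IsRD.r_eq_zero_of_y1 (hN : N.OK) (hR : IsRD R c k0) (h : R.C V)
    (h1 : ∀ v : V, th0 Z D N.Var (X (Sum.inl 1)) • v = 0) : R.r V = 0 := by
  obtain ⟨hG, _⟩ := (hR.C_iff V).1 h
  have h2 := MG.hs closed_EvZero
    (by simpa using isWH_one_iff.2 ((isHomogeneous_X Z (Sum.inl 0 : N.Var)).pow 1))
    (evz (D := D) hN 1 1) _ _ isRep_thV _ _ hG.pair (by
      rintro _ (rfl | hx)
      · intro g v _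
        rw [pow_one]
        exact h1 v
      · exact hG.kills _ hx)
  have h3 := hR.aff V h
  have h4 := (tendsto_atTop_add_const_right atTop (-1) tendsto_id).eventually h3
  obtain ⟨i, e1, e2, e3⟩ := (h2.and (h3.and h4)).exists
  simp only [hf_bot, sub_zero, map_sub, map_one, act_mon, LinearMap.sub_apply,
    Module.End.one_apply, Pi.sub_apply, shift_apply, Nat.cast_one] at e1
  have e4 : R.r V * N.deg = 0 := by
    change hfO D N.Var V i - hfO D N.Var V (i + -1) = 0 at e1
    rw [e2] at e1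
    simp only [id] at e3
    rw [e3] at e1
    linarith
  exact (mul_eq_zero.1 e4).resolve_right hN.deg_pos.ne'

theorem IsRD.fl (hN : N.OK) (hR : IsRD R c k0) (h : R.C V) (k : ℕ)
    (h0 : ∀ v : V, th0 Z D N.Var (X (Sum.inl 0) ^ k) • v = 0)
    (h1 : ∀ v : V, th0 Z D N.Var (X (Sum.inl 1) ^ k) • v = 0) : R.r V = 0 ∧ R.d V = 0 := by
  obtain ⟨hG, _⟩ := (hR.C_iff V).1 h
  have h2 := evz (D := D) hN k k _ _ isRep_thV _ _ hG.pair (by
    rintro _ (rfl | rfl | hx)
    · exact fun g v _ => h0 v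
    · exact fun g v _ => h1 v
    · exact hG.kills _ hx)
  have h3 : Aff N.deg c (hfO D N.Var V) 0 0 := by
    filter_upwards [h2] with i e1
    simpa [hfO] using e1
  obtain ⟨e1, e2⟩ := (hR.aff V h).unique hN.deg_pos.ne' h3
  rw [e1] at e2
  exact ⟨e1, by simpa using e2⟩

theorem IsRD.y1_shift (hN : N.OK) (hR : IsRD R c k0) (h : Gr D N V) {j : ℤ} {p : V}
    (hp : pr D N.Var j • p = p)
    (hinj : ∀ v : V, th0 Z D N.Var (X (Sum.inl 1)) • v = 0 → v = 0) :
    R.r (Submodule.span (Oo D N.Var) {th0 Z D N.Var (X (Sum.inl 1)) • p}) =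
        R.r (Submodule.span (Oo D N.Var) {p}) ∧
      R.d (Submodule.span (Oo D N.Var) {th0 Z D N.Var (X (Sum.inl 1)) • p}) =
        R.d (Submodule.span (Oo D N.Var) {p}) + R.r (Submodule.span (Oo D N.Var) {p}) := by
  have hp' : pr D N.Var (j + 1) • th0 Z D N.Var (X (Sum.inl 1)) • p =
      th0 Z D N.Var (X (Sum.inl 1)) • p := by rw [h.var, hp]
  have h1 := hR.aff _ (hR.C_span h p)
  have h2 := hR.aff _ (hR.C_span h (th0 Z D N.Var (X (Sum.inl 1)) • p))
  rw [hfO_span h hp] at h1
  rw [hfO_span h hp'] at h2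
  have e3 := hf_Gen_shift (T := fun x => thV Z D N.Var V (X x)) (thV Z D N.Var V (X (Sum.inl 1)))
    (fun x => rep_commute _ _ _) ((injective_iff_map_eq_zero _).2 hinj) j (Und.mk D N.Var p)
  set r := R.r (Submodule.span (Oo D N.Var) {p})
  set d := R.d (Submodule.span (Oo D N.Var) {p})
  have h3 : Aff N.deg c (hf (Gen (fun x => thV Z D N.Var V (X x)) (fun _ => (1 : ℤ))
      {(j + 1, thV Z D N.Var V (X (Sum.inl 1)) (Und.mk D N.Var p))})) r (r * k0 - d - r) := by
    filter_upwards [(tendsto_atTop_add_const_right atTop (-1) tendsto_id).eventually h1] with i e4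
    rw [e3, sub_eq_add_neg]
    simp only [id] at e4
    rw [e4]; ring
  obtain ⟨e4, e5⟩ := h2.unique hN.deg_pos.ne' h3
  rw [e4] at e5
  exact ⟨e4, by linarith⟩

end Vale.Agent.EGH
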