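import Vale.Agent.EGH.GrBasic
import Vale.Agent.EGH.NodeBasic
import Vale.Agent.EGH.RDBasic

/-! A cyclic graded module of positive rank from a generic point. -/

namespace Vale.Agent.EGH

open Module MvPolynomial Filter TensorProduct

universe u

namespace GenAux

/-- Right multiplication through a ring map from a commutative ring. -/
def rightHom (D : Type*) [Ring D] {P : Type*} [CommRing P] {A : Type*} [Ring A] [Module D A]
    [IsScalarTower D A A] (ρ : P →+* A) : P →+* Module.End D A where
  toFun p := LinearMap.mulRight D (ρ p)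
  map_one' := by rw [map_one]; exact LinearMap.mulRight_one _ _
  map_mul' p q := by
    refine LinearMap.ext fun x => ?_
    rw [mul_comm p q, map_mul]
    simp [mul_assoc]
  map_zero' := by rw [map_zero]; exact LinearMap.mulRight_zero_eq_zero _ _
  map_add' p q := by
    refine LinearMap.ext fun x => ?_
    rw [map_add]
    simp [mul_add]

theorem eval₂_single {Z Ω σ : Type*} [CommRing Z] [CommRing Ω] (f : Z →+* Ω) (ξ : σ → Ω)
    {p : MvPolynomial σ Z} {k : ℕ} (hp : p.IsHomogeneous k) :
    eval₂ ((AddMonoidAlgebra.singleZeroRingHom : Ω →+* AddMonoidAlgebra Ω ℤ).comp f)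
      (fun v => AddMonoidAlgebra.single 1 (ξ v)) p =
      AddMonoidAlgebra.single (k : ℤ) (eval₂ f ξ p) := by
  have hm : ∀ (α : σ →₀ ℕ), (α.prod fun v e => (AddMonoidAlgebra.single (1 : ℤ) (ξ v)) ^ e) =
      AddMonoidAlgebra.single (α.degree : ℤ) (α.prod fun v e => ξ v ^ e) := by
    intro α
    induction α using Finsupp.induction_linear with
    | zero => simp only [Finsupp.prod_zero_index, map_zero, Nat.cast_zero]; rfl
    | add α β hα hβ =>
      rw [Finsupp.prod_add_index' (by simp) (by simp [pow_add]),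
        Finsupp.prod_add_index' (by simp) (by simp [pow_add]), hα, hβ,
        AddMonoidAlgebra.single_mul_single, map_add, Nat.cast_add]
    | single v e => simp [-LaurentPolynomial.single_eq_C_mul_T, AddMonoidAlgebra.single_pow]
  rw [p.as_sum, eval₂_sum, eval₂_sum, ← AddMonoidAlgebra.singleAddHom_apply, map_sum]
  refine Finset.sum_congr rfl fun α hα => ?_
  have : α.degree = k := by
    by_contra h
    exact mem_support_iff.1 hα (hp.coeff_eq_zero h)
  rw [eval₂_monomial, eval₂_monomial, hm, this]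
  simp [-LaurentPolynomial.single_eq_C_mul_T, AddMonoidAlgebra.single_mul_single]

theorem pos_of_eventually {r a b : ℤ} (hr : 0 ≤ r) (h : ∀ᶠ i in atTop, i + a ≤ r * i + b) :
    0 < r := by
  refine lt_of_le_of_ne hr fun h0 => ?_
  obtain ⟨i, hi, hi'⟩ := (h.and (eventually_gt_atTop (b - a))).exists
  rw [← h0] at hi
  omega

theorem exists_transc (Z : Type u) [Field Z] :
    ∃ (Ω : Type u) (_ : Field Ω) (_ : IsAlgClosed Ω) (_ : Algebra Z Ω) (x : Ω),
      LinearIndependent Z fun a : ℕ => x ^ a := by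
  let F := FractionRing (Polynomial Z)
  let Ω := AlgebraicClosure F
  let f : Polynomial Z →ₐ[Z] Ω :=
    (IsScalarTower.toAlgHom Z F Ω).comp (IsScalarTower.toAlgHom Z (Polynomial Z) F)
  have hf : Function.Injective f :=
    (algebraMap F Ω).injective.comp (IsFractionRing.injective (Polynomial Z) F)
  refine ⟨Ω, inferInstance, inferInstance, inferInstance, f Polynomial.X, ?_⟩
  have h1 := (Polynomial.basisMonomials Z).linearIndependent.map' f.toLinearMap
    (LinearMap.ker_eq_bot.2 hf)
  have h2 : (fun a : ℕ => f Polynomial.X ^ a) = f.toLinearMap ∘ Polynomial.basisMonomials Z := by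
    funext a
    simp [← Polynomial.X_pow_eq_monomial]
  rwa [h2]

end GenAux

open GenAux

variable {Z : Type u} [Field Z] {D : Type u} [DivisionRing D] [Algebra Z D] {N : Node Z}

theorem IsRD.exists_cyc_pos (hN : N.OK) {R : RD (Oo D N.Var)} {c k0 : ℤ} (hR : IsRD R c k0)
    (j : ℤ) : ∃ (V : Type u) (_ : AddCommGroup V) (_ : Module (Oo D N.Var) V) (p : V),
      R.C V ∧ pr D N.Var j • p = p ∧ Submodule.span (Oo D N.Var) {p} = ⊤ ∧ 0 < R.r V := by
  classical
  obtain ⟨Ω, _, _, _, x, hx⟩ := exists_transc Z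
  obtain ⟨ξ, hξ, hξe⟩ := hN.exists_point (algebraMap Z Ω) ![x, 1]
  let A := D ⊗[Z] Ω
  let M := AddMonoidAlgebra A ℤ
  let inc : Ω →+* A := (Algebra.TensorProduct.includeRight : Ω →ₐ[Z] A).toRingHom
  let ρ : MvPolynomial N.Var Z →+* M := (AddMonoidAlgebra.mapRingHom ℤ inc).comp
    (eval₂Hom ((AddMonoidAlgebra.singleZeroRingHom : Ω →+* AddMonoidAlgebra Ω ℤ).comp
      (algebraMap Z Ω)) fun v => AddMonoidAlgebra.single 1 (ξ v))
  have hρ : ∀ {p : MvPolynomial N.Var Z} {k : ℕ}, p.IsHomogeneous k →
      ρ p = AddMonoidAlgebra.single (k : ℤ) (inc (eval₂ (algebraMap Z Ω) ξ p)) := by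
    intro p k hp
    simp only [ρ, RingHom.comp_apply, coe_eval₂Hom, eval₂_single _ _ hp]
    simp [-LaurentPolynomial.single_eq_C_mul_T]
  let θ : MvPolynomial N.Var Z →+* Module.End D M := rightHom D ρ
  have hθa : ∀ p (v : M), θ p v = v * ρ p := fun _ _ => rfl
  have hθ : IsRep θ := by
    intro z v
    rw [hθa, hρ (isHomogeneous_C _ z), eval₂_C]
    ext i
    rw [Nat.cast_zero, AddMonoidAlgebra.coeff_mul_single_zero, AddMonoidAlgebra.coeff_smul,
      Finsupp.smul_apply, algebraMap_smul, Algebra.smul_def, Algebra.commutes]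
    exact congrArg _ ((Algebra.TensorProduct.includeRight : Ω →ₐ[Z] A).commutes z)
  let π : ℤ → Module.End D M := fun i =>
    { toFun := fun v => AddMonoidAlgebra.single i (v.coeff i)
      map_add' := fun v w => AddMonoidAlgebra.single_add i (v.coeff i) (w.coeff i)
      map_smul' := fun d v => (AddMonoidAlgebra.smul_single d i (v.coeff i)).symm }
  have hπ : ∀ i (v : M), π i v = AddMonoidAlgebra.single i (v.coeff i) := fun _ _ => rfl
  obtain ⟨_, hD, hP, hpr⟩ := exists_module M θ hθ π
  have hG : Gr D N M := by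
    refine ⟨fun v => ⟨v.coeff.support, fun i hi => ?_, ?_⟩, fun i v => ?_, fun i i' v h => ?_,
      fun i y v => ?_, fun w v => ?_⟩
    · rw [hpr, hπ, Finsupp.notMem_support_iff.1 hi, AddMonoidAlgebra.single_zero]
    · simp only [hpr, hπ]
      exact AddMonoidAlgebra.sum_coeff_single v
    · simp [-LaurentPolynomial.single_eq_C_mul_T, hpr, hπ]
    · simp [-LaurentPolynomial.single_eq_C_mul_T, hpr, hπ, Finsupp.single_eq_of_ne h]
    · rw [hP, hP, hpr, hpr, hπ, hπ, hθa, hθa, hρ (isHomogeneous_X _ y), Nat.cast_one,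
        AddMonoidAlgebra.coeff_mul_single_add, AddMonoidAlgebra.single_mul_single]
    · rw [hP, hθa, hρ (hN.eqn_hom w), hξe, map_zero, AddMonoidAlgebra.single_zero, mul_zero]
  let p : M := AddMonoidAlgebra.single j 1
  have hp : pr D N.Var j • p = p := by simp [-LaurentPolynomial.single_eq_C_mul_T, hpr, hπ, p]
  let V := Submodule.span (Oo D N.Var) {p}
  have hC : R.C V := (hR.C_iff _).2
    ⟨hG.of_inj (Submodule.subtype _) (Submodule.subtype_injective _), inferInstance⟩
  refine ⟨V, inferInstance, inferInstance, ⟨p, Submodule.mem_span_singleton_self p⟩, hC,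
    Subtype.ext hp, ?_, ?_⟩
  · rw [eq_top_iff]
    rintro ⟨v, hv⟩ -
    obtain ⟨o, rfl⟩ := Submodule.mem_span_singleton.1 hv
    exact Submodule.mem_span_singleton.2 ⟨o, rfl⟩
  have key : ∀ k : ℕ, (k : ℤ) + 1 ≤ hfO D N.Var V (j + k) := by
    intro k
    have hfd := hR.fd V hC (j + k)
    have hq : ∀ a : Fin (k + 1), (X (Sum.inl 0) ^ (a : ℕ) * X (Sum.inl 1) ^ (k - a) :
        MvPolynomial N.Var Z).IsHomogeneous k := fun a => by
      have := ((isHomogeneous_X Z (Sum.inl 0 : N.Var)).pow a).mul
        ((isHomogeneous_X Z (Sum.inl 1 : N.Var)).pow (k - a))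
      rwa [one_mul, one_mul, Nat.add_sub_cancel' (Nat.lt_succ_iff.1 a.2)] at this
    let v : Fin (k + 1) → piece D N.Var V (j + k) := fun a =>
      ⟨Und.mk D N.Var (⟨th0 Z D N.Var (X (Sum.inl 0) ^ (a : ℕ) * X (Sum.inl 1) ^ (k - a)) • p,
        Submodule.smul_mem _ _ (Submodule.mem_span_singleton_self p)⟩ : V),
        Subtype.ext (by
          change pr D N.Var (j + k) • th0 Z D N.Var _ • p = th0 Z D N.Var _ • p
          rw [hG.pr_th0 (hq a), hp])⟩
    let φ : piece D N.Var V (j + k) →ₗ[D] A :=
      { toFun := fun w => ((Und.out w.1 : V) : M).coeff (j + k)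
        map_add' := fun w w' => rfl
        map_smul' := fun d w => by
          change (jD D N.Var d • ((Und.out w.1 : V) : M)).coeff (j + k) = _
          rw [hD]
          rfl }
    have hv : LinearIndependent D v := by
      refine LinearIndependent.of_comp φ ?_
      have := (Module.Flat.linearIndependent_one_tmul (S := D) hx).comp
        (Fin.val : Fin (k + 1) → ℕ) Fin.val_injective
      have e : φ ∘ v = (fun a : ℕ => (1 : D) ⊗ₜ[Z] (x ^ a)) ∘ Fin.val := ?_
      · rwa [e]
      funext a
      change (th0 Z D N.Var _ • p).coeff (j + k) = _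
      rw [hP, hθa, hρ (hq a), AddMonoidAlgebra.single_mul_single]
      simp [-LaurentPolynomial.single_eq_C_mul_T, hξ, inc]
    have := hv.fintype_card_le_finrank
    rw [Fintype.card_fin] at this
    rw [hfO, hf]
    exact_mod_cast this
  have h1 := hR.aff V hC
  have h2 : 0 < R.r V * N.deg := by
    refine pos_of_eventually (a := 1 - j) (b := R.r V * c + (R.r V * k0 - R.d V) * N.deg)
      (mul_nonneg (R.r_nonneg V hC) hN.deg_pos.le) ?_
    filter_upwards [h1, eventually_ge_atTop j] with i e1 e2
    obtain ⟨k, rfl⟩ := Int.le.dest e2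
    have := key k
    rw [e1] at this
    linarith
  exact (mul_pos_iff_of_pos_right hN.deg_pos).1 h2

end Vale.Agent.EGH
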