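import Vale.Agent.EGH.GrRD
import Vale.Agent.EGH.CycA
import Vale.Agent.EGH.GenPt

/-! The structure sheaf and its twists. -/

namespace Vale.Agent.EGH

open Module MvPolynomial Filter

universe u

variable {Z : Type u} [Field Z] {D : Type u} [DivisionRing D] [Algebra Z D] {N : Node Z}

namespace CtxAux

variable {R : RD (Oo D N.Var)} {c k0 : ℤ}
variable {V V' : Type u} [AddCommGroup V] [Module (Oo D N.Var) V]
  [AddCommGroup V'] [Module (Oo D N.Var) V']

theorem exists_tfc (hN : N.OK) (hR : IsRD R c k0) (j : ℤ) :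
    ∃ (A : Type u) (_ : AddCommGroup A) (_ : Module (Oo D N.Var) A) (o : A),
      R.C A ∧ R.TF A ∧ pr D N.Var j • o = o ∧ Submodule.span (Oo D N.Var) {o} = ⊤ ∧ R.r A = 1 := by
  obtain ⟨V, _, _, p, h1, h2, h3, h4⟩ := hR.exists_cyc_pos hN j
  obtain ⟨M, h5, h6⟩ := RD.exists_tf_quot h1
  have h7 := RD.C_quot h1 M
  have h8 : pr D N.Var j • M.mkQ p = M.mkQ p := by rw [← map_smul, h2]
  have h9 : Submodule.span (Oo D N.Var) {M.mkQ p} = ⊤ := by
    rw [← Set.image_singleton, ← Submodule.map_span, h3, Submodule.map_top, Submodule.range_mkQ]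
  have h10 := hR.r_cyc_le hN ((hR.C_iff _).1 h7).1 h8
  have h11 := RD.add_quot h1 M
  have h12 := RD.top h7
  rw [h9] at h10
  exact ⟨V ⧸ M, inferInstance, inferInstance, M.mkQ p, h7, h6, h8, h9, by omega⟩

theorem r_span (hN : N.OK) (hR : IsRD R c k0) (h : R.C V) (ht : R.TF V) {j : ℤ} {p : V}
    (hp : pr D N.Var j • p = p) (h0 : p ≠ 0) : R.r (Submodule.span (Oo D N.Var) {p}) = 1 := by
  have h1 := hR.r_cyc_le hN ((hR.C_iff _).1 h).1 hp
  have h2 := R.r_nonneg _ (RD.C_sub h (Submodule.span (Oo D N.Var) {p}))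
  have h3 : R.r (Submodule.span (Oo D N.Var) {p}) ≠ 0 := fun e =>
    h0 (Submodule.span_singleton_eq_bot.1 (ht _ e))
  omega

theorem ann (hN : N.OK) (hR : IsRD R c k0) (h : R.C V) (ht : R.TF V) (h' : R.C V') (ht' : R.TF V')
    {j : ℤ} {p : V} {p' : V'} (hp : pr D N.Var j • p = p) (hp' : pr D N.Var j • p' = p')
    (h0 : p ≠ 0) (x : Oo D N.Var) (hx : x • p = 0) : x • p' = 0 := by
  have hP := R.C_prod _ _ h h'
  have h1 := hR.r_cyc_le hN ((hR.C_iff _).1 hP).1 (j := j) (p := (p, p')) (Prod.ext hp hp')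
  have h2 := RD.add_map (Submodule.span (Oo D N.Var) {(p, p')}) (RD.C_sub hP _)
    (LinearMap.fst _ V V')
  rw [Submodule.map_span, Set.image_singleton, show LinearMap.fst _ V V' (p, p') = p from rfl]
    at h2
  have h3 := r_span hN hR h ht hp h0
  have h4 := RD.add_map _ h2.2.1 (LinearMap.snd _ V V')
  have h5 := R.r_nonneg _ h4.1
  have h6 := R.r_nonneg _ h4.2.1
  have h7 := ht' ((Submodule.span (Oo D N.Var) {(p, p')} ⊓
    LinearMap.ker (LinearMap.fst _ V V')).map (LinearMap.snd _ V V')) (by omega)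
  exact (Submodule.eq_bot_iff _).1 h7 _ ⟨x • (p, p'),
    ⟨Submodule.smul_mem _ x (Submodule.mem_span_singleton_self _), hx⟩, rfl⟩

theorem d_span_eq (hN : N.OK) (hR : IsRD R c k0) (h : R.C V) (ht : R.TF V) (h' : R.C V')
    (ht' : R.TF V') {j : ℤ} {p : V} {p' : V'} (hp : pr D N.Var j • p = p)
    (hp' : pr D N.Var j • p' = p') (h0 : p ≠ 0) (h0' : p' ≠ 0) :
    R.d (Submodule.span (Oo D N.Var) {p}) = R.d (Submodule.span (Oo D N.Var) {p'}) := by
  have hP := R.C_prod _ _ h h'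
  have h1 := RD.add_map (Submodule.span (Oo D N.Var) {(p, p')}) (RD.C_sub hP _)
    (LinearMap.fst _ V V')
  have h2 := RD.add_map (Submodule.span (Oo D N.Var) {(p, p')}) (RD.C_sub hP _)
    (LinearMap.snd _ V V')
  have h3 : Submodule.span (Oo D N.Var) {(p, p')} ⊓ LinearMap.ker (LinearMap.fst _ V V') = ⊥ := by
    refine (Submodule.eq_bot_iff _).2 fun v hv => ?_
    obtain ⟨x, rfl⟩ := Submodule.mem_span_singleton.1 hv.1
    exact Prod.ext hv.2 (ann hN hR h ht h' ht' hp hp' h0 x hv.2)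
  have h4 : Submodule.span (Oo D N.Var) {(p, p')} ⊓ LinearMap.ker (LinearMap.snd _ V V') = ⊥ := by
    refine (Submodule.eq_bot_iff _).2 fun v hv => ?_
    obtain ⟨x, rfl⟩ := Submodule.mem_span_singleton.1 hv.1
    exact Prod.ext (ann hN hR h' ht' h ht hp' hp h0' x hv.2) hv.2
  rw [h3, Submodule.map_span, Set.image_singleton,
    show LinearMap.fst _ V V' (p, p') = p from rfl] at h1
  rw [h4, Submodule.map_span, Set.image_singleton,
    show LinearMap.snd _ V V' (p, p') = p' from rfl] at h2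
  omega

theorem y1_inj (hN : N.OK) (hR : IsRD R c k0) (h : R.C V) (ht : R.TF V) (v : V)
    (hv : th0 Z D N.Var (X (Sum.inl 1)) • v = 0) : v = 0 := by
  obtain ⟨M, hM⟩ := ((hR.C_iff _).1 h).1.exists_ker (isHomogeneous_X Z (Sum.inl 1))
  have h1 := ht M (hR.r_eq_zero_of_y1 hN (RD.C_sub h M) fun w => Subtype.ext ((hM w).1 w.2))
  exact (Submodule.eq_bot_iff _).1 h1 v ((hM v).2 hv)

theorem deg_th0 (h : Gr D N V) {q : MvPolynomial N.Var Z} {k : ℕ} (hq : q.IsHomogeneous k)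
    {j : ℤ} {p : V} (hp : pr D N.Var j • p = p) :
    pr D N.Var (j + k) • th0 Z D N.Var q • p = th0 Z D N.Var q • p := by
  rw [h.pr_th0 hq, hp]

theorem y1_pow (hN : N.OK) (hR : IsRD R c k0) (h : R.C V) (ht : R.TF V) {j : ℤ} {p : V}
    (hp : pr D N.Var j • p = p) (h0 : p ≠ 0) (k : ℕ) :
    th0 Z D N.Var (X (Sum.inl 1) ^ k) • p ≠ 0 ∧
      R.d (Submodule.span (Oo D N.Var) {th0 Z D N.Var (X (Sum.inl 1) ^ k) • p}) =
        R.d (Submodule.span (Oo D N.Var) {p}) + k := by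
  have hG := ((hR.C_iff _).1 h).1
  induction k with
  | zero =>
    rw [pow_zero, map_one, one_smul]
    exact ⟨h0, by simp⟩
  | succ k ih =>
    have h1 := deg_th0 hG (isHomogeneous_X_pow (R := Z) (Sum.inl 1 : N.Var) k) hp
    have h2 := hR.y1_shift hN hG h1 (y1_inj hN hR h ht)
    have h3 := r_span hN hR h ht h1 ih.1
    rw [pow_succ', map_mul, mul_smul]
    refine ⟨fun e => ih.1 (y1_inj hN hR h ht _ e), ?_⟩
    rw [h2.2, h3, ih.2]
    push_cast
    ring

theorem exists_map {O : Type*} [Ring O] {A B : Type*} [AddCommGroup A] [Module O A]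
    [AddCommGroup B] [Module O B] {o : A} (ho : Submodule.span O {o} = ⊤) {q : B}
    (h : ∀ x : O, x • o = 0 → x • q = 0) : ∃ μ : A →ₗ[O] B, μ o = q := by
  have h1 : Function.Surjective (LinearMap.toSpanSingleton O A o) := by
    rw [← LinearMap.range_eq_top, LinearMap.range_toSpanSingleton, ho]
  refine ⟨(LinearMap.ker (LinearMap.toSpanSingleton O A o)).liftQ
    (LinearMap.toSpanSingleton O B q) h ∘ₗ
      ((LinearMap.toSpanSingleton O A o).quotKerEquivOfSurjective h1).symm.toLinearMap, ?_⟩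
  have h2 : ((LinearMap.toSpanSingleton O A o).quotKerEquivOfSurjective h1).symm o =
      Submodule.Quotient.mk 1 := by
    rw [LinearEquiv.symm_apply_eq]
    simp
  rw [LinearMap.comp_apply, LinearEquiv.coe_coe, h2]
  exact one_smul O q

variable {A : Type u} [AddCommGroup A] [Module (Oo D N.Var) A] {o : A}

theorem cyc (hN : N.OK) (hR : IsRD R c k0) (hA : R.C A) (tA : R.TF A) (rA : R.r A = 1)
    (dA : R.d A = 1) (ho : pr D N.Var 0 • o = o) (hs : Submodule.span (Oo D N.Var) {o} = ⊤)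
    (h : R.C V) (ht : R.TF V) {j : ℤ} {p : V} (hp : pr D N.Var j • p = p) (h0 : p ≠ 0) :
    R.d (Submodule.span (Oo D N.Var) {p}) = 1 + j := by
  have h1 := RD.top hA
  have h2 := RD.bot hA
  have h3 : o ≠ 0 := by
    intro e
    rw [e, Submodule.span_zero_singleton] at hs
    rw [hs] at h2
    omega
  rw [← hs] at h1
  obtain ⟨k, rfl | rfl⟩ := Int.eq_nat_or_neg j
  · have h4 := y1_pow hN hR hA tA ho h3 k
    have h5 := deg_th0 ((hR.C_iff _).1 hA).1
      (isHomogeneous_X_pow (R := Z) (Sum.inl 1 : N.Var) k) ho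
    rw [zero_add] at h5
    have h6 := d_span_eq hN hR h ht hA tA hp h5 h0 h4.1
    omega
  · have h4 := y1_pow hN hR h ht hp h0 k
    have h5 := deg_th0 ((hR.C_iff _).1 h).1
      (isHomogeneous_X_pow (R := Z) (Sum.inl 1 : N.Var) k) hp
    rw [neg_add_cancel] at h5
    have h6 := d_span_eq hN hR h ht hA tA h5 ho h4.1 h3
    omega

theorem chain0 (S : Submodule (Oo D N.Var) V) (e : ℕ → V)
    (h0 : th0 Z D N.Var (X (Sum.inl 0)) • e 0 ∈ S)
    (h1 : ∀ m, th0 Z D N.Var (X (Sum.inl 0)) • e (m + 1) -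
      th0 Z D N.Var (X (Sum.inl 1)) • e m ∈ S) (j m : ℕ) (hm : m < j) :
    th0 Z D N.Var (X (Sum.inl 0) ^ j) • e m ∈ S := by
  have a0 : ∀ m, th0 Z D N.Var (X (Sum.inl 0) ^ (m + 1)) • e m ∈ S := by
    intro m
    induction m with
    | zero => simpa using h0
    | succ m ih =>
      have h2 := add_mem (S.smul_mem (th0 Z D N.Var (X (Sum.inl 0) ^ (m + 1))) (h1 m))
        (S.smul_mem (th0 Z D N.Var (X (Sum.inl 1))) ih)
      rwa [smul_sub, ← mul_smul, ← mul_smul, ← mul_smul, ← map_mul, ← map_mul, ← map_mul,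
        mul_comm (X (Sum.inl 1)), sub_add_cancel, ← pow_succ] at h2
  obtain ⟨t, rfl⟩ := Nat.exists_eq_add_of_lt hm
  rw [add_comm m t, add_assoc, pow_add, map_mul, mul_smul]
  exact S.smul_mem _ (a0 m)

theorem chain1 (S : Submodule (Oo D N.Var) V) (e : ℕ → V) (j : ℕ) (h0 : ∀ m, j ≤ m → e m = 0)
    (h1 : ∀ m, th0 Z D N.Var (X (Sum.inl 0)) • e (m + 1) -
      th0 Z D N.Var (X (Sum.inl 1)) • e m ∈ S) (t : ℕ) :
    ∀ m, j ≤ m + t → th0 Z D N.Var (X (Sum.inl 1) ^ t) • e m ∈ S := by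
  induction t with
  | zero =>
    intro m hm
    rw [h0 m hm, smul_zero]
    exact zero_mem _
  | succ t ih =>
    intro m hm
    have h2 := sub_mem (S.smul_mem (th0 Z D N.Var (X (Sum.inl 0))) (ih (m + 1) (by omega)))
      (S.smul_mem (th0 Z D N.Var (X (Sum.inl 1) ^ t)) (h1 m))
    rwa [smul_sub, ← mul_smul, ← mul_smul, ← mul_smul, ← map_mul, ← map_mul, ← map_mul,
      mul_comm (X (Sum.inl 0)), sub_sub_cancel, ← pow_succ] at h2

theorem coker_fl (hN : N.OK) (hR : IsRD R c k0) (h : R.C V) {q : V}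
    (hs : Submodule.span (Oo D N.Var) {q} = ⊤) (j : ℕ) (S : Submodule (Oo D N.Var) (Fin j → V))
    (e : ℕ → Fin j → V) (he : ∀ m i, e m i = if (i : ℕ) = m then q else 0)
    (h0 : th0 Z D N.Var (X (Sum.inl 0)) • e 0 ∈ S)
    (h1 : ∀ m, th0 Z D N.Var (X (Sum.inl 0)) • e (m + 1) -
      th0 Z D N.Var (X (Sum.inl 1)) • e m ∈ S) :
    R.r ((Fin j → V) ⧸ S) = 0 ∧ R.d ((Fin j → V) ⧸ S) = 0 := by
  have hQ := RD.C_quot (RD.pi h j).1 S
  have gen : ∀ p : MvPolynomial N.Var Z, p.IsHomogeneous j →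
      (∀ m, m < j → th0 Z D N.Var p • e m ∈ S) →
      ∀ v : (Fin j → V) ⧸ S, th0 Z D N.Var p • v = 0 := by
    intro p hp hm v
    obtain ⟨M, hM⟩ := ((hR.C_iff _).1 hQ).1.exists_ker hp
    obtain ⟨w, rfl⟩ := S.mkQ_surjective v
    rw [← hM, ← Finset.univ_sum_single w, map_sum]
    refine M.sum_mem fun i _ => ?_
    obtain ⟨x, hx⟩ := Submodule.mem_span_singleton.1 (hs ▸ Submodule.mem_top : w i ∈ _)
    have h2 : Pi.single i (w i) = x • e i := by
      funext i'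
      rw [Pi.smul_apply, he, Pi.single_apply, ← hx]
      simp [Fin.ext_iff]
    rw [h2, map_smul]
    refine M.smul_mem x ((hM _).2 ?_)
    rw [← map_smul]
    exact (Submodule.Quotient.mk_eq_zero S).2 (hm i i.2)
  refine hR.fl hN hQ j (gen _ (isHomogeneous_X_pow _ j) (chain0 S e h0 h1 j))
    (gen _ (isHomogeneous_X_pow _ j) fun m _ => chain1 S e j (fun m hm => funext fun i => ?_) h1
      j m (by omega))
  have := i.2
  rw [he, if_neg (by omega), Pi.zero_apply]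

theorem ym_hom (j : ℕ) (i : Fin (j + 1)) :
    (X (Sum.inl 0) ^ (i : ℕ) * X (Sum.inl 1) ^ (j - i) : MvPolynomial N.Var Z).IsHomogeneous j := by
  have := (isHomogeneous_X_pow (R := Z) (Sum.inl 0 : N.Var) i).mul
    (isHomogeneous_X_pow (R := Z) (Sum.inl 1 : N.Var) (j - i))
  rwa [Nat.add_sub_cancel' (Nat.lt_succ_iff.1 i.2)] at this

theorem ctx (hN : N.OK) (hR : IsRD R c k0) (hA : R.C A) (tA : R.TF A) (rA : R.r A = 1)
    (dA : R.d A = 1) (ho : pr D N.Var 0 • o = o) (hs : Submodule.span (Oo D N.Var) {o} = ⊤) :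
    Ctx R o := by
  have o0 : o ≠ 0 := by
    intro e
    have h1 := RD.top hA
    have h2 := RD.bot hA
    rw [e, Submodule.span_zero_singleton] at hs
    rw [hs] at h2
    omega
  have vne : ∀ j : ℕ, (fun i : Fin (j + 1) => ym D N j i • o) ≠ 0 := by
    intro j e
    refine (y1_pow hN hR hA tA ho o0 j).1 ?_
    simpa [ym] using congrFun e 0
  refine ⟨hA, rA, dA, tA, ho, hs, fun V _ _ h ht j p hp h0 =>
    ⟨r_span hN hR h ht hp h0, cyc hN hR hA tA rA dA ho hs h ht hp h0⟩,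
    fun V _ _ V' _ _ h ht h' ht' j p p' hp hp' h0 => ann hN hR h ht h' ht' hp hp' h0, vne,
    fun j => ⟨(RD.pi hA j).1, tA.pi hA j⟩, fun j => ?_⟩
  obtain ⟨B, _, _, q, hB, tB, hq, sB, rB⟩ := exists_tfc hN hR (-1)
  have b1 := RD.top hB
  have b2 := RD.bot hB
  have q0 : q ≠ 0 := by
    intro e
    rw [e, Submodule.span_zero_singleton] at sB
    rw [sB] at b2
    omega
  have dB := cyc hN hR hA tA rA dA ho hs hB tB hq q0
  rw [sB] at dB
  have nB : ∀ M : Submodule (Oo D N.Var) B, 0 ≤ R.d M := by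
    intro M
    by_cases e : M = ⊥
    · rw [e]
      exact b2.2.ge
    · have h2 := RD.r_mono (RD.C_sub hB ⊤) (le_top : M ≤ ⊤)
      have h3 := R.r_nonneg _ (RD.C_sub hB M)
      have h4 : R.r M ≠ 0 := fun e' => e (tB M e')
      have h5 := RD.d_le_of_r_eq (RD.C_sub hB ⊤) (le_top : M ≤ ⊤) (by omega)
      omega
  have hμ : ∀ i : Fin 2, ∃ μ : A →ₗ[Oo D N.Var] B, μ o = th0 Z D N.Var (X (Sum.inl i)) • q := by
    intro i
    have h1 := deg_th0 ((hR.C_iff _).1 hB).1 (isHomogeneous_X Z (Sum.inl i : N.Var)) hq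
    rw [Nat.cast_one, neg_add_cancel] at h1
    exact exists_map hs (ann hN hR hA tA hB tB ho h1 o0)
  obtain ⟨μ0, m0⟩ := hμ 0
  obtain ⟨μ1, m1⟩ := hμ 1
  obtain ⟨Φ, hΦ⟩ : ∃ Φ : (Fin (j + 1) → A) →ₗ[Oo D N.Var] (Fin j → B),
      ∀ a i, Φ a i = μ0 (a i.castSucc) - μ1 (a i.succ) :=
    ⟨LinearMap.pi fun i => μ0 ∘ₗ LinearMap.proj i.castSucc - μ1 ∘ₗ LinearMap.proj i.succ,
      fun _ _ => rfl⟩
  have h1 := coker_fl hN hR hB sB j (LinearMap.range Φ) (fun m i => if (i : ℕ) = m then q else 0)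
    (fun _ _ => rfl)
    ⟨fun i => if (i : ℕ) = 0 then o else 0, funext fun i => by
      rw [hΦ, Pi.smul_apply, Fin.val_castSucc, Fin.val_succ, if_neg (Nat.succ_ne_zero _)]
      split_ifs <;> simp [m0]⟩
    (fun m => ⟨fun i => if (i : ℕ) = m + 1 then o else 0, funext fun i => by
      rw [hΦ, Pi.sub_apply, Pi.smul_apply, Pi.smul_apply, Fin.val_castSucc, Fin.val_succ]
      simp only [Nat.add_right_cancel_iff]
      split_ifs <;> simp [m0, m1]⟩)
  have hV := RD.pi hA (j + 1)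
  have hW := RD.pi hB j
  have hv : pr D N.Var j • (fun i : Fin (j + 1) => ym D N j i • o) =
      fun i : Fin (j + 1) => ym D N j i • o := funext fun i => by
    have := deg_th0 ((hR.C_iff _).1 hA).1 (ym_hom j i) ho
    rwa [zero_add] at this
  have h2 := r_span hN hR hV.1 (tA.pi hA _) hv (vne j)
  have h3 := cyc hN hR hA tA rA dA ho hs hV.1 (tA.pi hA _) hv (vne j)
  have h4 : Submodule.span (Oo D N.Var) {fun i : Fin (j + 1) => ym D N j i • o} ≤
      LinearMap.ker Φ := by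
    rw [Submodule.span_singleton_le_iff_mem, LinearMap.mem_ker]
    funext i
    have e1 : j - (i : ℕ) = j - (i + 1) + 1 := by
      have := i.2
      omega
    rw [hΦ, map_smul, map_smul, m0, m1, ← mul_smul, ← mul_smul, ym, ym, ← map_mul, ← map_mul,
      Fin.val_castSucc, Fin.val_succ, e1, Pi.zero_apply, sub_eq_zero]
    congr 2
    ring
  generalize Submodule.span (Oo D N.Var) {fun i : Fin (j + 1) => ym D N j i • o} = W
    at h2 h3 h4 ⊢
  have h5 := RD.add_quot hV.1 W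
  have h6 := RD.add_quot hW.1 (LinearMap.range Φ)
  have hQ := RD.C_quot hV.1 W
  have h7 := RD.add_range hQ (W.liftQ Φ h4)
  rw [Submodule.range_liftQ] at h7
  rw [rA, dA] at hV
  rw [rB, ← b1.2, dB] at hW
  push_cast at hV hW
  refine ⟨hQ, by omega, fun M => ?_⟩
  have h8 := RD.add_map M (RD.C_sub hQ M) (W.liftQ Φ h4)
  have h9 := RD.d_nonneg_pi hB nB j (M.map (W.liftQ Φ h4))
  have hK := RD.C_sub hQ (LinearMap.ker (W.liftQ Φ h4))
  have h10 := RD.d_sub_eq_zero hK (by omega) (by omega)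
    ((M ⊓ LinearMap.ker (W.liftQ Φ h4)).comap (Submodule.subtype _))
  have h11 := RD.congr (RD.C_sub hK _) (Submodule.comapSubtypeEquivOfLe
    (inf_le_right : M ⊓ LinearMap.ker (W.liftQ Φ h4) ≤ _))
  omega

end CtxAux

theorem exists_ctx (hN : N.OK) (c : ℤ)
    (H : MG Z D (fun _ => (1 : ℤ)) N.eqs (Lat fun i => N.deg * i + c)) :
    ∃ (k0 : ℤ) (R : RD (Oo D N.Var)) (A : Type u) (_ : AddCommGroup A)
      (_ : Module (Oo D N.Var) A) (o : A), IsRD R c k0 ∧ Ctx R o := by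
  obtain ⟨R0, h0⟩ := exists_isRD hN c H 0
  obtain ⟨A, _, _, o, h1, h2, h3, h4, h5⟩ := CtxAux.exists_tfc hN h0 0
  obtain ⟨R, hR⟩ := exists_isRD hN c H (1 - R0.d A)
  obtain ⟨h6, h7, h8⟩ := h0.change hN hR A h1
  refine ⟨_, R, A, inferInstance, inferInstance, o, hR, CtxAux.ctx hN hR h6 (fun M hM => h2 M ?_)
    (h7.trans h5) (by rw [h8, h5]; ring) h3 h4⟩
  rw [← (h0.change hN hR M (RD.C_sub h1 M)).2.1, hM]

end Vale.Agent.EGH
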