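import Vale.Agent.EGH.Basic

/-! Reduction to cyclic modules. -/

namespace Vale.Agent.EGH

open Module MvPolynomial Filter

universe u

variable {Z : Type u} [Field Z] {D : Type u} [DivisionRing D] [Algebra Z D]
variable {σ : Type}

theorem Cyc.thF_monomial (β : σ →₀ ℕ) (z : Z) (α : σ →₀ ℕ) (d : D) :
    thF Z D σ (monomial β z) (AddMonoidAlgebra.single α d) =
      AddMonoidAlgebra.single (α + β) (d * algebraMap Z D z) := by
  change AddMonoidAlgebra.single α d * AddMonoidAlgebra.mapRingHom (σ →₀ ℕ) (algebraMap Z D)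
    (AddMonoidAlgebra.single β z) = _
  rw [AddMonoidAlgebra.mapRingHom_single, AddMonoidAlgebra.single_mul_single]

theorem Cyc.Fr_eq {G : Type} [AddCommGroup G] (dg : σ → G) (g : G) :
    Fr D dg g = AddMonoidAlgebra.supported D D {α | Finsupp.weight dg α = g} := by
  ext x
  rw [AddMonoidAlgebra.mem_supported]
  exact ⟨fun h α hα => h α (by simpa using hα), fun h α hα => h (by simpa using hα)⟩

theorem thF_X_single (v : σ) (α : σ →₀ ℕ) (d : D) :
    thF Z D σ (X v) (AddMonoidAlgebra.single α d) =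
      AddMonoidAlgebra.single (α + Finsupp.single v 1) d := by
  rw [X, Cyc.thF_monomial, map_one, mul_one]

theorem Fr_eq_span {G : Type} [AddCommGroup G] (dg : σ → G) (g : G) :
    Fr D dg g = Submodule.span D
      ((fun α => AddMonoidAlgebra.single α (1 : D)) '' {α | Finsupp.weight dg α = g}) := by
  rw [Cyc.Fr_eq, AddMonoidAlgebra.supported_eq_span_single]

theorem Fr_stable {G : Type} [AddCommGroup G] (dg : σ → G) :
    Stable (fun v => thF Z D σ (X v)) dg (Fr D dg) := by
  intro v g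
  change Fr D dg g ≤ (Fr D dg (g + dg v)).comap (thF Z D σ (X v))
  rw [Fr_eq_span, Fr_eq_span, Submodule.span_le]
  rintro _ ⟨α, rfl, rfl⟩
  refine Submodule.subset_span ⟨α + Finsupp.single v 1, ?_, (thF_X_single v α 1).symm⟩
  simp [Finsupp.weight_single]

theorem Fr_le_Gen {G : Type} [AddCommGroup G] (dg : σ → G) :
    Fr D dg ≤ Gen (fun v => thF Z D σ (X v)) dg {((0 : G), (1 : AddMonoidAlgebra D (σ →₀ ℕ)))} := by
  intro g
  rw [Fr_eq_span, Submodule.span_le]
  rintro _ ⟨α, rfl, rfl⟩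
  have h := Maps.of_hom (isRep_thF (Z := Z) (D := D))
    (Gen_stable _ dg {((0 : G), (1 : AddMonoidAlgebra D (σ →₀ ℕ)))})
    (isWeightedHomogeneous_monomial dg α (1 : Z) rfl) _ _ (mem_Gen _ dg (Set.mem_singleton _))
  rw [AddMonoidAlgebra.one_def, Cyc.thF_monomial, zero_add, zero_add, map_one, mul_one] at h
  exact h

variable [Finite σ] {E : Type} [Fintype E] [DecidableEq E]

theorem finite_weight (nd : σ → E) (g : E → ℤ) :
    {α : σ →₀ ℕ | Finsupp.weight (dgs nd) α = g}.Finite := by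
  refine (Finsupp.finite_of_degree_le (∑ e, g e).toNat).subset fun α hα => ?_
  have h : ∀ β : σ →₀ ℕ, ∑ e, Finsupp.weight (dgs nd) β e = ((Finsupp.degree β : ℕ) : ℤ) := by
    intro β
    induction β using Finsupp.induction_linear with
    | zero => simp
    | add a b ha hb => simp [Finset.sum_add_distrib, ha, hb]
    | single v k => simp [Finsupp.weight_single, dgs, eps, Pi.single_apply]
  have h2 := h α
  rw [show Finsupp.weight (dgs nd) α = g from hα] at h2
  rw [Set.mem_ofPred_eq, h2, Int.toNat_natCast]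

theorem hf_Fr (nd : σ → E) (g : E → ℤ) :
    hf (Fr D (dgs nd)) g = ((finite_weight nd g).toFinset.card : ℤ) := by
  have := (finite_weight nd g).fintype
  rw [hf, Cyc.Fr_eq, (AddMonoidAlgebra.supportedEquivFinsupp _).finrank_eq,
    Module.finrank_finsupp_self, Set.Finite.card_toFinset]

theorem Fr_pair (nd : σ → E) :
    Pair (fun v => thF Z D σ (X v)) (dgs nd) ⊥ (Fr D (dgs nd)) := by
  refine ⟨stable_bot _ _, Fr_stable _, bot_le, fun g => ?_, _, Set.finite_singleton _, ?_,
    (Fr_le_Gen _).trans le_sup_right⟩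
  · rw [Fr_eq_span]
    exact FiniteDimensional.span_of_finite D ((finite_weight nd g).image _)
  · rintro _ rfl
    rw [Fr_eq_span]
    exact Submodule.subset_span ⟨0, map_zero _, rfl⟩

theorem Cyc.step {nd : σ → E} {S : Set ((E → ℤ) × MvPolynomial σ Z)} {L : ((E → ℤ) → ℤ) → Prop}
    (hL : Closed L) (hS : Homog (dgs nd) S) (h : CG Z D (dgs nd) S L)
    {V : Type u} [AddCommGroup V] [Module D V] {θ : MvPolynomial σ Z →+* Module.End D V}
    (hθ : IsRep θ) {U' : (E → ℤ) → Submodule D V} (hU' : Stable (fun v => θ (X v)) (dgs nd) U')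
    (hfd : ∀ g, FiniteDimensional D (U' g)) (g0 : E → ℤ) (v : V)
    (hk : ∀ p ∈ S, Maps (θ p.2) p.1 (Gen (fun v => θ (X v)) (dgs nd) {(g0, v)}) U') :
    L (hf (U' ⊔ Gen (fun v => θ (X v)) (dgs nd) {(g0, v)}) - hf U') := by
  obtain ⟨π, hπ⟩ : ∃ π : AddMonoidAlgebra D (σ →₀ ℕ) →ₗ[D] V,
      ∀ α, π (AddMonoidAlgebra.single α 1) = θ (monomial α 1) v :=
    ⟨(AddMonoidAlgebra.basis (σ →₀ ℕ) D).constr ℕ fun α => θ (monomial α 1) v, fun α =>
      (AddMonoidAlgebra.basis (σ →₀ ℕ) D).constr_basis ℕ _ α⟩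
  have hcomm : ∀ q x, π (thF Z D σ q x) = θ q (π x) := by
    intro q x
    have : π ∘ₗ thF Z D σ q = θ q ∘ₗ π := by
      refine (AddMonoidAlgebra.basis (σ →₀ ℕ) D).ext fun α => ?_
      rw [AddMonoidAlgebra.basis_apply, LinearMap.comp_apply, LinearMap.comp_apply, hπ]
      induction q using MvPolynomial.induction_on' with
      | monomial β z =>
        rw [Cyc.thF_monomial, one_mul, ← mul_one (algebraMap Z D z),
          ← AddMonoidAlgebra.smul_single', map_smul, hπ, ← hθ, ← Module.End.mul_apply, ← map_mul,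
          ← Module.End.mul_apply, ← map_mul, C_mul_monomial, monomial_mul, add_comm]
      | add p q hp hq => simp only [map_add, LinearMap.add_apply, hp, hq]
    exact LinearMap.congr_fun this x
  have hGs := Gen_stable (fun v => θ (X v)) (dgs nd) {(g0, v)}
  have h1 : ∀ g, (Fr D (dgs nd) g).map π ≤ Gen (fun v => θ (X v)) (dgs nd) {(g0, v)} (g0 + g) := by
    intro g
    rw [Fr_eq_span, Submodule.map_span, Submodule.span_le]
    rintro _ ⟨_, ⟨α, rfl, rfl⟩, rfl⟩
    beta_reduce
    rw [hπ]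
    exact Maps.of_hom hθ hGs (isWeightedHomogeneous_monomial _ α (1 : Z) rfl) g0 v
      (mem_Gen _ _ (p := (g0, v)) (Set.mem_singleton _))
  have h2 : Gen (fun v => θ (X v)) (dgs nd) {(g0, v)}
      ≤ fun g => (Fr D (dgs nd) (g - g0)).map π := by
    refine Gen_le ?_ ?_
    · intro w g y hy
      obtain ⟨x, hx, rfl⟩ := Submodule.mem_map.1 hy
      refine Submodule.mem_map.2 ⟨thF Z D σ (X w) x, ?_, hcomm (X w) x⟩
      rw [add_sub_right_comm]
      exact Fr_stable (Z := Z) _ w _ x hx
    · intro p hp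
      rw [Set.mem_singleton_iff.1 hp]
      have h0 : θ (monomial 0 1) = 1 := θ.map_one
      refine Submodule.mem_map.2 ⟨AddMonoidAlgebra.single 0 1, ?_, by rw [hπ, h0]; rfl⟩
      rw [Fr_eq_span]
      exact Submodule.subset_span ⟨0, by simp, rfl⟩
  have h3 := h (fun g => Fr D (dgs nd) g ⊓ (U' (g0 + g)).comap π) (fun w g x hx =>
    ⟨Fr_stable _ w g x hx.1, by
      rw [SetLike.mem_coe, Submodule.mem_comap, hcomm, ← add_assoc]
      exact hU' w _ _ hx.2⟩) (fun g => inf_le_left) fun p hp g x hx =>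
    ⟨Maps.of_hom isRep_thF (Fr_stable _) (hS p hp) g x hx, by
      rw [SetLike.mem_coe, Submodule.mem_comap, hcomm, ← add_assoc]
      exact hk p hp _ _ (h1 g ⟨x, hx, rfl⟩)⟩
  have h4 := hL.act (mon g0) _ h3
  refine (congrArg L (funext fun g => ?_)).mp h4
  have := (Fr_pair (Z := Z) (D := D) nd).fd (g - g0)
  have := hfd g
  have h5 := finrank_sup_map_add π (Fr D (dgs nd) (g - g0)) (U' g)
  have h6 : Gen (fun v => θ (X v)) (dgs nd) {(g0, v)} g = (Fr D (dgs nd) (g - g0)).map π :=
    le_antisymm (h2 g) (by simpa using h1 (g - g0))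
  have h7 : g0 + (g - g0) = g := add_sub_cancel g0 g
  rw [← h6] at h5
  rw [act_mon, shift_apply, Pi.sub_apply, Pi.sub_apply, hf, hf, hf, hf, Pi.sup_apply, h7]
  omega

theorem CG.mg {nd : σ → E} {S : Set ((E → ℤ) × MvPolynomial σ Z)} {L : ((E → ℤ) → ℤ) → Prop}
    (hL : Closed L) (hS : Homog (dgs nd) S) (h : CG Z D (dgs nd) S L) :
    MG Z D (dgs nd) S L := by
  intro V _ _ θ hθ U' U hP hk
  obtain ⟨hst', hst, hle, hfd, s, hs, hs1, hs2⟩ := hP
  induction s, hs using Set.Finite.induction_on generalizing U' with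
  | empty =>
    rw [le_antisymm (hs2.trans (sup_le le_rfl (Gen_le hst' (by simp)))) hle, sub_self]
    exact hL.zero
  | @insert p s _ _ ih =>
    have h1 : Gen (fun v => θ (X v)) (dgs nd) {p} ≤ U :=
      Gen_le hst (by rintro _ rfl; exact hs1 _ (Set.mem_insert _ _))
    have r1 := ih (U' ⊔ Gen (fun v => θ (X v)) (dgs nd) {p})
      (fun q hq => (hk q hq).mono le_rfl le_sup_left) (hst'.sup (Gen_stable _ _ _))
      (sup_le hle h1) (fun q hq => hs1 q (Set.mem_insert_of_mem _ hq))
      (hs2.trans (sup_le (le_sup_left.trans le_sup_left)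
        (Gen_le ((hst'.sup (Gen_stable _ _ _)).sup (Gen_stable _ _ _)) (by
          rintro q (rfl | hq)
          · exact Submodule.mem_sup_left (Submodule.mem_sup_right
              (mem_Gen _ _ (Set.mem_singleton _)))
          · exact Submodule.mem_sup_right (mem_Gen _ _ hq)))))
    have r2 := Cyc.step hL hS h hθ hst'
      (fun g => have := hfd g; Submodule.finiteDimensional_of_le (hle g)) p.1 p.2
      fun q hq => (hk q hq).mono h1 le_rfl
    simpa using hL.add _ _ r1 r2

end Vale.Agent.EGH
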