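import Mathlib

/-! Graded families of subspaces over a division ring, Hilbert functions, nodes. -/

namespace Vale.Agent.EGH

open Module MvPolynomial Filter

universe u

section Fam

variable {D : Type*} [DivisionRing D] {G : Type*} [AddCommGroup G]
variable {V : Type*} [AddCommGroup V] [Module D V]

/-- `f` maps `U g` into `W (g + e)` for all `g`. -/
def Maps (f : Module.End D V) (e : G) (U W : G → Submodule D V) : Prop :=
  ∀ g v, v ∈ U g → f v ∈ W (g + e)

/-- The family `U` is stable under the operators `T i` of degrees `e i`. -/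
def Stable {I : Type*} (T : I → Module.End D V) (e : I → G) (U : G → Submodule D V) : Prop :=
  ∀ i, Maps (T i) (e i) U U

/-- The least stable family containing the elements `p.2` in degrees `p.1`, for `p ∈ s`. -/
def Gen {I : Type*} (T : I → Module.End D V) (e : I → G) (s : Set (G × V)) :
    G → Submodule D V :=
  sInf {W | Stable T e W ∧ ∀ p ∈ s, p.2 ∈ W p.1}

/-- A finitely generated graded subquotient `U / U'` with finite dimensional pieces. -/
structure Pair {I : Type*} (T : I → Module.End D V) (e : I → G) (U' U : G → Submodule D V) :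
    Prop where
  st' : Stable T e U'
  st : Stable T e U
  le : U' ≤ U
  fd : ∀ g, FiniteDimensional D (U g)
  fg : ∃ s : Set (G × V), s.Finite ∧ (∀ p ∈ s, p.2 ∈ U p.1) ∧ U ≤ U' ⊔ Gen T e s

/-- Hilbert function of a family. -/
noncomputable def hf (U : G → Submodule D V) : G → ℤ := fun g => (finrank D (U g) : ℤ)

/-- The family `U' + f U`. -/
def supMap (f : Module.End D V) (a : G) (U U' : G → Submodule D V) : G → Submodule D V :=
  fun g => U' g ⊔ (U (g - a)).map f

/-- The family of those elements of `U` that `f` maps into `U'`. -/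
def infComap (f : Module.End D V) (a : G) (U U' : G → Submodule D V) : G → Submodule D V :=
  fun g => U g ⊓ (U' (g + a)).comap f

end Fam

section Act

variable {G : Type*} [AddCommGroup G]

/-- Shift of functions: `(shift a h) g = h (g - a)`. -/
def shift (a : G) : Module.End ℤ (G → ℤ) := LinearMap.funLeft ℤ ℤ (fun g => g - a)

@[simp] theorem shift_apply (a : G) (h : G → ℤ) (g : G) : shift a h g = h (g - a) := rfl

/-- Shifts as a monoid homomorphism. -/
def shiftHom : Multiplicative G →* Module.End ℤ (G → ℤ) where
  toFun a := shift a.toAdd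
  map_one' := by ext h g; simp
  map_mul' a b := by
    refine LinearMap.ext fun h => funext fun g => ?_
    simp [sub_sub]

/-- The group ring acts on all integer functions on `G` by convolution. -/
noncomputable def act : AddMonoidAlgebra ℤ G →ₐ[ℤ] Module.End ℤ (G → ℤ) :=
  AddMonoidAlgebra.lift ℤ (Module.End ℤ (G → ℤ)) G shiftHom

/-- The monomial of degree `a` in the group ring. -/
noncomputable def mon (a : G) : AddMonoidAlgebra ℤ G := AddMonoidAlgebra.single a 1

/-- The geometric sum `1 + x + ... + x ^ (b - 1)` for the monomial `x` of degree `a`. -/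
noncomputable def geo (a : G) (b : ℕ) : AddMonoidAlgebra ℤ G :=
  ∑ i ∈ Finset.range b, mon a ^ i

/-- A class of functions that is a submodule over the group ring. -/
structure Closed (L : (G → ℤ) → Prop) : Prop where
  zero : L 0
  add : ∀ h h', L h → L h' → L (h + h')
  act : ∀ (q : AddMonoidAlgebra ℤ G) h, L h → L (act q h)

/-- `h` agrees in large degrees with an integer combination of shifts of `PP`. -/
def Lat [Preorder G] (PP h : G → ℤ) : Prop :=
  ∃ q : AddMonoidAlgebra ℤ G, ∀ᶠ g in atTop, h g = act q PP g

/-- `h` vanishes in large degrees. -/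
def EvZero [Preorder G] (h : G → ℤ) : Prop := ∀ᶠ g in atTop, h g = 0

end Act

/-- `h i = r * (m * i + c) + s * m` for large `i`. -/
def Aff (m c : ℤ) (h : ℤ → ℤ) (r s : ℤ) : Prop :=
  ∀ᶠ i in atTop, h i = r * (m * i + c) + s * m

/-- The degree vector of a variable at node `e`. -/
def eps {E : Type} [DecidableEq E] (e : E) : E → ℤ := Pi.single e 1

/-- The multidegree of the variables, `nd v` being the node of the variable `v`. -/
def dgs {σ E : Type} [DecidableEq E] (nd : σ → E) : σ → E → ℤ := fun v => eps (nd v)

section MG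

variable {Z : Type u} [Field Z] {D : Type u} [DivisionRing D] [Algebra Z D]

/-- The constants act through the structure map `Z → D`. -/
def IsRep {σ : Type} {V : Type*} [AddCommGroup V] [Module D V]
    (θ : MvPolynomial σ Z →+* Module.End D V) : Prop :=
  ∀ z v, θ (C z) v = algebraMap Z D z • v

/-- All members of `S` are homogeneous of the stated degree. -/
def Homog {σ : Type} {R : Type*} [CommSemiring R] {G : Type} [AddCommGroup G] (dg : σ → G)
    (S : Set (G × MvPolynomial σ R)) : Prop :=
  ∀ p ∈ S, IsWeightedHomogeneous dg p.2 p.1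

variable (Z D) in
/-- Every finitely generated graded module over `D ⊗ Z[σ]` killed by `S` has Hilbert function
in the class `L`. -/
def MG {σ G : Type} [AddCommGroup G] (dg : σ → G) (S : Set (G × MvPolynomial σ Z))
    (L : (G → ℤ) → Prop) : Prop :=
  ∀ (V : Type u) [AddCommGroup V] [Module D V] (θ : MvPolynomial σ Z →+* Module.End D V),
    IsRep θ → ∀ U' U : G → Submodule D V, Pair (fun v => θ (X v)) dg U' U →
      (∀ p ∈ S, Maps (θ p.2) p.1 U U') → L (hf U - hf U')

variable (D) in
/-- The graded pieces of the free module of rank one. -/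
def Fr {σ G : Type} [AddCommGroup G] (dg : σ → G) (g : G) :
    Submodule D (AddMonoidAlgebra D (σ →₀ ℕ)) where
  carrier := {f | ∀ α, f.coeff α ≠ 0 → Finsupp.weight dg α = g}
  add_mem' := fun {x y} hx hy α h => by
    by_cases h1 : x.coeff α = 0
    · exact hy α (by simpa [h1] using h)
    · exact hx α h1
  zero_mem' := fun α h => by simp at h
  smul_mem' := fun c x hx α h => hx α fun h0 => h (by simp [h0])

variable (Z D) in
/-- The action of the polynomial ring on the free module of rank one. -/
noncomputable def thF (σ : Type) :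
    MvPolynomial σ Z →+* Module.End D (AddMonoidAlgebra D (σ →₀ ℕ)) where
  toFun p := LinearMap.mulRight D (AddMonoidAlgebra.mapRingHom (σ →₀ ℕ) (algebraMap Z D) p)
  map_one' := by rw [map_one]; exact LinearMap.mulRight_one _ _
  map_mul' p q := by
    refine LinearMap.ext fun x => ?_
    rw [mul_comm p q, map_mul]
    simp [mul_assoc]
  map_zero' := by rw [map_zero]; exact LinearMap.mulRight_zero_eq_zero _ _
  map_add' p q := by
    refine LinearMap.ext fun x => ?_
    rw [map_add]
    simp [mul_add]

variable (Z D) in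
/-- The cyclic case of `MG`. -/
def CG {σ G : Type} [AddCommGroup G] (dg : σ → G) (S : Set (G × MvPolynomial σ Z))
    (L : (G → ℤ) → Prop) : Prop :=
  ∀ U' : G → Submodule D (AddMonoidAlgebra D (σ →₀ ℕ)),
    Stable (fun v => thF Z D σ (X v)) dg U' → U' ≤ Fr D dg →
      (∀ p ∈ S, Maps (thF Z D σ p.2) p.1 (Fr D dg) U') → L (hf (Fr D dg) - hf U')

end MG

/-- A commutative ring acting through a ring `A` by `D`-linear maps. -/
def actHom {D : Type*} [Ring D] {P : Type*} [CommRing P] {A : Type*} [Ring A] (ρ : P →+* A)
    (M : Type*) [AddCommGroup M] [Module D M] [Module A M]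
    (h : ∀ (p : P) (d : D) (v : M), ρ p • d • v = d • ρ p • v) : P →+* Module.End D M where
  toFun p :=
    { toFun := fun v => ρ p • v
      map_add' := fun x y => smul_add _ x y
      map_smul' := fun d v => h p d v }
  map_one' := LinearMap.ext fun v => by simp
  map_mul' p q := LinearMap.ext fun v => by simp [mul_smul]
  map_zero' := LinearMap.ext fun v => by simp
  map_add' p q := LinearMap.ext fun v => by simp [add_smul]

@[simp] theorem actHom_apply {D : Type*} [Ring D] {P : Type*} [CommRing P] {A : Type*} [Ring A]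
    (ρ : P →+* A) (M : Type*) [AddCommGroup M] [Module D M] [Module A M]
    (h : ∀ (p : P) (d : D) (v : M), ρ p • d • v = d • ρ p • v) (p : P) (v : M) :
    actHom ρ M h p v = ρ p • v := rfl

/-- A node: two input variables, output variables `w` with equations `w ^ b w = G w`. -/
structure Node (Z : Type u) [Field Z] where
  /-- the outputs -/
  W : Type
  [fin : Fintype W]
  /-- degrees of the equations -/
  b : W → ℕ
  /-- right hand sides of the equations -/
  G : W → MvPolynomial (Fin 2 ⊕ W) Z

namespace Node

variable {Z : Type u} [Field Z]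

instance (N : Node Z) : Fintype N.W := N.fin

/-- The variables of a node. -/
abbrev Var (N : Node Z) : Type := Fin 2 ⊕ N.W

/-- The equations are homogeneous and triangular. -/
structure OK (N : Node Z) : Prop where
  pos : ∀ w, 0 < N.b w
  hom : ∀ w, (N.G w).IsHomogeneous (N.b w)
  tri : ∃ rk : N.W → ℕ, ∀ w w', Sum.inr w' ∈ (N.G w).vars → rk w' < rk w

/-- The equation of an output. -/
noncomputable def eqn (N : Node Z) (w : N.W) : MvPolynomial N.Var Z :=
  X (Sum.inr w) ^ N.b w - N.G w

/-- The equations with their degrees. -/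
def eqs (N : Node Z) : Set (ℤ × MvPolynomial N.Var Z) :=
  Set.range fun w => ((N.b w : ℤ), N.eqn w)

/-- The Hilbert polynomial of the curve. -/
noncomputable def P1 (N : Node Z) : ℤ → ℤ :=
  act (∏ w, geo (1 : ℤ) (N.b w)) (fun i => i + 1)

/-- The degree of the curve. -/
def deg (N : Node Z) : ℤ := ∏ w, (N.b w : ℤ)

variable (Z) in
/-- The node without outputs. -/
def free : Node Z := { W := Empty, b := Empty.elim, G := Empty.elim }

/-- Base change. -/
noncomputable def map {Z' : Type u} [Field Z'] (φ : Z →+* Z') (N : Node Z) : Node Z' :=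
  { W := N.W, b := N.b, G := fun w => MvPolynomial.map φ (N.G w) }

/-- Base change and new outputs `l : Λ` with equations `l ^ bb l = ∑ k, t k * q k l`. -/
noncomputable def ext {Z' : Type u} [Field Z'] (φ : Z →+* Z') {κ : Type} [Fintype κ] (t : κ → Z')
    (N : Node Z) (Λ : Type) [Fintype Λ] (bb : Λ → ℕ) (q : κ → Λ → MvPolynomial N.Var Z) :
    Node Z' :=
  { W := N.W ⊕ Λ
    b := Sum.elim N.b bb
    G := Sum.elim (fun w => rename (Sum.map id Sum.inl) (MvPolynomial.map φ (N.G w)))
      (fun l => ∑ k, C (t k) * rename (Sum.map id Sum.inl) (MvPolynomial.map φ (q k l))) }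

end Node

section Sys

variable {Z : Type u} [Field Z]

/-- The equations of a system of nodes with their multidegrees. -/
def sysEqs {E : Type} [DecidableEq E] (N : E → Node Z) :
    Set ((E → ℤ) × MvPolynomial (Σ e, (N e).Var) Z) :=
  Set.range fun x : Σ e, (N e).W =>
    ((N x.1).b x.2 • eps x.1, rename (Sigma.mk x.1) ((N x.1).eqn x.2))

/-- Integrality of Hilbert polynomials on a product of curves over `D`. -/
def Hyp (D : Type u) [DivisionRing D] [Algebra Z D] {E : Type} [Fintype E] [DecidableEq E]
    (N : E → Node Z) : Prop :=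
  MG Z D (dgs (Sigma.fst : (Σ e, (N e).Var) → E)) (sysEqs N)
    (Lat fun g => ∏ e, (N e).P1 (g e))

/-- A partial injection. -/
def PInj {E' E : Type} (ι : E' → Option E) : Prop :=
  ∀ e₁ e₂ e, ι e₁ = some e → ι e₂ = some e → e₁ = e₂

/-- `F` is a finitely generated purely transcendental extension with basis `t`. -/
structure PTB (Z : Type u) [Field Z] {F : Type u} [Field F] [Algebra Z F] {κ : Type}
    (t : κ → F) : Prop where
  ind : AlgebraicIndependent Z t
  top : IntermediateField.adjoin Z (Set.range t) = ⊤

/-- `Hyp` for all subsystems with additional free nodes over all rational function fields. -/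
def AllHyp {E : Type} (N : E → Node Z) : Prop :=
  ∀ (F : Type u) [Field F] [Algebra Z F] (κ : Type) [Fintype κ] (t : κ → F), PTB Z t →
    ∀ (E' : Type) [Fintype E'] [DecidableEq E'] (ι : E' → Option E), PInj ι →
      Hyp F fun e' => ((ι e').elim (Node.free Z) N).map (algebraMap Z F)

/-- Base point freeness of the forms `q` on the product of curves. -/
def BPF {E : Type} [Fintype E] (N : E → Node Z) (Λ : E → Type) [∀ e, Fintype (Λ e)] {κ : Type}
    (q : ∀ e, κ → Λ e → MvPolynomial (N e).Var Z) : Prop :=
  ∀ (L : Type u) [Field L] [IsAlgClosed L] (f : Z →+* L) (ξ : ∀ e, (N e).Var → L)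
    (c : ∀ e, Λ e → L),
    (∀ e l, c e l ≠ 0 → (∀ w, eval₂ f (ξ e) ((N e).eqn w) = 0) ∧ ξ e ≠ 0) →
    (∀ k, ∑ e, ∑ l, c e l * eval₂ f (ξ e) (q e k l) = 0) → ∀ e l, c e l = 0

/-- The linear forms `α w * X + β w` solve the equations of the node. -/
structure IsUl (N : Node Z) {D : Type*} [Ring D] [Algebra Z D] (α β : N.W → D)
    (ρ : MvPolynomial N.Var Z →ₐ[Z] Polynomial D) : Prop where
  y0 : ρ (X (Sum.inl 0)) = Polynomial.X
  y1 : ρ (X (Sum.inl 1)) = 1
  out : ∀ w, ρ (X (Sum.inr w)) = Polynomial.C (α w) * Polynomial.X + Polynomial.C (β w)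
  eqn : ∀ w, ρ (N.eqn w) = 0

/-- Degree at most `i`, where `i` is an integer. -/
def DegLE {D : Type*} [Ring D] (i : ℤ) (p : Polynomial D) : Prop :=
  ∀ k : ℕ, i < k → p.coeff k = 0

/-- A division ring extension in which the equations of a node have a linear solution. -/
structure Step (D : Type u) [DivisionRing D] [Algebra Z D] (N : Node Z) where
  /-- the new division ring -/
  D' : Type u
  [div : DivisionRing D']
  [alg : Algebra Z D']
  /-- the embedding -/
  ι : D →ₐ[Z] D'
  /-- leading coefficients -/
  α : N.W → D'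
  /-- constant coefficients -/
  β : N.W → D'
  /-- the solution -/
  ρ : MvPolynomial N.Var Z →ₐ[Z] Polynomial D'
  ul : IsUl N α β ρ
  commα : ∀ d w, Commute (ι d) (α w)
  commβ : ∀ d w, Commute (ι d) (β w)
  commρ : ∀ d p, Commute (Polynomial.C (ι d)) (ρ p)

namespace Step

variable {D : Type u} [DivisionRing D] [Algebra Z D] {N : Node Z} (s : Step D N)

instance : DivisionRing s.D' := s.div
instance : Algebra Z s.D' := s.alg
instance : Module D s.D' := Module.compHom s.D' s.ι.toRingHom

theorem smul_def (d : D) (x : s.D') : d • x = s.ι d * x := rfl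

theorem smul_poly (d : D) (p : Polynomial s.D') : d • p = Polynomial.C (s.ι d) * p := by
  ext k
  rw [Polynomial.coeff_smul, Polynomial.coeff_C_mul, smul_def]

/-- The action of the node variables on polynomials. -/
noncomputable def th1 : MvPolynomial N.Var Z →+* Module.End D (Polynomial s.D') :=
  actHom s.ρ.toRingHom (Polynomial s.D') fun p d v => by
    rw [smul_poly, smul_poly, smul_eq_mul, smul_eq_mul, ← mul_assoc, ← mul_assoc]
    exact congrArg (· * v) (s.commρ d p).eq.symm

/-- The action of the node variables on tuples of polynomials. -/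
noncomputable def thn (n : ℕ) :
    MvPolynomial N.Var Z →+* Module.End D (Fin n → Polynomial s.D') :=
  actHom s.ρ.toRingHom (Fin n → Polynomial s.D') fun p d v => funext fun j => by
    rw [Pi.smul_apply, Pi.smul_apply, Pi.smul_apply, Pi.smul_apply, smul_poly, smul_poly,
      smul_eq_mul, smul_eq_mul, ← mul_assoc, ← mul_assoc]
    exact congrArg (· * v j) (s.commρ d p).eq.symm

/-- Every finite set lies in a finitely generated submodule of defect one. -/
def S2 (m c k0 : ℤ) : Prop :=
  ∀ A : Set s.D', A.Finite → ∃ G : ℤ → Submodule D (Polynomial s.D'),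
    Pair (fun v => s.th1 (X v)) (fun _ => (1 : ℤ)) ⊥ G ∧ (∀ i, ∀ p ∈ G i, DegLE i p) ∧
      (∀ a ∈ A, Polynomial.C a ∈ G 0) ∧ ∃ r t, Aff m c (hf G) r t ∧ r * k0 - t = 1

/-- A bounded submodule of the `n`-th power containing the unit vectors has defect at least
`n`. -/
def S3 (m c k0 : ℤ) : Prop :=
  ∀ (n : ℕ) (Y : ℤ → Submodule D (Fin n → Polynomial s.D')),
    Stable (fun v => s.thn n (X v)) (fun _ => (1 : ℤ)) Y →
    (∃ B : Set (ℤ × (Fin n → Polynomial s.D')), B.Finite ∧ (∀ p ∈ B, ∀ j, DegLE p.1 (p.2 j)) ∧
      Y ≤ Gen (fun v => s.thn n (X v)) (fun _ => (1 : ℤ)) B) →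
    (∀ j, Pi.single j 1 ∈ Y 0) → ∀ r t, Aff m c (hf Y) r t → (n : ℤ) ≤ r * k0 - t

end Step

end Sys

end Vale.Agent.EGH
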