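import Vale.Agent.EGH.Cyc

/-! Auxiliary constructions for `Step.lift`. -/

namespace Vale.Agent.EGH

open Module MvPolynomial Filter

universe u

namespace Lf

theorem exists_coords {K F : Type*} [DivisionRing K] [AddCommGroup F] [Module K F]
    {N N' : Submodule K F} [FiniteDimensional K N'] (hle : N ≤ N') {B : Set F}
    (hB : B ⊆ N') (hs : N' ≤ N ⊔ Submodule.span K B) :
    ∃ (n : ℕ) (φ : F →ₗ[K] (Fin n → K)) (b : Fin n → F), (∀ j, b j ∈ B) ∧
      (∀ j, φ (b j) = Pi.single j 1) ∧ (∀ x ∈ N', φ x = 0 ↔ x ∈ N) ∧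
      n + finrank K N = finrank K N' := by
  have h1 : Submodule.span K (N.mkQ '' B) ≤ N'.map N.mkQ :=
    Submodule.span_le.2 (Set.image_mono hB)
  have : Module.Finite K (Submodule.span K (N.mkQ '' B)) := Submodule.finiteDimensional_of_le h1
  obtain ⟨v, hv1, hv2, hv3⟩ := Submodule.exists_fun_fin_finrank_span_eq K (N.mkQ '' B)
  choose b hb1 hb2 using hv1
  have hinj : Function.Injective (Fintype.linearCombination K v) :=
    hv3.fintypeLinearCombination_injective
  obtain ⟨g, hg⟩ := LinearMap.exists_leftInverse_of_injective _ (LinearMap.ker_eq_bot.2 hinj)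
  have hg' : ∀ x, g (Fintype.linearCombination K v x) = x := fun x => LinearMap.congr_fun hg x
  have h2 : ∀ j, (g ∘ₗ N.mkQ) (b j) = Pi.single j 1 := fun j => by
    rw [LinearMap.comp_apply, hb2, ← hg' (Pi.single j 1), Fintype.linearCombination_apply_single,
      one_smul]
  have h3 : ∀ x ∈ N', (g ∘ₗ N.mkQ) x = 0 ↔ x ∈ N := by
    intro x hx
    refine ⟨fun h => ?_, fun h => by
      rw [LinearMap.comp_apply, Submodule.mkQ_apply, (Submodule.Quotient.mk_eq_zero N).2 h,
        map_zero]⟩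
    obtain ⟨y, hy, z, hz, rfl⟩ := Submodule.mem_sup.1 (hs hx)
    have h4 : N.mkQ z ∈ Submodule.span K (Set.range v) := by
      rw [hv2, ← Submodule.map_span]; exact Submodule.mem_map_of_mem hz
    obtain ⟨c, hc⟩ := (Submodule.mem_span_range_iff_exists_fun K).1 h4
    have h5 : N.mkQ (y + z) = Fintype.linearCombination K v c := by
      rw [map_add, Fintype.linearCombination_apply, hc, Submodule.mkQ_apply N y,
        (Submodule.Quotient.mk_eq_zero N).2 hy, zero_add]
    rw [LinearMap.comp_apply, h5, hg'] at h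
    rw [h, map_zero] at h5
    exact (Submodule.Quotient.mk_eq_zero N).1 h5
  refine ⟨_, g ∘ₗ N.mkQ, b, hb1, h2, h3, ?_⟩
  have h4 := finrank_map_add_finrank_inf_ker (g ∘ₗ N.mkQ) N'
  have h5 : N'.map (g ∘ₗ N.mkQ) = ⊤ := by
    refine eq_top_iff.2 fun x _ => ?_
    rw [← Finset.univ_sum_single x]
    refine Submodule.sum_mem _ fun j _ => ?_
    have : (Pi.single j (x j) : _ → K) = x j • (g ∘ₗ N.mkQ) (b j) := by
      rw [h2, ← Pi.single_smul, smul_eq_mul, mul_one]
    rw [this]
    exact Submodule.smul_mem _ _ (Submodule.mem_map_of_mem (hB (hb1 j)))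
  have h6 : N' ⊓ LinearMap.ker (g ∘ₗ N.mkQ) = N :=
    le_antisymm (fun x hx => (h3 x hx.1).1 hx.2) fun x hx => ⟨hle hx, (h3 x (hle hx)).2 hx⟩
  rw [h5, h6, finrank_top, finrank_fin_fun] at h4
  exact h4

section Coef

variable {F : Type*} [DivisionRing F] {M : Type*}

/-- The `k`-th polynomial coefficient of every coefficient. -/
noncomputable def xc (k : ℕ) :
    AddMonoidAlgebra (Polynomial F) M →ₗ[F] AddMonoidAlgebra F M :=
  (AddMonoidAlgebra.coeffLinearEquiv F).symm.toLinearMap ∘ₗ
    Finsupp.mapRange.linearMap (Polynomial.lcoeff F k) ∘ₗ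
      (AddMonoidAlgebra.coeffLinearEquiv F).toLinearMap

theorem coeff_xc (k : ℕ) (f : AddMonoidAlgebra (Polynomial F) M) (α : M) :
    (xc k f).coeff α = (f.coeff α).coeff k := rfl

theorem xc_single (k : ℕ) (α : M) (p : Polynomial F) :
    xc k (AddMonoidAlgebra.single α p) = AddMonoidAlgebra.single α (p.coeff k) := by
  classical
  ext β
  rw [coeff_xc, AddMonoidAlgebra.coeff_single, AddMonoidAlgebra.coeff_single, Finsupp.single_apply,
    Finsupp.single_apply]
  split_ifs <;> simp

theorem eq_zero_of_xc {f : AddMonoidAlgebra (Polynomial F) M} (h : ∀ k, xc k f = 0) : f = 0 := by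
  ext α k
  have := congrArg (fun x : AddMonoidAlgebra F M => x.coeff α) (h k)
  simpa [coeff_xc] using this

theorem xc_monomial_smul (k j : ℕ) (a : F) (f : AddMonoidAlgebra (Polynomial F) M) :
    xc k (Polynomial.monomial j a • f) = if j ≤ k then a • xc (k - j) f else 0 := by
  ext α
  rw [coeff_xc, AddMonoidAlgebra.coeff_smul, Finsupp.smul_apply, smul_eq_mul,
    ← Polynomial.C_mul_X_pow_eq_monomial, mul_assoc, Polynomial.coeff_C_mul,
    Polynomial.coeff_X_pow_mul']
  split_ifs <;> simp [coeff_xc]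

/-- The elements all of whose polynomial coefficients lie in `N`. -/
noncomputable def Ws (N : Submodule F (AddMonoidAlgebra F M)) :
    Submodule (Polynomial F) (AddMonoidAlgebra (Polynomial F) M) where
  carrier := {f | ∀ k, xc k f ∈ N}
  add_mem' := fun {x y} hx hy k => by rw [map_add]; exact add_mem (hx k) (hy k)
  zero_mem' := fun k => by rw [map_zero]; exact zero_mem _
  smul_mem' := fun p f hf k => by
    induction p using Polynomial.induction_on' with
    | add p q hp hq => rw [add_smul, map_add]; exact add_mem hp hq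
    | monomial j a =>
      rw [xc_monomial_smul]
      split_ifs
      · exact N.smul_mem a (hf _)
      · exact zero_mem _

theorem mem_Ws {N : Submodule F (AddMonoidAlgebra F M)} {f : AddMonoidAlgebra (Polynomial F) M} :
    f ∈ Ws N ↔ ∀ k, xc k f ∈ N := Iff.rfl

/-- Constant polynomial coefficients. -/
noncomputable def i0 (b : AddMonoidAlgebra F M) : AddMonoidAlgebra (Polynomial F) M :=
  AddMonoidAlgebra.map (Polynomial.C : F →+* Polynomial F).toAddMonoidHom b

theorem coeff_i0 (b : AddMonoidAlgebra F M) (α : M) : (i0 b).coeff α = Polynomial.C (b.coeff α) :=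
  rfl

theorem xc_i0 (k : ℕ) (b : AddMonoidAlgebra F M) : xc k (i0 b) = if k = 0 then b else 0 := by
  ext α
  rw [coeff_xc, coeff_i0, Polynomial.coeff_C]
  split_ifs <;> simp

theorem i0_mem_Ws {N : Submodule F (AddMonoidAlgebra F M)} {b : AddMonoidAlgebra F M} :
    i0 b ∈ Ws N ↔ b ∈ N := by
  refine ⟨fun h => by simpa [xc_i0] using h 0, fun h k => ?_⟩
  rw [xc_i0]
  split_ifs
  · exact h
  · exact zero_mem _

/-- Extension of a linear map to polynomial coefficients. -/
noncomputable def hat {n : ℕ} (φ : AddMonoidAlgebra F M →ₗ[F] (Fin n → F)) :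
    AddMonoidAlgebra (Polynomial F) M →ₗ[Polynomial F] (Fin n → Polynomial F) :=
  Finsupp.linearCombination (Polynomial F)
      (fun α j => Polynomial.C (φ (AddMonoidAlgebra.single α 1) j)) ∘ₗ
    (AddMonoidAlgebra.coeffLinearEquiv (Polynomial F)).toLinearMap

theorem hat_single {n : ℕ} (φ : AddMonoidAlgebra F M →ₗ[F] (Fin n → F)) (α : M)
    (p : Polynomial F) (j : Fin n) : hat φ (AddMonoidAlgebra.single α p) j =
      p * Polynomial.C (φ (AddMonoidAlgebra.single α 1) j) := by
  simp [hat]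

theorem coeff_hat {n : ℕ} (φ : AddMonoidAlgebra F M →ₗ[F] (Fin n → F))
    (f : AddMonoidAlgebra (Polynomial F) M) (j : Fin n) (k : ℕ) :
    (hat φ f j).coeff k = φ (xc k f) j := by
  induction f using AddMonoidAlgebra.induction_linear with
  | zero => simp
  | add x y hx hy => simp [hx, hy]
  | single α p =>
    rw [hat_single, Polynomial.coeff_mul_C, xc_single, ← smul_eq_mul, ← Pi.smul_apply, ← map_smul,
      AddMonoidAlgebra.smul_single, smul_eq_mul, mul_one]

theorem hat_eq_zero {n : ℕ} (φ : AddMonoidAlgebra F M →ₗ[F] (Fin n → F))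
    (f : AddMonoidAlgebra (Polynomial F) M) : hat φ f = 0 ↔ ∀ k, φ (xc k f) = 0 := by
  refine ⟨fun h k => funext fun j => ?_, fun h => funext fun j => Polynomial.ext fun k => ?_⟩
  · rw [← coeff_hat, h]; simp
  · rw [coeff_hat, h]; simp

theorem hat_i0 {n : ℕ} (φ : AddMonoidAlgebra F M →ₗ[F] (Fin n → F)) {b : AddMonoidAlgebra F M}
    {j : Fin n} (h : φ b = Pi.single j 1) : hat φ (i0 b) = Pi.single j 1 := by
  funext j'
  ext k
  rw [coeff_hat, xc_i0, Pi.single_apply]
  split_ifs with h1 h2 h2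
  · simp [h, h1, h2]
  · simp [h, h2]
  · simp [Polynomial.coeff_one, h1]
  · simp

end Coef

theorem aff_of_lat {E : Type} {m c k0 : ℤ} {PP : (E → ℤ) → ℤ} {h : ℤ × (E → ℤ) → ℤ}
    (H : Lat (fun g => (m * g.1 + c) * PP g.2) h) :
    ∃ q : AddMonoidAlgebra ℤ (E → ℤ), ∀ᶠ g in atTop, ∃ r t,
      Aff m c (fun i => h (i, g)) r t ∧ r * k0 - t = act q PP g := by
  obtain ⟨q, hq⟩ := H
  obtain ⟨x0, hx⟩ := eventually_atTop.1 hq
  refine ⟨∑ a ∈ q.coeff.support, (q.coeff a * (k0 + a.1)) • mon a.2,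
    eventually_atTop.2 ⟨x0.2, fun g hg => ⟨∑ a ∈ q.coeff.support, q.coeff a * PP (g - a.2),
      -∑ a ∈ q.coeff.support, q.coeff a * a.1 * PP (g - a.2),
      eventually_atTop.2 ⟨x0.1, fun i hi => ?_⟩, ?_⟩⟩⟩
  · beta_reduce
    rw [hx (i, g) ⟨hi, hg⟩, act_apply, neg_mul, Finset.sum_mul, Finset.sum_mul, ← sub_eq_add_neg,
      ← Finset.sum_sub_distrib]
    refine Finset.sum_congr rfl fun a _ => ?_
    simp only [Prod.fst_sub, Prod.snd_sub]
    ring
  · rw [map_sum, LinearMap.sum_apply, Finset.sum_apply, sub_neg_eq_add, Finset.sum_mul,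
      ← Finset.sum_add_distrib]
    refine Finset.sum_congr rfl fun a _ => ?_
    rw [map_smul, act_mon, LinearMap.smul_apply, Pi.smul_apply, shift_apply, smul_eq_mul]
    ring

end Lf

end Vale.Agent.EGH
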