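import Vale.Agent.EGH.Cyc
import Vale.Agent.EGH.ACC
import Vale.Agent.EGH.LiftAux

/-! Integrality over the new division ring. -/

namespace Vale.Agent.EGH

open Module MvPolynomial Filter

universe u

variable {Z : Type u} [Field Z] {D : Type u} [DivisionRing D] [Algebra Z D] {N : Node Z}

namespace Lf

variable (s : Step D N)

instance tower : IsScalarTower D s.D' s.D' :=
  ⟨fun d x y => by rw [s.smul_def, s.smul_def, smul_eq_mul, smul_eq_mul, mul_assoc]⟩

/-- The ambient module. -/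
abbrev AA (σ : Type) : Type u := AddMonoidAlgebra (Polynomial s.D') (σ →₀ ℕ)

variable {σ : Type}

theorem psmul_AA (p : Polynomial s.D') (f : AA s σ) :
    p • f = AddMonoidAlgebra.single 0 p * f := by
  ext α : 2
  rw [AddMonoidAlgebra.coeff_single_zero_mul, AddMonoidAlgebra.coeff_smul, Finsupp.smul_apply,
    smul_eq_mul]

theorem smul_AA (d : D) (f : AA s σ) : d • f = Polynomial.C (s.ι d) • f := by
  ext α : 2
  rw [AddMonoidAlgebra.coeff_smul, AddMonoidAlgebra.coeff_smul, Finsupp.smul_apply,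
    Finsupp.smul_apply, smul_eq_mul, s.smul_poly]

variable (σ) in
theorem exists_Th : ∃ Θ : MvPolynomial (N.Var ⊕ σ) Z →ₐ[Z] AA s σ, ∀ v, Θ (X v) =
    Sum.elim (fun v => AddMonoidAlgebra.single 0 (s.ρ (X v)))
      (fun v => AddMonoidAlgebra.single (Finsupp.single v 1) 1) v := by
  refine exists_algHom_of_commute _ ?_
  rintro (v | v) (w | w)
  · exact ((Commute.all (X v) (X w)).map s.ρ).map
      (AddMonoidAlgebra.singleZeroRingHom (R := Polynomial s.D') (M := σ →₀ ℕ))
  all_goals simp [Commute, SemiconjBy, AddMonoidAlgebra.single_mul_single, add_comm]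

variable (σ) in
/-- The images of the variables. -/
noncomputable def Th : MvPolynomial (N.Var ⊕ σ) Z →ₐ[Z] AA s σ := (exists_Th s σ).choose

theorem Th_X_inl (v : N.Var) :
    Th s σ (X (Sum.inl v)) = AddMonoidAlgebra.single 0 (s.ρ (X v)) := (exists_Th s σ).choose_spec _

theorem Th_X_inr (v : σ) :
    Th s σ (X (Sum.inr v)) = AddMonoidAlgebra.single (Finsupp.single v 1) 1 :=
  (exists_Th s σ).choose_spec _

theorem Th_inl (p : MvPolynomial N.Var Z) :
    Th s σ (rename Sum.inl p) = AddMonoidAlgebra.single 0 (s.ρ p) := by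
  have h : (Th s σ).comp (rename Sum.inl) = AddMonoidAlgebra.singleZeroAlgHom.comp s.ρ :=
    MvPolynomial.algHom_ext fun v => by simp [Th_X_inl]
  exact AlgHom.congr_fun h p

theorem Th_inr (p : MvPolynomial σ Z) : Th s σ (rename Sum.inr p) =
    AddMonoidAlgebra.mapRingHom (σ →₀ ℕ) (algebraMap Z (Polynomial s.D')) p := by
  have h : ((Th s σ).comp (rename Sum.inr)).toRingHom =
      AddMonoidAlgebra.mapRingHom (σ →₀ ℕ) (algebraMap Z (Polynomial s.D')) := by
    refine MvPolynomial.ringHom_ext (fun z => ?_) fun v => ?_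
    · change ((Th s σ).comp (rename Sum.inr)) (algebraMap Z _ z) =
        AddMonoidAlgebra.mapRingHom _ _ (AddMonoidAlgebra.single 0 z)
      rw [AlgHom.commutes, AddMonoidAlgebra.mapRingHom_single]
      rfl
    · change Th s σ (rename Sum.inr (X v)) =
        AddMonoidAlgebra.mapRingHom _ _ (AddMonoidAlgebra.single (Finsupp.single v 1) 1)
      rw [rename_X, Th_X_inr, AddMonoidAlgebra.mapRingHom_single, map_one]
  exact RingHom.congr_fun h p

theorem commute_Th (d : D) (p : MvPolynomial (N.Var ⊕ σ) Z) :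
    Commute (AddMonoidAlgebra.single 0 (Polynomial.C (s.ι d))) (Th s σ p) := by
  induction p using MvPolynomial.induction_on with
  | C z =>
    rw [← MvPolynomial.algebraMap_eq, AlgHom.commutes]
    exact (Algebra.commutes z _).symm
  | add p q hp hq => rw [map_add]; exact hp.add_right hq
  | mul_X p v hp =>
    rw [map_mul]
    refine hp.mul_right ?_
    rcases v with v | v
    · rw [Th_X_inl]
      exact (s.commρ d (X v)).map
        (AddMonoidAlgebra.singleZeroRingHom (R := Polynomial s.D') (M := σ →₀ ℕ))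
    · rw [Th_X_inr]
      simp [Commute, SemiconjBy, AddMonoidAlgebra.single_mul_single]

variable (σ) in
/-- The action on the ambient module. -/
noncomputable def th : MvPolynomial (N.Var ⊕ σ) Z →+* Module.End D (AA s σ) :=
  actHom (Th s σ).toRingHom (AA s σ) fun p d v => by
    rw [smul_AA, smul_AA, psmul_AA, psmul_AA, smul_eq_mul, smul_eq_mul, ← mul_assoc, ← mul_assoc]
    exact congrArg (· * v) (commute_Th s d p).eq.symm

theorem th_apply (p : MvPolynomial (N.Var ⊕ σ) Z) (f : AA s σ) : th s σ p f = Th s σ p * f := rfl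

theorem th_inl (p : MvPolynomial N.Var Z) (f : AA s σ) :
    th s σ (rename Sum.inl p) f = s.ρ p • f := by
  rw [th_apply, Th_inl, psmul_AA]

theorem th_X_inl (v : N.Var) (f : AA s σ) : th s σ (X (Sum.inl v)) f = s.ρ (X v) • f := by
  rw [← th_inl, rename_X]

theorem th_monomial (β α : σ →₀ ℕ) (p : Polynomial s.D') :
    th s σ (rename Sum.inr (monomial β 1)) (AddMonoidAlgebra.single α p) =
      AddMonoidAlgebra.single (α + β) p := by
  rw [th_apply, Th_inr, ← MvPolynomial.single_eq_monomial, AddMonoidAlgebra.mapRingHom_single,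
    AddMonoidAlgebra.single_mul_single, map_one, one_mul, add_comm]

theorem th_X_inr (v : σ) (α : σ →₀ ℕ) (p : Polynomial s.D') :
    th s σ (X (Sum.inr v)) (AddMonoidAlgebra.single α p) =
      AddMonoidAlgebra.single (α + Finsupp.single v 1) p := by
  rw [← th_monomial, ← rename_X]; rfl

theorem isRep_th : IsRep (th s σ) := fun z f => by
  rw [th_apply, ← MvPolynomial.algebraMap_eq, AlgHom.commutes, smul_AA, psmul_AA, AlgHom.commutes]
  rfl

theorem xc_th_inr (k : ℕ) (p : MvPolynomial σ Z) (f : AA s σ) :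
    xc k (th s σ (rename Sum.inr p) f) = thF Z s.D' σ p (xc k f) := by
  induction p using MvPolynomial.induction_on generalizing f with
  | C z =>
    rw [rename_C, isRep_th, isRep_thF, smul_AA, ← Polynomial.monomial_zero_left, xc_monomial_smul,
      if_pos (Nat.zero_le k), Nat.sub_zero, AlgHom.commutes]
  | add p q hp hq => simp only [map_add, LinearMap.add_apply, hp, hq]
  | mul_X p v hp =>
    rw [map_mul, map_mul, map_mul, Module.End.mul_apply, Module.End.mul_apply, hp, rename_X]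
    congr 1
    induction f using AddMonoidAlgebra.induction_linear with
    | zero => simp only [map_zero]
    | add x y hx hy => simp only [map_add, hx, hy]
    | single α q => rw [th_X_inr, xc_single, xc_single, thF_X_single]

theorem th_X_inr_i0 (v : σ) (b : AddMonoidAlgebra s.D' (σ →₀ ℕ)) :
    th s σ (X (Sum.inr v)) (i0 b) = i0 (thF Z s.D' σ (X v) b) := by
  refine sub_eq_zero.1 (eq_zero_of_xc fun k => ?_)
  rw [map_sub, ← rename_X, xc_th_inr, xc_i0, xc_i0, sub_eq_zero]
  split_ifs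
  · rfl
  · exact map_zero _

variable {s} {Γ : Type} [AddCommGroup Γ]

/-- Homogeneous elements with all coefficients in `G`. -/
def UU (G : ℤ → Submodule D (Polynomial s.D')) (dg : σ → Γ) (x : ℤ × Γ) :
    Submodule D (AA s σ) where
  carrier := {f | ∀ α, f.coeff α ∈ G x.1 ∧ (f.coeff α ≠ 0 → Finsupp.weight dg α = x.2)}
  add_mem' := fun {f g} hf hg α => by
    refine ⟨add_mem (hf α).1 (hg α).1, fun h => ?_⟩
    by_cases h1 : f.coeff α = 0
    · exact (hg α).2 (by simpa [h1] using h)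
    · exact (hf α).2 h1
  zero_mem' := fun α => ⟨zero_mem _, fun h => by simp at h⟩
  smul_mem' := fun c f hf α =>
    ⟨(G x.1).smul_mem c (hf α).1, fun h => (hf α).2 fun h0 => h (by simp [h0])⟩

variable {G : ℤ → Submodule D (Polynomial s.D')} {dg : σ → Γ}

theorem single_mem_UU {x : ℤ × Γ} {α : σ →₀ ℕ} {p : Polynomial s.D'}
    (hα : Finsupp.weight dg α = x.2) (hp : p ∈ G x.1) :
    AddMonoidAlgebra.single α p ∈ UU G dg x := by
  classical
  intro β
  rw [AddMonoidAlgebra.coeff_single, Finsupp.single_apply]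
  split_ifs with h
  · exact ⟨hp, fun _ => h ▸ hα⟩
  · exact ⟨zero_mem _, fun h => (h rfl).elim⟩

theorem UU_le {x : ℤ × Γ} {W : Submodule D (AA s σ)}
    (h : ∀ α p, Finsupp.weight dg α = x.2 → p ∈ G x.1 → AddMonoidAlgebra.single α p ∈ W) :
    UU G dg x ≤ W := fun f hf => by
  rw [← AddMonoidAlgebra.sum_coeff_single f]
  exact W.sum_mem fun α hα => h α _ ((hf α).2 (Finsupp.mem_support_iff.1 hα)) (hf α).1

theorem UU_mem_Ws {x : ℤ × Γ} {f : AA s σ} (hf : f ∈ UU G dg x) : f ∈ Ws (Fr s.D' dg x.2) :=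
  fun k α h => (hf α).2 fun h0 => h (by rw [coeff_xc, h0, Polynomial.coeff_zero])

/-- The degrees of all variables. -/
abbrev dd (N : Node Z) (dg : σ → Γ) : N.Var ⊕ σ → ℤ × Γ :=
  Sum.elim (fun _ => (1, 0)) fun v => (0, dg v)

theorem UU_stable (hG : Stable (fun v => s.th1 (X v)) (fun _ => (1 : ℤ)) G) :
    Stable (fun v => th s σ (X v)) (dd N dg) (UU G dg) := by
  rintro (v | v) x f hf
  · refine UU_le (W := (UU G dg _).comap (th s σ (X (Sum.inl v)))) (fun α p hα hp => ?_) hf
    rw [Submodule.mem_comap, th_X_inl, AddMonoidAlgebra.smul_single]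
    exact single_mem_UU (hα.trans (add_zero _).symm) (hG v x.1 p hp)
  · refine UU_le (W := (UU G dg _).comap (th s σ (X (Sum.inr v)))) (fun α p hα hp => ?_) hf
    rw [Submodule.mem_comap, th_X_inr]
    refine single_mem_UU ?_ (by simpa using hp)
    rw [map_add, hα, Finsupp.weight_single, one_smul]
    rfl

theorem exists_equiv (G : ℤ → Submodule D (Polynomial s.D')) (dg : σ → Γ) (x : ℤ × Γ)
    {T : Finset (σ →₀ ℕ)} (hT : ∀ α, α ∈ T ↔ Finsupp.weight dg α = x.2) :
    Nonempty (UU G dg x ≃ₗ[D] (T → G x.1)) := by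
  classical
  refine ⟨LinearEquiv.ofBijective (LinearMap.pi fun α : T => LinearMap.codRestrict (G x.1)
    (Finsupp.lapply α.1 ∘ₗ (AddMonoidAlgebra.coeffLinearEquiv D).toLinearMap ∘ₗ
      (UU G dg x).subtype) fun f => (f.2 α).1) ⟨?_, fun c => ?_⟩⟩
  · refine (injective_iff_map_eq_zero _).2 fun f hf => Subtype.ext ?_
    ext α : 2
    by_contra h
    exact h (congrArg Subtype.val (congrFun hf ⟨α, (hT α).2 ((f.2 α).2 h)⟩))
  · refine ⟨⟨∑ α : T, AddMonoidAlgebra.single α.1 (c α).1,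
      Submodule.sum_mem _ fun α _ => single_mem_UU ((hT _).1 α.2) (c α).2⟩, ?_⟩
    funext α
    refine Subtype.ext ?_
    change (∑ β : T, AddMonoidAlgebra.single β.1 (c β).1).coeff α.1 = (c α).1
    rw [AddMonoidAlgebra.coeff_sum, Finsupp.finsetSum_apply, Finset.sum_eq_single α]
    · simp
    · intro β _ hβ
      rw [AddMonoidAlgebra.coeff_single, Finsupp.single_eq_of_ne' (Subtype.val_injective.ne hβ)]
    · simp

/-- The elements whose polynomial coefficients lie in `NN`. -/
noncomputable def WW (s : Step D N) (NN : Γ → Submodule s.D' (AddMonoidAlgebra s.D' (σ →₀ ℕ)))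
    (x : ℤ × Γ) : Submodule D (AA s σ) := (Ws (NN x.2)).restrictScalars D

theorem WW_stable {NN : Γ → Submodule s.D' (AddMonoidAlgebra s.D' (σ →₀ ℕ))}
    (h : Stable (fun v => thF Z s.D' σ (X v)) dg NN) :
    Stable (fun v => th s σ (X v)) (dd N dg) (WW s NN) := by
  rintro (v | v) x f hf
  · change th s σ (X (Sum.inl v)) f ∈ Ws (NN (x.2 + 0))
    rw [add_zero, th_X_inl]
    exact (Ws (NN x.2)).smul_mem _ hf
  · intro k
    beta_reduce
    rw [← rename_X, xc_th_inr]
    exact h v x.2 _ (hf k)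

theorem maps_inr {U : ℤ × Γ → Submodule D (AA s σ)}
    (hU : Stable (fun v => th s σ (X v)) (dd N dg) U) {p : MvPolynomial σ Z} {γ : Γ}
    (hp : IsWeightedHomogeneous dg p γ) : Maps (th s σ (rename Sum.inr p)) (0, γ) U U :=
  Maps.of_hom (isRep_th s) hU
    (isWH_rename Sum.inr (AddMonoidHom.inr ℤ Γ) (dg' := dd N dg) (fun _ => rfl) hp)

theorem UU_le_Gen {sG : Set (ℤ × Polynomial s.D')}
    (h : G ≤ Gen (fun v => s.th1 (X v)) (fun _ => (1 : ℤ)) sG) :
    UU G dg ≤ Gen (fun v => th s σ (X v)) (dd N dg)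
      ((fun γ => ((γ.1, 0), AddMonoidAlgebra.single 0 γ.2)) '' sG) := by
  set W := Gen (fun v => th s σ (X v)) (dd N dg)
    ((fun γ => ((γ.1, 0), AddMonoidAlgebra.single 0 γ.2)) '' sG) with hW
  have h1 : Gen (fun v => s.th1 (X v)) (fun _ => (1 : ℤ)) sG ≤
      fun i => (W (i, 0)).comap (AddMonoidAlgebra.lsingle (R := D) 0) := by
    refine Gen_le (fun v i p hp => ?_) fun γ hγ => mem_Gen _ _ (Set.mem_image_of_mem _ hγ)
    have := Gen_stable _ _ _ (Sum.inl v) (i, 0) _ hp
    rw [th_X_inl, AddMonoidAlgebra.lsingle_apply, AddMonoidAlgebra.smul_single] at this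
    change _ ∈ W (i + 1, 0 + 0) at this
    rw [add_zero] at this
    exact this
  intro x
  refine UU_le fun α p hα hp => ?_
  have := maps_inr (Gen_stable _ _ _) (isWeightedHomogeneous_monomial dg α (1 : Z) hα) _ _
    (h1 x.1 (h x.1 hp))
  rw [AddMonoidAlgebra.lsingle_apply, th_monomial, zero_add] at this
  simpa using this

theorem bound {m c k0 : ℤ} (h3 : s.S3 m c k0)
    (hG : Pair (fun v => s.th1 (X v)) (fun _ => (1 : ℤ)) ⊥ G) (hdeg : ∀ i, ∀ p ∈ G i, DegLE i p)
    {g : Γ} (hg : {α : σ →₀ ℕ | Finsupp.weight dg α = g}.Finite)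
    {U : ℤ × Γ → Submodule D (AA s σ)} (hU : Stable (fun v => th s σ (X v)) (dd N dg) U)
    (hUU : U ≤ UU G dg) {N₀ N₁ : Submodule s.D' (AddMonoidAlgebra s.D' (σ →₀ ℕ))}
    [FiniteDimensional s.D' N₁] (hle : N₀ ≤ N₁) (h1 : ∀ i, ∀ f ∈ U (i, g), f ∈ Ws N₁)
    (hs : N₁ ≤ Submodule.span s.D' {b | i0 b ∈ U (0, g)}) {r t : ℤ}
    (ha : Aff m c (fun i => hf U (i, g) -
      finrank D (U (i, g) ⊓ (Ws N₀).restrictScalars D : Submodule D (AA s σ))) r t) :
    (finrank s.D' N₁ : ℤ) - finrank s.D' N₀ ≤ r * k0 - t := by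
  obtain ⟨n, φ, b, hb, hφ, hk, hn⟩ := exists_coords hle (B := {b | i0 b ∈ U (0, g)})
    (fun b hb => i0_mem_Ws.1 (h1 0 _ hb)) (hs.trans le_sup_right)
  obtain ⟨sG, hsG, hsG1, hsG2⟩ := hG.fg
  rw [bot_sup_eq] at hsG2
  have h4 := h3 n (fun i => (U (i, g)).map ((hat φ).restrictScalars D)) ?_
    ⟨(fun x : (ℤ × Polynomial s.D') × (σ →₀ ℕ) =>
      (x.1.1, hat φ (AddMonoidAlgebra.single x.2 x.1.2))) '' (sG ×ˢ _), (hsG.prod hg).image _,
      ?_, fun i => ?_⟩ (fun j => ⟨i0 (b j), hb j, hat_i0 φ (hφ j)⟩) r t (ha.congr ?_)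
  · omega
  · rintro v i _ ⟨f, hf, rfl⟩
    refine ⟨_, by simpa using hU (Sum.inl v) (i, g) f hf, ?_⟩
    rw [th_X_inl]
    exact (hat φ).map_smul _ f
  · rintro _ ⟨⟨γ, α⟩, hx, rfl⟩ j k hk
    dsimp only
    rw [hat_single, Polynomial.coeff_mul_C, hdeg _ _ (hsG1 γ hx.1) k hk, zero_mul]
  · refine Submodule.map_le_iff_le_comap.2 ((hUU _).trans (UU_le fun α p hα hp => ?_))
    refine Gen_le (W := fun i => Submodule.comap ((hat φ).restrictScalars D ∘ₗ
      AddMonoidAlgebra.lsingle (R := D) α) (Gen _ _ _ i)) (fun v i p hp => ?_)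
      (fun γ hγ => ?_) i (hsG2 i hp)
    · have := Gen_stable _ _ _ v i _ hp
      change s.ρ (X v) • hat φ (AddMonoidAlgebra.single α p) ∈ _ at this
      rw [← map_smul, AddMonoidAlgebra.smul_single] at this
      exact this
    · exact mem_Gen _ _ (p := (γ.1, hat φ (AddMonoidAlgebra.single α γ.2)))
        ⟨(γ, α), ⟨hγ, hα⟩, rfl⟩
  · refine Eventually.of_forall fun i => ?_
    obtain ⟨e⟩ := exists_equiv G dg (i, g) (T := hg.toFinset) fun α => hg.mem_toFinset
    have := hG.fd i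
    have : FiniteDimensional D (UU G dg (i, g)) := e.symm.finiteDimensional
    have : FiniteDimensional D (U (i, g)) := Submodule.finiteDimensional_of_le (hUU _)
    have h5 := finrank_map_add_finrank_inf_ker ((hat φ).restrictScalars D) (U (i, g))
    have h6 : U (i, g) ⊓ LinearMap.ker ((hat φ).restrictScalars D) =
        U (i, g) ⊓ (Ws N₀).restrictScalars D := by
      ext f
      refine and_congr_right fun hf => (hat_eq_zero φ f).trans (forall_congr' fun k => ?_)
      exact hk _ (h1 i f hf k)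
    rw [h6] at h5
    have h7 := congrArg (Nat.cast : ℕ → ℤ) h5
    rw [Nat.cast_add] at h7
    exact (eq_sub_of_add_eq h7).symm

end Lf

open Lf in
theorem Step.lift (s : Step D N) {m c k0 : ℤ} (h2 : s.S2 m c k0) (h3 : s.S3 m c k0)
    {σ E : Type} [Finite σ] [Fintype E] [DecidableEq E] (nd : σ → E)
    {S : Set ((E → ℤ) × MvPolynomial σ Z)} (hS : Homog (dgs nd) S) (PP : (E → ℤ) → ℤ)
    (H : MG Z D (Sum.elim (fun _ : N.Var => ((1, 0) : ℤ × (E → ℤ))) fun v => (0, dgs nd v))
      ((fun p => ((p.1, 0), rename Sum.inl p.2)) '' N.eqs ∪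
        (fun p => ((0, p.1), rename Sum.inr p.2)) '' S)
      (Lat fun g => (m * g.1 + c) * PP g.2)) :
    MG Z s.D' (dgs nd) S (Lat PP) := by
  refine CG.mg (closed_Lat PP) hS fun NN hst hle hk => ?_
  obtain ⟨sN, hsN, hsN1, hsN2⟩ := fg_of_le (fun i j => rep_commute (thF Z s.D' σ) (X i) (X j))
    (stable_bot _ _) hst bot_le (Set.finite_singleton _)
    ((hle.trans (Fr_le_Gen (Z := Z) _)).trans le_sup_right)
  rw [bot_sup_eq] at hsN2
  obtain ⟨G, hG, hdeg, hA, r0, t0, ha0, hd0⟩ := h2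
    (insert 1 (⋃ p ∈ sN, Set.range p.2.coeff))
    ((hsN.biUnion fun p _ => Finsupp.finite_range _).insert 1)
  have hUst := UU_stable (dg := dgs nd) hG.st
  have hU'st := hUst.inf (WW_stable hst)
  have hequiv := fun x : ℤ × (E → ℤ) => exists_equiv G (dgs nd) x
    (T := (finite_weight nd x.2).toFinset) fun α => (finite_weight nd x.2).mem_toFinset
  obtain ⟨sG, hsG, hsG1, hsG2⟩ := hG.fg
  rw [bot_sup_eq] at hsG2
  have hL := H (AA s σ) (th s σ) (isRep_th s) (UU G (dgs nd) ⊓ WW s NN) (UU G (dgs nd))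
    ⟨hU'st, hUst, inf_le_left, fun x => by
      obtain ⟨e⟩ := hequiv x
      have := hG.fd x.1
      exact e.symm.finiteDimensional, _, hsG.image _, by
      rintro _ ⟨γ, hγ, rfl⟩
      exact single_mem_UU (map_zero _) (hsG1 γ hγ), (UU_le_Gen hsG2).trans le_sup_right⟩ (by
      rintro _ (⟨_, ⟨w, rfl⟩, rfl⟩ | ⟨p, hp, rfl⟩) x f hf
      · rw [th_inl, s.ul.eqn, zero_smul]
        exact zero_mem _
      · refine ⟨maps_inr hUst (hS p hp) x f hf, fun k => ?_⟩
        rw [xc_th_inr]
        exact hk p hp x.2 _ (UU_mem_Ws hf k))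
  obtain ⟨q, hq⟩ := aff_of_lat (k0 := k0) hL
  refine ⟨q, hq.mono fun g ⟨r, t, ha, hd⟩ => ?_⟩
  have hfd := (Fr_pair (Z := Z) (D := s.D') nd).fd g
  have hfd' : FiniteDimensional s.D' (NN g) := Submodule.finiteDimensional_of_le (hle g)
  have b1 := bound h3 hG hdeg (finite_weight nd g) hUst le_rfl (hle g)
    (fun i f hf => UU_mem_Ws hf) (by
      rw [Fr_eq_span]
      refine Submodule.span_mono ?_
      rintro _ ⟨α, hα, rfl⟩
      rw [Set.mem_ofPred_eq, i0, AddMonoidAlgebra.map_single]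
      exact single_mem_UU hα (hA 1 (Set.mem_insert _ _))) ha
  have hU : Aff m c (fun i => hf (UU G (dgs nd)) (i, g)) (hf (Fr s.D' (dgs nd)) g * r0)
      (hf (Fr s.D' (dgs nd)) g * t0) := by
    refine ha0.mono fun i hi => ?_
    obtain ⟨e⟩ := hequiv (i, g)
    have := hG.fd i
    have h4 : hf (UU G (dgs nd)) (i, g) = hf (Fr s.D' (dgs nd)) g * hf G i := by
      rw [hf_Fr]
      simp only [hf]
      rw [e.finrank_eq, finrank_pi_fintype, Finset.sum_const, Finset.card_univ, Fintype.card_coe,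
        smul_eq_mul, Nat.cast_mul]
    beta_reduce
    rw [h4, hi]
    ring
  have b2 := bound h3 hG hdeg (finite_weight nd g) hU'st inf_le_left (bot_le : ⊥ ≤ NN g)
    (fun i f hf => hf.2) (hsN2.trans (Gen_le (W := fun g => Submodule.span s.D'
      {b | i0 b ∈ (UU G (dgs nd) ⊓ WW s NN) (0, g)}) (fun v g b hb => by
        refine Submodule.mem_comap.1 (Submodule.span_le.2 (fun b hb => ?_) hb)
        refine Submodule.mem_comap.2 (Submodule.subset_span ?_)
        have := hU'st (Sum.inr v) _ _ hb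
        rw [th_X_inr_i0] at this
        simpa using this) fun p hp => Submodule.subset_span
          ⟨fun α => ⟨hA _ (Set.mem_insert_of_mem _ (Set.mem_biUnion hp ⟨α, rfl⟩)),
            fun h => hle _ (hsN1 p hp) α fun h0 => h (by rw [coeff_i0, h0, map_zero])⟩,
            i0_mem_Ws.2 (hsN1 p hp)⟩) g)
    ((hU.sub ha).congr (Eventually.of_forall fun i => by
      have h4 : (UU G (dgs nd) ⊓ WW s NN) (i, g) ⊓ (Ws ⊥).restrictScalars D = ⊥ :=
        eq_bot_iff.2 fun f hf => eq_zero_of_xc hf.2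
      rw [h4]
      simp))
  rw [finrank_bot, Nat.cast_zero] at b2
  have b1' : hf (Fr s.D' (dgs nd)) g - hf NN g ≤ _ := b1
  have b2' : hf NN g - 0 ≤ _ := b2
  have h4 : hf (Fr s.D' (dgs nd)) g * (r0 * k0 - t0) = hf (Fr s.D' (dgs nd)) g := by
    rw [hd0, mul_one]
  rw [← hd, Pi.sub_apply]
  linarith

end Vale.Agent.EGH
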