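import Vale.Agent.EGH.StepD
import Vale.Agent.EGH.Lift
import Vale.Agent.EGH.Calc

/-! Simultaneous solution of all nodes in one division ring. -/

namespace Vale.Agent.EGH

open Module MvPolynomial Filter

universe u

namespace RealizeAux

variable {Z : Type u} [Field Z] {D : Type u} [DivisionRing D] [Algebra Z D]

theorem hyp_single {N0 : Node Z} (h : Hyp D fun _ : Unit => N0) {c : ℤ}
    (hc : N0.P1 = fun i => N0.deg * i + c) :
    MG Z D (fun _ => (1 : ℤ)) N0.eqs (Lat fun i => N0.deg * i + c) := by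
  refine MG.transport h Sigma.snd (AddEquiv.funUnique Unit ℤ) (fun v => ?_)
    (fun v => Or.inl ⟨⟨(), v⟩, rfl⟩) ?_ fun f hf => ?_
  · simp [dgs, eps]
  · rintro _ ⟨⟨u, w⟩, rfl⟩
    refine ⟨w, Prod.ext ?_ ?_⟩
    · simp [eps]
    · simp only [rename_rename]
      exact (rename_id_apply _).symm
  · refine Lat.of_comp (AddEquiv.funUnique Unit ℤ) (fun a b => ?_) ?_
    · exact ⟨fun h _ => h, fun h => h ()⟩
    · convert hf using 1
      funext g
      simp [hc]

/-- Splitting off one coordinate. -/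
def optEquiv (E : Type) : (Option E → ℤ) ≃+ ℤ × (E → ℤ) where
  toFun g := (g none, fun e => g (some e))
  invFun p := fun o => o.elim p.1 p.2
  left_inv g := funext fun o => by cases o <;> rfl
  right_inv _ := rfl
  map_add' _ _ := rfl

/-- Splitting off the variables of one node. -/
def optVar {E : Type} (N0 : Node Z) (N : E → Node Z) :
    (Σ o : Option E, (o.elim N0 N).Var) → N0.Var ⊕ Σ e, (N e).Var
  | ⟨none, v⟩ => Sum.inl v
  | ⟨some e, v⟩ => Sum.inr ⟨e, v⟩

theorem rename_none {E : Type} (N0 : Node Z) (N : E → Node Z) (p : MvPolynomial N0.Var Z) :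
    rename Sum.inl p = rename (optVar N0 N)
      (rename (fun v : N0.Var => (⟨none, v⟩ : Σ o : Option E, (o.elim N0 N).Var)) p) := by
  rw [rename_rename]
  rfl

theorem rename_some {E : Type} (N0 : Node Z) (N : E → Node Z) (e : E)
    (p : MvPolynomial (N e).Var Z) :
    rename Sum.inr (rename (fun v : (N e).Var => (⟨e, v⟩ : Σ e, (N e).Var)) p) =
      rename (optVar N0 N)
        (rename (fun v : (N e).Var => (⟨some e, v⟩ : Σ o : Option E, (o.elim N0 N).Var)) p) := by
  rw [rename_rename, rename_rename]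
  rfl

theorem optEquiv_apply {E : Type} (g : Option E → ℤ) :
    optEquiv E g = (g none, fun e => g (some e)) := rfl

theorem optEquiv_none {E : Type} [DecidableEq E] : optEquiv E (eps none) = (1, 0) := by
  refine Prod.ext ?_ (funext fun e => ?_) <;> simp [optEquiv_apply, eps]

theorem optEquiv_some {E : Type} [DecidableEq E] (e : E) :
    optEquiv E (eps (some e)) = (0, eps e) := by
  refine Prod.ext ?_ (funext fun e' => ?_) <;> simp [optEquiv_apply, eps, Pi.single_apply]

theorem hyp_option {E : Type} [Fintype E] [DecidableEq E] {N0 : Node Z} {N : E → Node Z}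
    (h : Hyp D fun o : Option E => o.elim N0 N) {c : ℤ} (hc : N0.P1 = fun i => N0.deg * i + c) :
    MG Z D (Sum.elim (fun _ : N0.Var => ((1, 0) : ℤ × (E → ℤ)))
        fun v => (0, dgs (Sigma.fst : (Σ e, (N e).Var) → E) v))
      ((fun p => ((p.1, 0), rename Sum.inl p.2)) '' N0.eqs ∪
        (fun p => ((0, p.1), rename Sum.inr p.2)) '' sysEqs N)
      (Lat fun g => (N0.deg * g.1 + c) * (fun g : E → ℤ => ∏ e, (N e).P1 (g e)) g.2) := by
  refine MG.transport h (optVar N0 N) (optEquiv E) ?_ ?_ ?_ fun f hf => ?_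
  · rintro ⟨_ | e, v⟩
    · exact optEquiv_none.symm
    · exact (optEquiv_some e).symm
  · rintro (v | ⟨e, v⟩)
    · exact Or.inl ⟨⟨none, v⟩, rfl⟩
    · exact Or.inl ⟨⟨some e, v⟩, rfl⟩
  · rintro _ ⟨⟨_ | e, w⟩, rfl⟩
    · refine Or.inl ⟨_, ⟨w, rfl⟩, Prod.ext ?_ ?_⟩
      · change _ = optEquiv E (N0.b w • eps none)
        rw [map_nsmul, optEquiv_none]
        simp
      · exact rename_none N0 N (N0.eqn w)
    · refine Or.inr ⟨_, ⟨⟨e, w⟩, rfl⟩, Prod.ext ?_ ?_⟩
      · change _ = optEquiv E ((N e).b w • eps (some e))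
        rw [map_nsmul, optEquiv_some]
        simp
      · exact rename_some N0 N e ((N e).eqn w)
  · refine Lat.of_comp (optEquiv E) (fun a b => ?_) ?_
    · refine ⟨fun h o => ?_, fun h => ⟨h none, fun e => h (some e)⟩⟩
      cases o with
      | none => exact h.1
      | some e => exact h.2 e
    · convert hf using 1
      funext g
      rw [Fintype.prod_option]
      change _ = N0.P1 (g none) * _
      rw [hc]
      rfl

theorem isUl_map {N : Node Z} {D' : Type u} [DivisionRing D'] [Algebra Z D'] (f : D →ₐ[Z] D')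
    {α β : N.W → D} {ρ : MvPolynomial N.Var Z →ₐ[Z] Polynomial D} (h : IsUl N α β ρ) :
    IsUl N (fun w => f (α w)) (fun w => f (β w)) ((Polynomial.mapAlgHom f).comp ρ) where
  y0 := by simp [h.y0]
  y1 := by simp [h.y1]
  out w := by simp [h.out w]
  eqn w := by simp [h.eqn w]

/-- The invariant of the induction over the nodes. -/
def Inv {E : Type} (N : E → Node Z) (S : Finset E) : Prop :=
  ∃ (D : Type u) (_ : DivisionRing D) (_ : Algebra Z D) (α β : ∀ e, (N e).W → D)
    (ρ : ∀ e, MvPolynomial (N e).Var Z →ₐ[Z] Polynomial D),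
    (∀ e ∈ S, IsUl (N e) (α e) (β e) (ρ e)) ∧
    (∀ e ∈ S, ∀ e' ∈ S, e ≠ e' → ∀ w w', Commute (α e w) (α e' w') ∧ Commute (α e w) (β e' w') ∧
      Commute (β e w) (β e' w')) ∧
    ∀ (E' : Type) [Fintype E'] [DecidableEq E'] (ι : E' → Option E), PInj ι →
      (∀ e', ∀ e ∈ S, ι e' ≠ some e) → Hyp D fun e' => (ι e').elim (Node.free Z) N

theorem inv_empty {E : Type} {N : E → Node Z} (hyp : AllHyp N) : Inv N ∅ := by
  refine ⟨Z, inferInstance, inferInstance, fun _ _ => 0, fun _ _ => 0, fun _ => aeval 0,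
    fun _ h => absurd h (Finset.notMem_empty _), fun _ h => absurd h (Finset.notMem_empty _),
    fun E' _ _ ι hι _ => ?_⟩
  have := hyp Z Empty Empty.elim ⟨algebraicIndependent_empty_type,
    eq_top_iff.2 fun x _ => IntermediateField.algebraMap_mem _ x⟩ E' ι hι
  simpa only [Node.map_id] using this

theorem inv_insert {E : Type} [DecidableEq E] {N : E → Node Z} (hok : ∀ e, (N e).OK)
    {S : Finset E} {e : E} (he : e ∉ S) (h : Inv N S) : Inv N (insert e S) := by
  obtain ⟨D, _, _, α, β, ρ, h1, h2, h3⟩ := h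
  obtain ⟨c, hc⟩ := (N e).exists_P1
  have hne : ∀ e₁ ∈ S, some e ≠ some e₁ := fun e₁ h₁ h => he (Option.some.inj h ▸ h₁)
  obtain ⟨s, k0, s2, s3⟩ := exists_step (D := D) (hok e) c
    (hyp_single (h3 Unit (fun _ => some e) (fun _ _ _ _ _ => rfl) fun _ => hne) hc)
  have hS : ∀ e₁ ∈ S, e₁ ≠ e := fun e₁ h₁ h => he (h ▸ h₁)
  refine ⟨s.D', inferInstance, inferInstance,
    Function.update (fun e₁ w => s.ι (α e₁ w)) e s.α,
    Function.update (fun e₁ w => s.ι (β e₁ w)) e s.β,
    Function.update (fun e₁ => (Polynomial.mapAlgHom s.ι).comp (ρ e₁)) e s.ρ, ?_, ?_, ?_⟩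
  · intro e₁ h₁
    rcases Finset.mem_insert.1 h₁ with rfl | h₁
    · simp only [Function.update_self]
      exact s.ul
    · simp only [Function.update_of_ne (hS e₁ h₁)]
      exact isUl_map s.ι (h1 e₁ h₁)
  · intro e₁ h₁ e₂ h₂ hne' w w'
    rcases Finset.mem_insert.1 h₁ with k₁ | h₁ <;> rcases Finset.mem_insert.1 h₂ with k₂ | h₂
    · exact absurd (k₁.trans k₂.symm) hne'
    · have k₃ := hS e₂ h₂
      subst k₁
      simp only [Function.update_self, Function.update_of_ne k₃]
      exact ⟨(s.commα _ _).symm, (s.commα _ _).symm, (s.commβ _ _).symm⟩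
    · have k₃ := hS e₁ h₁
      subst k₂
      simp only [Function.update_self, Function.update_of_ne k₃]
      exact ⟨s.commα _ _, s.commβ _ _, s.commβ _ _⟩
    · simp only [Function.update_of_ne (hS e₁ h₁), Function.update_of_ne (hS e₂ h₂)]
      obtain ⟨a1, a2, a3⟩ := h2 e₁ h₁ e₂ h₂ hne' w w'
      exact ⟨a1.map s.ι, a2.map s.ι, a3.map s.ι⟩
  · intro E' _ _ ι hι hav
    have hav1 : ∀ e', ι e' ≠ some e := fun e' => hav e' e (Finset.mem_insert_self _ _)
    have h4 := h3 (Option E') (fun o => o.elim (some e) ι) ?_ ?_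
    · have e1 : (fun o : Option E' => (o.elim (some e) ι).elim (Node.free Z) N) =
          fun o : Option E' => o.elim (N e) fun e' => (ι e').elim (Node.free Z) N :=
        funext fun o => by cases o <;> rfl
      rw [e1] at h4
      refine s.lift s2 s3 _ (homog_sysEqs fun e' => ?_) _ (hyp_option h4 hc)
      cases ι e' with
      | none => exact Node.free_ok
      | some e₁ => exact hok e₁
    · rintro (_ | a) (_ | b) e₁ ha hb
      · rfl
      · exact absurd (hb.trans ha.symm) (hav1 b)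
      · exact absurd (ha.trans hb.symm) (hav1 a)
      · rw [hι a b e₁ ha hb]
    · rintro (_ | a) e₁ h₁
      · exact hne e₁ h₁
      · exact hav a e₁ (Finset.mem_insert_of_mem h₁)

end RealizeAux

open RealizeAux in
theorem realize {Z : Type u} [Field Z] {E : Type} [Fintype E] [DecidableEq E] (N : E → Node Z)
    (hok : ∀ e, (N e).OK) (hyp : AllHyp N) :
    ∃ (D : Type u) (_ : DivisionRing D) (_ : Algebra Z D) (α β : ∀ e, (N e).W → D)
      (ρ : ∀ e, MvPolynomial (N e).Var Z →ₐ[Z] Polynomial D),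
      (∀ e, IsUl (N e) (α e) (β e) (ρ e)) ∧
      ∀ e e', e ≠ e' → ∀ w w', Commute (α e w) (α e' w') ∧ Commute (α e w) (β e' w') ∧
        Commute (β e w) (β e' w') := by
  have key : ∀ S : Finset E, Inv N S := fun S =>
    Finset.induction_on S (inv_empty hyp) fun e S he h => inv_insert hok he h
  obtain ⟨D, _, _, α, β, ρ, h1, h2, -⟩ := key Finset.univ
  exact ⟨D, inferInstance, inferInstance, α, β, ρ, fun e => h1 e (Finset.mem_univ e),
    fun e e' => h2 e (Finset.mem_univ e) e' (Finset.mem_univ e')⟩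

end Vale.Agent.EGH
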