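import Vale.Agent.P200.Std

/-! Commuting linear forms without common zero span the space of linear forms. -/

namespace Vale.Agent.EGH

open MvPolynomial TensorProduct

universe u

namespace SpanAux

theorem indep_of_span_eq {D : Type*} [DivisionRing D] {V : Type*} [AddCommGroup V] [Module D V]
    {ι : Type*} (deg : ι → ℕ) (hfin : ∀ d, {i | deg i ≤ d}.Finite) (u v : ι → V)
    (hv : LinearIndependent D v)
    (h : ∀ d, Submodule.span D (u '' {i | deg i = d}) = Submodule.span D (v '' {i | deg i = d})) :
    LinearIndependent D u := by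
  have key : ∀ (u v : ι → V), (∀ d, Submodule.span D (u '' {i | deg i = d}) =
      Submodule.span D (v '' {i | deg i = d})) → ∀ d, Submodule.span D (u '' {i | deg i ≤ d}) ≤
        Submodule.span D (v '' {i | deg i ≤ d}) := by
    intro u v h d
    rw [Submodule.span_le]
    rintro _ ⟨i, hi, rfl⟩
    have h1 : u i ∈ Submodule.span D (u '' {j | deg j = deg i}) :=
      Submodule.subset_span ⟨i, rfl, rfl⟩
    rw [h] at h1
    refine Submodule.span_mono (Set.image_mono fun j hj => ?_) h1
    exact (le_of_eq hj).trans hi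
  have h2 : ∀ d, LinearIndepOn D u {i | deg i ≤ d} := by
    intro d
    have := (hfin d).fintype
    have h3 : LinearIndependent D fun i : {i | deg i ≤ d} => v i :=
      hv.comp _ Subtype.val_injective
    rw [LinearIndepOn, linearIndependent_iff_card_eq_finrank_span]
    rw [linearIndependent_iff_card_eq_finrank_span] at h3
    rw [h3, Set.finrank, Set.finrank, ← Set.image_eq_range, ← Set.image_eq_range,
      le_antisymm (key u v h d) (key v u (fun d => (h d).symm) d)]
  rw [← linearIndepOn_univ_iff]
  refine linearIndepOn_of_finite _ fun t _ ht => ?_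
  obtain ⟨d, hd⟩ := (ht.image deg).bddAbove
  exact (h2 d).mono fun i hi => hd ⟨i, hi, rfl⟩

section Gen

variable {K : Type*} [Field K] {D : Type*} [Ring D] [Algebra K D] {B : Type*} [CommRing B]
  [Algebra K B]

theorem one_tmul_commute (b : B) (x : D ⊗[K] B) : Commute ((1 : D) ⊗ₜ[K] b) x := by
  induction x using TensorProduct.induction_on with
  | zero => exact Commute.zero_right _
  | tmul d b' => simp [Commute, SemiconjBy, mul_comm]
  | add x y hx hy => exact hx.add_right hy

theorem smul_eq_tmul_mul (d : D) (x : D ⊗[K] B) : d • x = (d ⊗ₜ[K] (1 : B)) * x := by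
  rw [← one_mul x, ← smul_mul_assoc, one_mul, Algebra.TensorProduct.one_def, smul_tmul',
    smul_eq_mul, mul_one]

end Gen

variable {K : Type*} [Field K] {D : Type*} [Ring D] [Algebra K D] {n : ℕ}
  (I : Ideal (MvPolynomial (Fin n) K))

theorem lin_add (c c' : Fin n → D) : P200.lin I (c + c') = P200.lin I c + P200.lin I c' := by
  simp [P200.lin, add_tmul, Finset.sum_add_distrib]

theorem lin_zero : P200.lin I (0 : Fin n → D) = 0 := by
  simp [P200.lin]

theorem lin_smul (d : D) (c : Fin n → D) :
    P200.lin I (d • c) = (d ⊗ₜ[K] (1 : MvPolynomial (Fin n) K ⧸ I)) * P200.lin I c := by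
  refine Eq.trans ?_ (smul_eq_tmul_mul d (P200.lin I c))
  simp [P200.lin, Finset.smul_sum, smul_tmul']

theorem lin_single (j : Fin n) :
    P200.lin I (Pi.single j (1 : D)) = 1 ⊗ₜ[K] Ideal.Quotient.mk I (X j) := by
  rw [P200.lin, Finset.sum_eq_single j]
  · rw [Pi.single_eq_same]
  · intro k _ hk
    rw [Pi.single_eq_of_ne hk, zero_tmul]
  · simp

end SpanAux

open SpanAux P200.StdAux in
theorem span_top {K : Type u} [Field K] {D : Type u} [DivisionRing D] [Algebra K D] {n : ℕ}
    (γ : Fin n → Fin n → D)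
    (hcomm : ∀ i k, Commute (P200.lin (⊥ : Ideal (MvPolynomial (Fin n) K)) (γ i))
      (P200.lin ⊥ (γ k)))
    (hrad : ∀ j, ∃ k : ℕ,
      ((1 : D) ⊗ₜ[K] Ideal.Quotient.mk (⊥ : Ideal (MvPolynomial (Fin n) K)) (X j)) ^ k ∈
        Ideal.span (Set.range fun i => P200.lin (⊥ : Ideal (MvPolynomial (Fin n) K)) (γ i))) :
    Submodule.span D (Set.range γ) = ⊤ := by
  classical
  by_contra hne
  obtain ⟨b1, hb1, hs1, hi1⟩ := exists_linearIndependent D (Set.range γ)
  obtain ⟨b2, hb2, h12, hs2, hi2⟩ := exists_linearIndepOn_id_extension (K := D) (s := b1)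
    (t := Set.range γ ∪ Set.range fun j : Fin n => Pi.single j (1 : D)) hi1
    (hb1.trans Set.subset_union_left)
  have htop : Submodule.span D b2 = ⊤ := by
    rw [eq_top_iff, ← (Pi.basisFun D (Fin n)).span_eq, Submodule.span_le]
    rintro _ ⟨j, rfl⟩
    exact hs2 (Or.inr ⟨j, (Pi.basisFun_apply D _ j).symm⟩)
  let bs : Module.Basis b2 D (Fin n → D) :=
    Module.Basis.mk hi2 (by rw [← Set.image_eq_range, Set.image_id, htop])
  let e : Fin n ≃ b2 := (Pi.basisFun D (Fin n)).indexEquiv bs
  let ψ : Fin n → Fin n → D := fun i => e i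
  have hψ : Set.range ψ = b2 := by
    ext x
    exact ⟨fun ⟨i, hi⟩ => hi ▸ (e i).2, fun hx => ⟨e.symm ⟨x, hx⟩, by simp [ψ]⟩⟩
  obtain ⟨i0, hi0⟩ : ∃ i, ψ i ∉ Submodule.span D (Set.range γ) := by
    by_contra h
    push Not at h
    refine hne (eq_top_iff.2 ?_)
    rw [← htop, ← hψ, Submodule.span_le]
    rintro _ ⟨i, rfl⟩
    exact h i
  obtain ⟨j0, hj0⟩ : ∃ j, Pi.single j (1 : D) = ψ i0 :=
    (hb2 (e i0).2).resolve_left fun h => hi0 (Submodule.subset_span h)
  let π := Ideal.Quotient.mkₐ K (⊥ : Ideal (MvPolynomial (Fin n) K))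
  let φ : Fin n → D ⊗[K] (MvPolynomial (Fin n) K ⧸ (⊥ : Ideal (MvPolynomial (Fin n) K))) :=
    fun i => P200.lin ⊥ (ψ i)
  have hc : ∀ i k, Rel K (φ i * φ k) (φ k * φ i) := by
    intro i k
    have : Commute (φ i) (φ k) := by
      rcases hb2 (e i).2 with ⟨a, ha⟩ | ⟨a, ha⟩
      · rcases hb2 (e k).2 with ⟨b, hb⟩ | ⟨b, hb⟩
        · simpa only [φ, ψ, ← ha, ← hb] using hcomm a b
        · simp only [φ, ψ, ← hb, lin_single]
          exact (one_tmul_commute _ _).symm
      · simp only [φ, ψ, ← ha, lin_single]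
        exact one_tmul_commute _ _
    rw [this.eq]
    exact Rel.refl _
  let v : (Fin n →₀ ℕ) → D ⊗[K] (MvPolynomial (Fin n) K ⧸ (⊥ : Ideal (MvPolynomial (Fin n) K))) :=
    fun α => 1 ⊗ₜ[K] π (monomial α 1)
  have hd : ∀ d, Submodule.span D (mn φ '' {α | α.degree = d}) =
      Submodule.span D (v '' {α | α.degree = d}) := by
    intro d
    rw [span_mn π ψ φ (fun _ => rfl) hc (by rw [hψ, htop]) d,
      show homogeneousSubmodule (Fin n) K d = restrictSupport K {α | α.degree = d} from
      homogeneousSubmodule_eq_finsupp_supported _ _ _, restrictSupport_eq_span,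
      Submodule.map_span, Submodule.baseChange_span, Set.image_image, Set.image_image]
    rfl
  have hv : LinearIndependent D v := by
    refine Module.Flat.linearIndependent_one_tmul ?_
    refine ((basisMonomials (Fin n) K).linearIndependent.map' π.toLinearMap ?_)
    rw [eq_bot_iff]
    intro p hp
    exact Ideal.Quotient.eq_zero_iff_mem.1 hp
  have hu : LinearIndependent D (mn φ) :=
    indep_of_span_eq Finsupp.degree (fun d => Finsupp.finite_of_degree_le d) _ v hv hd
  have hall : ∀ a, a ∈ Submodule.span D (Set.range (mn φ)) := by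
    intro a
    induction a using TensorProduct.induction_on with
    | zero => exact Submodule.zero_mem _
    | add x y hx hy => exact Submodule.add_mem _ hx hy
    | tmul d b =>
      obtain ⟨p, rfl⟩ := Ideal.Quotient.mk_surjective b
      induction p using MvPolynomial.induction_on' with
      | monomial α c =>
        have h1 : v α ∈ Submodule.span D (v '' {β | β.degree = α.degree}) :=
          Submodule.subset_span ⟨α, rfl, rfl⟩
        rw [← hd] at h1
        have h2 := Submodule.span_mono (Set.image_subset_range _ _) h1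
        have h3 : d ⊗ₜ[K] Ideal.Quotient.mk ⊥ (monomial α c) = (c • d) • v α := by
          simp only [v]
          rw [smul_tmul', smul_eq_mul, mul_one, smul_tmul, ← map_smul, smul_monomial, smul_eq_mul,
            mul_one]
          rfl
        rw [h3]
        exact Submodule.smul_mem _ _ h2
      | add p q hp hq =>
        rw [map_add, tmul_add]
        exact Submodule.add_mem _ hp hq
  let W := Submodule.span D (mn φ '' {α | ∃ i, ψ i ∈ b1 ∧ α i ≠ 0})
  let P : Ideal (D ⊗[K] (MvPolynomial (Fin n) K ⧸ (⊥ : Ideal (MvPolynomial (Fin n) K)))) :=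
    { carrier := {y | ∀ a, a * y ∈ W}
      add_mem' := fun {x y} hx hy a => by
        rw [mul_add]
        exact W.add_mem (hx a) (hy a)
      zero_mem' := fun a => by
        rw [mul_zero]
        exact W.zero_mem
      smul_mem' := fun c y hy a => by
        rw [smul_eq_mul, ← mul_assoc]
        exact hy _ }
  have hP : ∀ x ∈ Submodule.span D b1, P200.lin ⊥ x ∈ P := by
    intro x hx
    induction hx using Submodule.span_induction with
    | mem x hx =>
      obtain ⟨i, rfl⟩ : x ∈ Set.range ψ := hψ ▸ h12 hx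
      intro a
      refine mul_mem_span ?_ (hall a)
      rintro _ ⟨α, rfl⟩
      exact (mn_mul hc α i).mem (Submodule.subset_span ⟨_, ⟨i, hx, by simp⟩, rfl⟩)
    | zero =>
      rw [lin_zero]
      exact P.zero_mem
    | add x y _ _ hx hy =>
      rw [lin_add]
      exact P.add_mem hx hy
    | smul d x _ hx =>
      rw [lin_smul]
      exact P.mul_mem_left _ hx
  obtain ⟨k, hk⟩ := hrad j0
  have h1 : φ i0 ^ k ∈ P := by
    simp only [φ, ← hj0, lin_single]
    refine Ideal.span_le.2 ?_ hk
    rintro _ ⟨i, rfl⟩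
    exact hP _ (hs1 ▸ Submodule.subset_span ⟨i, rfl⟩)
  have h2 := h1 1
  rw [one_mul] at h2
  refine hu.notMem_span_image ?_ ((mn_pow hc i0 k).symm.mem h2)
  rintro ⟨i, hi, h3⟩
  obtain rfl : i = i0 := by
    by_contra h4
    exact h3 (Finsupp.single_eq_of_ne h4)
  exact hi0 (Submodule.subset_span (hb1 hi))

end Vale.Agent.EGH
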