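import Vale.Agent.EGH.CDefs
import Vale.Agent.EGH.NodeBasic
import Vale.Agent.P200.Std

/-! Wiring the solutions of the nodes together. -/

namespace Vale.Agent.EGH

open MvPolynomial TensorProduct

universe u

namespace WireAux

theorem exists_fix {ι Y : Type*} [Inhabited Y] (wrk : ι → ℕ) (F : (ι → Y) → ι → Y)
    (hF : ∀ u u' v, (∀ v', wrk v' < wrk v → u v' = u' v') → F u v = F u' v) :
    ∃ u, F u = u := by
  have h : ∀ k v, wrk v < k → F^[k + 1] default v = F^[k] default v := by
    intro k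
    induction k with
    | zero => intro v hv; omega
    | succ k ih =>
      intro v hv
      rw [Function.iterate_succ_apply' F (k + 1)]
      conv_rhs => rw [Function.iterate_succ_apply' F k]
      exact hF _ _ v fun v' hv' => ih v' (by omega)
  have h2 : ∀ k v, wrk v + 1 ≤ k → F^[k] default v = F^[wrk v + 1] default v := by
    intro k v hk
    induction k, hk using Nat.le_induction with
    | base => rfl
    | succ k hk ih => rw [h k v (by omega), ih]
  refine ⟨fun v => F^[wrk v + 1] default v, funext fun v => ?_⟩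
  rw [Function.iterate_succ_apply' F (wrk v)]
  exact hF _ _ v fun v' hv' => (h2 _ v' hv').symm

section Hom

variable {D A : Type*} [Ring D] [Ring A] (ι : D →+* A) (a0 a1 : A)

/-- Homogeneous evaluation of a polynomial. -/
noncomputable def hev (d : ℕ) (q : Polynomial D) : A :=
  ∑ i ∈ Finset.range (d + 1), ι (q.coeff i) * (a0 ^ i * a1 ^ (d - i))

theorem hev_add (d : ℕ) (q q' : Polynomial D) :
    hev ι a0 a1 d (q + q') = hev ι a0 a1 d q + hev ι a0 a1 d q' := by
  simp [hev, add_mul, Finset.sum_add_distrib]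

theorem hev_zero (d : ℕ) : hev ι a0 a1 d 0 = 0 := by
  simp [hev]

theorem hev_C (c : D) : hev ι a0 a1 0 (Polynomial.C c) = ι c := by
  simp [hev]

variable {ι a0 a1}

theorem hev_step (h : Commute a0 a1) {a b : D} (ha0 : Commute (ι a) a0) (ha1 : Commute (ι a) a1)
    (hb0 : Commute (ι b) a0) (hb1 : Commute (ι b) a1) (d : ℕ) (q : Polynomial D)
    (hq : q.coeff (d + 1) = 0) :
    hev ι a0 a1 (d + 1) (q * (Polynomial.C a * Polynomial.X + Polynomial.C b)) =
      hev ι a0 a1 d q * (ι a * a0 + ι b * a1) := by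
  rw [mul_add, hev_add, mul_add, ← mul_assoc q]
  congr 1
  · rw [hev, hev, Finset.sum_range_succ', Polynomial.coeff_mul_X_zero, map_zero, zero_mul, add_zero,
      Finset.sum_mul]
    refine Finset.sum_congr rfl fun i _ => ?_
    rw [Polynomial.coeff_mul_X, Polynomial.coeff_mul_C, map_mul, Nat.add_sub_add_right, mul_assoc,
      mul_assoc, ← mul_assoc (a0 ^ i * _), ← ((ha0.pow_right i).mul_right (ha1.pow_right _)).eq,
      mul_assoc (ι a), mul_assoc (a0 ^ i), ← (h.pow_right _).eq, ← mul_assoc (a0 ^ i), pow_succ]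
  · rw [hev, hev, Finset.sum_range_succ, Polynomial.coeff_mul_C, hq, zero_mul, map_zero, zero_mul,
      add_zero, Finset.sum_mul]
    refine Finset.sum_congr rfl fun i hi => ?_
    have hi' : d + 1 - i = d - i + 1 := by
      have := Finset.mem_range.1 hi
      omega
    rw [Polynomial.coeff_mul_C, map_mul, hi', mul_assoc, mul_assoc, ← mul_assoc (a0 ^ i * _),
      ← ((hb0.pow_right i).mul_right (hb1.pow_right _)).eq, mul_assoc (ι b), mul_assoc (a0 ^ i),
      pow_succ]

theorem coeff_step {a b : D} (d : ℕ) (q : Polynomial D) (hq : ∀ k, d < k → q.coeff k = 0) :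
    ∀ k, d + 1 < k → (q * (Polynomial.C a * Polynomial.X + Polynomial.C b)).coeff k = 0 := by
  intro k hk
  obtain ⟨k, rfl⟩ : ∃ k', k = k' + 1 := ⟨k - 1, by omega⟩
  rw [mul_add, ← mul_assoc, Polynomial.coeff_add, Polynomial.coeff_mul_X, Polynomial.coeff_mul_C,
    Polynomial.coeff_mul_C, hq k (by omega), hq (k + 1) (by omega), zero_mul, zero_mul, add_zero]

theorem commute_lin (h : Commute a0 a1) {a b a' b' : D} (ha0 : Commute (ι a) a0)
    (ha1 : Commute (ι a) a1) (hb0 : Commute (ι b) a0) (hb1 : Commute (ι b) a1)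
    (ha0' : Commute (ι a') a0) (ha1' : Commute (ι a') a1) (hb0' : Commute (ι b') a0)
    (hb1' : Commute (ι b') a1)
    (hc : Commute (Polynomial.C a * Polynomial.X + Polynomial.C b)
      (Polynomial.C a' * Polynomial.X + Polynomial.C b')) :
    Commute (ι a * a0 + ι b * a1) (ι a' * a0 + ι b' * a1) := by
  have h0 : ∀ k, 0 < k → (Polynomial.C (1 : D)).coeff k = 0 := fun k hk =>
    Polynomial.coeff_C_of_ne_zero hk.ne'
  have e1 := hev_step h ha0 ha1 hb0 hb1 0 _ (h0 1 one_pos)
  have e2 := hev_step h ha0' ha1' hb0' hb1' 0 _ (h0 1 one_pos)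
  have e3 := hev_step h ha0' ha1' hb0' hb1' 1 _ (coeff_step (a := a) (b := b) 0 _ h0 2 (by omega))
  have e4 := hev_step h ha0 ha1 hb0 hb1 1 _ (coeff_step (a := a') (b := b') 0 _ h0 2 (by omega))
  rw [e1] at e3
  rw [e2] at e4
  rw [hev_C, map_one, map_one, one_mul, one_mul] at e3 e4
  exact e3.symm.trans ((congrArg _ hc.eq).trans e4)

end Hom

theorem hev_hom {Z : Type*} [Field Z] {D A : Type*} [Ring D] [Ring A] [Algebra Z D] [Algebra Z A]
    (ι : D →ₐ[Z] A) {a0 a1 : A} (h : Commute a0 a1) {σ : Type*} (a b : σ → D)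
    (ha0 : ∀ v, Commute (ι (a v)) a0) (ha1 : ∀ v, Commute (ι (a v)) a1)
    (hb0 : ∀ v, Commute (ι (b v)) a0) (hb1 : ∀ v, Commute (ι (b v)) a1)
    (ρ : MvPolynomial σ Z →ₐ[Z] Polynomial D)
    (hρ : ∀ v, ρ (X v) = Polynomial.C (a v) * Polynomial.X + Polynomial.C (b v))
    (θ : MvPolynomial σ Z →ₐ[Z] A) (hθ : ∀ v, θ (X v) = ι (a v) * a0 + ι (b v) * a1) (d : ℕ) :
    ∀ p : MvPolynomial σ Z, p.IsHomogeneous d →
      (∀ k, d < k → (ρ p).coeff k = 0) ∧ θ p = hev ι.toRingHom a0 a1 d (ρ p) := by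
  classical
  have red : ∀ d, (∀ (m : σ →₀ ℕ) (r : Z), m.degree = d →
      (∀ k, d < k → (ρ (monomial m r)).coeff k = 0) ∧
        θ (monomial m r) = hev ι.toRingHom a0 a1 d (ρ (monomial m r))) →
      ∀ p : MvPolynomial σ Z, p.IsHomogeneous d →
        (∀ k, d < k → (ρ p).coeff k = 0) ∧ θ p = hev ι.toRingHom a0 a1 d (ρ p) := by
    intro d hm p hp
    induction hp using IsWeightedHomogeneous.induction_on with
    | zero => simp [hev_zero]
    | add p q _ _ h1 h2 =>
      refine ⟨fun k hk => ?_, ?_⟩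
      · rw [map_add, Polynomial.coeff_add, h1.1 k hk, h2.1 k hk, add_zero]
      · rw [map_add, map_add, hev_add, h1.2, h2.2]
    | monomial m r hr => exact hm m r (by rw [Finsupp.degree_eq_weight_one]; exact hr)
  induction d with
  | zero =>
    refine red 0 fun m r hm => ?_
    obtain rfl := (Finsupp.degree_eq_zero_iff m).1 hm
    have e : ρ (monomial 0 r) = Polynomial.C (algebraMap Z D r) := ρ.commutes r
    rw [e, hev_C]
    exact ⟨fun k hk => Polynomial.coeff_C_of_ne_zero hk.ne', (θ.commutes r).trans (ι.commutes r).symm⟩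
  | succ d ih =>
    refine red _ fun m r hm => ?_
    obtain ⟨j, hj⟩ : ∃ j, m j ≠ 0 := by
      by_contra h
      push Not at h
      rw [show m = 0 from Finsupp.ext h] at hm
      simp at hm
    have h1 : m = (m - Finsupp.single j 1) + Finsupp.single j 1 :=
      (tsub_add_cancel_of_le (Finsupp.single_le_iff.mpr (Nat.one_le_iff_ne_zero.mpr hj))).symm
    have h2 : (m - Finsupp.single j 1).degree = d := by
      rw [h1, map_add, Finsupp.degree_single] at hm
      omega
    obtain ⟨i1, i2⟩ := ih _ (isHomogeneous_monomial r h2)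
    have e : monomial m r = monomial (m - Finsupp.single j 1) r * X j := by
      rw [X, monomial_mul, mul_one, ← h1]
    rw [e, map_mul, map_mul, hρ, hθ, i2]
    exact ⟨coeff_step d _ i1,
      (hev_step h (ha0 j) (ha1 j) (hb0 j) (hb1 j) d _ (i1 _ (Nat.lt_succ_self d))).symm⟩

variable {K : Type u} [Field K] {n : ℕ} (C : Cfg K n)

/-- The height of a wire. -/
def wrk : C.Wi → ℕ := Sum.elim (fun _ => 0) fun x => C.rk x.1 + 1

theorem wrk_le {e : C.E} {i : Fin 2} {v : C.Wi}
    (h : coeff (Finsupp.single v 1) (C.inp e i) ≠ 0) : wrk C v ≤ C.rk e := by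
  classical
  rcases v with j | ⟨e', w⟩
  · exact Nat.zero_le _
  · refine C.inp_rk e i e' w ((mem_vars_iff_mem_support _).2 ⟨_, mem_support_iff.2 h, ?_⟩)
    simp

variable {D : Type u} [Ring D] [Algebra C.Z D]

/-- The value of a linear form in the wires. -/
noncomputable def vl (u : C.Wi → Fin n → D) (l : C.R) : Fin n → D :=
  ∑ v, algebraMap C.Z D (coeff (Finsupp.single v 1) l) • u v

theorem exists_val (α β : ∀ e, (C.N e).W → D) : ∃ u : C.Wi → Fin n → D,
    (∀ j, u (Sum.inl j) = Pi.single j 1) ∧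
      ∀ e w, u (Sum.inr ⟨e, w⟩) = α e w • vl C u (C.inp e 0) + β e w • vl C u (C.inp e 1) := by
  have : Inhabited (Fin n → D) := ⟨0⟩
  obtain ⟨u, hu⟩ := exists_fix (wrk C) (fun u : C.Wi → Fin n → D => Sum.elim
    (fun j => Pi.single j 1)
    fun x => α x.1 x.2 • vl C u (C.inp x.1 0) + β x.1 x.2 • vl C u (C.inp x.1 1)) (by
      rintro u u' (j | ⟨e, w⟩) h
      · rfl
      · have : ∀ i, vl C u (C.inp e i) = vl C u' (C.inp e i) := by
          intro i
          refine Finset.sum_congr rfl fun v _ => ?_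
          by_cases hv : coeff (Finsupp.single v 1) (C.inp e i) = 0
          · rw [hv, map_zero, zero_smul, zero_smul]
          · rw [h v (Nat.lt_succ_of_le (wrk_le C hv))]
        simp only [Sum.elim_inr, this])
  exact ⟨u, fun j => (congrFun hu _).symm, fun e w => (congrFun hu _).symm⟩

theorem wire_gen (α β : ∀ e, (C.N e).W → D)
    (ρ : ∀ e, MvPolynomial (C.N e).Var C.Z →ₐ[C.Z] Polynomial D)
    (hul : ∀ e, IsUl (C.N e) (α e) (β e) (ρ e))
    (hc : ∀ e e', e ≠ e' → ∀ w w', Commute (α e w) (α e' w') ∧ Commute (α e w) (β e' w') ∧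
      Commute (β e w) (β e' w'))
    {A : Type*} [Ring A] [Algebra C.Z A] (ι : D →ₐ[C.Z] A) (L : C.Wi → A)
    (hx : ∀ j a, Commute (L (Sum.inl j)) a)
    (hL : ∀ e w, L (Sum.inr ⟨e, w⟩) =
      ι (α e w) * (∑ v, coeff (Finsupp.single v 1) (C.inp e 0) • L v) +
      ι (β e w) * (∑ v, coeff (Finsupp.single v 1) (C.inp e 1) • L v)) :
    ∃ Θ : C.R →ₐ[C.Z] A, (∀ v, Θ (X v) = L v) ∧ ∀ p ∈ C.J, Θ p = 0 := by
  obtain ⟨a, ha⟩ : ∃ a : C.E → Fin 2 → A, ∀ e i,
      a e i = ∑ v, coeff (Finsupp.single v 1) (C.inp e i) • L v := ⟨_, fun _ _ => rfl⟩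
  simp only [← ha] at hL
  have hsum : ∀ (y : A) e i, (∀ v, wrk C v ≤ C.rk e → Commute y (L v)) → Commute y (a e i) := by
    intro y e i h
    rw [ha]
    refine Commute.sum_right _ _ _ fun v _ => ?_
    by_cases hv : coeff (Finsupp.single v 1) (C.inp e i) = 0
    · rw [hv, zero_smul]
      exact Commute.zero_right _
    · exact (h v (wrk_le C hv)).smul_right _
  have c1 : ∀ e w k v, wrk C v = k → wrk C v ≤ C.rk e →
      Commute (ι (α e w)) (L v) ∧ Commute (ι (β e w)) (L v) := by
    intro e w k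
    induction k using Nat.strong_induction_on with
    | _ k ih =>
      rintro (j | ⟨e', w'⟩) hk hv
      · exact ⟨(hx j _).symm, (hx j _).symm⟩
      · have h1 : C.rk e' + 1 ≤ C.rk e := hv
        have h2 : C.rk e' + 1 = k := hk
        have hne : e ≠ e' := fun h => by rw [h] at h1; omega
        have h3 := fun v (hv : wrk C v ≤ C.rk e') => ih _ (by omega) v rfl (by omega)
        rw [hL]
        exact ⟨(((hc e e' hne w w').1.map ι).mul_right (hsum _ _ _ fun v hv => (h3 v hv).1)).add_right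
            (((hc e e' hne w w').2.1.map ι).mul_right (hsum _ _ _ fun v hv => (h3 v hv).1)),
          (((hc e' e hne.symm w' w).2.1.symm.map ι).mul_right
            (hsum _ _ _ fun v hv => (h3 v hv).2)).add_right
            (((hc e e' hne w w').2.2.map ι).mul_right (hsum _ _ _ fun v hv => (h3 v hv).2))⟩
  have c2 : ∀ e w e' i, C.rk e' ≤ C.rk e →
      Commute (ι (α e w)) (a e' i) ∧ Commute (ι (β e w)) (a e' i) := fun e w e' i h =>
    ⟨hsum _ _ _ fun v hv => (c1 e w _ v rfl (hv.trans h)).1,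
      hsum _ _ _ fun v hv => (c1 e w _ v rfl (hv.trans h)).2⟩
  have c3 : ∀ k v v', wrk C v + wrk C v' = k → Commute (L v) (L v') := by
    intro k
    induction k using Nat.strong_induction_on with
    | _ k ih =>
      have main : ∀ e w e' w', C.rk e + 1 + (C.rk e' + 1) = k → C.rk e' ≤ C.rk e →
          Commute (L (Sum.inr ⟨e, w⟩)) (L (Sum.inr ⟨e', w'⟩)) := by
        intro e w e' w' hk hle
        by_cases hne : e = e'
        · subst hne
          have h01 : Commute (a e 0) (a e 1) :=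
            hsum _ _ _ fun v hv => (hsum _ _ _ fun v' hv' => ih _ (by omega) v v' rfl).symm
          rw [hL, hL]
          refine commute_lin (ι := ι.toRingHom) h01 (c2 e w e 0 le_rfl).1 (c2 e w e 1 le_rfl).1
            (c2 e w e 0 le_rfl).2 (c2 e w e 1 le_rfl).2 (c2 e w' e 0 le_rfl).1
            (c2 e w' e 1 le_rfl).1 (c2 e w' e 0 le_rfl).2 (c2 e w' e 1 le_rfl).2 ?_
          rw [← (hul e).out, ← (hul e).out]
          exact (Commute.all _ _).map (ρ e)
        · have h1 : ∀ i, Commute (a e i) (L (Sum.inr ⟨e', w'⟩)) := fun i =>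
            (hsum _ _ _ fun v hv => ih _ (by change C.rk e' + 1 + _ < k; omega) _ v rfl).symm
          have h2 : Commute (ι (α e w)) (L (Sum.inr ⟨e', w'⟩)) := by
            rw [hL]
            exact (((hc e e' hne w w').1.map ι).mul_right (c2 e w e' 0 hle).1).add_right
              (((hc e e' hne w w').2.1.map ι).mul_right (c2 e w e' 1 hle).1)
          have h3 : Commute (ι (β e w)) (L (Sum.inr ⟨e', w'⟩)) := by
            rw [hL]
            exact (((hc e' e (Ne.symm hne) w' w).2.1.symm.map ι).mul_right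
              (c2 e w e' 0 hle).2).add_right
              (((hc e e' hne w w').2.2.map ι).mul_right (c2 e w e' 1 hle).2)
          rw [hL e w]
          exact (h2.mul_left (h1 0)).add_left (h3.mul_left (h1 1))
      rintro (j | ⟨e, w⟩) (j' | ⟨e', w'⟩) hk
      · exact hx _ _
      · exact hx _ _
      · exact (hx _ _).symm
      · have hk' : C.rk e + 1 + (C.rk e' + 1) = k := hk
        rcases le_total (C.rk e') (C.rk e) with h | h
        · exact main e w e' w' hk' h
        · exact (main e' w' e w (by omega) h).symm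
  obtain ⟨Θ, hΘ⟩ := exists_algHom_of_commute (Z := C.Z) L fun v v' => c3 _ v v' rfl
  refine ⟨Θ, hΘ, fun p hp => ?_⟩
  have hinp : ∀ e i, Θ (C.inp e i) = a e i := by
    intro e i
    rw [ha]
    conv_lhs => rw [eq_sum_of_isHomogeneous_one (C.inp_hom e i)]
    simp only [map_sum, map_mul, algHom_C, hΘ, Algebra.smul_def]
  refine (Ideal.span_le (I := RingHom.ker Θ)).2 ?_ hp
  rintro _ ⟨⟨e, w⟩, rfl⟩
  have h01 : Commute (a e 0) (a e 1) :=
    hsum _ _ _ fun v _ => (hsum _ _ _ fun v' _ => c3 _ v v' rfl).symm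
  have h := (hev_hom ι h01 (σ := (C.N e).Var) (Sum.elim ![1, 0] (α e)) (Sum.elim ![0, 1] (β e))
    ?_ ?_ ?_ ?_ (ρ e) ?_ (Θ.comp (C.sub e)) ?_ _ _ ((C.ok e).eqn_hom w)).2
  · rw [(hul e).eqn, hev_zero] at h
    exact h
  · rintro (i | w')
    · fin_cases i <;> simp
    · exact (c2 e w' e 0 le_rfl).1
  · rintro (i | w')
    · fin_cases i <;> simp
    · exact (c2 e w' e 1 le_rfl).1
  · rintro (i | w')
    · fin_cases i <;> simp
    · exact (c2 e w' e 0 le_rfl).2
  · rintro (i | w')
    · fin_cases i <;> simp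
    · exact (c2 e w' e 1 le_rfl).2
  · rintro (i | w')
    · fin_cases i
      · simpa using (hul e).y0
      · simpa using (hul e).y1
    · exact (hul e).out w'
  · rintro (i | w')
    · fin_cases i <;> simp [Cfg.sub, hinp]
    · simp [Cfg.sub, hΘ, hL]

end WireAux

theorem wire {K : Type u} [Field K] {n : ℕ} (C : Cfg K n) {D : Type u} [Ring D] [Algebra C.Z D]
    [Algebra K D] [IsScalarTower K C.Z D] (α β : ∀ e, (C.N e).W → D)
    (ρ : ∀ e, MvPolynomial (C.N e).Var C.Z →ₐ[C.Z] Polynomial D)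
    (hul : ∀ e, IsUl (C.N e) (α e) (β e) (ρ e))
    (hc : ∀ e e', e ≠ e' → ∀ w w', Commute (α e w) (α e' w') ∧ Commute (α e w) (β e' w') ∧
      Commute (β e w) (β e' w')) :
    ∃ val : C.R → Fin n → D, ∀ I : Ideal (MvPolynomial (Fin n) K),
      ∃ Θ : C.R →ₐ[C.Z] D ⊗[K] (MvPolynomial (Fin n) K ⧸ I),
        (∀ l : C.R, l.IsHomogeneous 1 → Θ l = P200.lin I (val l)) ∧
        (∀ f, Θ (C.base f) = 1 ⊗ₜ[K] Ideal.Quotient.mk I f) ∧ ∀ p ∈ C.J, Θ p = 0 := by
  obtain ⟨u, hu0, hu⟩ := WireAux.exists_val C α β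
  have key : ∀ (B : Type u) [CommRing B] [Algebra K B] (π : MvPolynomial (Fin n) K →ₐ[K] B),
      ∃ Θ : C.R →ₐ[C.Z] D ⊗[K] B,
        (∀ l : C.R, l.IsHomogeneous 1 → Θ l = ∑ j, WireAux.vl C u l j ⊗ₜ[K] π (X j)) ∧
        (∀ f, Θ (C.base f) = 1 ⊗ₜ[K] π f) ∧ ∀ p ∈ C.J, Θ p = 0 := by
    intro B _ _ π
    let ι : D →ₐ[C.Z] D ⊗[K] B := Algebra.TensorProduct.includeLeft
    let lin : (Fin n → D) → D ⊗[K] B := fun c => ∑ j, c j ⊗ₜ[K] π (X j)
    have l1 : ∀ c c', lin (c + c') = lin c + lin c' := fun c c' => by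
      simp [lin, add_tmul, Finset.sum_add_distrib]
    have l2 : ∀ (d : D) c, lin (d • c) = ι d * lin c := fun d c => by
      simp [lin, ι, Finset.mul_sum]
    have l3 : ∀ j, lin (Pi.single j 1) = 1 ⊗ₜ[K] π (X j) := fun j => by
      simp only [lin]
      rw [Finset.sum_eq_single j]
      · rw [Pi.single_eq_same]
      · intro k _ hk
        rw [Pi.single_eq_of_ne hk, zero_tmul]
      · simp
    have l4 : ∀ l, lin (WireAux.vl C u l) = ∑ v, coeff (Finsupp.single v 1) l • lin (u v) := by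
      intro l
      have l0 : lin 0 = 0 := by simp [lin]
      refine (map_sum (⟨⟨lin, l0⟩, l1⟩ : (Fin n → D) →+ D ⊗[K] B) _ _).trans ?_
      refine Finset.sum_congr rfl fun v _ => (l2 _ _).trans ?_
      rw [ι.commutes, Algebra.smul_def]
    obtain ⟨Θ, hΘ, hJ⟩ := WireAux.wire_gen C α β ρ hul hc ι (fun v => lin (u v))
      (fun j a => by
        simp only [hu0, l3]
        induction a using TensorProduct.induction_on with
        | zero => exact Commute.zero_right _
        | tmul d b' => simp [Commute, SemiconjBy, mul_comm]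
        | add x y hx hy => exact hx.add_right hy)
      (fun e w => by rw [hu, l1, l2, l2, l4, l4])
    refine ⟨Θ, fun l hl => ?_, fun f => ?_, hJ⟩
    · refine Eq.trans ?_ (l4 l).symm
      conv_lhs => rw [eq_sum_of_isHomogeneous_one hl]
      simp only [map_sum, map_mul, algHom_C, hΘ, Algebra.smul_def]
    · induction f using MvPolynomial.induction_on with
      | C k =>
        have e : C.base (MvPolynomial.C k) = MvPolynomial.C (algebraMap K C.Z k) := by
          simp only [Cfg.base, RingHom.comp_apply, map_C, AlgHom.toRingHom_eq_coe, RingHom.coe_coe,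
            rename_C]
        rw [e, algHom_C, algHom_C, Algebra.TensorProduct.algebraMap_apply,
          ← IsScalarTower.algebraMap_apply, Algebra.algebraMap_eq_smul_one,
          Algebra.algebraMap_eq_smul_one, smul_tmul]
      | add p q hp hq => rw [map_add, map_add, hp, hq, map_add, tmul_add]
      | mul_X p j hp =>
        have e : Θ (C.base (X j)) = 1 ⊗ₜ[K] π (X j) := by
          simp only [Cfg.base, RingHom.comp_apply, map_X, AlgHom.toRingHom_eq_coe, RingHom.coe_coe,
            rename_X, hΘ, hu0, l3]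
        rw [map_mul, map_mul, hp, e, Algebra.TensorProduct.tmul_mul_tmul, one_mul, map_mul]
  exact ⟨WireAux.vl C u, fun I => key _ (Ideal.Quotient.mkₐ K I)⟩

end Vale.Agent.EGH
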