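import Vale.Agent.EGH.CBasic
import Vale.Agent.EGH.Realize
import Vale.Agent.EGH.Wire
import Vale.Agent.EGH.SpanTop
import Vale.Agent.P200.Sop

/-! Assembly of the proof of the Eisenbud-Green-Harris conjecture. -/

namespace Vale.Agent.EGH

open MvPolynomial Module TensorProduct

universe u

variable {K : Type u} [Field K] {c m n : ℕ}
variable (f : Fin c → MvPolynomial (Fin n) K) (a : Fin c → ℕ)

/-- The linear system used at level `i`. -/
noncomputable def fam (C : Cfg K n) (z : Fin m → C.R) (v : Fin c → C.R) (i : Fin c) :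
    (Fin c × Fin n) ⊕ Fin m ⊕ Fin c → C.R
  | Sum.inl p => if p.1 < i then C.base (f p.1 * X p.2 ^ (a i - a p.1)) else 0
  | Sum.inr (Sum.inl r) => z r ^ a i
  | Sum.inr (Sum.inr i') => if i < i' then v i' ^ a i else 0

/-- The invariant after the levels `i ≥ l` have been constructed. -/
structure Inv (C : Cfg K n) (z : Fin m → C.R) (v : Fin c → C.R) (l : ℕ) : Prop where
  hz : ∀ r, (z r).IsHomogeneous 1
  hv : ∀ i, (v i).IsHomogeneous 1
  nb : C.NB (Set.range (fun i => C.base (f i)) ∪ Set.range z)
  rel : ∀ i : Fin c, l ≤ i → ∃ (k : C.Z) (cf : (Fin c × Fin n) ⊕ Fin m ⊕ Fin c → C.Z), k ≠ 0 ∧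
    v i ^ a i - k • C.base (f i) - ∑ x, cf x • fam f a C z v i x ∈ C.J

variable {f a}

theorem tr_fam {C C' : Cfg K n} (x : Ext C C') (z : Fin m → C.R) (v : Fin c → C.R)
    (v' : Fin c → C'.R) (i : Fin c) (h : ∀ i', i < i' → v' i' = x.tr (v i')) (y) :
    x.tr (fam f a C z v i y) = fam f a C' (fun r => x.tr (z r)) v' i y := by
  rcases y with p | r | i'
  · simp only [fam]
    split_ifs
    · exact x.tr_base _
    · exact map_zero _
  · exact map_pow _ _ _
  · simp only [fam]
    split_ifs with hi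
    · rw [map_pow, h i' hi]
    · exact map_zero _

theorem Inv.point {C : Cfg K n} {z : Fin m → C.R} {v : Fin c → C.R} {l : ℕ}
    (h : Inv f a C z v l) (ha : ∀ i, 0 < a i) {L : Type u} [Field L] [IsAlgClosed L]
    (g : C.Z →+* L) (p : C.Wi → L) (hJ : ∀ x ∈ C.J, eval₂ g p x = 0)
    (hz : ∀ r, eval₂ g p (z r) = 0) (hv : ∀ i : Fin c, l ≤ i → eval₂ g p (v i) = 0)
    (hf : ∀ i : Fin c, i < l → eval₂ g p (C.base (f i)) = 0) (j : Fin n) :
    p (Sum.inl j) = 0 := by
  have key : ∀ i : Fin c, eval₂ g p (C.base (f i)) = 0 := by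
    intro i
    induction i using WellFoundedLT.induction with
    | ind i ih =>
      rcases Nat.lt_or_ge i l with hi | hi
      · exact hf i hi
      obtain ⟨k, cf, hk, hrel⟩ := h.rel i hi
      have h1 := hJ _ hrel
      have h2 : ∀ y, eval₂Hom g p (cf y • fam f a C z v i y) = 0 := by
        intro y
        rw [smul_eq_C_mul, map_mul]
        refine mul_eq_zero_of_right _ ?_
        rcases y with q | r | i'
        · simp only [fam]
          split_ifs with hq
          · rw [map_mul, map_mul]
            exact mul_eq_zero_of_left (ih _ hq) _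
          · exact map_zero _
        · simp only [fam]
          rw [map_pow, coe_eval₂Hom, hz, zero_pow (ha i).ne']
        · simp only [fam]
          split_ifs with hq
          · rw [map_pow, coe_eval₂Hom, hv i' (hi.trans hq.le), zero_pow (ha i).ne']
          · exact map_zero _
      rw [← coe_eval₂Hom, map_sub, map_sub, map_sum, Finset.sum_eq_zero fun y _ => h2 y, map_pow,
        smul_eq_C_mul, map_mul, coe_eval₂Hom, hv i hi, zero_pow (ha i).ne', eval₂_C] at h1
      simpa [hk] using h1
  refine h.nb L g p hJ ?_ j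
  rintro _ (⟨i, rfl⟩ | ⟨r, rfl⟩)
  exacts [key i, hz r]

theorem Inv.step (ha : ∀ i, 0 < a i) (hmono : Monotone a) (hf : ∀ i, (f i).IsHomogeneous (a i))
    {C : Cfg K n} {z : Fin m → C.R} {v : Fin c → C.R} {l : ℕ} (hl : l < c)
    (h : Inv f a C z v (l + 1)) :
    ∃ (C' : Cfg K n) (z' : Fin m → C'.R) (v' : Fin c → C'.R), Inv f a C' z' v' l := by
  classical
  let i0 : Fin c := ⟨l, hl⟩
  obtain ⟨C', x, w, k, cf, hw, hk, hrel⟩ := C.level' (ha i0) (fam f a C z v i0) (C.base (f i0))
    (fun y => by
      rcases y with p | r | i'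
      · simp only [fam]
        split_ifs with hp
        · refine C.base_mem_Good ?_
          have := (hf p.1).mul ((isHomogeneous_X K p.2).pow (a i0 - a p.1))
          rwa [one_mul, Nat.add_sub_cancel' (hmono hp.le)] at this
        · exact zero_mem _
      · exact C.Pw_le_Good _ (C.pow_mem_Pw _ (h.hz r))
      · simp only [fam]
        split_ifs with hp
        · exact C.Pw_le_Good _ (C.pow_mem_Pw _ (h.hv i'))
        · exact zero_mem _)
    (C.base_mem_Good (hf i0))
    (fun L _ _ g p hJ hS j => by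
      by_contra hj
      have hS' : ∀ y, eval₂ g p (fam f a C z v i0 y) = 0 := fun y =>
        hS _ (Set.mem_insert_of_mem _ ⟨y, rfl⟩)
      refine hj (h.point ha g p hJ (fun r => ?_) (fun i hi => ?_) (fun i hi => ?_) j)
      · have := hS' (Sum.inr (Sum.inl r))
        simp only [fam, eval₂_pow] at this
        exact pow_eq_zero_iff (ha i0).ne' |>.1 this
      · have := hS' (Sum.inr (Sum.inr i))
        simp only [fam, if_pos (show i0 < i from hi), eval₂_pow] at this
        exact pow_eq_zero_iff (ha i0).ne' |>.1 this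
      · rcases Nat.lt_succ_iff_lt_or_eq.1 hi with hi | hi
        · have := hS' (Sum.inl (i, j))
          simp only [fam, if_pos (show i < i0 from hi), map_mul, map_pow, Cfg.base_X, eval₂_mul,
            eval₂_pow, eval₂_X] at this
          exact (mul_eq_zero.1 this).resolve_right (pow_ne_zero _ hj)
        · rw [show i = i0 from Fin.ext hi]
          exact hS _ (Set.mem_insert _ _))
  let v' : Fin c → C'.R := Function.update (fun i => x.tr (v i)) i0 w
  have hv' : ∀ i : Fin c, l ≤ i → ∀ i', i < i' → v' i' = x.tr (v i') := fun i hi i' hi' =>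
    Function.update_of_ne (ne_of_gt (lt_of_le_of_lt (show i0 ≤ i from hi) hi')) _ _
  refine ⟨C', fun r => x.tr (z r), v', fun r => x.tr_hom (h.hz r), fun i => ?_,
    (x.nb h.nb).mono ?_, fun i hi => ?_⟩
  · by_cases hi : i = i0
    · rw [hi]; simpa [v'] using hw
    · simpa [v', hi] using x.tr_hom (h.hv i)
  · rintro _ ⟨_, ⟨i, rfl⟩ | ⟨r, rfl⟩, rfl⟩
    · exact Or.inl ⟨i, (x.tr_base _).symm⟩
    · exact Or.inr ⟨r, rfl⟩
  · rcases hi.eq_or_lt with hi' | hi'
    · obtain rfl : i0 = i := Fin.ext hi'
      refine ⟨k, cf, hk, ?_⟩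
      simp only [tr_fam x z v v' i0 (hv' i0 hi), x.tr_base] at hrel
      simpa [v'] using hrel
    · obtain ⟨k', cf', hk', hrel'⟩ := h.rel i hi'
      refine ⟨x.φ k', fun y => x.φ (cf' y), (map_ne_zero _).2 hk', ?_⟩
      have := x.tr_J hrel'
      simp only [map_sub, map_sum, map_pow, x.tr_smul, tr_fam x z v v' i (hv' i hi),
        x.tr_base] at this
      rwa [hv' i0 le_rfl i hi']

theorem exists_inv (f : Fin c → MvPolynomial (Fin (c + m)) K) (a : Fin c → ℕ) (ha : ∀ i, 0 < a i)
    (hmono : Monotone a) (hf : ∀ i, (f i).IsHomogeneous (a i))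
    (hreg : ∀ i g, f i * g ∈ Ideal.span (f '' {j | j < i}) → g ∈ Ideal.span (f '' {j | j < i})) :
    ∃ (C : Cfg K (c + m)) (z : Fin m → C.R) (v : Fin c → C.R), Inv f a C z v 0 := by
  have key : ∀ k ≤ c, ∃ (C : Cfg K (c + m)) (z : Fin m → C.R) (v : Fin c → C.R),
      Inv f a C z v (c - k) := by
    intro k hk
    induction k with
    | zero =>
      let C := cfg0 K (c + m)
      obtain ⟨z, -, hrad⟩ := P200.exists_linear_sop f a ha hf hreg C.Z
      refine ⟨C, fun r => rename Sum.inl (∑ j, MvPolynomial.C (z r j) * X j), fun _ => 0,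
        fun r => IsHomogeneous.rename_isHomogeneous
          (IsHomogeneous.sum _ _ _ fun j _ => (isHomogeneous_X _ j).C_mul _),
        fun _ => isHomogeneous_zero _ _ _, fun L _ _ g p _ hS j => ?_,
        fun i hi => absurd i.2 (by omega)⟩
      obtain ⟨N, hN⟩ := hrad j
      have h2 : X j ^ N ∈ RingHom.ker (eval₂Hom g (p ∘ Sum.inl)) := by
        refine Ideal.span_le.2 ?_ hN
        rintro _ (⟨i, rfl⟩ | ⟨r, rfl⟩)
        · have : eval₂ g p (rename Sum.inl (map (algebraMap K C.Z) (f i))) = 0 :=
            hS _ (Or.inl ⟨i, rfl⟩)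
          rw [eval₂_rename] at this
          exact this
        · have := hS _ (Or.inr ⟨r, rfl⟩)
          rw [eval₂_rename] at this
          exact this
      rw [RingHom.mem_ker, map_pow, coe_eval₂Hom, eval₂_X] at h2
      exact pow_eq_zero_iff' |>.1 h2 |>.1
    | succ k ih =>
      obtain ⟨C, z, v, h⟩ := ih (by omega)
      rw [show c - k = c - (k + 1) + 1 by omega] at h
      exact h.step ha hmono hf (by omega)
  simpa using key c le_rfl

theorem egh_add (f : Fin c → MvPolynomial (Fin (c + m)) K) (a : Fin c → ℕ) (ha : ∀ i, 0 < a i)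
    (hmono : Monotone a) (hf : ∀ i, (f i).IsHomogeneous (a i))
    (hreg : ∀ i g, f i * g ∈ Ideal.span (f '' {j | j < i}) → g ∈ Ideal.span (f '' {j | j < i}))
    (I : Ideal (MvPolynomial (Fin (c + m)) K)) (hfI : ∀ i, f i ∈ I) :
    ∃ s : Set (Fin (c + m) →₀ ℕ), (∀ i : Fin c, Finsupp.single (Fin.castAdd m i) (a i) ∈ s) ∧
      ∀ d : ℕ, finrank K ↥(Submodule.restrictScalars K
          (Ideal.span ((fun α => monomial α (1 : K)) '' s)) ⊓
            homogeneousSubmodule (Fin (c + m)) K d) =
        finrank K ↥(Submodule.restrictScalars K I ⊓ homogeneousSubmodule (Fin (c + m)) K d) := by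
  classical
  obtain ⟨C, z, v, h⟩ := exists_inv f a ha hmono hf hreg
  obtain ⟨D, _, _, α, β, ρ, hul, hc⟩ := realize C.N C.ok C.hyp
  let _ : Algebra K D := Algebra.compHom D (algebraMap K C.Z)
  have : IsScalarTower K C.Z D := IsScalarTower.of_algebraMap_eq fun _ => rfl
  obtain ⟨val, hval⟩ := wire C α β ρ hul hc
  let w : Fin (c + m) → C.R := Fin.append v z
  have hw : ∀ i, (w i).IsHomogeneous 1 := fun i => by
    refine Fin.addCases (fun i => ?_) (fun i => ?_) i
    · simpa [w] using h.hv i
    · simpa [w] using h.hz i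
  have hspan : Submodule.span D (Set.range fun i => val (w i)) = ⊤ := by
    obtain ⟨Θ, h1, h2, h3⟩ := hval ⊥
    refine span_top (K := K) _ (fun i k => ?_) fun j => ?_
    · rw [← h1 _ (hw i), ← h1 _ (hw k)]
      exact (Commute.all _ _).map Θ
    · obtain ⟨N, hN⟩ := mem_radical_of_points (C.J ⊔ Ideal.span (Set.range w)) (X (Sum.inl j))
        (fun L _ _ g p hp => by
          have hw0 : ∀ i, eval₂ g p (w i) = 0 := fun i =>
            hp _ (Ideal.mem_sup_right (Ideal.subset_span ⟨i, rfl⟩))
          rw [eval₂_X]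
          exact h.point ha g p (fun x hx => hp x (Ideal.mem_sup_left hx))
            (fun r => by simpa [w] using hw0 (Fin.natAdd c r))
            (fun i _ => by simpa [w] using hw0 (Fin.castAdd m i))
            (fun i hi => absurd hi (Nat.not_lt_zero _)) j)
      refine ⟨N, ?_⟩
      rw [← h2, C.base_X, ← map_pow]
      have hle : C.J ⊔ Ideal.span (Set.range w) ≤ Ideal.comap Θ (Ideal.span (Set.range fun i =>
          P200.lin (⊥ : Ideal (MvPolynomial (Fin (c + m)) K)) (val (w i)))) := by
        refine sup_le (fun x hx => ?_) (Ideal.span_le.2 ?_)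
        · rw [Ideal.mem_comap, h3 x hx]
          exact zero_mem _
        · rintro _ ⟨i, rfl⟩
          rw [SetLike.mem_coe, Ideal.mem_comap, h1 _ (hw i)]
          exact Ideal.subset_span ⟨i, rfl⟩
      exact hle hN
  obtain ⟨Θ, h1, h2, h3⟩ := hval I
  have hpow : ∀ (x : C.R) (k : ℕ), Θ (x ^ k) = Θ x ^ k := fun x k => Θ.toRingHom.map_pow x k
  have hf0 : ∀ i g, Θ (C.base (f i * g)) = 0 := fun i g => by
    rw [h2, Ideal.Quotient.eq_zero_iff_mem.2 (I.mul_mem_right _ (hfI i)), tmul_zero]
  obtain ⟨s, hs1, hs2⟩ := P200.std (Z := C.Z) I (fun i => val (w i))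
    (fun i k => ⟨1, one_ne_zero, by
      rw [one_smul, ← h1 _ (hw i), ← h1 _ (hw k)]
      exact ((Commute.all _ _).map Θ).eq⟩) hspan (Set.range (Fin.castAdd m))
    (Fin.append a fun _ => 1) (by rintro _ ⟨i, rfl⟩; simpa using ha i) (by
      rintro _ ⟨i, rfl⟩
      obtain ⟨k, cf, -, hrel⟩ := h.rel i (Nat.zero_le _)
      have e1 := h3 _ hrel
      have e2 : Θ (C.base (f i)) = 0 := by simpa using hf0 i 1
      rw [map_sub, map_sub, map_smul, e2, smul_zero, sub_zero, sub_eq_zero, hpow,
        map_sum] at e1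
      have e3 : w (Fin.castAdd m i) = v i := by simp [w]
      simp only [Fin.append_left]
      rw [← h1 _ (hw _), e3, e1]
      refine Submodule.sum_mem _ fun y _ => ?_
      rw [map_smul, ← algebraMap_smul D]
      refine Submodule.smul_mem _ _ ?_
      rcases y with p | r | i'
      · simp only [fam]
        split_ifs
        · rw [hf0]; exact zero_mem _
        · rw [map_zero]; exact zero_mem _
      · refine Submodule.subset_span ⟨Fin.natAdd c r, ?_, ?_⟩
        · rw [Fin.lt_def]; simp; omega
        · rw [← h1 _ (hw _)]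
          simp [fam, w, hpow]
      · simp only [fam]
        split_ifs with hi
        · refine Submodule.subset_span ⟨Fin.castAdd m i', hi, ?_⟩
          rw [← h1 _ (hw _)]
          simp [w, hpow]
        · rw [map_zero]; exact zero_mem _)
  exact ⟨s, fun i => by simpa using hs1 _ ⟨i, rfl⟩, hs2⟩

end Vale.Agent.EGH
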