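import Vale.Agent.EGH.Calc

/-! Hilbert polynomials on a product of projective lines. -/

namespace Vale.Agent.EGH

open Module MvPolynomial Filter

universe u

namespace FreeAux

variable {E : Type} [Fintype E] [DecidableEq E]

/-- Functions with support bounded below. -/
def Low (h : (E → ℤ) → ℤ) : Prop := ∃ g0, ∀ g, h g ≠ 0 → g0 ≤ g

omit [Fintype E] [DecidableEq E] in
theorem closed_Low : Closed (Low (E := E)) where
  zero := ⟨0, fun _ h => absurd rfl h⟩
  add := by
    rintro h h' ⟨a, ha⟩ ⟨b, hb⟩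
    refine ⟨a ⊓ b, fun g hg => ?_⟩
    by_cases h1 : h g = 0
    · exact inf_le_right.trans (hb g (by simpa [h1] using hg))
    · exact inf_le_left.trans (ha g h1)
  act := by
    rintro q h ⟨a, ha⟩
    obtain ⟨b, hb⟩ := q.coeff.support.finite_toSet.bddBelow
    refine ⟨a + b, fun g hg => ?_⟩
    rw [act_apply] at hg
    obtain ⟨c, hc, h1⟩ := Finset.exists_ne_zero_of_sum_ne_zero hg
    have h2 := ha _ (right_ne_zero_of_mul h1)
    rw [le_sub_iff_add_le] at h2
    exact (add_le_add le_rfl (hb hc)).trans h2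

theorem inj_one (e : E) {h : (E → ℤ) → ℤ} (hl : Low h) (h0 : act (1 - mon (eps e)) h = 0) :
    h = 0 := by
  obtain ⟨a, ha⟩ := hl
  have h1 : ∀ g, h g = h (g - eps e) := fun g => by
    have := congrFun h0 g
    simp only [map_sub, map_one, act_mon, LinearMap.sub_apply, Module.End.one_apply, Pi.sub_apply,
      shift_apply, Pi.zero_apply] at this
    omega
  have h2 : ∀ (k : ℕ) g, h g = h (g - k • eps e) := by
    intro k
    induction k with
    | zero => simp
    | succ k ih => intro g; rw [ih g, h1, succ_nsmul, sub_sub]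
  funext g
  by_contra hg
  have h3 := ha _ (h2 ((g e - a e).toNat + 1) g ▸ hg) e
  rw [Pi.sub_apply, Pi.smul_apply, eps, Pi.single_eq_same, nsmul_eq_mul, mul_one] at h3
  push_cast at h3
  omega

theorem inj_prod {ι : Type} (t : Finset ι) (nd : ι → E) {h : (E → ℤ) → ℤ} (hl : Low h)
    (h0 : act (∏ v ∈ t, (1 - mon (eps (nd v)))) h = 0) : h = 0 := by
  classical
  induction t using Finset.induction_on with
  | empty => simpa using h0
  | insert a t ha ih =>
    rw [Finset.prod_insert ha, ← act_act] at h0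
    exact ih (inj_one _ (closed_Low.act _ _ hl) h0)

omit [Fintype E] in
theorem act_step (e : E) {A : (E → ℤ) → ℤ} (hA : ∀ g, A (g - eps e) = A g) (f : ℤ → ℤ) :
    act (1 - mon (eps e)) (fun g => f (g e) * A g) = fun g => (f (g e) - f (g e - 1)) * A g := by
  funext g
  simp only [map_sub, map_one, act_mon, LinearMap.sub_apply, Module.End.one_apply, Pi.sub_apply,
    shift_apply, hA]
  simp only [eps, Pi.single_eq_same]
  ring

theorem act_sq (t : Finset E) :
    act (∏ e ∈ t, (1 - mon (eps e)) ^ 2) (fun g : E → ℤ => ∏ e, max (g e + 1) 0)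
      = fun g => ∏ e, if e ∈ t then (if g e = 0 then 1 else 0) else max (g e + 1) 0 := by
  induction t using Finset.induction_on with
  | empty => simp
  | insert a t ha ih =>
    obtain ⟨A, hA⟩ : ∃ A : (E → ℤ) → ℤ, A = fun g => ∏ e ∈ Finset.univ.erase a,
      if e ∈ t then (if g e = 0 then 1 else 0) else max (g e + 1) 0 := ⟨_, rfl⟩
    have h1 : ∀ g, A (g - eps a) = A g := fun g => by
      rw [hA]
      refine Finset.prod_congr rfl fun e he => ?_
      simp [eps, Pi.single_eq_of_ne (Finset.ne_of_mem_erase he)]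
    have h2 : (fun g : E → ℤ => ∏ e, if e ∈ t then (if g e = 0 then 1 else 0)
        else max (g e + 1) 0) = fun g => max (g a + 1) 0 * A g := by
      funext g
      rw [← Finset.mul_prod_erase _ _ (Finset.mem_univ a), if_neg ha, hA]
    rw [Finset.prod_insert ha, ← act_act, ih, h2, pow_two, ← act_act,
      act_step a h1 fun i => max (i + 1) 0,
      act_step a h1 fun i => max (i + 1) 0 - max (i - 1 + 1) 0]
    funext g
    rw [← Finset.mul_prod_erase _ _ (Finset.mem_univ a), if_pos (Finset.mem_insert_self a t), hA]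
    congr 1
    · split_ifs <;> omega
    · refine Finset.prod_congr rfl fun e he => ?_
      simp [Finset.ne_of_mem_erase he]

theorem act_all : act (∏ v : E × Fin 2, (1 - mon (eps v.1)))
    (fun g : E → ℤ => ∏ e, max (g e + 1) 0) = fun g => if g = 0 then 1 else 0 := by
  have h : ∏ v : E × Fin 2, (1 - mon (eps v.1)) = ∏ e : E, (1 - mon (eps e)) ^ 2 := by
    simp [Fintype.prod_prod_type]
  rw [h, act_sq]
  funext g
  simp [Finset.prod_ite_zero, funext_iff]

/-- Functions that are coefficient functions of group ring elements. -/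
def Fin0 (h : (E → ℤ) → ℤ) : Prop :=
  ∃ p : AddMonoidAlgebra ℤ (E → ℤ), h = act p fun g => if g = 0 then 1 else 0

theorem closed_Fin0 : Closed (Fin0 (E := E)) where
  zero := ⟨0, by simp⟩
  add := by
    rintro _ _ ⟨p, rfl⟩ ⟨q, rfl⟩
    exact ⟨p + q, by simp⟩
  act := by
    rintro q _ ⟨p, rfl⟩
    exact ⟨q * p, act_act _ _ _⟩

theorem fin0_of_finite {h : (E → ℤ) → ℤ} {s : Set (E → ℤ)} (hs : s.Finite)
    (h0 : ∀ g, g ∉ s → h g = 0) : Fin0 h := by
  refine ⟨∑ a ∈ hs.toFinset, h a • mon a, funext fun g => ?_⟩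
  simp only [map_sum, map_smul, act_mon, LinearMap.sum_apply, Finset.sum_apply,
    LinearMap.smul_apply, Pi.smul_apply, shift_apply, sub_eq_zero, smul_eq_mul, mul_ite, mul_one,
    mul_zero, Finset.sum_ite_eq, Set.Finite.mem_toFinset]
  split_ifs with hg
  · rfl
  · exact h0 g (by simpa using hg)

end FreeAux

open FreeAux in
theorem MG_free (Z : Type u) [Field Z] (D : Type u) [DivisionRing D] [Algebra Z D]
    (E : Type) [Fintype E] [DecidableEq E] :
    MG Z D (dgs (Prod.fst : E × Fin 2 → E)) ∅ (Lat fun g => ∏ e, (g e + 1)) := by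
  have h1 : MG Z D (dgs (Prod.fst : E × Fin 2 → E))
      (∅ ∪ (fun v : E × Fin 2 => (dgs Prod.fst v, X v)) '' (Finset.univ : Finset (E × Fin 2)))
      Fin0 := by
    intro V _ _ θ hθ U' U hP hk
    obtain ⟨s, hs, hs1, hs2⟩ := hP.fg
    exact fin0_of_finite (hs.image Prod.fst) fun g hg =>
      Calc.fam_trick hP hs1 hs2 (fun g => g ∉ Prod.fst '' s)
        (fun v => Or.inl (hk (dgs Prod.fst v, X v) (Or.inr ⟨v, by simp, rfl⟩)))
        (fun x hx h => h ⟨x, hx, rfl⟩) g hg
  have h2 := MG.hs_prod closed_Fin0 Finset.univ (dgs (Prod.fst : E × Fin 2 → E)) (fun v => X v)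
    (fun v _ => isWeightedHomogeneous_X Z _ v) h1
  intro V _ _ θ hθ U' U hP hk
  obtain ⟨p, hp⟩ := h2 V θ hθ U' U hP hk
  obtain ⟨s, hs, hs1, hs2⟩ := hP.fg
  obtain ⟨g0, hg0⟩ := (hs.image Prod.fst).bddBelow
  have h3 : Low (hf U - hf U') := ⟨g0, fun g hg => by
    by_contra h
    refine hg (Calc.fam_trick hP hs1 hs2 (fun g => ¬ g0 ≤ g)
      (fun v => Or.inr fun g h1 h2 => h1 (h2.trans (le_add_of_nonneg_right ?_)))
      (fun x hx h => h (hg0 ⟨x, hx, rfl⟩)) g h)
    exact Pi.single_nonneg.2 zero_le_one⟩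
  have h4 : Low fun g : E → ℤ => ∏ e, max (g e + 1) 0 := ⟨0, fun g hg e => by
    have := Finset.prod_ne_zero_iff.1 hg e (Finset.mem_univ e)
    simp only [Pi.zero_apply]
    omega⟩
  have h5 := inj_prod Finset.univ (Prod.fst : E × Fin 2 → E)
    (closed_Low.sub h3 (closed_Low.act p _ h4)) (by
      rw [map_sub, act_act, mul_comm, ← act_act, act_all, sub_eq_zero]
      exact hp)
  rw [sub_eq_zero] at h5
  refine ⟨p, ?_⟩
  rw [h5]
  refine eventually_act_congr p ?_
  filter_upwards [eventually_ge_atTop (0 : E → ℤ)] with g hg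
  exact Finset.prod_congr rfl fun e _ => max_eq_left (add_nonneg (hg e) zero_le_one)

end Vale.Agent.EGH
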