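import Vale.Agent.EGH.HCore
import Vale.Agent.EGH.Free
import Vale.Agent.EGH.NodeBasic

/-! Auxiliary facts for the preservation of `AllHyp`. -/

namespace Vale.Agent.EGH

open Module MvPolynomial Filter

universe u

namespace GlueAux

variable {Z : Type u} [Field Z]

theorem act_geo {G : Type*} [AddCommGroup G] (a : G) (b : ℕ) (h : G → ℤ) (g : G) :
    act (geo a b) h g = ∑ i ∈ Finset.range b, h (g - i • a) := by
  rw [geo, map_sum, LinearMap.sum_apply, Finset.sum_apply]
  refine Finset.sum_congr rfl fun i _ => ?_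
  rw [← mon_nsmul, act_mon, shift_apply]

section prod

variable {E : Type} [Fintype E] [DecidableEq E]

theorem act_geo_prod (e : E) (b : ℕ) (f : E → ℤ → ℤ) :
    act (geo (eps e) b) (fun g => ∏ e', f e' (g e')) =
      fun g => ∏ e', Function.update f e (act (geo 1 b) (f e)) e' (g e') := by
  funext g
  rw [act_geo, ← Finset.mul_prod_erase _ _ (Finset.mem_univ e), Function.update_self, act_geo,
    Finset.sum_mul]
  refine Finset.sum_congr rfl fun i _ => ?_
  rw [← Finset.mul_prod_erase _ _ (Finset.mem_univ e)]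
  congr 1
  · simp [eps]
  · refine Finset.prod_congr rfl fun e' he' => ?_
    have h := Finset.ne_of_mem_erase he'
    simp [eps, h]

theorem act_prod_geo {I : Type} (nd : I → E) (b : I → ℕ) (f : E → ℤ → ℤ) (s : Finset I) :
    act (∏ l ∈ s, geo (eps (nd l)) (b l)) (fun g => ∏ e, f e (g e)) =
      fun g => ∏ e, act (∏ l ∈ s, if nd l = e then geo (1 : ℤ) (b l) else 1) (f e) (g e) := by
  classical
  induction s using Finset.induction_on with
  | empty => simp
  | insert l s hl ih =>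
    rw [Finset.prod_insert hl, ← act_act, ih, act_geo_prod]
    funext g
    refine Finset.prod_congr rfl fun e _ => ?_
    rw [Finset.prod_insert hl]
    by_cases h : nd l = e
    · subst h
      rw [Function.update_self, if_pos rfl, act_act]
    · rw [Function.update_of_ne (Ne.symm h), if_neg h, one_mul]

theorem act_sigma_geo {Λ : E → Type} [∀ e, Fintype (Λ e)] (b : ∀ e, Λ e → ℕ) (f : E → ℤ → ℤ) :
    act (∏ l : Σ e, Λ e, geo (eps l.1) (b l.1 l.2)) (fun g => ∏ e, f e (g e)) =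
      fun g => ∏ e, act (∏ l, geo (1 : ℤ) (b e l)) (f e) (g e) := by
  rw [act_prod_geo]
  funext g
  refine Finset.prod_congr rfl fun e _ => ?_
  rw [Fintype.prod_sigma, Finset.prod_eq_single e]
  · simp
  · intro e' _ h
    simp [h]
  · intro h
    exact absurd (Finset.mem_univ e) h

end prod

theorem ptb_comp {Z₁ F : Type u} [Field Z₁] [Algebra Z Z₁] [Field F] [Algebra Z₁ F] [Algebra Z F]
    [IsScalarTower Z Z₁ F] {κ κ' : Type} {t : κ → Z₁} {s : κ' → F} (ht : PTB Z t)
    (hs : PTB Z₁ s) : PTB Z (Sum.elim s (algebraMap Z₁ F ∘ t)) := by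
  refine ⟨ht.ind.sumElim_comp hs.ind, eq_top_iff.2 fun x _ => ?_⟩
  set K := IntermediateField.adjoin Z (Set.range (Sum.elim s (algebraMap Z₁ F ∘ t))) with hK
  have h1 : ∀ z : Z₁, algebraMap Z₁ F z ∈ K := by
    intro z
    have hz : z ∈ IntermediateField.adjoin Z (Set.range t) := by rw [ht.top]; trivial
    induction hz using IntermediateField.adjoin_induction with
    | mem x hx =>
      obtain ⟨k, rfl⟩ := hx
      exact IntermediateField.subset_adjoin _ _ ⟨Sum.inr k, rfl⟩
    | algebraMap x => rw [← IsScalarTower.algebraMap_apply]; exact K.algebraMap_mem x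
    | add x y _ _ hx hy => rw [map_add]; exact add_mem hx hy
    | inv x _ hx => rw [map_inv₀]; exact inv_mem hx
    | mul x y _ _ hx hy => rw [map_mul]; exact mul_mem hx hy
  have hx : x ∈ IntermediateField.adjoin Z₁ (Set.range s) := by rw [hs.top]; trivial
  induction hx using IntermediateField.adjoin_induction with
  | mem x hx =>
    obtain ⟨k, rfl⟩ := hx
    exact IntermediateField.subset_adjoin _ _ ⟨Sum.inl k, rfl⟩
  | algebraMap x => exact h1 x
  | add x y _ _ hx hy => exact add_mem (hx trivial) (hy trivial)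
  | inv x _ hx => exact inv_mem (hx trivial)
  | mul x y _ _ hx hy => exact mul_mem (hx trivial) (hy trivial)

/-- Nodes that differ by a relabelling of the outputs. -/
def Iso (N N' : Node Z) : Prop :=
  ∃ j : N.W ≃ N'.W, ∀ w, N'.b (j w) = N.b w ∧ N'.eqn (j w) = rename (Sum.map id j) (N.eqn w)

theorem Iso.of_eq {N N' : Node Z} (h : N = N') : Iso N N' := by
  subst h
  exact ⟨Equiv.refl _, fun w => ⟨rfl, by simp⟩⟩

theorem hyp_of_iso {D : Type u} [DivisionRing D] [Algebra Z D] {E : Type} [Fintype E]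
    [DecidableEq E] {N N' : E → Node Z} (hi : ∀ e, Iso (N e) (N' e)) (h : Hyp D N) :
    Hyp D N' := by
  choose j hj using hi
  refine MG.transport h (fun x => ⟨x.1, Sum.map id (j x.1) x.2⟩) (AddEquiv.refl _)
    (fun _ => rfl) ?_ ?_ fun f hf => ?_
  · rintro ⟨e, i | w⟩
    · exact Or.inl ⟨⟨e, Sum.inl i⟩, rfl⟩
    · exact Or.inl ⟨⟨e, Sum.inr ((j e).symm w)⟩, by simp⟩
  · rintro _ ⟨⟨e, w⟩, rfl⟩
    refine ⟨⟨e, j e w⟩, Prod.ext ?_ ?_⟩
    · simp [(hj e w).1]
    · simp only [(hj e w).2, rename_rename]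
      rfl
  · have e1 : ∀ e, (N' e).P1 = (N e).P1 := fun e => by
      unfold Node.P1
      rw [← Equiv.prod_comp (j e)]
      simp only [(hj e _).1]
    simp only [e1]
    exact hf

theorem hyp_map {F : Type u} [Field F] [Algebra Z F] {E : Type} [Fintype E] [DecidableEq E]
    {N : E → Node Z} (h : Hyp F fun e => (N e).map (algebraMap Z F)) :
    MG F F (dgs (Sigma.fst : (Σ e, (N e).Var) → E))
      ((fun p => (p.1, MvPolynomial.map (algebraMap Z F) p.2)) '' sysEqs N)
      (Lat fun g => ∏ e, (N e).P1 (g e)) := by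
  refine MG.transport h (fun x => ⟨x.1, x.2⟩) (AddEquiv.refl _) (fun _ => rfl)
    (fun x => Or.inl ⟨⟨x.1, x.2⟩, rfl⟩) ?_ fun f hf => hf
  rintro _ ⟨⟨e, w⟩, rfl⟩
  refine ⟨_, ⟨⟨e, w⟩, rfl⟩, Prod.ext rfl ?_⟩
  simp only [map_rename, rename_rename]
  rw [Node.map_eqn (algebraMap Z F) (N e) w]
  rfl

/-- The variables of the extended nodes. -/
def extVar {E : Type} (N : E → Node Z) (Λ : E → Type) :
    (Σ e, (N e).Var) ⊕ (Σ e, Λ e) → Σ e, Fin 2 ⊕ ((N e).W ⊕ Λ e)
  | Sum.inl x => ⟨x.1, Sum.map id Sum.inl x.2⟩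
  | Sum.inr x => ⟨x.1, Sum.inr (Sum.inr x.2)⟩

theorem rename_extVar {F : Type u} [Field F] [Algebra Z F] {E : Type} (N : E → Node Z)
    (Λ : E → Type) (e : E) (p : MvPolynomial (N e).Var Z) :
    rename (extVar N Λ) (upH F (Σ e, Λ e) (rename (Sigma.mk (β := fun e => (N e).Var) e) p)) =
      rename (Sigma.mk (β := fun e => Fin 2 ⊕ ((N e).W ⊕ Λ e)) e)
        (rename (Sum.map id Sum.inl) (MvPolynomial.map (algebraMap Z F) p)) := by
  change rename (extVar N Λ) (rename Sum.inl (MvPolynomial.map (algebraMap Z F) _)) = _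
  rw [map_rename, rename_rename, rename_rename, rename_rename]
  rfl

theorem rename_gEq {F : Type u} [Field F] [Algebra Z F] {κ : Type} [Fintype κ] (t : κ → F)
    {E : Type} (N : E → Node Z) (Λ : E → Type) (bb : ∀ e, Λ e → ℕ)
    (q : ∀ e, κ → Λ e → MvPolynomial (N e).Var Z) (e : E) (l : Λ e) :
    rename (Sigma.mk (β := fun e => Fin 2 ⊕ ((N e).W ⊕ Λ e)) e)
        (X (Sum.inr (Sum.inr l)) ^ bb e l - ∑ k, C (t k) * rename (Sum.map id Sum.inl)
          (MvPolynomial.map (algebraMap Z F) (q e k l))) =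
      rename (extVar N Λ) (gEq t (fun l : Σ e, Λ e => bb l.1 l.2)
        (fun k l => rename (Sigma.mk (β := fun e => (N e).Var) l.1) (q l.1 k l.2)) ⟨e, l⟩) := by
  simp only [gEq, map_sub, map_pow, map_sum, map_mul, rename_C, rename_X, rename_extVar]
  rfl

/-- Adding a group of equations to all nodes of a system. -/
theorem hyp_ext {F : Type u} [Field F] [Algebra Z F] {κ : Type} [Fintype κ] {t : κ → F}
    (ht : PTB Z t) {E : Type} [Fintype E] [DecidableEq E] {N : E → Node Z}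
    (hok : ∀ e, (N e).OK) (h : Hyp F fun e => (N e).map (algebraMap Z F)) (Λ : E → Type)
    [∀ e, Fintype (Λ e)] {bb : ∀ e, Λ e → ℕ} (hbb : ∀ e l, 0 < bb e l)
    {q : ∀ e, κ → Λ e → MvPolynomial (N e).Var Z}
    (hq : ∀ e k l, (q e k l).IsHomogeneous (bb e l)) (hbpf : BPF N Λ q) :
    Hyp F fun e => (N e).ext (algebraMap Z F) t (Λ e) (bb e) (q e) := by
  have key := addGroup_core (Sigma.fst : (Σ e, (N e).Var) → E) (Sigma.fst : (Σ e, Λ e) → E) ht
    (b := fun l => bb l.1 l.2) (fun l => hbb l.1 l.2)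
    (q := fun k l => rename (Sigma.mk (β := fun e => (N e).Var) l.1) (q l.1 k l.2))
    (fun k l => by
      have := isWH_rename (dg' := dgs (Sigma.fst : (Σ e, (N e).Var) → E))
        (Sigma.mk (β := fun e => (N e).Var) l.1) (zmultiplesHom (E → ℤ) (eps l.1))
        (fun v => by simp [dgs]) (isWH_one_iff.2 (hq l.1 k l.2))
      simpa using this)
    (homog_sysEqs hok) _ (hyp_map h)
    (fun L _ _ f ξ h1 h2 c h3 => by
      funext l
      refine hbpf L f (fun e v => ξ ⟨e, v⟩) (fun e l => c ⟨e, l⟩) (fun e l _ => ⟨fun w => ?_, ?_⟩)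
        (fun k => ?_) l.1 l.2
      · have := h1 _ ⟨⟨e, w⟩, rfl⟩
        rwa [eval₂_rename] at this
      · obtain ⟨⟨e', v⟩, rfl, hv⟩ := h2 e
        exact fun h0 => hv (congrFun h0 v)
      · have := h3 k
        rw [Fintype.sum_sigma] at this
        simp only [eval₂_rename] at this
        exact this)
  refine MG.transport key (extVar N Λ) (AddEquiv.refl _) ?_ ?_ ?_ fun f hf => ?_
  · rintro (x | x) <;> rfl
  · rintro ⟨e, i | w | l⟩
    · exact Or.inl ⟨Sum.inl ⟨e, Sum.inl i⟩, rfl⟩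
    · exact Or.inl ⟨Sum.inl ⟨e, Sum.inr w⟩, rfl⟩
    · exact Or.inl ⟨Sum.inr ⟨e, l⟩, rfl⟩
  · rintro _ (⟨_, ⟨⟨e, w⟩, rfl⟩, rfl⟩ | ⟨⟨e, l⟩, -, rfl⟩)
    · refine ⟨⟨e, Sum.inl w⟩, Prod.ext rfl ?_⟩
      exact (congrArg (rename (Sigma.mk (β := fun e => Fin 2 ⊕ ((N e).W ⊕ Λ e)) e))
        (Node.ext_eqn_inl _ t (N e) (Λ e) (bb e) (q e) w)).trans (rename_extVar N Λ e _).symm
    · refine ⟨⟨e, Sum.inr l⟩, Prod.ext rfl ?_⟩
      exact rename_gEq t N Λ bb q e l
  · have e1 : ∀ e, ((N e).ext (algebraMap Z F) t (Λ e) (bb e) (q e)).P1 =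
        act (∏ l, geo (1 : ℤ) (bb e l)) (N e).P1 := fun e => by
      unfold Node.P1
      rw [act_act, mul_comm]
      exact congrArg (fun x => act x fun i : ℤ => i + 1)
        (Fintype.prod_sum_type fun w => geo (1 : ℤ) (Sum.elim (N e).b (bb e) w))
    rw [act_sigma_geo] at hf
    simp only [e1]
    exact hf

end GlueAux

end Vale.Agent.EGH
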