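import Vale.Agent.EGH.HCore
import Vale.Agent.EGH.Free
import Vale.Agent.EGH.NodeBasic
import Vale.Agent.EGH.GlueAux

/-! Preservation of `AllHyp`. -/

namespace Vale.Agent.EGH

open Module MvPolynomial Filter

universe u

variable {Z : Type u} [Field Z]

namespace GlueAux

section opt

variable {E : Type} (N : E → Node Z) (Λ : E → Type)

/-- No new outputs at the free nodes. -/
def optL : Option E → Type
  | none => Empty
  | some e => Λ e

instance optFin [∀ e, Fintype (Λ e)] : ∀ o, Fintype (optL Λ o)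
  | none => inferInstanceAs (Fintype Empty)
  | some e => inferInstanceAs (Fintype (Λ e))

variable {Λ}

/-- The degrees of the new outputs. -/
def optB (bb : ∀ e, Λ e → ℕ) : ∀ o, optL Λ o → ℕ
  | none => Empty.elim
  | some e => bb e

variable {N}

/-- The forms, extended by zero to further parameters. -/
noncomputable def optQ {κ : Type} (κ' : Type) (q : ∀ e, κ → Λ e → MvPolynomial (N e).Var Z) :
    ∀ o : Option E, κ' ⊕ κ → optL Λ o → MvPolynomial (o.elim (Node.free Z) N).Var Z
  | none => fun _ => Empty.elim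
  | some e => Sum.elim (fun _ _ => 0) (q e)

theorem bpf_opt [Fintype E] [∀ e, Fintype (Λ e)] {κ : Type} (κ' : Type)
    {q : ∀ e, κ → Λ e → MvPolynomial (N e).Var Z} (hbpf : BPF N Λ q) {E' : Type} [Fintype E']
    {ι : E' → Option E} (hι : PInj ι) :
    BPF (fun e' => (ι e').elim (Node.free Z) N) (fun e' => optL Λ (ι e'))
      fun e' => optQ κ' q (ι e') := by
  classical
  intro L _ _ f ξ c h1 h2
  let Dt : Option E → Type u := fun o => ((o.elim (Node.free Z) N).Var → L) × (optL Λ o → L)
  let good : ∀ o, Dt o → Prop := fun o y => ∀ l, y.2 l ≠ 0 →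
    (∀ w, eval₂ f y.1 ((o.elim (Node.free Z) N).eqn w) = 0) ∧ y.1 ≠ 0
  let val : κ → ∀ o, Dt o → L := fun k o y =>
    ∑ l, y.2 l * eval₂ f y.1 (optQ κ' q o (Sum.inr k) l)
  let x : ∀ e', Dt (ι e') := fun e' => (ξ e', c e')
  have tr : ∀ (p : ∀ o, Dt o → Prop) (o o' : Option E) (a : Dt o) (b : Dt o'), o = o' → HEq a b →
      p o a → p o' b := by
    rintro p o _ a b rfl h hp
    rwa [← eq_of_heq h]
  have hy : ∀ e, ∃ y : Dt (some e), (∀ e', ι e' = some e → HEq (x e') y) ∧
      ((∀ e', ι e' ≠ some e) → y.2 = 0) := by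
    intro e
    by_cases h : ∃ e', ι e' = some e
    · obtain ⟨e', he'⟩ := h
      refine ⟨cast (congrArg Dt he') (x e'), fun e'' h'' => ?_, fun h' => absurd he' (h' e')⟩
      obtain rfl := hι e' e'' e he' h''
      exact (cast_heq _ _).symm
    · exact ⟨(0, 0), fun e' he' => absurd ⟨e', he'⟩ h, fun _ => rfl⟩
  choose y hy1 hy2 using hy
  have key := hbpf L f (fun e => (y e).1) (fun e => (y e).2) (fun e => ?_) fun k => ?_
  · intro e'
    have h3 : ∀ o, ι e' = o → ∀ l, (x e').2 l = 0 := by
      rintro (_ | e) h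
      · have h5 : ∀ o, o = none → ∀ (a : Dt o) l, a.2 l = 0 := by
          rintro _ rfl a l
          exact l.elim
        exact h5 _ h _
      · exact tr (fun o y => ∀ l, y.2 l = 0) _ _ (y e) (x e') h.symm (hy1 e e' h).symm (key e)
    exact h3 _ rfl
  · by_cases h : ∃ e', ι e' = some e
    · obtain ⟨e', he'⟩ := h
      exact tr good _ _ (x e') (y e) he' (hy1 e e' he') (h1 e')
    · intro l hl
      rw [hy2 e fun e' he' => h ⟨e', he'⟩] at hl
      exact absurd rfl hl
  · have h3 : ∀ e', val k (ι e') (x e') =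
        ∑ e, if ι e' = some e then val k (some e) (y e) else 0 := by
      intro e'
      have h4 : ∀ o, ι e' = o → val k (ι e') (x e') =
          ∑ e, if o = some e then val k (some e) (y e) else 0 := by
        rintro (_ | e) h
        · have h5 : ∀ o, o = none → ∀ a : Dt o, val k o a = 0 := by
            rintro _ rfl a
            exact Finset.sum_eq_zero fun l _ => l.elim
          rw [h5 _ h]
          simp
        · have h5 := tr (fun o a => val k (ι e') (x e') = val k o a) _ _ (x e') (y e) h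
            (hy1 e e' h) rfl
          simp [h5]
      exact h4 _ rfl
    have h4 : ∑ e', val k (ι e') (x e') = 0 := h2 (Sum.inr k)
    simp only [h3] at h4
    rw [Finset.sum_comm] at h4
    refine Eq.trans (Finset.sum_congr rfl fun e _ => ?_) h4
    change val k (some e) (y e) = _
    by_cases h : ∃ e', ι e' = some e
    · obtain ⟨e', he'⟩ := h
      rw [Finset.sum_eq_single e', if_pos he']
      · intro e'' _ hne
        exact if_neg fun h'' => hne (hι e'' e' e h'' he')
      · intro h'
        exact absurd (Finset.mem_univ e') h'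
    · rw [Finset.sum_eq_zero fun e' _ => if_neg fun he' => h ⟨e', he'⟩]
      refine Finset.sum_eq_zero fun l _ => ?_
      rw [hy2 e fun e' he' => h ⟨e', he'⟩]
      exact zero_mul _

theorem iso_opt {Z₁ F : Type u} [Field Z₁] [Algebra Z Z₁] [Field F] [Algebra Z₁ F] [Algebra Z F]
    [IsScalarTower Z Z₁ F] [∀ e, Fintype (Λ e)] {κ κ' : Type} [Fintype κ] [Fintype κ']
    (t : κ → Z₁) (s : κ' → F) (bb : ∀ e, Λ e → ℕ)
    (q : ∀ e, κ → Λ e → MvPolynomial (N e).Var Z) (o : Option E) :
    Iso ((o.elim (Node.free Z) N).ext (algebraMap Z F) (Sum.elim s (algebraMap Z₁ F ∘ t))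
        (optL Λ o) (optB bb o) (optQ κ' q o))
      ((o.elim (Node.free Z₁)
        fun e => (N e).ext (algebraMap Z Z₁) t (Λ e) (bb e) (q e)).map (algebraMap Z₁ F)) := by
  cases o with
  | none => exact ⟨Equiv.sumEmpty Empty Empty, fun w => (Equiv.sumEmpty Empty Empty w).elim⟩
  | some e =>
    apply Iso.of_eq
    have e1 : (Sum.elim (fun w => rename (Sum.map id Sum.inl)
          (MvPolynomial.map (algebraMap Z F) ((N e).G w)))
        (fun l => ∑ k, C (Sum.elim s (algebraMap Z₁ F ∘ t) k) * rename (Sum.map id Sum.inl)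
          (MvPolynomial.map (algebraMap Z F) (Sum.elim (fun _ _ => 0) (q e) k l))) :
          (N e).W ⊕ Λ e → MvPolynomial (Fin 2 ⊕ ((N e).W ⊕ Λ e)) F) =
        fun w => MvPolynomial.map (algebraMap Z₁ F) (Sum.elim (fun w => rename (Sum.map id Sum.inl)
          (MvPolynomial.map (algebraMap Z Z₁) ((N e).G w)))
          (fun l => ∑ k, C (t k) * rename (Sum.map id Sum.inl)
            (MvPolynomial.map (algebraMap Z Z₁) (q e k l))) w) := by
      funext w
      rcases w with w | l
      · simp only [Sum.elim_inl, map_rename, MvPolynomial.map_map,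
          ← IsScalarTower.algebraMap_eq]
      · simp [Fintype.sum_sum_type, map_rename, MvPolynomial.map_map,
          ← IsScalarTower.algebraMap_eq]
    exact congrArg (Node.mk ((N e).W ⊕ Λ e) (Sum.elim (N e).b (bb e))) e1

end opt

end GlueAux

open GlueAux

theorem exists_PTB (Z : Type u) [Field Z] (κ : Type) :
    ∃ (F : Type u) (_ : Field F) (_ : Algebra Z F) (t : κ → F), PTB Z t := by
  refine ⟨FractionRing (MvPolynomial κ Z), inferInstance, inferInstance,
    (IsScalarTower.toAlgHom Z (MvPolynomial κ Z) (FractionRing (MvPolynomial κ Z))) ∘ X,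
    (MvPolynomial.algebraicIndependent_X κ Z).map' (IsFractionRing.injective _ _),
    eq_top_iff.2 fun x _ => ?_⟩
  obtain ⟨a, b, -, rfl⟩ := IsFractionRing.div_surjective (A := MvPolynomial κ Z) x
  have key : ∀ p : MvPolynomial κ Z, algebraMap _ (FractionRing (MvPolynomial κ Z)) p ∈
      IntermediateField.adjoin Z (Set.range ((IsScalarTower.toAlgHom Z (MvPolynomial κ Z)
        (FractionRing (MvPolynomial κ Z))) ∘ X)) := by
    intro p
    induction p using MvPolynomial.induction_on with
    | C z =>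
      rw [← MvPolynomial.algebraMap_eq, ← IsScalarTower.algebraMap_apply]
      exact IntermediateField.algebraMap_mem _ z
    | add p q hp hq => rw [map_add]; exact add_mem hp hq
    | mul_X p k hp =>
      rw [map_mul]
      exact mul_mem hp (IntermediateField.subset_adjoin _ _ ⟨k, rfl⟩)
  exact div_mem (key a) (key b)

theorem allHyp_free (Z : Type u) [Field Z] (E : Type) : AllHyp fun _ : E => Node.free Z := by
  intro F _ _ κ _ t _ E' _ _ ι _
  refine hyp_of_iso (N := fun _ : E' => Node.free F) (fun e' => ?_) ?_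
  · cases ι e' <;> exact ⟨Equiv.refl Empty, fun w => w.elim⟩
  · refine MG.transport (MG_free F F E') (fun x => ⟨x.1, Sum.inl x.2⟩) (AddEquiv.refl _)
      (fun _ => rfl) ?_ (fun p hp => hp.elim) fun f hf => ?_
    · rintro ⟨e, i | w⟩
      · exact Or.inl ⟨(e, i), rfl⟩
      · exact w.elim
    · have e1 : (Node.free F).P1 = fun i => i + 1 := by
        unfold Node.P1
        rw [Finset.prod_eq_one fun (w : (Node.free F).W) _ => Empty.elim w, map_one]
        rfl
      simp only [e1]
      exact hf

theorem AllHyp.addFree {E : Type} {N : E → Node Z} (h : AllHyp N) (E₁ : Type) :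
    AllHyp (Sum.elim N fun _ : E₁ => Node.free Z) := by
  intro F _ _ κ _ t ht E' _ _ ι hι
  have key : ∀ (o : Option (E ⊕ E₁)) (e : E), o.bind Sum.getLeft? = some e →
      o = some (Sum.inl e) := by
    rintro (_ | e' | e') e h <;> simp_all
  have h1 := h F κ t ht E' (fun e' => (ι e').bind Sum.getLeft?)
    fun e₁ e₂ e h₁ h₂ => hι e₁ e₂ _ (key _ _ h₁) (key _ _ h₂)
  refine hyp_of_iso (fun e' => Iso.of_eq ?_) h1
  rcases ι e' with _ | e | e <;> rfl

theorem AllHyp.addGroup {Z₁ : Type u} [Field Z₁] [Algebra Z Z₁] {κ : Type} [Fintype κ]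
    {t : κ → Z₁} (ht : PTB Z t) {E : Type} [Fintype E] {N : E → Node Z} (hok : ∀ e, (N e).OK)
    (h : AllHyp N) (Λ : E → Type) [∀ e, Fintype (Λ e)] {bb : ∀ e, Λ e → ℕ}
    (hbb : ∀ e l, 0 < bb e l) {q : ∀ e, κ → Λ e → MvPolynomial (N e).Var Z}
    (hq : ∀ e k l, (q e k l).IsHomogeneous (bb e l)) (hbpf : BPF N Λ q) :
    AllHyp fun e => (N e).ext (algebraMap Z Z₁) t (Λ e) (bb e) (q e) := by
  intro F _ _ κ' _ s hs E' _ _ ι hι
  let _ : Algebra Z F := ((algebraMap Z₁ F).comp (algebraMap Z Z₁)).toAlgebra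
  have : IsScalarTower Z Z₁ F := IsScalarTower.of_algebraMap_eq' rfl
  have hT := ptb_comp ht hs
  have a1 : ∀ o : Option E, (o.elim (Node.free Z) N).OK := by
    rintro (_ | e)
    · exact Node.free_ok
    · exact hok e
  have a2 : ∀ (o : Option E) l, 0 < optB bb o l := by
    rintro (_ | e) l
    · exact l.elim
    · exact hbb e l
  have a3 : ∀ (o : Option E) k l, (optQ κ' q o k l).IsHomogeneous (optB bb o l) := by
    rintro (_ | e) k l
    · exact l.elim
    · rcases k with k | k
      · exact isHomogeneous_zero _ _ _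
      · exact hq e k l
  exact hyp_of_iso (fun e' => iso_opt t s bb q (ι e'))
    (hyp_ext hT (fun e' => a1 (ι e')) (h F _ _ hT E' ι hι) (fun e' => optL Λ (ι e'))
      (fun e' => a2 (ι e')) (fun e' => a3 (ι e')) (bpf_opt κ' hbpf hι))

end Vale.Agent.EGH
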