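import Vale.Agent.EGH.ODefs
import Vale.Agent.EGH.Basic

/-! Basic properties of graded modules over the ring of operators. -/

namespace Vale.Agent.EGH

open Module MvPolynomial Filter

universe u

section Ops

variable {Z : Type u} [Field Z] {D : Type u} [DivisionRing D] [Algebra Z D] {ς : Type}
variable {V V' : Type u} [AddCommGroup V] [Module (Oo D ς) V]
  [AddCommGroup V'] [Module (Oo D ς) V']

theorem thV_apply (p : MvPolynomial ς Z) (v : Und D ς V) :
    thV Z D ς V p v = th0 Z D ς p • v := rfl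

theorem isRep_thV : IsRep (thV Z D ς V) := fun z v => by
  rw [thV_apply, th0_C, Und.smul_def]

theorem mem_piece {i : ℤ} {v : Und D ς V} : v ∈ piece D ς V i ↔ pr D ς i • v = v := Iff.rfl

variable (Z) in
/-- The ring of operators is generated by scalars, variables and projections. -/
theorem Oo_induction {p : Oo D ς → Prop} (hd : ∀ d, p (jD D ς d))
    (hx : ∀ x, p (th0 Z D ς (X x))) (hp : ∀ j, p (pr D ς j))
    (hadd : ∀ a b, p a → p b → p (a + b)) (hmul : ∀ a b, p a → p b → p (a * b)) (o : Oo D ς) :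
    p o := by
  have h1 : p 1 := by simpa using hd 1
  have hm : ∀ α : ς →₀ ℕ, p (th0 Z D ς (monomial α 1)) := fun α => by
    induction α using Finsupp.induction_linear with
    | zero => simpa using h1
    | add a b ha hb =>
      rw [← one_mul (1 : Z), ← monomial_mul, map_mul]
      exact hmul _ _ ha hb
    | single x n =>
      induction n with
      | zero => simpa using h1
      | succ n ih =>
        rw [Finsupp.single_add, ← one_mul (1 : Z), ← monomial_mul, map_mul]
        exact hmul _ _ ih (hx x)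
  have hf : ∀ w : FreeMonoid ℤ, p (MonoidAlgebra.of D (Mo ς) (Monoid.Coprod.inr w)) := fun w => by
    induction w using FreeMonoid.inductionOn' with
    | one => simpa only [map_one] using h1
    | of_mul j w ih =>
      rw [map_mul, map_mul]
      exact hmul _ _ (hp j) ih
  have hM : ∀ m : Mo ς, p (MonoidAlgebra.of D (Mo ς) m) := fun m => by
    induction m using Monoid.Coprod.induction_on with
    | inl α => exact th0_monomial (Z := Z) (D := D) α.toAdd ▸ hm α.toAdd
    | inr w => exact hf w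
    | mul x y hx hy => rw [map_mul]; exact hmul _ _ hx hy
  induction o using MonoidAlgebra.induction_linear with
  | zero => simpa using hd 0
  | add a b ha hb => exact hadd _ _ ha hb
  | single m d => simpa [jD, MonoidAlgebra.single_mul_single] using hmul _ _ (hd d) (hM m)

/-- A module over the ring of operators from operators on a `D`-module. -/
theorem exists_module (M : Type u) [AddCommGroup M] [Module D M]
    (θ : MvPolynomial ς Z →+* Module.End D M) (hθ : IsRep θ) (π : ℤ → Module.End D M) :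
    ∃ _ : Module (Oo D ς) M, (∀ (d : D) (v : M), jD D ς d • v = d • v) ∧
      (∀ p (v : M), th0 Z D ς p • v = θ p v) ∧ ∀ j (v : M), pr D ς j • v = π j v := by
  let g : Mo ς →* AddMonoid.End M := (Module.toAddMonoidEnd (Module.End D M) M).toMonoidHom.comp
    (Monoid.Coprod.lift (θ.toMonoidHom.comp (AddMonoidAlgebra.of Z (ς →₀ ℕ))) (FreeMonoid.lift π))
  let Φ : Oo D ς →+* AddMonoid.End M := MonoidAlgebra.liftNCRingHom (Module.toAddMonoidEnd D M) g
    fun d y => AddMonoidHom.ext fun v => (LinearMap.map_smul _ d v).symm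
  have h0 : ∀ m d, Φ (MonoidAlgebra.single m d) = Module.toAddMonoidEnd D M d * g m :=
    MonoidAlgebra.liftNCRingHom_single _ _ _
  have h1 : ∀ (d : D) (v : M), Φ (jD D ς d) v = d • v := fun d v => by
    change Φ (MonoidAlgebra.single 1 d) v = _
    rw [h0, map_one, mul_one]
    rfl
  have h2 : ∀ m, Φ (MonoidAlgebra.of D (Mo ς) m) = g m := fun m => by
    rw [MonoidAlgebra.of_apply, h0, map_one, one_mul]
  refine ⟨Module.compHom M Φ, h1, fun p v => ?_, fun j v => ?_⟩
  · change Φ (th0 Z D ς p) v = θ p v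
    induction p using MvPolynomial.induction_on' generalizing v with
    | monomial α z =>
      rw [← mul_one z, ← C_mul_monomial, map_mul, map_mul, map_mul, th0_C, th0_monomial, h2,
        Module.End.mul_apply, hθ]
      exact h1 _ _
    | add p q hp hq => rw [map_add, map_add, map_add, LinearMap.add_apply, ← hp, ← hq]; rfl
  · change Φ (pr D ς j) v = π j v
    rw [pr, h2]
    simp only [g, MonoidHom.comp_apply, Monoid.Coprod.lift_apply_inr, FreeMonoid.lift_eval_of]
    rfl

/-- A linear map as a map of the underlying `D`-modules. -/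
noncomputable def undMap (f : V →ₗ[Oo D ς] V') : Und D ς V →ₗ[D] Und D ς V' where
  toFun := f
  map_add' := f.map_add
  map_smul' d v := f.map_smul (jD D ς d) v

@[simp] theorem undMap_apply (f : V →ₗ[Oo D ς] V') (v : Und D ς V) : undMap f v = f v := rfl

/-- A submodule as a submodule of the underlying `D`-module. -/
noncomputable def undSub (M : Submodule (Oo D ς) V) : Submodule D (Und D ς V) where
  carrier := {v | Und.out v ∈ M}
  add_mem' := M.add_mem
  zero_mem' := M.zero_mem
  smul_mem' d _ hv := M.smul_mem (jD D ς d) hv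

theorem mem_undSub {M : Submodule (Oo D ς) V} {v : Und D ς V} :
    v ∈ undSub M ↔ Und.out v ∈ M := Iff.rfl

variable (Z) in
theorem exists_sub (S : Submodule D (Und D ς V))
    (hx : ∀ x, ∀ v ∈ S, th0 Z D ς (X x) • v ∈ S) (hp : ∀ j, ∀ v ∈ S, pr D ς j • v ∈ S) :
    ∃ M : Submodule (Oo D ς) V, undSub M = S := by
  have key : ∀ o : Oo D ς, ∀ v ∈ S, o • v ∈ S := Oo_induction Z
    (fun d v hv => S.smul_mem d hv) hx hp
    (fun a b ha hb v hv => by rw [add_smul]; exact S.add_mem (ha v hv) (hb v hv))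
    fun a b ha hb v hv => by rw [mul_smul]; exact ha _ (hb v hv)
  exact ⟨{ carrier := {v | Und.mk D ς v ∈ S}
           add_mem' := S.add_mem
           zero_mem' := S.zero_mem
           smul_mem' := fun o v hv => key o v hv }, rfl⟩

theorem map_piece_subtype (M : Submodule (Oo D ς) V) (i : ℤ) :
    (piece D ς M i).map (undMap M.subtype) = piece D ς V i ⊓ undSub M := by
  ext v
  exact ⟨fun ⟨x, hx, e⟩ => e ▸ ⟨congrArg Subtype.val hx, x.2⟩,
    fun ⟨h1, h2⟩ => ⟨⟨v, h2⟩, Subtype.ext h1, rfl⟩⟩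

theorem hfO_sub (M : Submodule (Oo D ς) V) (i : ℤ) :
    hfO D ς M i = finrank D (piece D ς V i ⊓ undSub M : Submodule D (Und D ς V)) := by
  have hi : Function.Injective (undMap (D := D) (ς := ς) (V := M) (V' := V) M.subtype) :=
    M.subtype_injective
  rw [← map_piece_subtype, hfO, hf, (Submodule.equivMapOfInjective _ hi _).finrank_eq]

omit [Algebra Z D] in
theorem Gen_le_span {M : Type*} [AddCommGroup M] [Module D M]
    (θ : MvPolynomial ς Z →+* Module.End D M) (s : Set (ℤ × M)) (i : ℤ) :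
    Gen (fun x => θ (X x)) (fun _ => (1 : ℤ)) s i ≤ Submodule.span D
      {v | ∃ p ∈ s, ∃ α : ς →₀ ℕ, p.1 + α.degree = i ∧ v = θ (monomial α 1) p.2} := by
  refine Gen_le (W := fun i => Submodule.span D
    {v | ∃ p ∈ s, ∃ α : ς →₀ ℕ, p.1 + α.degree = i ∧ v = θ (monomial α 1) p.2})
    (fun x g v hv => ?_) (fun p hp => Submodule.subset_span ⟨p, hp, 0, by simp, by simp⟩) i
  rw [← Submodule.mem_comap]
  refine Submodule.span_le.2 ?_ hv
  rintro _ ⟨p, hp, α, h1, rfl⟩
  refine Submodule.subset_span ⟨p, hp, Finsupp.single x 1 + α, by simp [← h1]; ring, ?_⟩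
  rw [← Module.End.mul_apply, ← map_mul, X, monomial_mul, one_mul]

omit [Algebra Z D] in
theorem fd_Gen [Finite ς] {M : Type*} [AddCommGroup M] [Module D M]
    (θ : MvPolynomial ς Z →+* Module.End D M) {s : Set (ℤ × M)} (hs : s.Finite) (i : ℤ) :
    FiniteDimensional D (Gen (fun x => θ (X x)) (fun _ => (1 : ℤ)) s i) := by
  have h : {v | ∃ p ∈ s, ∃ α : ς →₀ ℕ, p.1 + α.degree = i ∧ v = θ (monomial α 1) p.2}.Finite := by
    refine (hs.biUnion fun p _ => (Finsupp.finite_of_degree_eq (σ := ς) (i - p.1).toNat).image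
      fun α => θ (monomial α 1) p.2).subset ?_
    rintro _ ⟨p, hp, α, h1, rfl⟩
    exact Set.mem_biUnion hp ⟨α, by change _ = _; omega, rfl⟩
  have := FiniteDimensional.span_of_finite D h
  exact Submodule.finiteDimensional_of_le (Gen_le_span θ s i)

end Ops

namespace Gr

variable {Z : Type u} [Field Z] {D : Type u} [DivisionRing D] [Algebra Z D] {N : Node Z}
variable {V V' : Type u} [AddCommGroup V] [Module (Oo D N.Var) V]
  [AddCommGroup V'] [Module (Oo D N.Var) V']

theorem fin' (h : Gr D N V) (v : V) : ∃ s : Finset ℤ, ∀ t, s ⊆ t →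
    (∀ j ∉ t, pr D N.Var j • v = 0) ∧ ∑ j ∈ t, pr D N.Var j • v = v := by
  obtain ⟨s, h1, h2⟩ := h.fin v
  exact ⟨s, fun t ht => ⟨fun j hj => h1 j fun k => hj (ht k),
    (Finset.sum_subset ht fun j _ hj => h1 j hj).symm.trans h2⟩⟩

theorem of_inj (h : Gr D N V) (f : V' →ₗ[Oo D N.Var] V) (hf : Function.Injective f) :
    Gr D N V' := by
  refine ⟨fun v => ?_, fun j v => hf ?_, fun i j v k => hf ?_, fun j x v => hf ?_,
    fun w v => hf ?_⟩
  · obtain ⟨s, h1, h2⟩ := h.fin (f v)
    exact ⟨s, fun j hj => hf (by rw [map_smul, h1 j hj, map_zero]),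
      hf (by simpa only [map_sum, map_smul] using h2)⟩
  · simp only [map_smul, h.same]
  · simp only [map_smul, h.orth i j _ k, map_zero]
  · simp only [map_smul, h.var]
  · simp only [map_smul, h.eqn, map_zero]

theorem of_surj (h : Gr D N V) (f : V →ₗ[Oo D N.Var] V') (hf : Function.Surjective f) :
    Gr D N V' := by
  refine ⟨fun v => ?_, fun j v => ?_, fun i j v k => ?_, fun j x v => ?_, fun w v => ?_⟩ <;>
    obtain ⟨v, rfl⟩ := hf v
  · obtain ⟨s, h1, h2⟩ := h.fin v
    exact ⟨s, fun j hj => by rw [← map_smul, h1 j hj, map_zero],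
      by simpa only [map_sum, map_smul] using congrArg f h2⟩
  · simp only [← map_smul, h.same]
  · simp only [← map_smul, h.orth i j _ k, map_zero]
  · simp only [← map_smul, h.var]
  · simp only [← map_smul, h.eqn, map_zero]

theorem prod (h : Gr D N V) (h' : Gr D N V') : Gr D N (V × V') := by
  refine ⟨fun v => ?_, fun j v => Prod.ext (h.same j _) (h'.same j _),
    fun i j v k => Prod.ext (h.orth i j _ k) (h'.orth i j _ k),
    fun j x v => Prod.ext (h.var j x _) (h'.var j x _), fun w v => Prod.ext (h.eqn w _) (h'.eqn w _)⟩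
  obtain ⟨s, h1⟩ := h.fin' v.1
  obtain ⟨t, h2⟩ := h'.fin' v.2
  obtain ⟨a1, a2⟩ := h1 (s ∪ t) Finset.subset_union_left
  obtain ⟨b1, b2⟩ := h2 (s ∪ t) Finset.subset_union_right
  exact ⟨s ∪ t, fun j hj => Prod.ext (a1 j hj) (b1 j hj),
    Prod.ext (by simpa [Prod.fst_sum] using a2) (by simpa [Prod.snd_sum] using b2)⟩

theorem pi (h : Gr D N V) (n : ℕ) : Gr D N (Fin n → V) := by
  refine ⟨fun v => ?_, fun j v => funext fun a => h.same j _,
    fun i j v k => funext fun a => h.orth i j _ k,
    fun j x v => funext fun a => h.var j x _, fun w v => funext fun a => h.eqn w _⟩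
  choose s hs using fun a => h.fin' (v a)
  have k := fun a => hs a (Finset.univ.biUnion s)
    (Finset.subset_biUnion_of_mem s (Finset.mem_univ a))
  exact ⟨_, fun j hj => funext fun a => (k a).1 j hj,
    funext fun a => by simpa [Finset.sum_apply] using (k a).2⟩

theorem of_cover (h : ∀ v : V, ∃ M : Submodule (Oo D N.Var) V, v ∈ M ∧ Gr D N M) : Gr D N V := by
  refine ⟨fun v => ?_, fun j v => ?_, fun i j v k => ?_, fun j x v => ?_, fun w v => ?_⟩ <;>
    obtain ⟨M, hv, hM⟩ := h v
  · obtain ⟨s, h1, h2⟩ := hM.fin ⟨v, hv⟩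
    exact ⟨s, fun j hj => congrArg Subtype.val (h1 j hj),
      by simpa using congrArg Subtype.val h2⟩
  · exact congrArg Subtype.val (hM.same j ⟨v, hv⟩)
  · exact congrArg Subtype.val (hM.orth i j ⟨v, hv⟩ k)
  · exact congrArg Subtype.val (hM.var j x ⟨v, hv⟩)
  · exact congrArg Subtype.val (hM.eqn w ⟨v, hv⟩)

theorem stable (h : Gr D N V) :
    Stable (fun x => thV Z D N.Var V (X x)) (fun _ => (1 : ℤ)) (piece D N.Var V) := by
  intro x g v hv
  exact (h.var g x v).trans (congrArg (th0 Z D N.Var (X x) • ·) hv)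

theorem kills (h : Gr D N V) : ∀ p ∈ N.eqs, Maps (thV Z D N.Var V p.2) p.1 (piece D N.Var V) ⊥ := by
  rintro _ ⟨w, rfl⟩ g v _
  exact h.eqn w v

theorem pr_th0 (h : Gr D N V) {p : MvPolynomial N.Var Z} {k : ℕ} (hp : p.IsHomogeneous k) (j : ℤ)
    (v : V) :
    pr D N.Var (j + k) • th0 Z D N.Var p • v = th0 Z D N.Var p • pr D N.Var j • v := by
  have h1 : ∀ i, pr D N.Var (i + k) • th0 Z D N.Var p • pr D N.Var i • v =
      th0 Z D N.Var p • pr D N.Var i • v := fun i =>
    Maps.of_hom isRep_thV h.stable (isWH_one_iff.2 hp) i _ (h.same i v)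
  obtain ⟨s, hs⟩ := h.fin' v
  conv_lhs => rw [← (hs (insert j s) (Finset.subset_insert _ _)).2, Finset.smul_sum,
    Finset.smul_sum]
  rw [Finset.sum_eq_single_of_mem j (Finset.mem_insert_self _ _) fun i _ hi => ?_, h1]
  rw [← h1, h.orth _ _ _ (by omega)]

theorem eq_zero (h : Gr D N V) {v : V} (hv : ∀ j, pr D N.Var j • v = 0) : v = 0 := by
  obtain ⟨s, -, h2⟩ := h.fin v
  rw [← h2]
  exact Finset.sum_eq_zero fun j _ => hv j

theorem mem_of_pr (h : Gr D N V) {M : Submodule (Oo D N.Var) V} {v : V}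
    (hv : ∀ j, pr D N.Var j • v ∈ M) : v ∈ M := by
  obtain ⟨s, -, h2⟩ := h.fin v
  rw [← h2]
  exact M.sum_mem fun j _ => hv j

/-- The kernel of a homogeneous polynomial is a submodule. -/
theorem exists_ker (h : Gr D N V) {p : MvPolynomial N.Var Z} {k : ℕ} (hp : p.IsHomogeneous k) :
    ∃ M : Submodule (Oo D N.Var) V, ∀ v, v ∈ M ↔ th0 Z D N.Var p • v = 0 := by
  obtain ⟨M, hM⟩ := exists_sub Z (LinearMap.ker (thV Z D N.Var V p)) (fun x v hv => by
      change th0 Z D N.Var p • th0 Z D N.Var (X x) • v = 0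
      rw [← mul_smul, ← map_mul, mul_comm, map_mul, mul_smul, show th0 Z D N.Var p • v = 0 from hv,
        smul_zero])
    fun j v hv => (h.pr_th0 hp j v).symm.trans
      ((congrArg (pr D N.Var (j + k) • ·) hv).trans (smul_zero (A := V) _))
  exact ⟨M, fun v => SetLike.ext_iff.1 hM v⟩

/-- A stable family of homogeneous elements comes from a submodule. -/
theorem exists_sub_of_stable (h : Gr D N V) (Y : ℤ → Submodule D (Und D N.Var V))
    (hY : Stable (fun x => thV Z D N.Var V (X x)) (fun _ => (1 : ℤ)) Y)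
    (hle : Y ≤ piece D N.Var V) :
    ∃ M : Submodule (Oo D N.Var) V, ∀ i, piece D N.Var V i ⊓ undSub M = Y i := by
  have h1 : ∀ i j (v : Und D N.Var V), pr D N.Var j • v ∈ Y j →
      pr D N.Var i • pr D N.Var j • v ∈ Y i := fun i j v hv => by
    by_cases e : i = j
    · subst e
      exact (congrArg (· ∈ Y i) (h.same i v)).mpr hv
    · exact (congrArg (· ∈ Y i) (h.orth i j v e)).mpr (Y i).zero_mem
  obtain ⟨M, hM⟩ := exists_sub Z (V := V)
    { carrier := {v | ∀ i, pr D N.Var i • v ∈ Y i}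
      add_mem' := fun hx hy i => by rw [smul_add]; exact (Y i).add_mem (hx i) (hy i)
      zero_mem' := fun i => by rw [smul_zero]; exact (Y i).zero_mem
      smul_mem' := fun d v hv i => by
        rw [Und.smul_def, ← mul_smul, ← (jD_commute_pr d i).eq, mul_smul]
        exact (Y i).smul_mem d (hv i) }
    (fun x v hv i => by
      have := hY x _ _ (hv (i - 1))
      have e := h.var (i - 1) x v
      rw [sub_add_cancel] at this e
      exact (congrArg (· ∈ Y i) e).mpr this)
    fun j v hv i => h1 i j v (hv j)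
  refine ⟨M, fun i => ?_⟩
  rw [hM]
  ext v
  refine ⟨fun ⟨k1, k2⟩ => (congrArg (· ∈ Y i) k1).mp (k2 i), fun hv => ⟨hle i hv, fun j => ?_⟩⟩
  have e : pr D N.Var i • v = v := hle i hv
  have := h1 j i v (e.symm ▸ hv)
  rwa [e] at this

theorem span_piece (h : Gr D N V) (s : Set (ℤ × Und D N.Var V))
    (hs : ∀ p ∈ s, p.2 ∈ piece D N.Var V p.1) (i : ℤ) :
    piece D N.Var V i ⊓ undSub (Submodule.span (Oo D N.Var) ((fun p => Und.out p.2) '' s)) =
      Gen (fun x => thV Z D N.Var V (X x)) (fun _ => (1 : ℤ)) s i := by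
  refine le_antisymm ?_ (Gen_le (W := fun i => piece D N.Var V i ⊓
    undSub (Submodule.span (Oo D N.Var) ((fun p => Und.out p.2) '' s)))
    (fun x g v hv => ⟨h.stable x g v hv.1,
      mem_undSub.2 (Submodule.smul_mem _ (th0 Z D N.Var (X x)) (mem_undSub.1 hv.2))⟩)
    (fun p hp => ⟨hs p hp, mem_undSub.2 (Submodule.subset_span ⟨p, hp, rfl⟩)⟩) i)
  obtain ⟨M, hM⟩ := h.exists_sub_of_stable _ (Gen_stable _ _ s) (Gen_le h.stable hs)
  rw [← hM]
  have : Submodule.span (Oo D N.Var) ((fun p => Und.out p.2) '' s) ≤ M := by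
    rw [Submodule.span_le]
    rintro _ ⟨p, hp, rfl⟩
    exact ((hM p.1).ge (mem_Gen _ _ hp)).2
  exact fun v hv => ⟨hv.1, this hv.2⟩

theorem map_piece (h : Gr D N V) (f : V →ₗ[Oo D N.Var] V') (hf : Function.Surjective f) (i : ℤ) :
    (piece D N.Var V i).map (undMap f) = piece D N.Var V' i := by
  ext v
  constructor
  · rintro ⟨x, hx, rfl⟩
    exact (f.map_smul _ _).symm.trans (congrArg f hx)
  · intro hv
    obtain ⟨x, rfl⟩ := hf v
    exact ⟨pr D N.Var i • x, h.same i x, (f.map_smul _ _).trans hv⟩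

/-- A finitely generated graded module gives a finitely generated family. -/
theorem pair (h : Gr D N V) [Module.Finite (Oo D N.Var) V] :
    Pair (fun x => thV Z D N.Var V (X x)) (fun _ => (1 : ℤ)) ⊥ (piece D N.Var V) := by
  obtain ⟨t, ht⟩ := Module.Finite.fg_top (R := Oo D N.Var) (M := V)
  choose s hs using h.fin
  have h1 : (⋃ v ∈ t, (fun j => (j, Und.mk D N.Var (pr D N.Var j • v))) '' s v).Finite :=
    t.finite_toSet.biUnion fun v _ => (s v).finite_toSet.image _
  have h2 : ∀ p ∈ ⋃ v ∈ t, (fun j => (j, Und.mk D N.Var (pr D N.Var j • v))) '' s v,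
      p.2 ∈ piece D N.Var V p.1 := by
    simp only [Set.mem_iUnion]
    rintro _ ⟨v, -, j, -, rfl⟩
    exact h.same j v
  have h3 := h.span_piece _ h2
  generalize hS : (⋃ v ∈ t, (fun j => (j, Und.mk D N.Var (pr D N.Var j • v))) '' s v) = S
    at h1 h2 h3
  have h4 : Submodule.span (Oo D N.Var) ((fun p => Und.out p.2) '' S) = ⊤ := by
    rw [eq_top_iff, ← ht, Submodule.span_le]
    intro v hv
    rw [← (hs v).2]
    refine Submodule.sum_mem _ fun j hj => Submodule.subset_span ⟨(j, _), ?_, rfl⟩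
    rw [← hS]
    exact Set.mem_biUnion hv ⟨j, hj, rfl⟩
  have h5 : ∀ i, piece D N.Var V i ≤ _ := fun i v hv => (h3 i).le ⟨hv, h4 ▸ Submodule.mem_top⟩
  refine ⟨stable_bot _ _, h.stable, bot_le, fun i => ?_, S, h1, h2,
    fun i => (h5 i).trans le_sup_right⟩
  have := fd_Gen (thV Z D N.Var V) h1 i
  exact Submodule.finiteDimensional_of_le (h5 i)

end Gr

end Vale.Agent.EGH
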