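import Vale.Agent.EGH.GrBasic
import Vale.Agent.EGH.ACC
import Vale.Agent.EGH.NodeBasic

/-! Rank and defect of finitely generated graded modules. -/

namespace Vale.Agent.EGH

open Module MvPolynomial Filter

universe u

variable {Z : Type u} [Field Z] {D : Type u} [DivisionRing D] [Algebra Z D] {N : Node Z}

namespace GrRD

variable {V V' V'' : Type u} [AddCommGroup V] [Module (Oo D N.Var) V]
  [AddCommGroup V'] [Module (Oo D N.Var) V'] [AddCommGroup V''] [Module (Oo D N.Var) V'']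

theorem noeth (h : Gr D N V) [Module.Finite (Oo D N.Var) V] : IsNoetherian (Oo D N.Var) V := by
  refine ⟨fun M => ?_⟩
  obtain ⟨s, h1, h2, h3⟩ := (h.pair.sub (W := fun i => piece D N.Var V i ⊓ undSub M)
    (fun i j => rep_commute _ _ _) (fun x g v hv => ⟨h.stable x g v hv.1,
      mem_undSub.2 (M.smul_mem (th0 Z D N.Var (X x)) (mem_undSub.1 hv.2))⟩) bot_le
    fun i => inf_le_left).fg
  refine Submodule.fg_def.2 ⟨_, h1.image fun p => Und.out p.2, le_antisymm ?_ fun v hv => ?_⟩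
  · rw [Submodule.span_le]
    rintro _ ⟨p, hp, rfl⟩
    exact (h2 p hp).2
  · rw [bot_sup_eq] at h3
    exact h.mem_of_pr fun j => ((h.span_piece s (fun p hp => (h2 p hp).1) j).ge
      (h3 j ⟨h.same j v, M.smul_mem _ hv⟩)).2

theorem hfO_add (h : Gr D N V) [Module.Finite (Oo D N.Var) V] (f : V' →ₗ[Oo D N.Var] V)
    (g : V →ₗ[Oo D N.Var] V'') (hf : Function.Injective f) (hg : Function.Surjective g)
    (e : Function.Exact f g) : hfO D N.Var V = hfO D N.Var V' + hfO D N.Var V'' := by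
  funext i
  have := h.pair.fd i
  have h1 := finrank_map_add_finrank_inf_ker (undMap g) (piece D N.Var V i)
  have h2 : piece D N.Var V i ⊓ LinearMap.ker (undMap g) = (piece D N.Var V' i).map (undMap f) := by
    ext v
    constructor
    · rintro ⟨k1, k2⟩
      obtain ⟨y, rfl⟩ := (e v).1 k2
      exact ⟨y, hf ((f.map_smul _ _).trans k1), rfl⟩
    · rintro ⟨y, hy, rfl⟩
      exact ⟨(f.map_smul _ _).symm.trans (congrArg f hy), e.apply_apply_eq_zero y⟩
  rw [h2, h.map_piece g hg,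
    ← (Submodule.equivMapOfInjective (undMap f) (show Function.Injective (undMap f) from hf)
      _).finrank_eq] at h1
  simp only [hfO, EGH.hf, Pi.add_apply]
  omega

theorem nonneg {m c r s : ℤ} (hm : 0 < m) {h : ℤ → ℤ} (h0 : ∀ i, 0 ≤ h i) (ha : Aff m c h r s) :
    0 ≤ r ∧ (r = 0 → 0 ≤ s) := by
  obtain ⟨i, hi⟩ := eventually_atTop.1 ha
  have h1 := h0 (max i (|s| + |c| + 1))
  rw [hi _ (le_max_left _ _)] at h1
  have h2 := le_max_right i (|s| + |c| + 1)
  generalize max i (|s| + |c| + 1) = k at h1 h2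
  refine ⟨?_, fun e => by rw [e] at h1; exact nonneg_of_mul_nonneg_left (by linarith) hm⟩
  by_contra hr
  have h3 := mul_le_mul_of_nonneg_left h2 hm.le
  have h4 := mul_le_mul_of_nonneg_left (le_abs_self s) hm.le
  have h5 : |c| ≤ m * |c| := le_mul_of_one_le_left (abs_nonneg c) hm
  have h6 := neg_abs_le c
  have h7 := mul_nonneg hm.le (abs_nonneg s)
  nlinarith

end GrRD

theorem exists_isRD (hN : N.OK) (c : ℤ)
    (H : MG Z D (fun _ => (1 : ℤ)) N.eqs (Lat fun i => N.deg * i + c)) (k0 : ℤ) :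
    ∃ R : RD (Oo D N.Var), IsRD R c k0 := by
  let ε (V : Type u) [AddCommGroup V] [Module (Oo D N.Var) V] : ℤ × ℤ :=
    Classical.epsilon fun p : ℤ × ℤ => Aff N.deg c (hfO D N.Var V) p.1 p.2
  have key : ∀ (V : Type u) [AddCommGroup V] [Module (Oo D N.Var) V],
      Gr D N V ∧ Module.Finite (Oo D N.Var) V → Aff N.deg c (hfO D N.Var V) (ε V).1 (ε V).2 := by
    intro V _ _ ⟨h, _⟩
    obtain ⟨r, s, k⟩ := (H _ _ isRep_thV _ _ h.pair h.kills).aff
    rw [hf_bot, sub_zero] at k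
    exact Classical.epsilon_spec (p := fun p : ℤ × ℤ => Aff N.deg c (hfO D N.Var V) p.1 p.2)
      ⟨(r, s), k⟩
  have c1 : ∀ (V' V : Type u) [AddCommGroup V'] [Module (Oo D N.Var) V'] [AddCommGroup V]
      [Module (Oo D N.Var) V] (f : V' →ₗ[Oo D N.Var] V), Function.Injective f →
      Gr D N V ∧ Module.Finite (Oo D N.Var) V → Gr D N V' ∧ Module.Finite (Oo D N.Var) V' := by
    intro V' V _ _ _ _ f hf ⟨h, _⟩
    have := GrRD.noeth h
    exact ⟨h.of_inj f hf, Module.Finite.of_injective f hf⟩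
  have c2 : ∀ (V V' : Type u) [AddCommGroup V] [Module (Oo D N.Var) V] [AddCommGroup V']
      [Module (Oo D N.Var) V'] (f : V →ₗ[Oo D N.Var] V'), Function.Surjective f →
      Gr D N V ∧ Module.Finite (Oo D N.Var) V → Gr D N V' ∧ Module.Finite (Oo D N.Var) V' := by
    intro V V' _ _ _ _ f hf ⟨h, _⟩
    exact ⟨h.of_surj f hf, Module.Finite.of_surjective f hf⟩
  refine ⟨{ C := fun V _ _ => Gr D N V ∧ Module.Finite (Oo D N.Var) V
            r := fun V _ _ => (ε V).1
            d := fun V _ _ => (ε V).1 * k0 - (ε V).2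
            noeth := fun V _ _ ⟨h, _⟩ => GrRD.noeth h
            C_inj := c1
            C_surj := c2
            C_prod := fun V V' _ _ _ _ ⟨h, _⟩ ⟨h', _⟩ => ⟨h.prod h', inferInstance⟩
            add := fun V' V V'' _ _ _ _ _ _ f g hf hg e h => ?_
            r_nonneg := fun V _ _ h => (GrRD.nonneg hN.deg_pos (hf_nonneg _) (key V h)).1
            d_nonpos := fun V _ _ h e => ?_ },
    fun V _ _ => Iff.rfl, fun V _ _ ⟨h, _⟩ => h.pair.fd, fun V _ _ h => ?_⟩
  · have k := (key V' (c1 V' V f hf h)).add (key V'' (c2 V V'' g hg h))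
    have := h.2
    rw [← GrRD.hfO_add h.1 f g hf hg e] at k
    obtain ⟨k1, k2⟩ := (key V h).unique hN.deg_pos.ne' k
    exact ⟨k1, by rw [k1, k2]; ring⟩
  · have := (GrRD.nonneg hN.deg_pos (hf_nonneg _) (key V h)).2 e
    rw [e]
    omega
  · simpa using key V h

theorem IsRD.change (hN : N.OK) {R R' : RD (Oo D N.Var)} {c k0 k0' : ℤ} (hR : IsRD R c k0)
    (hR' : IsRD R' c k0') (V : Type u) [AddCommGroup V] [Module (Oo D N.Var) V] (h : R.C V) :
    R'.C V ∧ R'.r V = R.r V ∧ R'.d V = R.d V + R.r V * (k0' - k0) := by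
  have h' := (hR'.C_iff V).2 ((hR.C_iff V).1 h)
  obtain ⟨k1, k2⟩ := (hR'.aff V h').unique hN.deg_pos.ne' (hR.aff V h)
  exact ⟨h', k1, by rw [k1] at k2; linarith⟩

end Vale.Agent.EGH
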