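import Vale.Agent.EGH.PsiStep

/-! Adding a base point free group of equations with generic parameters. -/

namespace Vale.Agent.EGH

open Module MvPolynomial Filter

universe u

namespace HC

theorem exists_det_ne_zero {L : Type*} [Field L] {n κ : Type*} [Fintype n] [DecidableEq n]
    [Fintype κ] (Q : κ → n → L) (h : ∀ c : n → L, (∀ k, ∑ l, c l * Q k l = 0) → c = 0) :
    ∃ f : n → κ, (Matrix.of fun l l' => Q (f l') l).det ≠ 0 := by
  have hspan : Submodule.span L (Set.range Q) = ⊤ := by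
    by_contra hne
    obtain ⟨φ, hφ, hle⟩ := Submodule.exists_le_ker_of_lt_top _ (lt_top_iff_ne_top.2 hne)
    have h1 := h (fun l => φ fun j => if l = j then 1 else 0) fun k => by
      have h2 : φ (Q k) = 0 := hle (Submodule.subset_span ⟨k, rfl⟩)
      rw [LinearMap.pi_apply_eq_sum_univ] at h2
      simpa only [smul_eq_mul, mul_comm] using h2
    refine hφ (LinearMap.ext fun x => ?_)
    rw [LinearMap.pi_apply_eq_sum_univ]
    exact Finset.sum_eq_zero fun l _ => by rw [congrFun h1 l]; simp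
  by_contra hall
  push Not at hall
  have h1 : ∀ i : n, ∃ c : κ → L, ∑ k, c k • Q k = (1 : Matrix n n L) i := fun i =>
    (Submodule.mem_span_range_iff_exists_fun L).1 (by rw [hspan]; trivial)
  choose c hc using h1
  have h2 : (Matrix.detRowAlternating (n := n) (R := L)).toMultilinearMap
      (fun i => ∑ k, c i k • Q k) = 1 := by
    simp only [hc]
    exact Matrix.det_one
  rw [MultilinearMap.map_sum] at h2
  refine zero_ne_one ((Finset.sum_eq_zero fun r _ => ?_).symm.trans h2)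
  rw [MultilinearMap.map_smul_univ]
  have h3 := hall r
  rw [← Matrix.det_transpose] at h3
  exact smul_eq_zero_of_right _ h3

theorem det_hom {R : Type*} [CommRing R] {σ G n : Type*} [AddCommMonoid G] [Fintype n]
    [DecidableEq n] {dg : σ → G} {M : Matrix n n (MvPolynomial σ R)} {δ : n → G}
    (h : ∀ l l', IsWeightedHomogeneous dg (M l l') (δ l)) :
    IsWeightedHomogeneous dg M.det (∑ l, δ l) := by
  rw [Matrix.det_apply']
  refine IsWeightedHomogeneous.sum _ _ _ fun π _ => ?_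
  rw [← map_intCast (C : R →+* MvPolynomial σ R), ← Equiv.sum_comp π δ]
  exact (IsWeightedHomogeneous.prod _ _ _ fun i _ => h (π i) i).C_mul _

theorem adjugate_hom {R : Type*} [CommRing R] {σ G n : Type*} [AddCommGroup G] [Fintype n]
    [DecidableEq n] {dg : σ → G} {M : Matrix n n (MvPolynomial σ R)} {δ : n → G}
    (h : ∀ l l', IsWeightedHomogeneous dg (M l l') (δ l)) (i j : n) :
    IsWeightedHomogeneous dg (M.adjugate i j) (∑ l, δ l - δ j) := by
  rw [Matrix.adjugate_apply]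
  have e : ∑ l, δ l - δ j = ∑ l, Function.update δ j 0 l := by
    rw [Finset.sum_update_of_mem (Finset.mem_univ j), zero_add,
      ← Finset.add_sum_erase _ δ (Finset.mem_univ j), add_sub_cancel_left, Finset.erase_eq]
  rw [e]
  refine det_hom fun l l' => ?_
  by_cases hl : l = j
  · subst hl
    rw [Matrix.updateRow_self, Function.update_self, Pi.single_apply]
    split_ifs
    · exact isWeightedHomogeneous_one _ _
    · exact isWeightedHomogeneous_zero _ _ _
  · rw [Matrix.updateRow_ne hl, Function.update_of_ne hl]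
    exact h l l'

theorem eval_eq_zero {R L : Type*} [CommRing R] [Field L] {σ E : Type} [DecidableEq E]
    {nd : σ → E} {x : MvPolynomial σ R} {γ : E → ℤ} (hx : IsWeightedHomogeneous (dgs nd) x γ)
    {e : E} (he : γ e ≠ 0) (f : R →+* L) {ξ : σ → L} (hξ : ∀ v, nd v = e → ξ v = 0) :
    eval₂ f ξ x = 0 := by
  induction hx using IsWeightedHomogeneous.induction_on with
  | zero => exact eval₂_zero _ _
  | add p q _ _ hp hq => rw [eval₂_add, hp, hq, add_zero]
  | monomial α r hr =>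
    rw [eval₂_monomial]
    refine mul_eq_zero_of_right _ ?_
    by_contra hne
    refine he ?_
    rw [← hr, Finsupp.weight_apply, Finsupp.sum, Finset.sum_apply]
    refine Finset.sum_eq_zero fun v hv => ?_
    have h1 : nd v ≠ e := fun h => hne (Finset.prod_eq_zero hv (by
      show ξ v ^ α v = 0
      rw [hξ v h, zero_pow (Finsupp.mem_support_iff.1 hv)]))
    simp [dgs, eps, Pi.single_eq_of_ne h1.symm]

theorem down {ι : Type*} [Finite ι] {P : Set ι → Prop}
    (h : ∀ Y, (∀ v, v ∉ Y → P (insert v Y)) → P Y) (Y : Set ι) : P Y := by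
  induction Y using (wellFounded_gt (α := Set ι)).induction with
  | _ Y ih => exact h Y fun v hv => ih _ (Set.ssubset_insert hv)

variable {K : Type u} [Field K] {F : Type u} [Field F] [Algebra K F]
variable {κ σ Λ E : Type}

theorem eval_upH {L : Type*} [CommRing L] (f : F →+* L) (p : σ ⊕ Λ → L) (x : MvPolynomial σ K) :
    eval₂ f p (upH F Λ x) = eval₂ (f.comp (algebraMap K F)) (p ∘ Sum.inl) x := by
  show eval₂ f p (rename Sum.inl (MvPolynomial.map (algebraMap K F) x)) = _
  rw [eval₂_rename, eval₂_map]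

/-- The matrix of a choice of columns. -/
def mat (q : κ → Λ → MvPolynomial σ K) (A : Finset Λ) (f : A → κ) :
    Matrix A A (MvPolynomial σ K) := Matrix.of fun l l' => q (f l') l

/-- The old equations and some maximal minors. -/
def minors [DecidableEq Λ] (S : Set ((E → ℤ) × MvPolynomial σ K)) (γ : E → ℤ)
    (q : κ → Λ → MvPolynomial σ K) (A : Finset Λ) (Φ : Set (A → κ)) :
    Set ((E → ℤ) × MvPolynomial σ K) :=
  S ∪ (fun f => (γ, (mat q A f).det)) '' Φ

variable [Fintype κ] [Fintype Λ] [DecidableEq Λ] [Fintype E] [DecidableEq E]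

theorem prod_rad (nd : σ → E) (ndΛ : Λ → E) (t : κ → F) (b : Λ → ℕ)
    (q : κ → Λ → MvPolynomial σ K) {S : Set ((E → ℤ) × MvPolynomial σ K)}
    (hbpf : ∀ (L : Type u) [Field L] [IsAlgClosed L] (f : K →+* L) (ξ : σ → L),
      (∀ p ∈ S, eval₂ f ξ p.2 = 0) → (∀ e, ∃ v, nd v = e ∧ ξ v ≠ 0) →
      ∀ c : Λ → L, (∀ k, ∑ l, c l * eval₂ f ξ (q k l) = 0) → c = 0)
    (γ : E → ℤ) (A : Finset Λ) (s : E → σ) (hs : ∀ e, nd (s e) = e) :
    ∏ e, (X (Sum.inl (s e)) : MvPolynomial (σ ⊕ Λ) F) ∈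
      (Ideal.span (Prod.snd '' hSet ndΛ t b q (minors S γ q A Set.univ) A)).radical := by
  refine mem_radical_of_points _ _ fun L _ _ f p hp => ?_
  by_contra hne
  have hv : ∀ x ∈ minors S γ q A Set.univ,
      eval₂ (f.comp (algebraMap K F)) (p ∘ Sum.inl) x.2 = 0 := fun x hx => by
    rw [← eval_upH]
    exact hp _ (Ideal.subset_span ⟨_, Or.inl ⟨x, hx, rfl⟩, rfl⟩)
  have h1 := hbpf L (f.comp (algebraMap K F)) (p ∘ Sum.inl) (fun x hx => hv x (Or.inl hx))
    fun e => ⟨s e, hs e, fun h0 => hne (by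
      rw [eval₂_prod]
      exact Finset.prod_eq_zero (Finset.mem_univ e) (by rw [eval₂_X]; exact h0))⟩
  obtain ⟨g, hg⟩ := exists_det_ne_zero
    (fun k (l : A) => eval₂ (f.comp (algebraMap K F)) (p ∘ Sum.inl) (q k l)) (fun c hc => by
      have h2 := h1 (fun l => if h : l ∈ A then c ⟨l, h⟩ else 0) fun k => by
        refine Eq.trans ?_ (hc k)
        rw [← Finset.sum_subset (Finset.subset_univ A) fun l _ hl => by rw [dif_neg hl, zero_mul],
          ← Finset.sum_coe_sort A]
        exact Finset.sum_congr rfl fun l _ => by simp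
      funext l
      simpa using congrFun h2 l)
  refine hg ?_
  have h3 := hv _ (Or.inr ⟨g, trivial, rfl⟩)
  rw [← coe_eval₂Hom, RingHom.map_det] at h3
  exact h3

variable [Finite σ]

theorem base (nd : σ → E) (ndΛ : Λ → E) (t : κ → F) {b : Λ → ℕ} (hb : ∀ l, 0 < b l)
    {q : κ → Λ → MvPolynomial σ K}
    (hq : ∀ k l, IsWeightedHomogeneous (dgs nd) (q k l) (b l • eps (ndΛ l)))
    {S : Set ((E → ℤ) × MvPolynomial σ K)} (hS : Homog (dgs nd) S) (A : Finset Λ)
    (hrad : ∀ s : E → σ, (∀ e, nd (s e) = e) → ∏ e, (X (Sum.inl (s e)) : MvPolynomial (σ ⊕ Λ) F) ∈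
      (Ideal.span (Prod.snd '' hSet ndΛ t b q S A)).radical) (PP : (E → ℤ) → ℤ) :
    MG F F (dgs (Sum.elim nd ndΛ)) (hSet ndΛ t b q S A)
      fun f => Lat PP (act (∏ l ∈ Aᶜ, (1 - mon (b l • eps (ndΛ l)))) f) := by
  have hom : ∀ Y : Set σ, Homog (dgs (Sum.elim nd ndΛ)) (hSet ndΛ t b q S A ∪
      (fun v => (eps (nd v), (X (Sum.inl v) : MvPolynomial (σ ⊕ Λ) F))) '' Y) := by
    rintro Y p (hp | ⟨v, -, rfl⟩)
    · exact homog_hSet nd ndΛ t b hq hS _ p hp
    · exact isWeightedHomogeneous_X F (dgs (Sum.elim nd ndΛ)) (Sum.inl v)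
  have hpw : ∀ l, IsWeightedHomogeneous (dgs (Sum.elim nd ndΛ))
      ((X (Sum.inr l) : MvPolynomial (σ ⊕ Λ) F) ^ b l) (b l • eps (ndΛ l)) :=
    fun l => (isWeightedHomogeneous_X F (dgs (Sum.elim nd ndΛ)) (Sum.inr l)).pow (b l)
  have key := down (P := fun Y : Set σ => MG F F (dgs (Sum.elim nd ndΛ)) (hSet ndΛ t b q S A ∪
      (fun v => (eps (nd v), (X (Sum.inl v) : MvPolynomial (σ ⊕ Λ) F))) '' Y)
      fun f => Lat PP (act (∏ l ∈ Aᶜ, (1 - mon (b l • eps (ndΛ l)))) f)) (fun Y ih => by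
    by_cases hY : ∃ e, ∀ v, nd v = e → v ∈ Y
    · obtain ⟨e, he⟩ := hY
      refine MG.hs_prod (closed_Lat PP) Aᶜ (fun l => b l • eps (ndΛ l))
        (fun l => X (Sum.inr l) ^ b l) (fun l _ => hpw l) ?_
      refine (MG.evZero (Sum.elim nd ndΛ) e ?_ fun v hv => ?_).imp fun f hf => hf.lat PP
      · rintro p (hp | ⟨l, -, rfl⟩)
        · exact hom Y p hp
        · exact hpw l
      · refine mem_radical_of_points _ _ fun L _ _ f p hp => ?_
        have h1 : ∀ v, nd v = e → (p ∘ Sum.inl) v = 0 := fun v hv => by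
          have := hp _ (Ideal.subset_span ⟨_, Or.inl (Or.inr ⟨v, he v hv, rfl⟩), rfl⟩)
          rwa [eval₂_X] at this
        rw [eval₂_X]
        rcases v with v | l
        · exact h1 v hv
        · refine eq_zero_of_pow_eq_zero (n := b l) ?_
          by_cases hl : l ∈ A
          · have h2 : eval₂ f p (gEq t b q l) = 0 :=
              hp _ (Ideal.subset_span ⟨_, Or.inl (Or.inl (Or.inr ⟨l, hl, rfl⟩)), rfl⟩)
            rw [gEq, eval₂_sub, eval₂_pow, eval₂_X, eval₂_sum, Finset.sum_eq_zero, sub_zero] at h2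
            · exact h2
            · intro k _
              rw [eval₂_mul, eval_upH, eval_eq_zero (hq k l) (e := e) _ _ h1, mul_zero]
              have hv' : ndΛ l = e := hv
              simpa [eps, hv'] using (hb l).ne'
          · have h2 : eval₂ f p (X (Sum.inr l) ^ b l) = 0 :=
              hp _ (Ideal.subset_span ⟨_, Or.inr ⟨l, Finset.mem_compl.2 hl, rfl⟩, rfl⟩)
            rwa [eval₂_pow, eval₂_X] at h2
    · push Not at hY
      choose s hs hsY using hY
      refine MG.of_prod_mem_radical ((closed_Lat PP).comp_act _) (hom Y) Finset.univ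
        (fun e => eps (nd (s e))) (fun e => X (Sum.inl (s e)))
        (fun e _ => isWeightedHomogeneous_X F (dgs (Sum.elim nd ndΛ)) (Sum.inl (s e)))
        (Ideal.radical_mono (Ideal.span_mono (Set.image_mono Set.subset_union_left)) (hrad s hs))
        fun e _ => (ih _ (hsY e)).mono ?_
      rintro p (hp | ⟨v, rfl | hv, rfl⟩)
      · exact Or.inr (Or.inl hp)
      · exact Or.inl rfl
      · exact Or.inr (Or.inr ⟨v, hv, rfl⟩)) ∅
  exact key.mono (by simp)

theorem step (nd : σ → E) (ndΛ : Λ → E) {t : κ → F} (ht : PTB K t) (b : Λ → ℕ)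
    {q : κ → Λ → MvPolynomial σ K}
    (hq : ∀ k l, IsWeightedHomogeneous (dgs nd) (q k l) (b l • eps (ndΛ l)))
    {S : Set ((E → ℤ) × MvPolynomial σ K)} (hS : Homog (dgs nd) S) {A : Set Λ} {l₀ : Λ}
    (hl : l₀ ∉ A) {B : Finset Λ} (hB : (B : Set Λ) = insert l₀ A)
    {L : ((E → ℤ) → ℤ) → Prop} (hL : Closed L)
    (H1 : MG F F (dgs (Sum.elim nd ndΛ)) (hSet ndΛ t b q S A)
      fun f => L (act (1 - mon (b l₀ • eps (ndΛ l₀))) f))
    (H2 : Homog (dgs nd) (minors S (∑ l : B, b l • eps (ndΛ l)) q B Set.univ) →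
      MG F F (dgs (Sum.elim nd ndΛ))
        (hSet ndΛ t b q (minors S (∑ l : B, b l • eps (ndΛ l)) q B Set.univ) B) L) :
    MG F F (dgs (Sum.elim nd ndΛ)) (hSet ndΛ t b q S B) L := by
  classical
  have h0 : l₀ ∈ B := by rw [← Finset.mem_coe, hB]; exact Or.inl rfl
  have hA : ∀ l ∈ A, l ∈ B := fun l h => by rw [← Finset.mem_coe, hB]; exact Or.inr h
  have hm : ∀ (f : B → κ) l l', IsWeightedHomogeneous (dgs nd)
      (mat q B f l l') (b l • eps (ndΛ l)) := fun f l l' => hq _ _
  have hom : ∀ Φ, Homog (dgs nd) (minors S (∑ l : B, b l • eps (ndΛ l)) q B Φ) := by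
    rintro Φ p (hp | ⟨f, -, rfl⟩)
    · exact hS p hp
    · exact det_hom (hm f)
  have key := down (P := fun Φ : Set (B → κ) => MG F F (dgs (Sum.elim nd ndΛ))
    (hSet ndΛ t b q (minors S (∑ l : B, b l • eps (ndΛ l)) q B Φ) B) L) (fun Φ ih => by
    by_cases hΦ : Φ = Set.univ
    · rw [hΦ]; exact H2 (hom _)
    obtain ⟨f, hf⟩ := (Set.ne_univ_iff_exists_notMem Φ).1 hΦ
    have hsum : ∀ l : B, ∑ k, (∑ l' with f l' = k, (mat q B f).adjugate l' ⟨l₀, h0⟩) * q k l =
        ((mat q B f).det • (1 : Matrix B B (MvPolynomial σ K))) l ⟨l₀, h0⟩ := by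
      intro l
      rw [← Matrix.mul_adjugate, Matrix.mul_apply, ← Finset.sum_fiberwise Finset.univ f]
      refine Finset.sum_congr rfl fun k _ => ?_
      rw [Finset.sum_mul]
      refine Finset.sum_congr rfl fun l' hl' => ?_
      rw [mul_comm, ← (Finset.mem_filter.1 hl').2]
      rfl
    have ih' := ih f hf
    rw [hB] at ih' ⊢
    refine psi_step nd ndΛ ht b hq (hom Φ) A l₀
      (fun k => ∑ l' with f l' = k, (mat q B f).adjugate l' ⟨l₀, h0⟩)
      (mat q B f).det _ (det_hom (hm f))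
      (fun k => IsWeightedHomogeneous.sum _ _ _ fun l' _ => adjugate_hom (hm f) l' ⟨l₀, h0⟩)
      ?_ ?_ hL (H1.mono ?_) (ih'.mono ?_)
    · rw [hsum ⟨l₀, h0⟩, Matrix.smul_apply, Matrix.one_apply_eq, smul_eq_mul, mul_one]
    · intro l hlA
      have hne : (⟨l, hA l hlA⟩ : B) ≠ ⟨l₀, h0⟩ := fun h => hl (by
        rw [← (Subtype.mk.inj h : l = l₀)]; exact hlA)
      rw [hsum ⟨l, hA l hlA⟩, Matrix.smul_apply, Matrix.one_apply_ne hne, smul_zero]
    · exact Set.union_subset_union_left _ (Set.image_mono Set.subset_union_left)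
    · refine Set.union_subset_union_left _ (Set.image_mono ?_)
      rintro p (hp | ⟨g, rfl | hg, rfl⟩)
      · exact Or.inr (Or.inl hp)
      · exact Or.inl rfl
      · exact Or.inr (Or.inr ⟨g, hg, rfl⟩)) ∅
  rwa [minors, Set.image_empty, Set.union_empty] at key

end HC

variable {K : Type u} [Field K] {F : Type u} [Field F] [Algebra K F]
variable {κ σ Λ E : Type} [Fintype κ] [Finite σ] [Fintype Λ] [Fintype E] [DecidableEq E]

theorem addGroup_core (nd : σ → E) (ndΛ : Λ → E) {t : κ → F} (ht : PTB K t) {b : Λ → ℕ}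
    (hb : ∀ l, 0 < b l) {q : κ → Λ → MvPolynomial σ K}
    (hq : ∀ k l, IsWeightedHomogeneous (dgs nd) (q k l) (b l • eps (ndΛ l)))
    {S : Set ((E → ℤ) × MvPolynomial σ K)} (hS : Homog (dgs nd) S) (PP : (E → ℤ) → ℤ)
    (hold : MG F F (dgs nd) ((fun p => (p.1, MvPolynomial.map (algebraMap K F) p.2)) '' S)
      (Lat PP))
    (hbpf : ∀ (L : Type u) [Field L] [IsAlgClosed L] (f : K →+* L) (ξ : σ → L),
      (∀ p ∈ S, eval₂ f ξ p.2 = 0) → (∀ e, ∃ v, nd v = e ∧ ξ v ≠ 0) →
      ∀ c : Λ → L, (∀ k, ∑ l, c l * eval₂ f ξ (q k l) = 0) → c = 0) :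
    MG F F (dgs (Sum.elim nd ndΛ)) (hSet ndΛ t b q S Set.univ)
      (Lat (act (∏ l, geo (eps (ndΛ l)) (b l)) PP)) := by
  classical
  have key : ∀ A : Finset Λ, MG F F (dgs (Sum.elim nd ndΛ)) (hSet ndΛ t b q S A)
      fun f => Lat (act (∏ l, geo (eps (ndΛ l)) (b l)) PP)
        (act (∏ l ∈ Aᶜ, (1 - mon (b l • eps (ndΛ l)))) f) := by
    intro A
    induction A using Finset.induction_on with
    | empty =>
      have h1 := MG.hs_prod (Z := F) (D := F) (dg := dgs (Sum.elim nd ndΛ))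
        (S := hSet ndΛ t b q S (∅ : Finset Λ)) (closed_Lat PP) Finset.univ
        (fun l => eps (ndΛ l)) (fun l => X (Sum.inr l))
        (fun l _ => isWeightedHomogeneous_X F (dgs (Sum.elim nd ndΛ)) (Sum.inr l))
        (hold.transport Sum.inl (AddEquiv.refl _) (fun _ => rfl)
          (by
            rintro (v | l)
            · exact Or.inl ⟨v, rfl⟩
            · exact Or.inr (Or.inr ⟨l, Finset.mem_coe.2 (Finset.mem_univ l), rfl⟩))
          (by
            rintro _ ⟨p, hp, rfl⟩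
            exact Or.inl (Or.inl ⟨p, hp, rfl⟩))
          fun f hf => hf)
      refine h1.imp fun f hf => ?_
      have h2 := hf.act_act (∏ l, geo (eps (ndΛ l)) (b l))
      rw [act_act, ← Finset.prod_mul_distrib] at h2
      rw [Finset.compl_empty, ← Finset.prod_congr rfl fun l _ =>
        (mul_comm _ _).trans (one_sub_mon_mul_geo (eps (ndΛ l)) (b l))]
      exact h2
    | insert l₀ A hl ih =>
      refine HC.step nd ndΛ ht b hq hS (Finset.mem_coe.not.2 hl) (Finset.coe_insert l₀ A)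
        ((closed_Lat _).comp_act _) (ih.imp fun f hf => ?_)
        fun hom => HC.base nd ndΛ t hb hq hom _ (HC.prod_rad nd ndΛ t b q hbpf _ _) _
      rw [act_act, Finset.compl_insert,
        Finset.prod_erase_mul _ _ (Finset.mem_compl.2 hl)]
      exact hf
  simpa using key Finset.univ

end Vale.Agent.EGH
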