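import Vale.Agent.EGH.CDefs
import Vale.Agent.EGH.NodeBasic

/-! Choice of leaves and of a base point free family of forms. -/

namespace Vale.Agent.EGH

open Module MvPolynomial Filter

universe u

namespace Lv

theorem eval₂_algHom {Z L σ τ : Type*} [CommRing Z] [CommRing L] (f : Z →+* L) (p : τ → L)
    (φ : MvPolynomial σ Z →ₐ[Z] MvPolynomial τ Z) (q : MvPolynomial σ Z) :
    eval₂ f p (φ q) = eval₂ f (fun v => eval₂ f p (φ (X v))) q := by
  have h : (eval₂Hom f p).comp φ.toRingHom = eval₂Hom f (fun v => eval₂ f p (φ (X v))) := by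
    refine MvPolynomial.ringHom_ext (fun z => ?_) fun v => ?_
    · simp [← MvPolynomial.algebraMap_eq]
    · simp
  exact congrArg (fun g : MvPolynomial σ Z →+* L => g q) h

theorem eval₂_zero_of_vars {Z L σ : Type*} [CommRing Z] [CommRing L] (f : Z →+* L) (p : σ → L)
    {q : MvPolynomial σ Z} (hq : q.IsHomogeneous 1) (h : ∀ v ∈ q.vars, p v = 0) :
    eval₂ f p q = 0 := by
  have h1 := eval₂Hom_eq_constantCoeff_of_vars f h
  rw [constantCoeff_eq, hq.coeff_eq_zero (by simp), map_zero] at h1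
  exact h1

theorem exists_finite_sub {Z M α : Type*} [Field Z] [AddCommGroup M] [Module Z M]
    (g : α → Set M) (P : Set α) {A : Set M} (hA : A.Finite)
    (h : ∀ x ∈ A, x ∈ Submodule.span Z (⋃ p ∈ P, g p)) :
    ∃ F ⊆ P, F.Finite ∧ ∀ x ∈ A, x ∈ Submodule.span Z (⋃ p ∈ F, g p) := by
  have h1 : ∀ x ∈ Submodule.span Z (⋃ p ∈ P, g p),
      ∃ F ⊆ P, F.Finite ∧ x ∈ Submodule.span Z (⋃ p ∈ F, g p) := by
    intro x hx
    induction hx using Submodule.span_induction with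
    | mem x hx =>
      obtain ⟨p, hp, hx⟩ := Set.mem_iUnion₂.1 hx
      exact ⟨{p}, by simpa using hp, Set.finite_singleton p,
        Submodule.subset_span (by simpa using hx)⟩
    | zero => exact ⟨∅, Set.empty_subset _, Set.finite_empty, zero_mem _⟩
    | add x y _ _ hx hy =>
      obtain ⟨F, h1, h2, h3⟩ := hx
      obtain ⟨F', h1', h2', h3'⟩ := hy
      exact ⟨F ∪ F', Set.union_subset h1 h1', h2.union h2', add_mem
        (Submodule.span_mono (Set.biUnion_subset_biUnion_left Set.subset_union_left) h3)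
        (Submodule.span_mono (Set.biUnion_subset_biUnion_left Set.subset_union_right) h3')⟩
    | smul a x _ hx =>
      obtain ⟨F, h1, h2, h3⟩ := hx
      exact ⟨F, h1, h2, Submodule.smul_mem _ a h3⟩
  choose F hF1 hF2 hF3 using fun x : A => h1 x (h x x.2)
  have := hA.to_subtype
  refine ⟨⋃ x, F x, Set.iUnion_subset hF1, Set.finite_iUnion hF2, fun x hx => ?_⟩
  exact Submodule.span_mono (Set.biUnion_subset_biUnion_left (Set.subset_iUnion F ⟨x, hx⟩))
    (hF3 ⟨x, hx⟩)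

theorem factor {Z M R L : Type*} [Field Z] [AddCommGroup M] [Module Z M] [AddCommGroup R]
    [Module Z R] [AddCommGroup L] [Module Z L] (S : M →ₗ[Z] R) (Q : Submodule Z R)
    (Φ : M →ₗ[Z] L) (h : ∀ x, S x ∈ Q → Φ x = 0) :
    ∃ lam : R →ₗ[Z] L, (∀ x, lam (S x) = Φ x) ∧ ∀ y ∈ Q, lam y = 0 := by
  set S' := Q.mkQ ∘ₗ S with hS'
  have hk : LinearMap.ker S' ≤ LinearMap.ker Φ := fun x hx =>
    h x ((Submodule.Quotient.mk_eq_zero Q).1 hx)
  obtain ⟨g, hg⟩ := LinearMap.exists_extend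
    (((LinearMap.ker S').liftQ Φ hk) ∘ₗ S'.quotKerEquivRange.symm.toLinearMap)
  refine ⟨g ∘ₗ Q.mkQ, fun x => ?_, fun y hy => ?_⟩
  · have h1 := LinearMap.congr_fun hg ⟨S' x, LinearMap.mem_range_self S' x⟩
    simp only [LinearMap.comp_apply, Submodule.subtype_apply, LinearEquiv.coe_coe] at h1
    rw [LinearMap.quotKerEquivRange_symm_apply_image] at h1
    exact h1
  · rw [LinearMap.comp_apply, Submodule.mkQ_apply, (Submodule.Quotient.mk_eq_zero Q).2 hy,
      map_zero]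

theorem aeval_mul_hom {Z L σ : Type*} [CommRing Z] [CommRing L] [Algebra Z L] (u : L) (ξ : σ → L)
    {q : MvPolynomial σ Z} {k : ℕ} (hq : q.IsHomogeneous k) :
    aeval (fun v => u * ξ v) q = u ^ k * aeval ξ q := by
  rw [q.as_sum, map_sum, map_sum, Finset.mul_sum]
  refine Finset.sum_congr rfl fun d hd => ?_
  have h1 : d.degree = k := by
    rw [Finsupp.degree_eq_weight_one]; exact hq (mem_support_iff.1 hd)
  rw [aeval_monomial, aeval_monomial, ← h1, Finsupp.degree_apply]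
  simp only [Finsupp.prod, mul_pow, Finset.prod_mul_distrib, Finset.prod_pow_eq_pow_sum]
  ring

theorem root_unity {Z L V : Type*} [Field Z] [Infinite Z] [Field L] [Algebra Z L] [Fintype V]
    (η ζ : V → L) {b : ℕ} (hb : 0 < b)
    (h : ∀ z : V → Z, (∑ v, z v • η v) ^ b = (∑ v, z v • ζ v) ^ b) :
    ∃ w : L, w ^ b = 1 ∧ ∀ v, η v = w * ζ v := by
  classical
  have hfin : Finite {w : L // w ^ b = 1} := by
    refine Set.Finite.to_subtype (s := {w : L | w ^ b = 1}) ?_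
    refine (Polynomial.nthRoots b (1 : L)).toFinset.finite_toSet.subset fun w hw => ?_
    simpa [Polynomial.mem_nthRoots hb] using hw
  obtain ⟨w, hw⟩ := Subspace.exists_eq_top_of_iUnion_eq_univ (k := Z) (E := V → Z)
    (p := fun w : {w : L // w ^ b = 1} =>
      LinearMap.ker (Fintype.linearCombination Z fun v => η v - w.1 * ζ v)) (by
      refine Set.eq_univ_of_forall fun z => Set.mem_iUnion.2 ?_
      have h1 := h z
      have h2 : ∃ w : L, w ^ b = 1 ∧ ∑ v, z v • η v = w * ∑ v, z v • ζ v := by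
        by_cases h0 : ∑ v, z v • ζ v = 0
        · rw [h0, zero_pow hb.ne', pow_eq_zero_iff hb.ne'] at h1
          exact ⟨1, one_pow _, by rw [h1, h0, mul_zero]⟩
        · exact ⟨(∑ v, z v • η v) / ∑ v, z v • ζ v,
            by rw [div_pow, h1, div_self (pow_ne_zero _ h0)], by rw [div_mul_cancel₀ _ h0]⟩
      obtain ⟨w, hw, h2⟩ := h2
      refine ⟨⟨w, hw⟩, ?_⟩
      simp only [SetLike.mem_coe, LinearMap.mem_ker, Fintype.linearCombination_apply, smul_sub,
        Finset.sum_sub_distrib, h2, Finset.mul_sum, mul_smul_comm, sub_self])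
  refine ⟨w.1, w.2, fun v => ?_⟩
  have h1 : (Pi.single v 1 : V → Z) ∈
      LinearMap.ker (Fintype.linearCombination Z fun v => η v - w.1 * ζ v) := by
    rw [hw]; trivial
  rw [LinearMap.mem_ker, Fintype.linearCombination_apply_single, one_smul, sub_eq_zero] at h1
  exact h1

theorem hankel {Z L σ : Type*} [Field Z] [Field L] [IsAlgClosed L] [Algebra Z L] [Fintype σ]
    (lam : MvPolynomial σ Z →ₗ[Z] L) {b : ℕ} (hb : 0 < b) {l : MvPolynomial σ Z}
    (h0 : lam (l ^ b) ≠ 0)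
    (h : ∀ m : MvPolynomial σ Z, m.IsHomogeneous 1 → ∀ j < b,
      lam (l ^ b) * lam (l ^ (b - (j + 1)) * m ^ (j + 1)) =
        lam (l ^ (b - 1) * m) * lam (l ^ (b - j) * m ^ j)) :
    ∃ p : σ → L, ∀ m : MvPolynomial σ Z, m.IsHomogeneous 1 → lam (m ^ b) = aeval p m ^ b := by
  obtain ⟨a0, ha0⟩ := IsAlgClosed.exists_pow_nat_eq (lam (l ^ b)) hb
  refine ⟨fun v => a0 * (lam (l ^ (b - 1) * X v) / lam (l ^ b)), fun m hm => ?_⟩
  have h1 : aeval (fun v => a0 * (lam (l ^ (b - 1) * X v) / lam (l ^ b))) m =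
      a0 * (lam (l ^ (b - 1) * m) / lam (l ^ b)) := by
    rw [eq_sum_of_isHomogeneous_one hm]
    simp only [map_sum, Finset.mul_sum, Finset.sum_div, ← smul_eq_C_mul, map_smul, aeval_X,
      mul_smul_comm, smul_div_assoc]
  have h2 : ∀ j ≤ b, lam (l ^ (b - j) * m ^ j) =
      lam (l ^ b) * (lam (l ^ (b - 1) * m) / lam (l ^ b)) ^ j := by
    intro j hj
    induction j with
    | zero => simp
    | succ j ih =>
      have h3 := h m hm j hj
      rw [ih (Nat.le_of_succ_le hj)] at h3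
      refine mul_left_cancel₀ h0 ?_
      rw [h3, pow_succ]; field_simp
  have h3 := h2 b le_rfl
  rw [Nat.sub_self, pow_zero, one_mul] at h3
  rw [h1, h3, mul_pow, ha0]

end Lv

variable {K : Type u} [Field K] {n : ℕ}

theorem Cfg.point_eq_zero (C : Cfg K n) {L : Type*} [Field L] (f : C.Z →+* L) (p : C.Wi → L)
    (hJ : ∀ x ∈ C.J, eval₂ f p x = 0) (hx : ∀ j, p (Sum.inl j) = 0) : p = 0 := by
  have h : ∀ (k : ℕ) (e : C.E), C.rk e = k → ∀ w, p (Sum.inr ⟨e, w⟩) = 0 := by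
    intro k
    induction k using Nat.strong_induction_on with
    | _ k ih =>
      intro e he w
      have h1 := (C.ok e).eq_zero_of_inp f (fun v => eval₂ f p (C.sub e (X v))) (fun i => by
        simp only [Cfg.sub, aeval_X, Sum.elim_inl]
        refine Lv.eval₂_zero_of_vars f p (C.inp_hom e i) ?_
        rintro (j | ⟨e', w'⟩) hv
        · exact hx j
        · exact ih _ (he ▸ C.inp_rk e i e' w' hv) e' rfl w') fun w => by
        rw [← Lv.eval₂_algHom]
        exact hJ _ (Ideal.subset_span ⟨⟨e, w⟩, rfl⟩)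
      simpa [Cfg.sub] using congrFun h1 (Sum.inr w)
  funext v
  rcases v with j | ⟨e, w⟩
  · exact hx j
  · exact h _ e rfl w

namespace Lv

theorem srcSub_X (C : Cfg K n) {Lf : Type} {lf : Lf → Fin 2 → C.R}
    (hlf : ∀ l i, (lf l i).IsHomogeneous 1) (s : C.E ⊕ Lf) (v : (C.srcN Lf s).Var) :
    (C.srcSub lf s (X v)).IsHomogeneous 1 := by
  rcases s with e | l
  · rcases v with i | w
    · have : C.srcSub lf (Sum.inl e) (X (Sum.inl i)) = C.inp e i := aeval_X _ _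
      rw [this]; exact C.inp_hom e i
    · have : C.srcSub lf (Sum.inl e) (X (Sum.inr w)) = X (Sum.inr ⟨e, w⟩) := aeval_X _ _
      rw [this]; exact isHomogeneous_X _ _
  · rcases v with i | w
    · have : C.srcSub lf (Sum.inr l) (X (Sum.inl i)) = lf l i := aeval_X _ _
      rw [this]; exact hlf l i
    · exact w.elim

theorem srcN_ok (C : Cfg K n) (Lf : Type) (s : C.E ⊕ Lf) : (C.srcN Lf s).OK := by
  rcases s with e | l
  · exact C.ok e
  · exact Node.free_ok

/-- The sum of the substitutions. -/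
noncomputable def Sg (C : Cfg K n) {Lf : Type} [Fintype Lf] (lf : Lf → Fin 2 → C.R) (b : ℕ) :
    (∀ s, homogeneousSubmodule (C.srcN Lf s).Var C.Z b) →ₗ[C.Z] C.R :=
  ∑ s, (C.srcSub lf s).toLinearMap ∘ₗ Submodule.subtype _ ∘ₗ LinearMap.proj s

theorem Sg_apply (C : Cfg K n) {Lf : Type} [Fintype Lf] (lf : Lf → Fin 2 → C.R) (b : ℕ)
    (τ : ∀ s, homogeneousSubmodule (C.srcN Lf s).Var C.Z b) :
    Sg C lf b τ = ∑ s, C.srcSub lf s (τ s) := by
  simp [Sg, LinearMap.sum_apply]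

theorem Sg_single (C : Cfg K n) {Lf : Type} [Fintype Lf] [DecidableEq Lf] (lf : Lf → Fin 2 → C.R)
    (b : ℕ) (s : C.E ⊕ Lf) (t : homogeneousSubmodule (C.srcN Lf s).Var C.Z b) :
    Sg C lf b (Pi.single s t) = C.srcSub lf s t := by
  rw [Sg_apply, Finset.sum_eq_single s]
  · rw [Pi.single_eq_same]
  · intro s' _ hs; rw [Pi.single_eq_of_ne hs]; simp
  · simp

/-- The tensors expressing the Hankel rank one condition. -/
noncomputable def hk {Z R : Type*} [Field Z] [CommRing R] [Algebra Z R] (b : ℕ) (p : R × R) :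
    Set (TensorProduct Z R R) :=
  {t | ∃ j < b, t = (p.1 ^ b) ⊗ₜ[Z] (p.1 ^ (b - (j + 1)) * p.2 ^ (j + 1)) -
    (p.1 ^ (b - 1) * p.2) ⊗ₜ[Z] (p.1 ^ (b - j) * p.2 ^ j)}

/-- The binary monomials. -/
def bm {R : Type*} [CommRing R] (b : ℕ) (p : R × R) : Set R :=
  {t | ∃ i ≤ b, t = p.1 ^ i * p.2 ^ (b - i)}

theorem hom_mon {Z σ : Type*} [CommRing Z] {l m : MvPolynomial σ Z} (hl : l.IsHomogeneous 1)
    (hm : m.IsHomogeneous 1) {i j b : ℕ} (h : i + j = b) : (l ^ i * m ^ j).IsHomogeneous b := by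
  have := (hl.pow i).mul (hm.pow j)
  rwa [one_mul, one_mul, h] at this

theorem srcSub_inr (C : Cfg K n) {Lf : Type} (lf : Lf → Fin 2 → C.R) (l : Lf) (i : Fin 2) :
    C.srcSub lf (Sum.inr l) (X (Sum.inl i)) = lf l i := aeval_X _ _

theorem hk_ker {Z R L : Type*} [Field Z] [CommRing R] [Algebra Z R] [CommRing L] [Algebra Z L]
    (lam : R →ₗ[Z] L) {b : ℕ} {l m : R} (c x y : L)
    (e : ∀ i i' : ℕ, i + i' = b → lam (l ^ i * m ^ i') = c * (x ^ i * y ^ i')) :
    hk (Z := Z) b (l, m) ⊆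
      (LinearMap.ker (LinearMap.mul' Z L ∘ₗ TensorProduct.map lam lam) : Set _) := by
  rintro _ ⟨j, hj, rfl⟩
  have e1 := e b 0 rfl
  have e2 := e (b - 1) 1 (by omega)
  rw [pow_zero, mul_one] at e1
  rw [pow_one] at e2
  simp only [SetLike.mem_coe, LinearMap.mem_ker, map_sub, LinearMap.comp_apply,
    TensorProduct.map_tmul, LinearMap.mul'_apply, e1, e2, e _ _ (show b - (j + 1) + (j + 1) = b by
      omega), e _ _ (show b - j + j = b by omega)]
  obtain ⟨d, rfl⟩ : ∃ d, b = j + 1 + d := ⟨b - (j + 1), by omega⟩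
  rw [show j + 1 + d - (j + 1) = d by omega, show j + 1 + d - 1 = j + d by omega,
    show j + 1 + d - j = d + 1 by omega]
  ring

theorem exists_pairs (C : Cfg K n) (b : ℕ) {A : Set C.R} (hA : A.Finite)
    (h : ∀ x ∈ A, x ∈ C.Bin b) :
    ∃ (r : ℕ) (lf : Fin r → Fin 2 → C.R), (∀ l i, (lf l i).IsHomogeneous 1) ∧
      (∀ x ∈ A, ∃ τ, Sg C lf b τ - x ∈ C.J) ∧
      ∀ l m : C.R, l.IsHomogeneous 1 → m.IsHomogeneous 1 →
        hk (Z := C.Z) b (l, m) ⊆
          (Submodule.span C.Z (⋃ k, hk (Z := C.Z) b (lf k 0, lf k 1)) : Set _) := by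
  classical
  set P : Set (C.R × C.R) := {p | p.1.IsHomogeneous 1 ∧ p.2.IsHomogeneous 1} with hP
  have h1 : ∀ x : A, ∃ y ∈ Submodule.span C.Z (⋃ p ∈ P, bm b p), y - x.1 ∈ C.J := by
    intro x
    obtain ⟨y, hy, z, hz, e⟩ := Submodule.mem_sup.1 (h x x.2)
    refine ⟨y, Submodule.span_mono ?_ hy, ?_⟩
    · rintro _ ⟨l, m, i, hl, hm, hi, rfl⟩
      exact Set.mem_iUnion₂.2 ⟨(l, m), ⟨hl, hm⟩, i, hi, rfl⟩
    · rw [← e, sub_add_cancel_left]; exact neg_mem hz
  choose y hy1 hy2 using h1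
  have := hA.to_subtype
  obtain ⟨F1, hF1, hF1f, hF1s⟩ := exists_finite_sub (Z := C.Z) (bm b) P (Set.finite_range y)
    (by rintro _ ⟨x, rfl⟩; exact hy1 x)
  have hfg : (Submodule.span C.Z (⋃ p ∈ P, hk (Z := C.Z) b p)).FG := by
    have h2 := (homogeneousSubmodule_fg C.Wi C.Z b).map₂ (TensorProduct.mk C.Z C.R C.R)
      (homogeneousSubmodule_fg C.Wi C.Z b)
    refine Submodule.FG.of_le h2 (Submodule.span_le.2 ?_)
    intro t ht
    obtain ⟨p, hp, j, hj, rfl⟩ := Set.mem_iUnion₂.1 ht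
    refine sub_mem (Submodule.apply_mem_map₂ _ ?_ ?_) (Submodule.apply_mem_map₂ _ ?_ ?_)
    · simpa using hp.1.pow b
    · exact hom_mon hp.1 hp.2 (by omega)
    · simpa using hom_mon hp.1 hp.2 (i := b - 1) (j := 1) (b := b) (by omega)
    · exact hom_mon hp.1 hp.2 (by omega)
  obtain ⟨G, hG⟩ := hfg
  obtain ⟨F2, hF2, hF2f, hF2s⟩ := exists_finite_sub (Z := C.Z) (hk (Z := C.Z) b) P G.finite_toSet
    fun x hx => hG ▸ Submodule.subset_span hx
  obtain ⟨r, g, -, hg⟩ := (hF1f.union hF2f).fin_param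
  have hgP : ∀ k, g k ∈ P := fun k => Set.union_subset hF1 hF2 (hg ▸ Set.mem_range_self k)
  refine ⟨r, fun k => ![(g k).1, (g k).2], fun k i => ?_, fun x hx => ?_, fun l m hl hm t ht => ?_⟩
  · fin_cases i
    · exact (hgP k).1
    · exact (hgP k).2
  · have h2 : Submodule.span C.Z (⋃ p ∈ F1, bm b p) ≤
        LinearMap.range (Sg C (fun k => ![(g k).1, (g k).2]) b) := by
      refine Submodule.span_le.2 fun t ht => ?_
      obtain ⟨p, hp, i, hi, rfl⟩ := Set.mem_iUnion₂.1 ht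
      obtain ⟨k, rfl⟩ : p ∈ Set.range g := hg ▸ Or.inl hp
      refine ⟨Pi.single (Sum.inr k) ⟨X (Sum.inl 0) ^ i * X (Sum.inl 1) ^ (b - i),
        hom_mon (isHomogeneous_X _ _) (isHomogeneous_X _ _) (by omega)⟩, ?_⟩
      rw [Sg_single]
      simp only [map_mul, map_pow]
      congr 2 <;> exact aeval_X _ _
    obtain ⟨τ, hτ⟩ := h2 (hF1s _ ⟨⟨x, hx⟩, rfl⟩)
    exact ⟨τ, hτ ▸ hy2 ⟨x, hx⟩⟩
  · have h2 : t ∈ Submodule.span C.Z (G : Set (TensorProduct C.Z C.R C.R)) :=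
      hG ▸ Submodule.subset_span (Set.mem_iUnion₂.2 ⟨(l, m), ⟨hl, hm⟩, ht⟩)
    refine Submodule.span_le.2 (fun x hx => Submodule.span_mono ?_ (hF2s x hx)) h2
    intro t ht
    obtain ⟨p, hp, ht⟩ := Set.mem_iUnion₂.1 ht
    obtain ⟨k, rfl⟩ : p ∈ Set.range g := hg ▸ Or.inr hp
    exact Set.mem_iUnion.2 ⟨k, ht⟩

theorem bpf_core (C : Cfg K n) {b : ℕ} (hb : 0 < b) {A : Set C.R} (hNB : C.NB A) {r : ℕ}
    {lf : Fin r → Fin 2 → C.R} (hlf : ∀ l i, (lf l i).IsHomogeneous 1)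
    (hA : ∀ x ∈ A, ∃ τ, Sg C lf b τ - x ∈ C.J)
    (hT : ∀ l m : C.R, l.IsHomogeneous 1 → m.IsHomogeneous 1 →
      hk (Z := C.Z) b (l, m) ⊆
        (Submodule.span C.Z (⋃ k, hk (Z := C.Z) b (lf k 0, lf k 1)) : Set _))
    {L : Type u} [Field L] [IsAlgClosed L] [Algebra C.Z L]
    (ξ : ∀ s, (C.srcN (Fin r) s).Var → L) (c : C.E ⊕ Fin r → L)
    (h1 : ∀ s, c s ≠ 0 → (∀ w, aeval (ξ s) ((C.srcN (Fin r) s).eqn w) = 0) ∧ ξ s ≠ 0)
    (h2 : ∀ τ, Sg C lf b τ ∈ Submodule.span C.Z A ⊔ C.J.restrictScalars C.Z →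
      ∑ s, c s * aeval (ξ s) (τ s).1 = 0) (s0 : C.E ⊕ Fin r) : c s0 = 0 := by
  classical
  by_contra hc
  let Φ : (∀ s, homogeneousSubmodule (C.srcN (Fin r) s).Var C.Z b) →ₗ[C.Z] L :=
    ∑ s, c s • ((aeval (ξ s)).toLinearMap ∘ₗ Submodule.subtype _ ∘ₗ LinearMap.proj s)
  have hΦ : ∀ τ, Φ τ = ∑ s, c s * aeval (ξ s) (τ s).1 := fun τ => by
    simp [Φ, LinearMap.sum_apply]
  obtain ⟨lam, hl1, hl2⟩ := factor (Sg C lf b) _ Φ fun τ hτ => by rw [hΦ]; exact h2 τ hτ
  have hl3 : ∀ s (t : MvPolynomial (C.srcN (Fin r) s).Var C.Z), t.IsHomogeneous b →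
      lam (C.srcSub lf s t) = c s * aeval (ξ s) t := by
    intro s t ht
    have := hl1 (Pi.single s ⟨t, ht⟩)
    rw [Sg_single, hΦ, Finset.sum_eq_single s, Pi.single_eq_same] at this
    · exact this
    · intro s' _ hs; rw [Pi.single_eq_of_ne hs]; simp
    · simp
  have hΛ : Submodule.span C.Z (⋃ k, hk (Z := C.Z) b (lf k 0, lf k 1)) ≤
      LinearMap.ker (LinearMap.mul' C.Z L ∘ₗ TensorProduct.map lam lam) := by
    refine Submodule.span_le.2 (Set.iUnion_subset fun k => hk_ker lam (c (Sum.inr k))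
      (ξ (Sum.inr k) (Sum.inl 0)) (ξ (Sum.inr k) (Sum.inl 1)) fun i i' hi => ?_)
    have := hl3 (Sum.inr k) (X (Sum.inl 0) ^ i * X (Sum.inl 1) ^ i')
      (hom_mon (isHomogeneous_X _ _) (isHomogeneous_X _ _) hi)
    rw [map_mul, map_pow, map_pow, srcSub_inr, srcSub_inr, map_mul (aeval _), map_pow (aeval _),
      map_pow (aeval _), aeval_X, aeval_X] at this
    exact this
  obtain ⟨v0, hv0⟩ := Function.ne_iff.1 (h1 s0 hc).2
  have hX : ∀ s (v : (C.srcN (Fin r) s).Var), ((X v : MvPolynomial _ C.Z) ^ b).IsHomogeneous b :=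
    fun s v => by simpa using (isHomogeneous_X C.Z v).pow b
  have h0 : lam (C.srcSub lf s0 (X v0) ^ b) ≠ 0 := by
    rw [← map_pow, hl3 s0 _ (hX s0 v0), map_pow, aeval_X]
    exact mul_ne_zero hc (pow_ne_zero _ hv0)
  obtain ⟨p, hp⟩ := hankel lam hb h0 fun m hm j hj => by
    have := hΛ (hT _ m (srcSub_X C hlf s0 v0) hm ⟨j, hj, rfl⟩)
    simpa only [LinearMap.mem_ker, map_sub, LinearMap.comp_apply, TensorProduct.map_tmul,
      LinearMap.mul'_apply, sub_eq_zero] using this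
  have key : ∀ s, ∃ w : L, w ^ b = c s ∧ ∀ (t : MvPolynomial (C.srcN (Fin r) s).Var C.Z) (k : ℕ),
      t.IsHomogeneous k → aeval p (C.srcSub lf s t) = w ^ k * aeval (ξ s) t := by
    intro s
    obtain ⟨c', hc'⟩ := IsAlgClosed.exists_pow_nat_eq (c s) hb
    obtain ⟨w, hw, hη⟩ := root_unity (Z := C.Z) (fun v => aeval p (C.srcSub lf s (X v)))
      (fun v => c' * ξ s v) hb fun z => by
        have hz : (∑ v, z v • X v : MvPolynomial (C.srcN (Fin r) s).Var C.Z).IsHomogeneous 1 :=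
          (homogeneousSubmodule _ C.Z 1).sum_mem fun v _ =>
            (homogeneousSubmodule _ C.Z 1).smul_mem _ (isHomogeneous_X _ _)
        have hz' : (C.srcSub lf s (∑ v, z v • X v)).IsHomogeneous 1 := by
          rw [map_sum]
          exact (homogeneousSubmodule _ C.Z 1).sum_mem fun v _ => by
            rw [map_smul]
            exact (homogeneousSubmodule _ C.Z 1).smul_mem _ (srcSub_X C hlf s v)
        have h3 := hp _ hz'
        rw [← map_pow, hl3 s _ (by simpa using hz.pow b), map_pow, ← hc', ← mul_pow] at h3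
        simp only [map_sum, map_smul, aeval_X, Finset.mul_sum, mul_smul_comm] at h3
        exact h3.symm
    refine ⟨w * c', by rw [mul_pow, hw, one_mul, hc'], fun t k ht => ?_⟩
    rw [← aeval_mul_hom _ _ ht, aeval_def, eval₂_algHom, aeval_def]
    congr 1
    funext v
    rw [mul_assoc]; exact hη v
  choose w hw hw' using key
  have hJ : ∀ x ∈ C.J, aeval p x = 0 := by
    intro x hx
    refine (Ideal.span_le.2 ?_ : C.J ≤ RingHom.ker (aeval p : C.R →ₐ[C.Z] L)) hx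
    rintro _ ⟨⟨e, o⟩, rfl⟩
    have h3 := hw' (Sum.inl e) _ _ ((C.ok e).eqn_hom o)
    refine h3.trans ?_
    by_cases h4 : c (Sum.inl e) = 0
    · have h5 : w (Sum.inl e) = 0 := pow_eq_zero_iff hb.ne' |>.1 ((hw _).trans h4)
      rw [h5, zero_pow ((C.ok e).pos o).ne', zero_mul]
    · exact mul_eq_zero_of_right _ ((h1 _ h4).1 o)
  have hA' : ∀ x ∈ A, aeval p x = 0 := by
    intro x hx
    obtain ⟨τ, hτ⟩ := hA x hx
    have h3 := hJ _ hτ
    have h4 := h2 τ (by
      rw [← sub_add_cancel (Sg C lf b τ) x, add_comm]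
      exact Submodule.add_mem_sup (Submodule.subset_span hx) hτ)
    rw [map_sub, Sg_apply, map_sum, Finset.sum_congr rfl fun s _ => hw' s _ b (τ s).2] at h3
    simp only [hw, h4, zero_sub, neg_eq_zero] at h3
    exact h3
  have hp0 := C.point_eq_zero (algebraMap C.Z L) p hJ (hNB L (algebraMap C.Z L) p hJ hA')
  apply h0
  rw [hp _ (srcSub_X C hlf s0 v0), aeval_def,
    eval₂_zero_of_vars _ _ (srcSub_X C hlf s0 v0) fun v _ => by rw [hp0]; rfl, zero_pow hb.ne']

end Lv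

theorem exists_leaves (C : Cfg K n) {b : ℕ} (hb : 0 < b) {A : Type} [Fintype A] (a : A → C.R)
    (μ : C.R) (ha : ∀ i, a i ∈ C.Bin b) (hμ : μ ∈ C.Bin b)
    (hNB : C.NB (insert μ (Set.range a))) :
    ∃ (r : ℕ) (lf : Fin r → Fin 2 → C.R) (κ : Type) (_ : Fintype κ)
      (τ : κ → ∀ s, MvPolynomial (C.srcN (Fin r) s).Var C.Z) (cμ : κ → C.Z) (ca : κ → A → C.Z),
      (∀ l i, (lf l i).IsHomogeneous 1) ∧ (∀ k s, (τ k s).IsHomogeneous b) ∧
      (∃ k, cμ k ≠ 0) ∧
      (∀ k, ∑ s, C.srcSub lf s (τ k s) - cμ k • μ - ∑ i, ca k i • a i ∈ C.J) ∧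
      BPF (C.srcN (Fin r)) (fun _ => Unit) fun s k _ => τ k s := by
  obtain ⟨r, lf, hlf, hA, hT⟩ := Lv.exists_pairs C b ((Set.finite_range a).insert μ) (by
    rintro x (rfl | ⟨i, rfl⟩)
    · exact hμ
    · exact ha i)
  set Q := Submodule.span C.Z (insert μ (Set.range a)) ⊔ C.J.restrictScalars C.Z with hQ
  have hfd : ∀ s, Module.Finite C.Z (homogeneousSubmodule (C.srcN (Fin r) s).Var C.Z b) :=
    fun s => Module.Finite.iff_fg.2 (homogeneousSubmodule_fg _ _ b)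
  obtain ⟨d, t, ht⟩ := Submodule.fg_iff_exists_fin_generating_family.1
    (IsNoetherian.noetherian (Q.comap (Lv.Sg C lf b)))
  have h1 : ∀ k, ∃ (cμ : C.Z) (ca : A → C.Z),
      Lv.Sg C lf b (t k) - cμ • μ - ∑ i, ca i • a i ∈ C.J := by
    intro k
    have h2 : t k ∈ Q.comap (Lv.Sg C lf b) := ht ▸ Submodule.subset_span ⟨k, rfl⟩
    obtain ⟨y, hy, z, hz, e⟩ := Submodule.mem_sup.1 h2
    obtain ⟨cμ, y', hy', rfl⟩ := Submodule.mem_span_insert.1 hy
    obtain ⟨ca, rfl⟩ := (Submodule.mem_span_range_iff_exists_fun _).1 hy'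
    refine ⟨cμ, ca, ?_⟩
    rw [← e, sub_sub, add_sub_cancel_left]; exact hz
  choose cμ ca hc using h1
  obtain ⟨t0, ht0⟩ := hA μ (Set.mem_insert _ _)
  refine ⟨r, lf, Option (Fin d), inferInstance, fun k s => (k.elim t0 t s).1,
    fun k => k.elim 1 cμ, fun k => k.elim 0 ca, hlf, fun k s => (k.elim t0 t s).2,
    ⟨none, one_ne_zero⟩, fun k => ?_, fun L _ _ f ξ c h1 h2 s _ => ?_⟩
  · rw [← Lv.Sg_apply]
    rcases k with _ | k
    · simpa using ht0
    · exact hc k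
  · let _ := f.toAlgebra
    refine Lv.bpf_core C hb hNB hlf hA hT ξ (fun s => c s ()) (fun s hs => h1 s () hs)
      (fun τ hτ => ?_) s
    have h3 : τ ∈ Submodule.span C.Z (Set.range t) := ht ▸ hτ
    clear hτ
    induction h3 using Submodule.span_induction with
    | mem x hx =>
      obtain ⟨k, rfl⟩ := hx
      simpa [aeval_def, RingHom.algebraMap_toAlgebra] using h2 (some k)
    | zero => simp
    | add x y _ _ hx hy =>
      simp only [Pi.add_apply, Submodule.coe_add, map_add, mul_add, Finset.sum_add_distrib, hx, hy,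
        add_zero]
    | smul z x _ hx =>
      simp only [Pi.smul_apply, Submodule.coe_smul, map_smul, mul_smul_comm, ← Finset.smul_sum, hx,
        smul_zero]

end Vale.Agent.EGH
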