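import Vale.Agent.EGH.Glue

/-! The node system used in the construction of the next configuration. -/

namespace Vale.Agent.EGH.Lv

open MvPolynomial

universe u

variable {Z : Type u} [Field Z]

/-- One new output on each of the nodes `ι s`. -/
theorem stage {E S : Type} [Fintype E] [Fintype S] {N : E → Node Z} (hok : ∀ e, (N e).OK)
    (h : AllHyp N) (ι : S → E) {b : ℕ} (hb : 0 < b) {κ : Type} [Fintype κ]
    {q : κ → ∀ s, MvPolynomial (N (ι s)).Var Z} (hq : ∀ k s, (q k s).IsHomogeneous b)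
    (hbpf : BPF (fun s => N (ι s)) (fun _ => Unit) fun s k _ => q k s) :
    ∃ (F : Type u) (_ : Field F) (_ : Algebra Z F) (t : κ → F) (N' : E → Node F)
      (j : ∀ e, (N e).W → (N' e).W) (o : ∀ s, (N' (ι s)).W),
      AlgebraicIndependent Z t ∧ (∀ e, (N' e).OK) ∧ AllHyp N' ∧
      (∀ e w, (N' e).eqn (j e w) =
        rename (Sum.map id (j e)) (MvPolynomial.map (algebraMap Z F) ((N e).eqn w))) ∧
      ∀ s, (N' (ι s)).eqn (o s) = X (Sum.inr (o s)) ^ b - ∑ k, C (t k) *
        rename (Sum.map id (j (ι s))) (MvPolynomial.map (algebraMap Z F) (q k s)) := by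
  classical
  obtain ⟨F, _, _, t, ht⟩ := exists_PTB Z κ
  let q' : ∀ e, κ → {s // ι s = e} → MvPolynomial (N e).Var Z := fun e k l => l.2 ▸ q k l.1
  have hq' : ∀ e k l, (q' e k l).IsHomogeneous b := by
    rintro e k ⟨s, rfl⟩
    exact hq k s
  have hb' : BPF N (fun e => {s // ι s = e}) q' := by
    rintro L _ _ f ξ c h1 h2 e ⟨s, rfl⟩
    refine hbpf L f (fun s => ξ (ι s)) (fun s _ => c (ι s) ⟨s, rfl⟩) (fun s _ => h1 _ _)
      (fun k => ?_) s ()
    rw [← h2 k, ← Fintype.sum_sigma' fun e l => c e l * eval₂ f (ξ e) (q' e k l),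
      ← (Equiv.sigmaFiberEquiv ι).symm.sum_comp]
    exact Finset.sum_congr rfl fun s _ => Fintype.sum_unique _
  exact ⟨F, _, _, t, fun e => (N e).ext (algebraMap Z F) t {s // ι s = e} (fun _ => b) (q' e),
    fun e => Sum.inl, fun s => Sum.inr ⟨s, rfl⟩, ht.ind,
    fun e => (hok e).ext _ _ (fun _ => hb) (hq' e),
    h.addGroup ht hok _ (fun _ _ => hb) hq' hb', fun e w => Node.ext_eqn_inl _ _ _ _ _ _ w,
    fun s => rfl⟩

theorem bpf_chain (M : ℕ) {b : ℕ} (hb : 0 < b) :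
    BPF (fun _ : Fin M => Node.free Z) (fun _ => Unit) fun i (k : Fin M × Fin 2) _ =>
      if i = k.1 then X (Sum.inl k.2) ^ b else 0 := by
  intro L _ _ f ξ c h1 h2 i l
  by_contra hc
  refine (h1 i l hc).2 (funext ?_)
  rintro (a | a)
  · have := h2 (i, a)
    rw [Finset.sum_eq_single i (fun j _ hj => by simp [hj]) (by simp), Fintype.sum_unique] at this
    simp only [if_true, eval₂_pow, eval₂_X, mul_eq_zero, pow_eq_zero_iff hb.ne'] at this
    exact this.resolve_left hc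
  · exact a.elim

theorem bpf_tr {S : Type} [Fintype S] {N : S → Node Z} {κ : Type}
    {τ : κ → ∀ s, MvPolynomial (N s).Var Z} (hbpf : BPF N (fun _ => Unit) fun s k _ => τ k s)
    {F : Type u} [Field F] (φ : Z →+* F) {N' : S → Node F} (hok : ∀ s, (N' s).OK)
    (j : ∀ s, (N s).W → (N' s).W) (hj : ∀ s w, (N' s).eqn (j s w) =
      rename (Sum.map id (j s)) (MvPolynomial.map φ ((N s).eqn w))) {u : S → F}
    (hu : ∀ s, u s ≠ 0) : BPF N' (fun _ => Unit) fun s k _ =>
      C (u s) * rename (Sum.map id (j s)) (MvPolynomial.map φ (τ k s)) := by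
  intro L _ _ f ξ c h1 h2 s l
  have := hbpf L (f.comp φ) (fun s => ξ s ∘ Sum.map id (j s)) (fun s l => c s l * f (u s))
    (fun s l hc => ?_) (fun k => ?_) s l
  · exact (mul_eq_zero.1 this).resolve_right ((map_ne_zero f).2 (hu s))
  · obtain ⟨h3, h4⟩ := h1 s l (left_ne_zero_of_mul hc)
    refine ⟨fun w => ?_, fun h0 => h4 ((hok s).eq_zero_of_inp f _
      (fun i => congrFun h0 (Sum.inl i)) h3)⟩
    rw [← h3 (j s w), hj, eval₂_rename, eval₂_map]
  · rw [← h2 k]
    refine Finset.sum_congr rfl fun s _ => Finset.sum_congr rfl fun l _ => ?_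
    rw [eval₂_mul, eval₂_C, eval₂_rename, eval₂_map, mul_assoc]

theorem chain_sum {F : Type u} [Field F] (φ : Z →+* F) {W W' : Type} (j : W → W') {M : ℕ}
    (σ : Fin M × Fin 2 → F) (b : ℕ) (i : Fin M) :
    ∑ k, C (σ k) * rename (Sum.map id j) (MvPolynomial.map φ
      (if i = k.1 then X (Sum.inl k.2) ^ b else (0 : MvPolynomial (Fin 2 ⊕ W) Z))) =
      C (σ (i, 0)) * X (Sum.inl 0) ^ b + C (σ (i, 1)) * X (Sum.inl 1) ^ b := by
  rw [Fintype.sum_prod_type, Finset.sum_eq_single i (fun j _ hj => by simp [hj.symm])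
    (by simp), Fin.sum_univ_two]
  simp

/-- New nodes with equations `v ^ b = σ₀ * x ^ b + σ₁ * y ^ b`. -/
theorem stageA {S : Type} [Fintype S] {N : S → Node Z} (hok : ∀ s, (N s).OK) (h : AllHyp N)
    {b : ℕ} (hb : 0 < b) (M : ℕ) :
    ∃ (F : Type u) (_ : Field F) (φ : Z →+* F) (σ : Fin M × Fin 2 → F)
      (N' : S ⊕ Fin M → Node F) (j : ∀ s, (N s).W → (N' (Sum.inl s)).W)
      (v : ∀ i, (N' (Sum.inr i)).W), (∀ x, σ x ≠ 0) ∧ (∀ e, (N' e).OK) ∧ AllHyp N' ∧
      (∀ s w, (N' (Sum.inl s)).eqn (j s w) =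
        rename (Sum.map id (j s)) (MvPolynomial.map φ ((N s).eqn w))) ∧
      ∀ i, (N' (Sum.inr i)).eqn (v i) = X (Sum.inr (v i)) ^ b -
        (C (σ (i, 0)) * X (Sum.inl 0) ^ b + C (σ (i, 1)) * X (Sum.inl 1) ^ b) := by
  classical
  obtain ⟨F, _, _, σ, N', j, v, hσ, ok, h', ej, ev⟩ :=
    stage (N := Sum.elim N fun _ : Fin M => Node.free Z)
      (fun e => by cases e; exacts [hok _, Node.free_ok]) (h.addFree (Fin M)) Sum.inr hb
      (q := fun (k : Fin M × Fin 2) i => if i = k.1 then X (Sum.inl k.2) ^ b else 0)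
      (fun k i => by
        split_ifs
        exacts [isHomogeneous_X_pow _ _, isHomogeneous_zero _ _ _]) (bpf_chain M hb)
  exact ⟨F, _, algebraMap Z F, σ, N', fun s => j (Sum.inl s), v, hσ.ne_zero, ok, h',
    fun s => ej (Sum.inl s), fun i => (ev i).trans (congrArg _ (chain_sum _ _ σ b i))⟩

/-- The sources get one new output each, and a chain of summation nodes is added. -/
theorem nodes {S : Type} [Fintype S] {N : S → Node Z} (hok : ∀ s, (N s).OK) (h : AllHyp N)
    {b : ℕ} (hb : 0 < b) {κ : Type} [Fintype κ] {τ : κ → ∀ s, MvPolynomial (N s).Var Z}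
    (hτ : ∀ k s, (τ k s).IsHomogeneous b) (hbpf : BPF N (fun _ => Unit) fun s k _ => τ k s)
    {M : ℕ} (eqv : Fin M ≃ S) :
    ∃ (F : Type u) (_ : Field F) (φ : Z →+* F) (t : κ → F) (N' : S ⊕ Fin M → Node F)
      (j : ∀ s, (N s).W → (N' (Sum.inl s)).W) (o : ∀ s, (N' (Sum.inl s)).W)
      (v : ∀ i, (N' (Sum.inr i)).W) (g : ℕ → F) (γ : S → F),
      (∀ e, (N' e).OK) ∧ AllHyp N' ∧ (∀ c : κ → Z, ∑ k, t k * φ (c k) = 0 → ∀ k, c k = 0) ∧
      g M = 1 ∧
      (∀ s w, (N' (Sum.inl s)).eqn (j s w) =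
        rename (Sum.map id (j s)) (MvPolynomial.map φ ((N s).eqn w))) ∧
      (∀ s, C (γ s) * (N' (Sum.inl s)).eqn (o s) = C (γ s) * X (Sum.inr (o s)) ^ b -
        ∑ k, C (t k) * rename (Sum.map id (j s)) (MvPolynomial.map φ (τ k s))) ∧
      ∀ i : Fin M, C (g (i + 1)) * (N' (Sum.inr i)).eqn (v i) =
        C (g (i + 1)) * X (Sum.inr (v i)) ^ b - C (g i) * X (Sum.inl 0) ^ b -
          C (γ (eqv i)) * X (Sum.inl 1) ^ b := by
  classical
  obtain ⟨FA, _, φ, σ, NA, jA, vA, hσ, okA, hA, ejA, evA⟩ := stageA hok h hb M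
  let g : ℕ → FA := fun m => ∏ l ∈ Finset.univ.filter fun l : Fin M => m ≤ l.1, σ (l, 0)
  have hg : ∀ i : Fin M, g i = σ (i, 0) * g (i + 1) := fun i => by
    rw [← Finset.prod_insert (f := fun l => σ (l, 0)) (by simp)]
    refine Finset.prod_congr (Finset.ext fun l => ?_) fun _ _ => rfl
    simp only [Finset.mem_filter, Finset.mem_univ, true_and, Finset.mem_insert, Fin.ext_iff]
    omega
  let γ : S → FA := fun s => σ (eqv.symm s, 1) * g (eqv.symm s + 1)
  have hγ : ∀ s, γ s ≠ 0 := fun s =>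
    mul_ne_zero (hσ _) (Finset.prod_ne_zero_iff.2 fun _ _ => hσ _)
  obtain ⟨F, _, _, t, N', jB, o, ht, ok, h', ej, eo⟩ := stage okA hA Sum.inl hb
    (q := fun k s => C (γ s)⁻¹ * rename (Sum.map id (jA s)) (MvPolynomial.map φ (τ k s)))
    (fun k s => (((hτ k s).map _).rename_isHomogeneous).C_mul _)
    (bpf_tr hbpf φ (fun s => okA _) jA ejA fun s => inv_ne_zero (hγ s))
  refine ⟨F, _, (algebraMap FA F).comp φ, t, N',
    fun s w => jB _ (jA s w), o, fun i => jB _ (vA i), fun m => algebraMap FA F (g m),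
    fun s => algebraMap FA F (γ s), ok, h', fun c hc k => ?_, ?_, fun s w => ?_, fun s => ?_,
    fun i => ?_⟩
  · refine (map_eq_zero φ).1
      (Fintype.linearIndependent_iff.1 ht.linearIndependent (fun k => φ (c k)) ?_ k)
    rw [← hc]
    exact Finset.sum_congr rfl fun k _ => by rw [Algebra.smul_def, mul_comm]; rfl
  · refine (congrArg _ (Finset.prod_eq_one fun l hl => ?_)).trans (map_one _)
    have := (Finset.mem_filter.1 hl).2
    omega
  · rw [ej, ejA, map_rename, rename_rename, map_map, Sum.map_comp_map]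
    rfl
  · rw [eo, mul_sub, Finset.mul_sum]
    refine congrArg _ (Finset.sum_congr rfl fun k _ => ?_)
    rw [map_mul, map_mul, map_C, rename_C, map_rename, rename_rename, map_map, Sum.map_comp_map,
      mul_left_comm, ← mul_assoc (C _) (C _) (rename _ _), ← C_mul, ← map_mul,
      mul_inv_cancel₀ (hγ s), map_one, C_1, one_mul]
    rfl
  · beta_reduce
    rw [ej, evA, hg i]
    simp only [γ, Equiv.symm_apply_apply, map_sub, map_add, map_mul, map_pow, map_X,
      rename_X, map_C, rename_C, Sum.map_inl, Sum.map_inr, id]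
    ring

end Vale.Agent.EGH.Lv
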