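import Vale.Agent.EGH.Leaves
import Vale.Agent.EGH.Glue
import Vale.Agent.EGH.LevelAux

/-! One new linear form whose power is a generic member of a linear system. -/

namespace Vale.Agent.EGH

open Module MvPolynomial Filter

universe u

variable {K : Type u} [Field K] {n : ℕ}

namespace Lv

variable (C : Cfg K n) {r M : ℕ} (lf : Fin r → Fin 2 → C.R) (eqv : Fin M ≃ C.E ⊕ Fin r)
  {F : Type u} [Field F] (φ : C.Z →+* F) {N' : (C.E ⊕ Fin r) ⊕ Fin M → Node F}
  (j : ∀ s, (C.srcN (Fin r) s).W → (N' (Sum.inl s)).W) (o : ∀ s, (N' (Sum.inl s)).W)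
  (v : ∀ i, (N' (Sum.inr i)).W)

/-- The map of wires. -/
def psi : C.Wi → Fin n ⊕ Σ e, (N' e).W :=
  Sum.map id fun x => ⟨Sum.inl (Sum.inl x.1), j (Sum.inl x.1) x.2⟩

/-- The map of polynomial rings. -/
noncomputable def tr : C.R →+* MvPolynomial (Fin n ⊕ Σ e, (N' e).W) F :=
  (rename (psi C j) : _ →ₐ[F] _).toRingHom.comp (MvPolynomial.map φ)

theorem tr_apply (p : C.R) : tr C φ j p = rename (psi C j) (MvPolynomial.map φ p) := rfl

theorem tr_C (z : C.Z) : tr C φ j (MvPolynomial.C z) = MvPolynomial.C (φ z) := by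
  rw [tr_apply, map_C, rename_C]

/-- The sums along the chain. -/
noncomputable def prev : ℕ → MvPolynomial (Fin n ⊕ Σ e, (N' e).W) F
  | 0 => 0
  | m + 1 => if h : m < M then X (Sum.inr ⟨Sum.inr ⟨m, h⟩, v ⟨m, h⟩⟩) else 0

/-- The inputs of the new system. -/
noncomputable def inp :
    (C.E ⊕ Fin r) ⊕ Fin M → Fin 2 → MvPolynomial (Fin n ⊕ Σ e, (N' e).W) F :=
  Sum.elim (fun s i => tr C φ j (Sum.elim C.inp lf s i))
    fun i => ![prev C v i, X (Sum.inr ⟨Sum.inl (eqv i), o (eqv i)⟩)]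

/-- The heights of the new system. -/
def rk : (C.E ⊕ Fin r) ⊕ Fin M → ℕ :=
  Sum.elim (Sum.elim C.rk fun _ => Finset.univ.sup C.rk + 1) fun i => Finset.univ.sup C.rk + 2 + i

theorem prev_hom : ∀ m, (prev C v m).IsHomogeneous 1
  | 0 => isHomogeneous_zero _ _ _
  | m + 1 => by
    rw [prev]
    split_ifs
    exacts [isHomogeneous_X _ _, isHomogeneous_zero _ _ _]

theorem inp_hom (hlf : ∀ l i, (lf l i).IsHomogeneous 1) (e : (C.E ⊕ Fin r) ⊕ Fin M) (k : Fin 2) :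
    (inp C lf eqv φ j o v e k).IsHomogeneous 1 := by
  rcases e with (e | l) | i
  · exact ((C.inp_hom e k).map φ).rename_isHomogeneous
  · exact ((hlf l k).map φ).rename_isHomogeneous
  · fin_cases k
    exacts [prev_hom C v _, isHomogeneous_X _ _]

theorem vars_tr {p : C.R} {e' : (C.E ⊕ Fin r) ⊕ Fin M} {w : (N' e').W}
    (h : Sum.inr ⟨e', w⟩ ∈ (tr C φ j p).vars) :
    ∃ e w, e' = Sum.inl (Sum.inl e) ∧ Sum.inr ⟨e, w⟩ ∈ p.vars := by
  obtain ⟨x | ⟨e, w'⟩, hx, e1⟩ := mem_vars_rename _ _ h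
  · cases e1
  · exact ⟨e, w', (congrArg Sigma.fst (Sum.inr.inj e1)).symm, vars_map _ _ hx⟩

theorem inp_rk (e : (C.E ⊕ Fin r) ⊕ Fin M) (k : Fin 2) (e' : (C.E ⊕ Fin r) ⊕ Fin M)
    (w : (N' e').W) (h : Sum.inr ⟨e', w⟩ ∈ (inp C lf eqv φ j o v e k).vars) :
    rk C e' < rk C e := by
  have hR : ∀ e, C.rk e ≤ Finset.univ.sup C.rk := fun e => Finset.le_sup (Finset.mem_univ e)
  rcases e with (e | l) | ⟨i, hi⟩
  · obtain ⟨e₀, w₀, rfl, h₀⟩ := vars_tr C φ j h
    exact C.inp_rk e k e₀ w₀ h₀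
  · obtain ⟨e₀, w₀, rfl, -⟩ := vars_tr C φ j h
    exact Nat.lt_succ_of_le (hR e₀)
  · fin_cases k
    · have h' : Sum.inr ⟨e', w⟩ ∈ (prev C v i).vars := h
      rcases i with _ | i
      · simp [prev] at h'
      · rw [prev, dif_pos (Nat.lt_of_succ_lt hi), vars_X, Finset.mem_singleton] at h'
        obtain rfl := congrArg Sigma.fst (Sum.inr.inj h')
        exact Nat.lt_succ_self _
    · have h' : Sum.inr ⟨e', w⟩ ∈ (X (Sum.inr ⟨Sum.inl (eqv ⟨i, hi⟩), o (eqv ⟨i, hi⟩)⟩) :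
        MvPolynomial (Fin n ⊕ Σ e, (N' e).W) F).vars := h
      rw [vars_X, Finset.mem_singleton] at h'
      obtain rfl := congrArg Sigma.fst (Sum.inr.inj h')
      dsimp only
      generalize eqv ⟨i, hi⟩ = s
      rcases s with e | l <;> simp only [rk, Sum.elim_inl, Sum.elim_inr]
      · have := hR e
        omega
      · omega

/-- Substitution in the new system. -/
noncomputable def sub (e : (C.E ⊕ Fin r) ⊕ Fin M) :
    MvPolynomial (N' e).Var F →ₐ[F] MvPolynomial (Fin n ⊕ Σ e, (N' e).W) F :=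
  aeval (Sum.elim (inp C lf eqv φ j o v e) fun w => X (Sum.inr ⟨e, w⟩))

theorem sub_C (e : (C.E ⊕ Fin r) ⊕ Fin M) (z : F) :
    sub C lf eqv φ j o v e (MvPolynomial.C z) = MvPolynomial.C z := algHom_C _ z

theorem sub_X (e : (C.E ⊕ Fin r) ⊕ Fin M) (x : (N' e).Var) : sub C lf eqv φ j o v e (X x) =
    Sum.elim (inp C lf eqv φ j o v e) (fun w => X (Sum.inr ⟨e, w⟩)) x := aeval_X _ x

theorem nat (s : C.E ⊕ Fin r) (p : MvPolynomial (C.srcN (Fin r) s).Var C.Z) :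
    sub C lf eqv φ j o v (Sum.inl s) (rename (Sum.map id (j s)) (MvPolynomial.map φ p)) =
      tr C φ j (C.srcSub lf s p) := by
  induction p using MvPolynomial.induction_on with
  | C z => rw [map_C, rename_C, sub_C, algHom_C, algebraMap_eq, tr_C]
  | add p q hp hq => simp only [map_add, hp, hq]
  | mul_X p x hp =>
    simp only [map_mul, hp]
    refine congrArg _ ?_
    rw [map_X, rename_X, sub_X]
    rcases s with e | l <;> rcases x with i | w
    · have : C.srcSub lf (Sum.inl e) (X (Sum.inl i)) = C.inp e i := aeval_X _ _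
      rw [this]
      rfl
    · have : C.srcSub lf (Sum.inl e) (X (Sum.inr w)) = X (Sum.inr ⟨e, w⟩) := aeval_X _ _
      rw [this, tr_apply, map_X, rename_X]
      rfl
    · have : C.srcSub lf (Sum.inr l) (X (Sum.inl i)) = lf l i := aeval_X _ _
      rw [this]
      rfl
    · exact w.elim

variable {J : Ideal (MvPolynomial (Fin n ⊕ Σ e, (N' e).W) F)}

theorem mapJ (hmem : ∀ e w, sub C lf eqv φ j o v e ((N' e).eqn w) ∈ J)
    (ej : ∀ s w, (N' (Sum.inl s)).eqn (j s w) =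
      rename (Sum.map id (j s)) (MvPolynomial.map φ ((C.srcN (Fin r) s).eqn w))) :
    ∀ p ∈ C.J, tr C φ j p ∈ J := fun p hp => by
  refine (Ideal.span_le (I := J.comap (tr C φ j))).2 ?_ hp
  rintro _ ⟨⟨e, w⟩, rfl⟩
  have := hmem (Sum.inl (Sum.inl e)) (j (Sum.inl e) w)
  rw [ej (Sum.inl e) w, nat] at this
  exact this

theorem chain (hmem : ∀ e w, sub C lf eqv φ j o v e ((N' e).eqn w) ∈ J) {b : ℕ} (hb : 0 < b)
    {κ : Type} [Fintype κ] {τ : κ → ∀ s, MvPolynomial (C.srcN (Fin r) s).Var C.Z} {t : κ → F}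
    {g : ℕ → F} {γ : C.E ⊕ Fin r → F} (hg : g M = 1)
    (eo : ∀ s, MvPolynomial.C (γ s) * (N' (Sum.inl s)).eqn (o s) =
      MvPolynomial.C (γ s) * X (Sum.inr (o s)) ^ b - ∑ k, MvPolynomial.C (t k) *
        rename (Sum.map id (j s)) (MvPolynomial.map φ (τ k s)))
    (ev : ∀ i : Fin M, MvPolynomial.C (g (i + 1)) * (N' (Sum.inr i)).eqn (v i) =
      MvPolynomial.C (g (i + 1)) * X (Sum.inr (v i)) ^ b -
        MvPolynomial.C (g i) * X (Sum.inl 0) ^ b -
          MvPolynomial.C (γ (eqv i)) * X (Sum.inl 1) ^ b) :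
    prev C v M ^ b - ∑ k, MvPolynomial.C (t k) * tr C φ j (∑ s, C.srcSub lf s (τ k s)) ∈ J := by
  let oo : C.E ⊕ Fin r → MvPolynomial (Fin n ⊕ Σ e, (N' e).W) F := fun s =>
    MvPolynomial.C (γ s) * X (Sum.inr ⟨Sum.inl s, o s⟩) ^ b
  let pp : ℕ → MvPolynomial (Fin n ⊕ Σ e, (N' e).W) F := fun i =>
    MvPolynomial.C (g i) * prev C v i ^ b
  have h1 : ∀ i : Fin M, pp (i + 1) - pp i - oo (eqv i) ∈ J := fun i => by
    have := J.mul_mem_left (MvPolynomial.C (g (i + 1))) (hmem (Sum.inr i) (v i))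
    rw [← sub_C C lf eqv φ j o v (Sum.inr i), ← map_mul, ev] at this
    simp only [map_sub, map_mul, map_pow, sub_C, sub_X] at this
    simp only [pp, prev, dif_pos i.2]
    exact this
  have h2 : ∀ s, oo s - ∑ k, MvPolynomial.C (t k) * tr C φ j (C.srcSub lf s (τ k s)) ∈ J :=
    fun s => by
    have := J.mul_mem_left (MvPolynomial.C (γ s)) (hmem (Sum.inl s) (o s))
    rw [← sub_C C lf eqv φ j o v (Sum.inl s), ← map_mul, eo] at this
    simp only [map_sub, map_mul, map_pow, map_sum, sub_C, sub_X, nat] at this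
    exact this
  have h3 := J.add_mem (J.sum_mem (t := Finset.univ) fun i _ => h1 i)
    (J.sum_mem (t := Finset.univ) fun s _ => h2 s)
  rw [Finset.sum_sub_distrib, Finset.sum_sub_distrib oo, eqv.sum_comp oo,
    Fin.sum_univ_eq_sum_range fun i => pp (i + 1) - pp i, Finset.sum_range_sub pp,
    sub_add_sub_cancel, Finset.sum_comm] at h3
  simpa only [pp, hg, C_1, one_mul, prev, zero_pow hb.ne', mul_zero, sub_zero, map_sum,
    Finset.mul_sum] using h3

end Lv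

theorem level (C : Cfg K n) {b : ℕ} (hb : 0 < b) {A : Type} [Fintype A] (a : A → C.R)
    (μ : C.R) (ha : ∀ i, a i ∈ C.Bin b) (hμ : μ ∈ C.Bin b)
    (hNB : C.NB (insert μ (Set.range a))) :
    ∃ (C' : Cfg K n) (x : Ext C C') (v : C'.R) (k : C'.Z) (c : A → C'.Z),
      v.IsHomogeneous 1 ∧ k ≠ 0 ∧ v ^ b - k • x.tr μ - ∑ i, c i • x.tr (a i) ∈ C'.J := by
  classical
  obtain ⟨r, lf, κ, _, τ, cμ, ca, hlf, hτ, ⟨k0, hk0⟩, hJ, hbpf⟩ := exists_leaves C hb a μ ha hμ hNB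
  let eqv := (Fintype.equivFin (C.E ⊕ Fin r)).symm
  obtain ⟨F, _, φ, t, N', j, o, v, g, γ, ok, hyp, ht, hg, ej, eo, ev⟩ :=
    Lv.nodes (N := C.srcN (Fin r)) (fun s => by cases s; exacts [C.ok _, Node.free_ok])
      (C.hyp.addFree (Fin r)) hb hτ hbpf eqv
  let _ : Algebra K F := (φ.comp (algebraMap K C.Z)).toAlgebra
  have : Infinite F := Infinite.of_injective φ φ.injective
  let J := Ideal.span (Set.range fun x : Σ e, (N' e).W =>
    Lv.sub C lf eqv φ j o v x.1 ((N' x.1).eqn x.2))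
  have hmem : ∀ e w, Lv.sub C lf eqv φ j o v e ((N' e).eqn w) ∈ J := fun e w =>
    Ideal.subset_span ⟨⟨e, w⟩, rfl⟩
  have hmap := Lv.mapJ C lf eqv φ j o v hmem ej
  have h : Lv.prev C v (Fintype.card (C.E ⊕ Fin r)) ^ b - (∑ k, t k * φ (cμ k)) • Lv.tr C φ j μ -
      ∑ i, (∑ k, t k * φ (ca k i)) • Lv.tr C φ j (a i) ∈ J := by
    convert J.add_mem (Lv.chain C lf eqv φ j o v hmem hb hg eo ev) (J.sum_mem (t := Finset.univ)
      fun k _ => J.mul_mem_left (MvPolynomial.C (t k)) (hmap _ (hJ k))) using 1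
    simp only [smul_eq_C_mul, map_sub, mul_sub, Finset.sum_sub_distrib]
    simp only [map_sum, map_mul, Lv.tr_C, Finset.mul_sum, Finset.sum_mul, mul_assoc]
    rw [Finset.sum_comm]
    ring
  exact ⟨{ Z := F, E := _, N := N', ok := ok, hyp := hyp, rk := Lv.rk C
           inp := Lv.inp C lf eqv φ j o v, inp_hom := Lv.inp_hom C lf eqv φ j o v hlf
           inp_rk := Lv.inp_rk C lf eqv φ j o v },
    ⟨⟨φ, fun _ => rfl⟩, Lv.psi C j, fun _ => rfl, hmap⟩, _, _, _, Lv.prev_hom C v _,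
    fun h => hk0 (ht cμ h k0), h⟩

end Vale.Agent.EGH
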