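import Vale.Agent.EGH.Final
import Vale.Agent.EGH.CL

/-! The lex-plus-powers form of the Eisenbud-Green-Harris conjecture. -/

namespace Vale.Agent.EGH

open MvPolynomial Module

universe u

namespace LexAux

variable {K : Type u} [Field K] {n : ℕ}

theorem finite_degree (d : ℕ) : {α : Fin n →₀ ℕ | α.degree = d}.Finite :=
  Finsupp.finite_of_degree_le d |>.subset fun _ h => le_of_eq h

theorem finrank_restrict_set (T : Set (Fin n →₀ ℕ)) (hT : T.Finite) :
    finrank K (restrictSupport K T) = T.ncard := by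
  rw [← hT.coe_toFinset, P200.StdAux.finrank_restrict, Set.ncard_coe_finset]

theorem monIdeal_inf (s : Set (Fin n →₀ ℕ)) (d : ℕ) :
    Submodule.restrictScalars K (Ideal.span ((fun α => monomial α (1 : K)) '' s)) ⊓
      homogeneousSubmodule (Fin n) K d =
    restrictSupport K {α | α.degree = d ∧ ∃ β ∈ s, β ≤ α} := by
  ext p
  rw [Submodule.mem_inf, Submodule.restrictScalars_mem, mem_ideal_span_monomial_image,
    P200.StdAux.mem_hom, mem_restrictSupport_iff]
  exact ⟨fun h α hα => ⟨h.2 α hα, h.1 α hα⟩, fun h => ⟨fun α hα => (h hα).2, fun α hα => (h hα).1⟩⟩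

theorem ncard_top {ι : Type*} [LinearOrder ι] (B : Set ι) (hB : B.Finite) (q : ℕ)
    (hq : q ≤ B.ncard) : {α | α ∈ B ∧ {β | β ∈ B ∧ α < β}.ncard < q}.ncard = q := by
  have hanti : ∀ α ∈ B, ∀ α' ∈ B, α < α' →
      {β | β ∈ B ∧ α' < β}.ncard < {β | β ∈ B ∧ α < β}.ncard := fun α _ α' hα' h =>
    Set.ncard_lt_ncard ⟨fun β hβ => ⟨hβ.1, h.trans hβ.2⟩, fun h' => lt_irrefl _ (h' ⟨hα', h⟩).2⟩
      (hB.subset fun _ h => h.1)
  have hinj : Set.InjOn (fun α => {β | β ∈ B ∧ α < β}.ncard) B := fun α hα α' hα' h => by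
    rcases lt_trichotomy α α' with h' | h' | h'
    · exact absurd h (hanti α hα α' hα' h').ne'
    · exact h'
    · exact absurd h (hanti α' hα' α hα h').ne
  have himg : (fun α => {β | β ∈ B ∧ α < β}.ncard) '' B = Set.Iio B.ncard := by
    refine Set.eq_of_subset_of_ncard_le ?_ ?_ (Set.finite_Iio _)
    · rintro _ ⟨α, hα, rfl⟩
      exact Set.ncard_lt_ncard ⟨fun β hβ => hβ.1, fun h' => lt_irrefl _ (h' hα).2⟩ hB
    · rw [hinj.ncard_image, ← Finset.coe_range, Set.ncard_coe_finset, Finset.card_range]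
  rw [← (hinj.mono fun _ h => h.1).ncard_image]
  have : (fun α => {β | β ∈ B ∧ α < β}.ncard) '' {α | α ∈ B ∧ {β | β ∈ B ∧ α < β}.ncard < q} =
      Set.Iio q := by
    ext k
    constructor
    · rintro ⟨α, hα, rfl⟩
      exact hα.2
    · intro hk
      obtain ⟨α, hα, rfl⟩ : k ∈ (fun α => {β | β ∈ B ∧ α < β}.ncard) '' B :=
        himg ▸ lt_of_lt_of_le hk hq
      exact ⟨α, ⟨hα, hk⟩, rfl⟩
  rw [this, ← Finset.coe_range, Set.ncard_coe_finset, Finset.card_range]

end LexAux

open LexAux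

theorem lex_plus_powers {K : Type u} [Field K] {n c : ℕ} (hcn : c ≤ n) (a : Fin c → ℕ)
    (hmono : Monotone a) (I : Ideal (MvPolynomial (Fin n) K)) (s : Set (Fin n →₀ ℕ))
    (hs1 : ∀ i, Finsupp.single (Fin.castLE hcn i) (a i) ∈ s)
    (hs2 : ∀ d : ℕ, finrank K ↥(Submodule.restrictScalars K
      (Ideal.span ((fun α => monomial α (1 : K)) '' s)) ⊓ homogeneousSubmodule (Fin n) K d) =
        finrank K ↥(Submodule.restrictScalars K I ⊓ homogeneousSubmodule (Fin n) K d))
    (P : Ideal (MvPolynomial (Fin n) K))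
    (hP : P = Ideal.span (Set.range fun i => X (Fin.castLE hcn i) ^ a i))
    (q : ℕ → ℕ)
    (hq : ∀ d, q d =
      finrank K ↥(Submodule.restrictScalars K I ⊓ homogeneousSubmodule (Fin n) K d) -
        finrank K ↥(Submodule.restrictScalars K P ⊓ homogeneousSubmodule (Fin n) K d))
    (J : ℕ → Submodule K (MvPolynomial (Fin n) K))
    (hJ : ∀ d, J d = (Submodule.restrictScalars K P ⊓ homogeneousSubmodule (Fin n) K d) ⊔
      Submodule.span K ((fun α => monomial α (1 : K)) ''
        {α | α.degree = d ∧ monomial α (1 : K) ∉ P ∧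
          {β : Fin n →₀ ℕ | β.degree = d ∧ monomial β (1 : K) ∉ P ∧ toLex α < toLex β}.ncard <
            q d})) :
    (∃ L : Ideal (MvPolynomial (Fin n) K), Submodule.restrictScalars K L = ⨆ d, J d) ∧
      ∀ d, finrank K (J d) =
        finrank K ↥(Submodule.restrictScalars K I ⊓ homogeneousSubmodule (Fin n) K d) := by
  classical
  let a' : Fin n → ℕ∞ := fun j => if h : j.1 < c then (a ⟨j, h⟩ : ℕ∞) else ⊤
  have ha' : Monotone a' := by
    intro j k hjk
    by_cases hk : k.1 < c
    · have hj : j.1 < c := lt_of_le_of_lt hjk hk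
      simp only [a', dif_pos hj, dif_pos hk, Nat.cast_le]
      exact hmono hjk
    · simp only [a', dif_neg hk, le_top]
  let sP : Set (Fin n →₀ ℕ) := Set.range fun i => Finsupp.single (Fin.castLE hcn i) (a i)
  have hP' : P = Ideal.span ((fun α => monomial α (1 : K)) '' sP) := by
    rw [hP, ← Set.range_comp]
    simp only [X_pow_eq_monomial]
    rfl
  have hbox : ∀ α, (∃ β ∈ sP, β ≤ α) ↔ ¬ Box a' α := by
    intro α
    simp only [Box, not_forall, not_lt]
    constructor
    · rintro ⟨_, ⟨i, rfl⟩, h⟩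
      refine ⟨Fin.castLE hcn i, ?_⟩
      simpa [a'] using Finsupp.single_le_iff.1 h
    · rintro ⟨j, hj⟩
      by_cases h : j.1 < c
      · refine ⟨_, ⟨⟨j, h⟩, rfl⟩, Finsupp.single_le_iff.2 ?_⟩
        simpa [a', h] using hj
      · simp [a', h] at hj
  have hmem : ∀ α, monomial α (1 : K) ∉ P ↔ Box a' α := by
    intro α
    rw [hP', mem_ideal_span_monomial_image, support_monomial, if_neg one_ne_zero]
    simp only [Finset.mem_singleton, forall_eq, hbox, not_not]
  have hPd : ∀ d, Submodule.restrictScalars K P ⊓ homogeneousSubmodule (Fin n) K d =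
      restrictSupport K {α | α.degree = d ∧ ¬ Box a' α} := by
    intro d
    rw [hP', monIdeal_inf]
    simp only [hbox]
  let s' : Set (Fin n →₀ ℕ) := {α | ∃ β ∈ s, β ≤ α}
  have hs' : ∀ α ∈ s', ∀ i, α + Finsupp.single i 1 ∈ s' := by
    rintro α ⟨β, hβ, h⟩ i
    exact ⟨β, hβ, h.trans le_self_add⟩
  have hsplit : ∀ d, finrank K ↥(Submodule.restrictScalars K I ⊓ homogeneousSubmodule (Fin n) K d) =
      {α : Fin n →₀ ℕ | α.degree = d ∧ ¬ Box a' α}.ncard +
        {α : Fin n →₀ ℕ | α.degree = d ∧ Box a' α ∧ α ∈ s'}.ncard := by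
    intro d
    rw [← hs2, monIdeal_inf, finrank_restrict_set _ ((finite_degree d).subset fun _ h => h.1),
      ← Set.ncard_union_eq (Set.disjoint_left.2 fun _ h h' => h.2 h'.2.1)
        ((finite_degree d).subset fun _ h => h.1) ((finite_degree d).subset fun _ h => h.1)]
    congr 1
    ext α
    constructor
    · rintro ⟨h1, h2⟩
      by_cases hb : Box a' α
      · exact Or.inr ⟨h1, hb, h2⟩
      · exact Or.inl ⟨h1, hb⟩
    · rintro (⟨h1, h2⟩ | ⟨h1, -, h2⟩)
      · obtain ⟨_, ⟨i, rfl⟩, h⟩ := (hbox α).2 h2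
        exact ⟨h1, _, hs1 i, h⟩
      · exact ⟨h1, h2⟩
  have hq' : ∀ d, q d = {α : Fin n →₀ ℕ | α.degree = d ∧ Box a' α ∧ α ∈ s'}.ncard := by
    intro d
    rw [hq, hsplit, hPd, finrank_restrict_set _ ((finite_degree d).subset fun _ h => h.1)]
    omega
  let T : Set (Fin n →₀ ℕ) := {α | ¬ Box a' α ∨
    {β : Fin n →₀ ℕ | β.degree = α.degree ∧ Box a' β ∧ toLex α < toLex β}.ncard < q α.degree}
  have hboxle : ∀ α β : Fin n →₀ ℕ, Box a' (α + β) → Box a' α := fun α β h i =>
    lt_of_le_of_lt (by simp) (h i)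
  have hT1 : ∀ α ∈ T, ∀ i, α + Finsupp.single i 1 ∈ T := by
    intro α hα i
    by_cases hb : Box a' (α + Finsupp.single i 1)
    · right
      rw [map_add, Finsupp.degree_single, hq']
      refine clements_lindstrom a' ha' s' hs' α i hb ?_
      rw [← hq']
      exact hα.resolve_left (not_not.2 (hboxle _ _ hb))
    · exact Or.inl hb
  have hT2 : ∀ α ∈ T, ∀ β, α + β ∈ T := by
    intro α hα β
    induction β using Finsupp.induction_linear generalizing α with
    | zero => simpa using hα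
    | add β β' h h' => rw [← add_assoc]; exact h' _ (h _ hα)
    | single i m =>
      induction m with
      | zero => simpa using hα
      | succ m ih => rw [Finsupp.single_add, ← add_assoc]; exact hT1 _ ih i
  have hJ' : ∀ d, J d = restrictSupport K {α | α.degree = d ∧ α ∈ T} := by
    intro d
    rw [hJ, hPd, restrictSupport_eq_span, restrictSupport_eq_span, ← Submodule.span_union,
      ← Set.image_union]
    congr 2
    ext α
    simp only [hmem, Set.mem_union, Set.mem_ofPred_eq, T]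
    constructor
    · rintro (⟨h1, h2⟩ | ⟨rfl, -, h2⟩)
      · exact ⟨h1, Or.inl h2⟩
      · exact ⟨rfl, Or.inr h2⟩
    · rintro ⟨rfl, h⟩
      by_cases hb : Box a' α
      · exact Or.inr ⟨rfl, hb, h.resolve_left (not_not.2 hb)⟩
      · exact Or.inl ⟨rfl, hb⟩
  refine ⟨⟨Ideal.span ((fun α => monomial α (1 : K)) '' T), le_antisymm (fun p hp => ?_) ?_⟩,
    fun d => ?_⟩
  · rw [Submodule.restrictScalars_mem, mem_ideal_span_monomial_image] at hp
    rw [p.as_sum]
    refine Submodule.sum_mem _ fun α hα => Submodule.mem_iSup_of_mem α.degree ?_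
    obtain ⟨β, hβ, hle⟩ := hp α hα
    obtain ⟨δ, rfl⟩ := le_iff_exists_add.1 hle
    rw [hJ', mem_restrictSupport_iff]
    exact (Finset.coe_subset.2 support_monomial_subset).trans
      (by simpa using hT2 _ hβ δ)
  · refine iSup_le fun d => ?_
    rw [hJ', restrictSupport_eq_span, Submodule.span_le]
    rintro _ ⟨α, hα, rfl⟩
    exact Ideal.subset_span ⟨α, hα.2, rfl⟩
  · have hB : {α : Lex (Fin n →₀ ℕ) | (ofLex α).degree = d ∧ Box a' (ofLex α)}.Finite :=
      (finite_degree d).subset fun _ h => h.1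
    have h1 := ncard_top _ hB (q d) (by
      rw [hq']
      exact Set.ncard_le_ncard (fun _ h => ⟨h.1, h.2.1⟩) hB)
    rw [hJ', finrank_restrict_set _ ((finite_degree d).subset fun _ h => h.1), hsplit, ← hq', ← h1]
    refine Eq.trans ?_ (Set.ncard_union_eq (Set.disjoint_left.2 fun _ h h' => h.2 h'.1.2)
        ((finite_degree d).subset fun _ h => h.1) ((finite_degree d).subset fun _ h => h.1.1))
    congr 1
    ext α
    simp only [Set.mem_union, Set.mem_ofPred_eq, T, and_assoc]
    constructor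
    · rintro ⟨rfl, h⟩
      by_cases hb : Box a' α
      · exact Or.inr ⟨rfl, hb, h.resolve_left (not_not.2 hb)⟩
      · exact Or.inl ⟨rfl, hb⟩
    · rintro (⟨h1, h2⟩ | ⟨h0, -, h2⟩)
      · exact ⟨h1, Or.inl h2⟩
      · obtain rfl : α.degree = d := h0
        exact ⟨rfl, Or.inr h2⟩

end Vale.Agent.EGH
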