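import Vale.Agent.EGH.RDBasic

/-! Essential extensions, reflection and pushouts for the universal localization. -/

namespace Vale.Agent.EGH

open Module

universe u

namespace RD

namespace LocAux

variable {O : Type u} [Ring O] {R : RD O}
variable {A X Y G H : Type u} [AddCommGroup A] [Module O A] [AddCommGroup X] [Module O X]
  [AddCommGroup Y] [Module O Y] [AddCommGroup G] [Module O G] [AddCommGroup H] [Module O H]

variable (R) in
/-- An injective map with semistable cokernel of defect zero. -/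
structure Ess (s : X →ₗ[O] G) : Prop where
  inj : Function.Injective s
  C : R.C G
  d : R.d G = R.d X
  le : ∀ M : Submodule O G, LinearMap.range s ≤ M → R.d X ≤ R.d M

variable (R) in
/-- Positivity for the submodules in the class. -/
def PosC (Y : Type u) [AddCommGroup Y] [Module O Y] : Prop :=
  ∀ N : Submodule O Y, R.C N → N ≠ ⊥ → 0 < R.d N

variable (R) in
/-- A good object under `A`. -/
structure Good (s : A →ₗ[O] G) : Prop where
  inj : Function.Injective s
  C : R.C G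
  pos : R.Pos G
  d : R.d G = 1

theorem posC_of_pos (h : R.Pos Y) : PosC R Y := fun N _ hN => h N hN

theorem d_range {s : X →ₗ[O] G} (hs : Function.Injective s) (h : R.C X) :
    R.d (LinearMap.range s) = R.d X :=
  (congr h (LinearEquiv.ofInjective s hs)).2.2

theorem pos_of_inj (hC : R.C G) (hp : R.Pos G) (f : X →ₗ[O] G) (hf : Function.Injective f) :
    R.Pos X := by
  intro N hN
  have h1 := map_inj N (C_sub (R.C_inj _ _ f hf hC) N) f hf
  rw [← h1.2.2]
  refine hp _ fun e => hN ((Submodule.eq_bot_iff _).2 fun v hv => hf ?_)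
  rw [map_zero]
  exact (Submodule.eq_bot_iff _).1 e _ (Submodule.mem_map_of_mem hv)

theorem Ess.CX {s : X →ₗ[O] G} (h : Ess R s) : R.C X := R.C_inj _ _ s h.inj h.C

theorem Ess.eq_zero {s : X →ₗ[O] G} (h : Ess R s) (hY : PosC R Y) {f : G →ₗ[O] Y}
    (hf : f ∘ₗ s = 0) : f = 0 := by
  have h1 := add_range h.C f
  have h2 := h.le (LinearMap.ker f) (LinearMap.range_le_ker_iff.2 hf)
  have h3 := h.d
  by_contra hne
  have h4 := hY _ (C_range h.C f) (fun e => hne (LinearMap.range_eq_bot.1 e))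
  omega

theorem Ess.unique {s : X →ₗ[O] G} (h : Ess R s) (hY : PosC R Y) {f f' : G →ₗ[O] Y}
    (hf : f ∘ₗ s = f' ∘ₗ s) : f = f' :=
  sub_eq_zero.1 (h.eq_zero hY (by rw [LinearMap.sub_comp, hf, sub_self]))

theorem ess_subtype (N : Submodule O G) (hC : R.C G) (h : R.SS (G ⧸ N)) : Ess R N.subtype := by
  have h1 := add_quot hC N
  have h2 := h.2.1
  refine ⟨N.subtype_injective, hC, by omega, fun M hM => ?_⟩
  rw [Submodule.range_subtype] at hM
  have h3 := add_map M (C_sub hC M) N.mkQ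
  rw [Submodule.ker_mkQ, inf_eq_right.2 hM] at h3
  have h4 := h.2.2 (M.map N.mkQ)
  omega

theorem d_modular (hC : R.C G) (M T : Submodule O G) :
    R.d M + R.d T = R.d (M ⊓ T : Submodule O G) + R.d (M ⊔ T : Submodule O G) := by
  have h1 := add_map M (C_sub hC M) T.mkQ
  have h2 := add_map (M ⊔ T) (C_sub hC _) T.mkQ
  rw [Submodule.ker_mkQ] at h1 h2
  rw [inf_eq_right.2 le_sup_right, Submodule.map_sup, Submodule.mkQ_map_self, sup_bot_eq] at h2
  omega

theorem Ess.d_comap_le {t : G →ₗ[O] H} (h : Ess R t) (M : Submodule O H) :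
    R.d (M.comap t) ≤ R.d M := by
  have h1 := d_modular h.C M (LinearMap.range t)
  have h2 := h.le (M ⊔ LinearMap.range t) le_sup_right
  have h3 := d_range h.inj h.CX
  have h4 := map_inj (M.comap t) (C_sub h.CX _) t h.inj
  rw [Submodule.map_comap_eq, inf_comm] at h4
  omega

theorem Ess.comp {s : X →ₗ[O] G} {t : G →ₗ[O] H} (h : Ess R s) (h' : Ess R t) :
    Ess R (t ∘ₗ s) := by
  refine ⟨h'.inj.comp h.inj, h'.C, h'.d.trans h.d, fun M hM => ?_⟩
  refine (h.le (M.comap t) ?_).trans (h'.d_comap_le M)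
  rwa [← Submodule.map_le_iff_le_comap, ← LinearMap.range_comp]

theorem Good.range_ne {s : A →ₗ[O] G} (h : Good R s) (hd : R.d A = 1) :
    LinearMap.range s ≠ ⊥ := by
  intro e
  have h1 := d_range h.inj (R.C_inj _ _ s h.inj h.C)
  have h2 := bot h.C
  rw [e] at h1
  omega

theorem Good.ess {s : A →ₗ[O] G} (h : Good R s) (hd : R.d A = 1) : Ess R s := by
  refine ⟨h.inj, h.C, h.d.trans hd.symm, fun M hM => ?_⟩
  have := h.pos M fun e => h.range_ne hd (le_bot_iff.1 (e ▸ hM))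
  omega

theorem Good.equiv {s : A →ₗ[O] G} (h : Good R s) (e : G ≃ₗ[O] H) :
    Good R (e.toLinearMap ∘ₗ s) :=
  ⟨e.injective.comp h.inj, (congr h.C e).1, pos_of_inj h.C h.pos e.symm.toLinearMap
    e.symm.injective, (congr h.C e).2.2.trans h.d⟩

theorem Good.inj_of_over {s : A →ₗ[O] G} {s' : A →ₗ[O] H} (h : Good R s) (h' : Good R s')
    (hd : R.d A = 1) {f : G →ₗ[O] H} (hf : f ∘ₗ s = s') : Function.Injective f := by
  rw [← LinearMap.ker_eq_bot]
  by_contra hne
  have h1 := add_range h.C f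
  have h2 := h.pos _ hne
  have h3 := (h'.ess hd).le (LinearMap.range f) (by
    rw [← hf]
    exact LinearMap.range_comp_le_range _ _)
  have h4 := h.d
  omega

/-- Reflection of an essential extension into the good objects. -/
theorem Ess.reflect {s : A →ₗ[O] G} (h : Ess R s) (hp : R.Pos A) (hd : R.d A = 1) :
    ∃ N : Submodule O G, Good R (N.mkQ ∘ₗ s) := by
  have h0 : ∀ M : Submodule O G, 0 ≤ R.d M := by
    intro M
    refine le_trans ?_ (h.d_comap_le M)
    by_cases e : M.comap s = ⊥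
    · rw [e]
      exact (bot h.CX).2.ge
    · exact (hp _ e).le
  have := R.noeth G h.C
  obtain ⟨N, hN, hmax⟩ := set_has_maximal_iff_noetherian.2 this {N : Submodule O G | R.d N = 0}
    ⟨⊥, (bot h.C).2⟩
  have h1 : R.d N = 0 := hN
  have h2 : N.comap s = ⊥ := by
    by_contra e
    have := hp _ e
    have := h.d_comap_le N
    omega
  have h3 := add_quot h.C N
  have h4 := h.d
  refine ⟨N, ?_, C_quot h.C N, fun M hM => ?_, by omega⟩
  · rw [← LinearMap.ker_eq_bot, LinearMap.ker_comp, Submodule.ker_mkQ, h2]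
  · have h5 := add_map (M.comap N.mkQ) (C_sub h.C _) N.mkQ
    rw [Submodule.map_comap_eq_of_surjective N.mkQ_surjective, Submodule.ker_mkQ,
      inf_eq_right.2 (N.le_comap_mkQ M)] at h5
    have h6 := h0 (M.comap N.mkQ)
    have h7 : R.d (M.comap N.mkQ) ≠ 0 := by
      intro e
      have h8 := (N.le_comap_mkQ M).eq_or_lt.resolve_right (hmax _ e)
      apply hM
      rw [← Submodule.map_comap_eq_of_surjective N.mkQ_surjective M, ← h8,
        Submodule.mkQ_map_self]
    omega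

/-- Pushout of an essential extension. -/
theorem Ess.pushout {t : X →ₗ[O] Y} (h : Ess R t) (hC : R.C G) (g : X →ₗ[O] G) :
    ∃ (W : Submodule O (G × Y)), Ess R (W.mkQ ∘ₗ LinearMap.inl O G Y) ∧
      (W.mkQ ∘ₗ LinearMap.inr O G Y) ∘ₗ t = (W.mkQ ∘ₗ LinearMap.inl O G Y) ∘ₗ g := by
  have hi : Function.Injective (g.prod (-t)) := fun x y e =>
    h.inj (neg_injective (congrArg Prod.snd e))
  have hP := R.C_prod _ _ hC h.C
  have h1 := d_range hi h.CX
  obtain ⟨W, hW⟩ : ∃ W, W = LinearMap.range (g.prod (-t)) := ⟨_, rfl⟩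
  have hm : ∀ x, (g x, -t x) ∈ W := fun x => hW ▸ ⟨x, rfl⟩
  rw [← hW] at h1
  have h2 := add_quot hP W
  have h3 := prod hC h.C
  have h4 := h.d
  refine ⟨W, ⟨?_, C_quot hP _, by omega, fun M hM => ?_⟩, ?_⟩
  · rw [← LinearMap.ker_eq_bot, LinearMap.ker_comp, Submodule.ker_mkQ, Submodule.eq_bot_iff, hW]
    rintro y ⟨x, hx⟩
    have h5 : x = 0 := h.inj (by simpa using congrArg Prod.snd hx)
    simpa [h5] using (congrArg Prod.fst hx).symm
  · have h5 := add_map (M.comap W.mkQ) (C_sub hP _) W.mkQ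
    rw [Submodule.map_comap_eq_of_surjective W.mkQ_surjective, Submodule.ker_mkQ,
      inf_eq_right.2 (W.le_comap_mkQ M)] at h5
    have h6 := add_map (M.comap W.mkQ) (C_sub hP _) (LinearMap.snd O G Y)
    rw [LinearMap.ker_snd, inf_eq_right.2 (by
      rwa [← Submodule.map_le_iff_le_comap, ← LinearMap.range_comp])] at h6
    have h7 := d_range (LinearMap.inl_injective (R := O) (M₂ := Y)) hC
    have h8 := h.le ((M.comap W.mkQ).map (LinearMap.snd O G Y)) (by
      rintro _ ⟨x, rfl⟩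
      exact ⟨_, W.le_comap_mkQ M (hm (-x)), by simp⟩)
    omega
  · refine LinearMap.ext fun x => ?_
    simp only [LinearMap.comp_apply, Submodule.mkQ_apply]
    rw [Submodule.Quotient.eq]
    simpa using hm (-x)

/-- The extension step. -/
theorem Good.extend {s : A →ₗ[O] G} (h : Good R s) (hp : R.Pos A) (hd : R.d A = 1)
    {t : X →ₗ[O] Y} (ht : Ess R t) (g : X →ₗ[O] G) :
    ∃ (K : Type u) (_ : AddCommGroup K) (_ : Module O K) (f : G →ₗ[O] K) (g' : Y →ₗ[O] K),
      Good R (f ∘ₗ s) ∧ g' ∘ₗ t = f ∘ₗ g := by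
  obtain ⟨W, h1, h2⟩ := ht.pushout h.C g
  obtain ⟨N, h3⟩ := ((h.ess hd).comp h1).reflect hp hd
  refine ⟨_, inferInstance, inferInstance, N.mkQ ∘ₗ W.mkQ ∘ₗ LinearMap.inl O G Y,
    N.mkQ ∘ₗ W.mkQ ∘ₗ LinearMap.inr O G Y, h3, ?_⟩
  rw [LinearMap.comp_assoc, h2, LinearMap.comp_assoc]
  rfl

variable (R A) in
/-- Good objects in standard form. -/
structure Ob where
  /-- number of generators -/
  n : ℕ
  /-- relations -/
  N : Submodule O (Fin n → O)
  /-- structure map -/
  s : A →ₗ[O] ((Fin n → O) ⧸ N)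
  good : Good R s

/-- The underlying module. -/
abbrev Ob.Md (i : Ob R A) : Type u := (Fin i.n → O) ⧸ i.N

instance : Preorder (Ob R A) where
  le i j := ∃ f : i.Md →ₗ[O] j.Md, f ∘ₗ i.s = j.s
  le_refl i := ⟨LinearMap.id, rfl⟩
  le_trans i j k := by
    rintro ⟨f, hf⟩ ⟨g, hg⟩
    exact ⟨g ∘ₗ f, by rw [LinearMap.comp_assoc, hf, hg]⟩

/-- The transition maps. -/
noncomputable def Ob.f (i j : Ob R A) (h : i ≤ j) : i.Md →ₗ[O] j.Md := Exists.choose h

theorem Ob.f_s (i j : Ob R A) (h : i ≤ j) : Ob.f i j h ∘ₗ i.s = j.s := Exists.choose_spec h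

theorem Good.exists_ob {s : A →ₗ[O] G} (h : Good R s) :
    ∃ (i : Ob R A) (e : G ≃ₗ[O] i.Md), e.toLinearMap ∘ₗ s = i.s := by
  have := R.noeth G h.C
  obtain ⟨n, f, hf⟩ := Module.Finite.exists_fin' O G
  exact ⟨⟨n, LinearMap.ker f, _, h.equiv (f.quotKerEquivOfSurjective hf).symm⟩,
    (f.quotKerEquivOfSurjective hf).symm, rfl⟩

theorem exists_pre (hC : R.C A) (hp : R.Pos A) (hd : R.d A = 1) :
    ∃ (P : Type u) (_ : AddCommGroup P) (_ : Module O P) (η : A →ₗ[O] P),
      Function.Injective η ∧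
      (∀ s : Set P, s.Finite → ∃ G : Submodule O P, s ⊆ G ∧ LinearMap.range η ≤ G ∧
        R.C G ∧ R.d G = 1 ∧ R.Pos G) ∧
      ∀ (G : Type u) [AddCommGroup G] [Module O G] (s : A →ₗ[O] G), Good R s →
        ∃ ι : G →ₗ[O] P, ι ∘ₗ s = η := by
  classical
  obtain ⟨i0, -⟩ :=
    (⟨Function.injective_id, hC, hp, hd⟩ : Good R (LinearMap.id : A →ₗ[O] A)).exists_ob
  have : Nonempty (Ob R A) := ⟨i0⟩
  have : IsDirectedOrder (Ob R A) := ⟨fun i j => by
    obtain ⟨K, _, _, f, g, h1, h2⟩ := i.good.extend hp hd (j.good.ess hd) i.s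
    obtain ⟨k, e, he⟩ := h1.exists_ob
    exact ⟨k, ⟨e.toLinearMap ∘ₗ f, he⟩, ⟨e.toLinearMap ∘ₗ g, by
      rw [LinearMap.comp_assoc, h2, he]⟩⟩⟩
  have : DirectedSystem (Ob.Md (R := R) (A := A)) (Ob.f · · ·) := by
    constructor
    · intro i x
      have := (i.good.ess hd).unique (posC_of_pos i.good.pos) (f := Ob.f i i le_rfl)
        (f' := LinearMap.id) (Ob.f_s _ _ _)
      rw [this]
      rfl
    · intro k j i hij hjk x
      have := (i.good.ess hd).unique (posC_of_pos k.good.pos) (f := Ob.f j k hjk ∘ₗ Ob.f i j hij)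
        (f' := Ob.f i k (hij.trans hjk)) (by rw [LinearMap.comp_assoc, Ob.f_s, Ob.f_s, Ob.f_s])
      exact LinearMap.congr_fun this x
  obtain ⟨P, _, _, o, hof', hex, hsur⟩ : ∃ (P : Type u) (_ : AddCommGroup P) (_ : Module O P)
      (o : ∀ i : Ob R A, i.Md →ₗ[O] P), (∀ i j (h : i ≤ j) x, o j (Ob.f i j h x) = o i x) ∧
        (∀ i x y, o i x = o i y → ∃ j hij, Ob.f i j hij x = Ob.f i j hij y) ∧
        ∀ z, ∃ i x, o i x = z :=
    ⟨Module.DirectLimit (Ob.Md (R := R) (A := A)) Ob.f, inferInstance,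
      Module.DirectLimit.module _ _, Module.DirectLimit.of O (Ob R A) Ob.Md Ob.f,
      fun _ _ _ _ => Module.DirectLimit.of_f, fun _ _ _ => Module.DirectLimit.exists_eq_of_of_eq,
      Module.DirectLimit.exists_of⟩
  have hof : ∀ i j (h : i ≤ j), o j ∘ₗ Ob.f i j h = o i := fun i j h =>
    LinearMap.ext (hof' i j h)
  have hinj : ∀ i, Function.Injective (o i) := by
    intro i x y e
    obtain ⟨j, hij, h⟩ := hex i x y e
    exact i.good.inj_of_over j.good hd (Ob.f_s i j hij) h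
  have hη : ∀ i, o i ∘ₗ i.s = o i0 ∘ₗ i0.s := by
    intro i
    obtain ⟨k, h1, h2⟩ := exists_ge_ge i i0
    rw [← hof i k h1, ← hof i0 k h2, LinearMap.comp_assoc, LinearMap.comp_assoc, Ob.f_s, Ob.f_s]
  refine ⟨P, inferInstance, inferInstance, o i0 ∘ₗ i0.s, (hinj i0).comp i0.good.inj, ?_, ?_⟩
  · intro s hs
    obtain ⟨i, hi⟩ : ∃ i, s ⊆ LinearMap.range (o i) := by
      induction s, hs using Set.Finite.induction_on with
      | empty => exact ⟨i0, Set.empty_subset _⟩
      | @insert x s _ _ ih =>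
        obtain ⟨i, hi⟩ := ih
        obtain ⟨j, y, hy⟩ := hsur x
        obtain ⟨k, h1, h2⟩ := exists_ge_ge i j
        refine ⟨k, Set.insert_subset ⟨Ob.f j k h2 y, ?_⟩ (hi.trans ?_)⟩
        · rw [← hy, hof']
        · rw [← hof i k h1]
          exact LinearMap.range_comp_le_range _ _
    have h1 := i.good.equiv (LinearEquiv.ofInjective (o i) (hinj i))
    refine ⟨LinearMap.range (o i), hi, ?_, h1.C, h1.d, h1.pos⟩
    rw [← hη i]
    exact LinearMap.range_comp_le_range _ _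
  · intro G _ _ s hs
    obtain ⟨i, e, he⟩ := hs.exists_ob
    exact ⟨o i ∘ₗ e.toLinearMap, by rw [LinearMap.comp_assoc, he, hη]⟩

end LocAux

end RD

end Vale.Agent.EGH
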