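import Vale.Agent.EGH.RDBasic
import Vale.Agent.EGH.LocAux

/-! The universal localization at the semistable modules of defect zero. -/

namespace Vale.Agent.EGH

open Module MvPolynomial Filter

universe u

namespace RD.LocAux

variable {O : Type u} [Ring O] {R : RD O}
variable {A P : Type u} [AddCommGroup A] [Module O A] [AddCommGroup P] [Module O P]

variable (R) in
/-- A directed union of all good objects. -/
structure Pre (η : A →ₗ[O] P) : Prop where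
  pos : R.Pos A
  d : R.d A = 1
  inj : Function.Injective η
  cover : ∀ s : Set P, s.Finite → ∃ G : Submodule O P, s ⊆ G ∧ LinearMap.range η ≤ G ∧
    R.C G ∧ R.d G = 1 ∧ R.Pos G
  univ : ∀ (G : Type u) [AddCommGroup G] [Module O G] (s : A →ₗ[O] G), Good R s →
    ∃ ι : G →ₗ[O] P, ι ∘ₗ s = η

variable {η : A →ₗ[O] P}

theorem Pre.coverC (h : Pre R η) {M : Submodule O P} (hM : R.C M) :
    ∃ G : Submodule O P, M ≤ G ∧ LinearMap.range η ≤ G ∧ R.C G ∧ R.d G = 1 ∧ R.Pos G := by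
  have := R.noeth M hM
  obtain ⟨s, rfl⟩ : M.FG := Module.Finite.iff_fg.1 inferInstance
  obtain ⟨G, h1, h2⟩ := h.cover s s.finite_toSet
  exact ⟨G, Submodule.span_le.2 h1, h2⟩

theorem Pre.posC (h : Pre R η) : PosC R P := by
  intro N hN hne
  obtain ⟨G, h1, -, h2, -, h3⟩ := h.coverC hN
  have h4 := congr (C_sub h2 (N.comap G.subtype)) (Submodule.comapSubtypeEquivOfLe h1)
  rw [h4.2.2]
  refine h3 _ fun e => hne ((Submodule.eq_bot_iff _).2 fun v hv => ?_)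
  exact congrArg Subtype.val ((Submodule.eq_bot_iff _).1 e ⟨v, h1 hv⟩ hv)

theorem Pre.good (h : Pre R η) {G : Submodule O P} (h1 : LinearMap.range η ≤ G) (h2 : R.C G)
    (h3 : R.d G = 1) (h4 : R.Pos G) : Good R (η.codRestrict G fun a => h1 ⟨a, rfl⟩) :=
  ⟨fun _ _ e => h.inj (congrArg Subtype.val e), h2, h4, h3⟩

theorem Pre.ext (h : Pre R η) {X Y : Type u} [AddCommGroup X] [Module O X] [AddCommGroup Y]
    [Module O Y] {t : X →ₗ[O] Y} (ht : Ess R t) (g : X →ₗ[O] P) :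
    ∃! g' : Y →ₗ[O] P, g' ∘ₗ t = g := by
  refine existsUnique_of_exists_of_unique ?_ fun g1 g2 e1 e2 => ht.unique h.posC (e1.trans e2.symm)
  obtain ⟨G, h1, h2, h3, h4, h5⟩ := h.coverC (C_range ht.CX g)
  have h6 := h.good h2 h3 h4 h5
  obtain ⟨K, _, _, f, g', h7, h8⟩ := h6.extend h.pos h.d ht (g.codRestrict G fun x => h1 ⟨x, rfl⟩)
  obtain ⟨ι, h9⟩ := h.univ K _ h7
  have h10 : ι ∘ₗ f = G.subtype := (h6.ess h.d).unique h.posC h9
  refine ⟨ι ∘ₗ g', ?_⟩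
  rw [LinearMap.comp_assoc, h8, ← LinearMap.comp_assoc, h10]
  rfl

theorem Pre.endo_unique (h : Pre R η) {ψ ψ' : Module.End O P} (e : ψ ∘ₗ η = ψ' ∘ₗ η) :
    ψ = ψ' := by
  refine LinearMap.ext fun x => ?_
  obtain ⟨G, h1, h2, h3, h4, h5⟩ := h.cover {x} (Set.finite_singleton x)
  have h6 : ψ ∘ₗ G.subtype = ψ' ∘ₗ G.subtype := ((h.good h2 h3 h4 h5).ess h.d).unique h.posC e
  exact LinearMap.congr_fun h6 ⟨x, h1 rfl⟩

theorem Pre.endo (h : Pre R η) (φ : A →ₗ[O] P) : ∃ ψ : Module.End O P, ψ ∘ₗ η = φ := by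
  have key : ∀ x : P, ∃ y : P, ∀ (G : Submodule O P) (h1 : LinearMap.range η ≤ G), R.C G →
      R.d G = 1 → R.Pos G → ∀ f : G →ₗ[O] P, f ∘ₗ (η.codRestrict G fun a => h1 ⟨a, rfl⟩) = φ →
        ∀ hx : x ∈ G, y = f ⟨x, hx⟩ := by
    intro x
    obtain ⟨G0, h1, h2, h3, h4, h5⟩ := h.cover {x} (Set.finite_singleton x)
    obtain ⟨f0, h6, -⟩ := h.ext ((h.good h2 h3 h4 h5).ess h.d) φ
    refine ⟨f0 ⟨x, h1 rfl⟩, fun G k2 k3 k4 k5 f k6 hx => ?_⟩
    obtain ⟨G1, l1, l2, l3, l4, l5⟩ := h.coverC (M := G0 ⊔ G) (by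
      rw [← Submodule.range_subtype G0, ← Submodule.range_subtype G, ← LinearMap.range_coprod]
      exact C_range (R.C_prod _ _ h3 k3) _)
    obtain ⟨f1, l6, -⟩ := h.ext ((h.good l2 l3 l4 l5).ess h.d) φ
    have e0 : f0 = f1 ∘ₗ Submodule.inclusion (le_sup_left.trans l1) :=
      ((h.good h2 h3 h4 h5).ess h.d).unique h.posC (h6.trans l6.symm)
    have e1 : f = f1 ∘ₗ Submodule.inclusion (le_sup_right.trans l1) :=
      ((h.good k2 k3 k4 k5).ess h.d).unique h.posC (k6.trans l6.symm)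
    rw [e0, e1]
    rfl
  choose ψ hψ using key
  have loc : ∀ x y : P, ∃ (G : Submodule O P) (f : G →ₗ[O] P), x ∈ G ∧ y ∈ G ∧
      ∀ z : G, ψ z = f z := by
    intro x y
    obtain ⟨G, h1, h2, h3, h4, h5⟩ := h.cover {x, y} (Set.toFinite _)
    obtain ⟨f, h6, -⟩ := h.ext ((h.good h2 h3 h4 h5).ess h.d) φ
    exact ⟨G, f, h1 (by simp), h1 (by simp), fun z => hψ z G h2 h3 h4 h5 f h6 z.2⟩
  refine ⟨⟨⟨ψ, fun x y => ?_⟩, fun c x => ?_⟩, LinearMap.ext fun a => ?_⟩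
  · obtain ⟨G, f, hx, hy, hf⟩ := loc x y
    have := hf (⟨x, hx⟩ + ⟨y, hy⟩)
    rwa [map_add, ← hf, ← hf] at this
  · obtain ⟨G, f, hx, -, hf⟩ := loc x x
    have := hf (c • ⟨x, hx⟩)
    rwa [map_smul, ← hf] at this
  · obtain ⟨G, -, h2, h3, h4, h5⟩ := h.cover ∅ Set.finite_empty
    obtain ⟨f, h6, -⟩ := h.ext ((h.good h2 h3 h4 h5).ess h.d) φ
    exact (hψ (η a) G h2 h3 h4 h5 f h6 (h2 ⟨a, rfl⟩)).trans (LinearMap.congr_fun h6 a)

theorem Pre.left_inv (h : Pre R η) (hC : R.C A) (hr : R.r A = 1) (htf : R.TF A)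
    {ψ : Module.End O P} (hψ : ψ ≠ 0) : ∃ χ : Module.End O P, χ * ψ = 1 := by
  have h0 : ψ ∘ₗ η ≠ 0 := fun e => hψ (h.endo_unique (by rw [e, LinearMap.zero_comp]))
  have h1 : Function.Injective (ψ ∘ₗ η) := by
    rw [← LinearMap.ker_eq_bot]
    refine htf _ ?_
    have e1 := add_range hC (ψ ∘ₗ η)
    have e2 := R.r_nonneg _ (C_sub hC (LinearMap.ker (ψ ∘ₗ η)))
    have e3 := R.r_nonneg _ (C_range hC (ψ ∘ₗ η))
    have e4 := h.posC _ (C_range hC (ψ ∘ₗ η)) fun e => h0 (LinearMap.range_eq_bot.1 e)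
    by_contra e5
    have e6 := R.d_nonpos _ (C_range hC (ψ ∘ₗ η)) (by omega)
    omega
  obtain ⟨G, h2, h3, h4, h5, h6⟩ := h.coverC (C_range hC (ψ ∘ₗ η))
  obtain ⟨ι, h7⟩ := h.univ G ((ψ ∘ₗ η).codRestrict G fun a => h2 ⟨a, rfl⟩)
    ⟨fun _ _ e => h1 (congrArg Subtype.val e), h4, h6, h5⟩
  obtain ⟨χ, h8⟩ := h.endo (ι ∘ₗ η.codRestrict G fun a => h3 ⟨a, rfl⟩)
  have h9 : χ ∘ₗ G.subtype = ι := ((h.good h3 h4 h5 h6).ess h.d).unique h.posC h8
  refine ⟨χ, h.endo_unique ?_⟩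
  rw [← h9] at h7
  exact h7

end RD.LocAux

theorem RD.exists_loc {O : Type u} [Ring O] (R : RD O) {A : Type u} [AddCommGroup A] [Module O A]
    (hC : R.C A) (hr : R.r A = 1) (hd : R.d A = 1) (htf : R.TF A) :
    ∃ (P : Type u) (_ : AddCommGroup P) (_ : Module O P) (η : A →ₗ[O] P), R.Loc η := by
  have hp : R.Pos A := by
    intro N hN
    have h1 := RD.top hC
    have h2 := RD.r_mono (RD.C_sub hC ⊤) (le_top : N ≤ ⊤)
    have h3 := R.r_nonneg _ (RD.C_sub hC N)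
    have h4 : R.r N ≠ 0 := fun e => hN (htf N e)
    have h5 := RD.d_le_of_r_eq (RD.C_sub hC ⊤) (le_top : N ≤ ⊤) (by omega)
    omega
  obtain ⟨P, _, _, η, h1, h2, h3⟩ := RD.LocAux.exists_pre hC hp hd
  have h : RD.LocAux.Pre R η := ⟨hp, hd, h1, h2, h3⟩
  refine ⟨P, inferInstance, inferInstance, η, h1, h2, fun X' _ _ X hX hS g =>
    h.ext (RD.LocAux.ess_subtype X hX hS) g, fun φ => ?_, fun ψ hψ => ?_⟩
  · exact existsUnique_of_exists_of_unique (h.endo φ) fun ψ ψ' e e' =>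
      h.endo_unique (e.trans e'.symm)
  · obtain ⟨χ, h4⟩ := h.left_inv hC hr htf hψ
    have h5 : χ ≠ 0 := by
      rintro rfl
      exact hψ (by rw [← mul_one ψ, ← h4, zero_mul, mul_zero])
    obtain ⟨χ', h6⟩ := h.left_inv hC hr htf h5
    have h7 : χ' = ψ := by rw [← mul_one χ', ← h4, ← mul_assoc, h6, one_mul]
    exact ⟨⟨ψ, χ, h7 ▸ h6, h4⟩, rfl⟩

end Vale.Agent.EGH
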