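import Vale.Agent.EGH.Defs

/-! Abstract rank and defect functions, and graded modules as modules over one ring. -/

namespace Vale.Agent.EGH

open Module MvPolynomial Filter

universe u

/-- A class of noetherian modules with additive integer valued rank and defect. -/
structure RD (O : Type u) [Ring O] where
  /-- the class of modules -/
  C : ∀ (V : Type u) [AddCommGroup V] [Module O V], Prop
  /-- the rank -/
  r : ∀ (V : Type u) [AddCommGroup V] [Module O V], ℤ
  /-- the defect -/
  d : ∀ (V : Type u) [AddCommGroup V] [Module O V], ℤ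
  noeth : ∀ (V : Type u) [AddCommGroup V] [Module O V], C V → IsNoetherian O V
  C_inj : ∀ (V' V : Type u) [AddCommGroup V'] [Module O V'] [AddCommGroup V] [Module O V]
    (f : V' →ₗ[O] V), Function.Injective f → C V → C V'
  C_surj : ∀ (V V' : Type u) [AddCommGroup V] [Module O V] [AddCommGroup V'] [Module O V']
    (f : V →ₗ[O] V'), Function.Surjective f → C V → C V'
  C_prod : ∀ (V V' : Type u) [AddCommGroup V] [Module O V] [AddCommGroup V'] [Module O V'],
    C V → C V' → C (V × V')
  add : ∀ (V' V V'' : Type u) [AddCommGroup V'] [Module O V'] [AddCommGroup V] [Module O V]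
    [AddCommGroup V''] [Module O V''] (f : V' →ₗ[O] V) (g : V →ₗ[O] V''),
    Function.Injective f → Function.Surjective g → Function.Exact f g → C V →
      r V = r V' + r V'' ∧ d V = d V' + d V''
  r_nonneg : ∀ (V : Type u) [AddCommGroup V] [Module O V], C V → 0 ≤ r V
  d_nonpos : ∀ (V : Type u) [AddCommGroup V] [Module O V], C V → r V = 0 → d V ≤ 0

namespace RD

variable {O : Type u} [Ring O] (R : RD O)

/-- Semistable modules of defect zero. -/
def SS (V : Type u) [AddCommGroup V] [Module O V] : Prop :=
  R.C V ∧ R.d V = 0 ∧ ∀ N : Submodule O V, 0 ≤ R.d N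

/-- All nonzero submodules have positive rank. -/
def TF (V : Type u) [AddCommGroup V] [Module O V] : Prop :=
  ∀ N : Submodule O V, R.r N = 0 → N = ⊥

/-- All nonzero submodules have positive defect. -/
def Pos (V : Type u) [AddCommGroup V] [Module O V] : Prop :=
  ∀ N : Submodule O V, N ≠ ⊥ → 0 < R.d N

/-- The properties of the localization `η : A → P`. -/
structure Loc {A P : Type u} [AddCommGroup A] [Module O A] [AddCommGroup P] [Module O P]
    (η : A →ₗ[O] P) : Prop where
  inj : Function.Injective η
  cover : ∀ s : Set P, s.Finite → ∃ G : Submodule O P, s ⊆ G ∧ LinearMap.range η ≤ G ∧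
    R.C G ∧ R.d G = 1 ∧ R.Pos G
  ext : ∀ (X' : Type u) [AddCommGroup X'] [Module O X'] (X : Submodule O X'), R.C X' →
    R.SS (X' ⧸ X) → ∀ g : X →ₗ[O] P, ∃! g' : X' →ₗ[O] P, g' ∘ₗ X.subtype = g
  endo : ∀ φ : A →ₗ[O] P, ∃! ψ : Module.End O P, ψ ∘ₗ η = φ
  unit : ∀ ψ : Module.End O P, ψ ≠ 0 → IsUnit ψ

end RD

/-- The monoid generated by commuting variables and free symbols for the projections. -/
abbrev Mo (ς : Type) : Type := Monoid.Coprod (Multiplicative (ς →₀ ℕ)) (FreeMonoid ℤ)

/-- The ring of operators on graded modules. -/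
abbrev Oo (D : Type u) [Ring D] (ς : Type) : Type u := MonoidAlgebra D (Mo ς)

section Ops

variable {Z : Type u} [Field Z] {D : Type u} [DivisionRing D] [Algebra Z D] {ς : Type}

variable (D ς) in
/-- The scalars as operators. -/
noncomputable def jD : D →+* Oo D ς := MonoidAlgebra.singleOneRingHom

variable (Z D ς) in
/-- The polynomials as operators. -/
noncomputable def th0 : MvPolynomial ς Z →ₐ[Z] Oo D ς :=
  AddMonoidAlgebra.lift Z (Oo D ς) (ς →₀ ℕ) ((MonoidAlgebra.of D (Mo ς)).comp Monoid.Coprod.inl)

variable (D ς) in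
/-- The projection to degree `j` as an operator. -/
noncomputable def pr (j : ℤ) : Oo D ς :=
  MonoidAlgebra.of D (Mo ς) (Monoid.Coprod.inr (FreeMonoid.of j))

theorem jD_commute_of (d : D) (x : Mo ς) : Commute (jD D ς d) (MonoidAlgebra.of D (Mo ς) x) := by
  simp [Commute, SemiconjBy, jD, MonoidAlgebra.single_mul_single]

theorem jD_commute_pr (d : D) (j : ℤ) : Commute (jD D ς d) (pr D ς j) := jD_commute_of d _

theorem th0_C (z : Z) : th0 Z D ς (C z) = jD D ς (algebraMap Z D z) := by
  rw [← MvPolynomial.algebraMap_eq, AlgHom.commutes]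
  rfl

theorem th0_monomial (α : ς →₀ ℕ) : th0 Z D ς (monomial α 1) =
    MonoidAlgebra.of D (Mo ς) (Monoid.Coprod.inl (Multiplicative.ofAdd α)) := by
  rw [th0, ← MvPolynomial.single_eq_monomial, AddMonoidAlgebra.lift_single, one_smul]
  rfl

theorem jD_commute_th0 (d : D) (p : MvPolynomial ς Z) : Commute (jD D ς d) (th0 Z D ς p) := by
  induction p using MvPolynomial.induction_on' with
  | monomial α z =>
    rw [← mul_one z, ← C_mul_monomial, map_mul, th0_C, th0_monomial]
    refine Commute.mul_right ?_ (jD_commute_of d _)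
    exact (show Commute d (algebraMap Z D z) from (Algebra.commutes z d).symm).map _
  | add p q hp hq => rw [map_add]; exact hp.add_right hq

variable (D ς) in
/-- The underlying `D`-module of a module over the ring of operators. -/
def Und (V : Type u) [AddCommGroup V] [Module (Oo D ς) V] : Type u := V

variable {V : Type u} [AddCommGroup V] [Module (Oo D ς) V]

instance : AddCommGroup (Und D ς V) := inferInstanceAs (AddCommGroup V)
instance : Module (Oo D ς) (Und D ς V) := inferInstanceAs (Module (Oo D ς) V)
noncomputable instance : Module D (Und D ς V) := Module.compHom V (jD D ς)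

/-- The identity map from the underlying `D`-module. -/
def Und.out (v : Und D ς V) : V := v

variable (D ς) in
/-- The identity map to the underlying `D`-module. -/
def Und.mk (v : V) : Und D ς V := v

theorem Und.smul_def (d : D) (v : Und D ς V) : d • v = jD D ς d • v := rfl

variable (Z D ς V) in
/-- The action of the polynomial ring on the underlying `D`-module. -/
noncomputable def thV : MvPolynomial ς Z →+* Module.End D (Und D ς V) :=
  actHom (th0 Z D ς).toRingHom (Und D ς V) fun p d v => by
    rw [Und.smul_def, Und.smul_def, ← mul_smul, ← mul_smul]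
    exact congrArg (· • v) (jD_commute_th0 d p).eq.symm

variable (D ς V) in
/-- The homogeneous elements of degree `i`. -/
def piece (i : ℤ) : Submodule D (Und D ς V) where
  carrier := {v | pr D ς i • v = v}
  add_mem' := fun {x y} hx hy => by
    change pr D ς i • (x + y) = x + y
    rw [smul_add, show pr D ς i • x = x from hx, show pr D ς i • y = y from hy]
  zero_mem' := smul_zero _
  smul_mem' := fun d x hx => by
    change pr D ς i • d • x = d • x
    rw [Und.smul_def, ← mul_smul, ← (jD_commute_pr d i).eq, mul_smul,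
      show pr D ς i • x = x from hx]

variable (D ς V) in
/-- The Hilbert function of a graded module. -/
noncomputable def hfO : ℤ → ℤ := hf (piece D ς V)

end Ops

section Gr

variable {Z : Type u} [Field Z] (D : Type u) [DivisionRing D] [Algebra Z D] (N : Node Z)

/-- `V` is a graded module over the coordinate ring of the node. -/
structure Gr (V : Type u) [AddCommGroup V] [Module (Oo D N.Var) V] : Prop where
  fin : ∀ v : V, ∃ s : Finset ℤ, (∀ j ∉ s, pr D N.Var j • v = 0) ∧ ∑ j ∈ s, pr D N.Var j • v = v
  same : ∀ (j : ℤ) (v : V), pr D N.Var j • pr D N.Var j • v = pr D N.Var j • v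
  orth : ∀ (i j : ℤ) (v : V), i ≠ j → pr D N.Var i • pr D N.Var j • v = 0
  var : ∀ (j : ℤ) (x : N.Var) (v : V),
    pr D N.Var (j + 1) • th0 Z D N.Var (X x) • v = th0 Z D N.Var (X x) • pr D N.Var j • v
  eqn : ∀ (w : N.W) (v : V), th0 Z D N.Var (N.eqn w) • v = 0

variable {D N}

/-- `R` is given by the Hilbert polynomials of finitely generated graded modules. -/
structure IsRD (R : RD (Oo D N.Var)) (c k0 : ℤ) : Prop where
  C_iff : ∀ (V : Type u) [AddCommGroup V] [Module (Oo D N.Var) V],
    R.C V ↔ Gr D N V ∧ Module.Finite (Oo D N.Var) V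
  fd : ∀ (V : Type u) [AddCommGroup V] [Module (Oo D N.Var) V], R.C V →
    ∀ i, FiniteDimensional D (piece D N.Var V i)
  aff : ∀ (V : Type u) [AddCommGroup V] [Module (Oo D N.Var) V], R.C V →
    Aff N.deg c (hfO D N.Var V) (R.r V) (R.r V * k0 - R.d V)

variable (D N) in
/-- The monomial `y₀ ^ i * y₁ ^ (j - i)` as an operator. -/
noncomputable def ym (j i : ℕ) : Oo D N.Var :=
  th0 Z D N.Var (X (Sum.inl 0) ^ i * X (Sum.inl 1) ^ (j - i))

/-- The structure sheaf `A` with generator `o` and its properties. -/
structure Ctx (R : RD (Oo D N.Var)) {A : Type u} [AddCommGroup A] [Module (Oo D N.Var) A]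
    (o : A) : Prop where
  CA : R.C A
  rA : R.r A = 1
  dA : R.d A = 1
  tf : R.TF A
  deg0 : pr D N.Var 0 • o = o
  span : Submodule.span (Oo D N.Var) {o} = ⊤
  cyc : ∀ (V : Type u) [AddCommGroup V] [Module (Oo D N.Var) V], R.C V → R.TF V →
    ∀ (j : ℤ) (p : V), pr D N.Var j • p = p → p ≠ 0 →
      R.r (Submodule.span (Oo D N.Var) {p}) = 1 ∧
        R.d (Submodule.span (Oo D N.Var) {p}) = 1 + j
  ann : ∀ (V : Type u) [AddCommGroup V] [Module (Oo D N.Var) V]
    (V' : Type u) [AddCommGroup V'] [Module (Oo D N.Var) V'], R.C V → R.TF V → R.C V' → R.TF V' →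
    ∀ (j : ℤ) (p : V) (p' : V'), pr D N.Var j • p = p → pr D N.Var j • p' = p' → p ≠ 0 →
      ∀ x : Oo D N.Var, x • p = 0 → x • p' = 0
  vne : ∀ j : ℕ, (fun i : Fin (j + 1) => ym D N j i • o) ≠ 0
  tfpi : ∀ j : ℕ, R.C (Fin j → A) ∧ R.TF (Fin j → A)
  ss : ∀ j : ℕ, R.SS ((Fin (j + 1) → A) ⧸
    Submodule.span (Oo D N.Var) {fun i : Fin (j + 1) => ym D N j i • o})

end Gr

end Vale.Agent.EGH
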