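import Vale.Agent.EGH.GrBasic
import Vale.Agent.EGH.RDBasic
import Vale.Agent.EGH.NodeBasic

/-! Evaluation of polynomials over a ring of endomorphisms at a homogeneous element. -/

namespace Vale.Agent.EGH

open Module MvPolynomial Filter

universe u

namespace PsiC

section Deg

variable {E : Type*} [Ring E] {i : ℤ} {f g : Polynomial E}

theorem eq_zero_of_neg (hi : i < 0) (hf : DegLE i f) : f = 0 :=
  Polynomial.ext fun k => by
    rw [Polynomial.coeff_zero]
    exact hf k (by omega)

theorem deg_zero (i : ℤ) : DegLE i (0 : Polynomial E) := fun _ _ => Polynomial.coeff_zero _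

theorem deg_add (hf : DegLE i f) (hg : DegLE i g) : DegLE i (f + g) := fun k hk => by
  rw [Polynomial.coeff_add, hf k hk, hg k hk, add_zero]

theorem deg_sub (hf : DegLE i f) (hg : DegLE i g) : DegLE i (f - g) := fun k hk => by
  rw [Polynomial.coeff_sub, hf k hk, hg k hk, sub_zero]

theorem deg_C_mul (e : E) (hf : DegLE i f) : DegLE i (Polynomial.C e * f) := fun k hk => by
  rw [Polynomial.coeff_C_mul, hf k hk, mul_zero]

theorem deg_succ (hf : DegLE i f) : DegLE (i + 1) f := fun k hk => hf k (by omega)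

theorem deg_X_mul (hf : DegLE i f) : DegLE (i + 1) (Polynomial.X * f) := fun k hk => by
  cases k with
  | zero => exact Polynomial.coeff_X_mul_zero f
  | succ k =>
    rw [Polynomial.coeff_X_mul]
    exact hf k (by omega)

theorem deg_C (e : E) : DegLE 0 (Polynomial.C e) := fun k hk => by
  rw [Polynomial.coeff_C, if_neg (by omega)]

theorem deg_one : DegLE 0 (1 : Polynomial E) := by
  rw [← Polynomial.C_1]
  exact deg_C 1

theorem deg_lin_mul (a b : E) (hf : DegLE i f) :
    DegLE (i + 1) ((Polynomial.C a * Polynomial.X + Polynomial.C b) * f) := by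
  rw [add_mul, mul_assoc]
  exact deg_add (deg_C_mul a (deg_X_mul hf)) (deg_succ (deg_C_mul b hf))

end Deg

variable {Z : Type u} [Field Z] {D : Type u} [DivisionRing D] [Algebra Z D] {N : Node Z}

theorem ym_zero : ym D N 0 0 = 1 := by
  simp [ym]

theorem ym_succ_succ (j k : ℕ) :
    ym D N (j + 1) (k + 1) = ym D N j k * th0 Z D N.Var (X (Sum.inl 0)) := by
  rw [ym, ym, ← map_mul, Nat.add_sub_add_right]
  exact congrArg _ (by ring)

theorem ym_succ {j k : ℕ} (h : k ≤ j) :
    ym D N (j + 1) k = ym D N j k * th0 Z D N.Var (X (Sum.inl 1)) := by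
  rw [ym, ym, ← map_mul, Nat.sub_add_comm h]
  exact congrArg _ (by ring)

theorem ym_comm (j k : ℕ) (p : MvPolynomial N.Var Z) :
    ym D N j k * th0 Z D N.Var p = th0 Z D N.Var p * ym D N j k := by
  rw [ym, ← map_mul, ← map_mul, mul_comm]

theorem ym_comm_jD (j k : ℕ) (d : D) :
    ym D N j k * jD D N.Var d = jD D N.Var d * ym D N j k :=
  (jD_commute_th0 d _).eq.symm

theorem pr_ym {V : Type u} [AddCommGroup V] [Module (Oo D N.Var) V] (h : Gr D N V) {j k : ℕ}
    (hk : k ≤ j) {v : V} (hv : pr D N.Var 0 • v = v) :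
    pr D N.Var j • ym D N j k • v = ym D N j k • v := by
  have hp : (X (Sum.inl 0) ^ k * X (Sum.inl 1) ^ (j - k) : MvPolynomial N.Var Z).IsHomogeneous
      j := by
    have := ((isHomogeneous_X Z (Sum.inl 0 : N.Var)).pow k).mul
      ((isHomogeneous_X Z (Sum.inl 1 : N.Var)).pow (j - k))
    rwa [one_mul, one_mul, Nat.add_sub_cancel' hk] at this
  have := h.pr_th0 hp 0 v
  rwa [zero_add, hv] at this

section Ev

variable {P : Type u} [AddCommGroup P] [Module (Oo D N.Var) P] {E : Type u} [Ring E]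
variable (u : E →+* (Module.End (Oo D N.Var) P)ᵐᵒᵖ)

/-- The value of a polynomial of formal degree `j` at `y`. -/
noncomputable def ev (j : ℕ) (y : P) (f : Polynomial E) : P :=
  ∑ k ∈ Finset.range (j + 1), (u (f.coeff k)).unop (ym D N j k • y)

theorem ev_add (j : ℕ) (y : P) (f g : Polynomial E) :
    ev u j y (f + g) = ev u j y f + ev u j y g := by
  simp only [ev, Polynomial.coeff_add, map_add, MulOpposite.unop_add, LinearMap.add_apply,
    Finset.sum_add_distrib]

theorem ev_sub (j : ℕ) (y : P) (f g : Polynomial E) :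
    ev u j y (f - g) = ev u j y f - ev u j y g := by
  simp only [ev, Polynomial.coeff_sub, map_sub, MulOpposite.unop_sub, LinearMap.sub_apply,
    Finset.sum_sub_distrib]

theorem ev_zero (j : ℕ) (y : P) : ev u j y 0 = 0 := by
  simp only [ev, Polynomial.coeff_zero, map_zero, MulOpposite.unop_zero, LinearMap.zero_apply,
    Finset.sum_const_zero]

theorem ev_add_pt (j : ℕ) (y y' : P) (f : Polynomial E) :
    ev u j (y + y') f = ev u j y f + ev u j y' f := by
  simp only [ev, smul_add, map_add, Finset.sum_add_distrib]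

theorem ev_smul_pt (j : ℕ) (y : P) (f : Polynomial E) {c : Oo D N.Var}
    (hc : ∀ k, ym D N j k * c = c * ym D N j k) : ev u j (c • y) f = c • ev u j y f := by
  simp only [ev, Finset.smul_sum]
  refine Finset.sum_congr rfl fun k _ => ?_
  rw [← mul_smul, hc, mul_smul, map_smul]

theorem ev_th0 (j : ℕ) (y : P) (f : Polynomial E) (p : MvPolynomial N.Var Z) :
    ev u j (th0 Z D N.Var p • y) f = th0 Z D N.Var p • ev u j y f :=
  ev_smul_pt u j y f fun k => ym_comm j k p

theorem ev_jD (j : ℕ) (y : P) (f : Polynomial E) (d : D) :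
    ev u j (jD D N.Var d • y) f = jD D N.Var d • ev u j y f :=
  ev_smul_pt u j y f fun k => ym_comm_jD j k d

theorem ev_C_mul (j : ℕ) (y : P) (e : E) (f : Polynomial E) :
    ev u j y (Polynomial.C e * f) = ev u j ((u e).unop y) f := by
  simp only [ev]
  refine Finset.sum_congr rfl fun k _ => ?_
  rw [Polynomial.coeff_C_mul, map_mul, MulOpposite.unop_mul, Module.End.mul_apply, map_smul]

theorem ev_X_mul (j : ℕ) (y : P) (f : Polynomial E) :
    ev u (j + 1) y (Polynomial.X * f) = ev u j (th0 Z D N.Var (X (Sum.inl 0)) • y) f := by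
  rw [ev, Finset.sum_range_succ', Polynomial.coeff_X_mul_zero, map_zero, MulOpposite.unop_zero,
    LinearMap.zero_apply, add_zero, ev]
  refine Finset.sum_congr rfl fun k _ => ?_
  rw [Polynomial.coeff_X_mul, ym_succ_succ, mul_smul]

theorem ev_succ (j : ℕ) (y : P) {f : Polynomial E} (hf : DegLE j f) :
    ev u (j + 1) y f = ev u j (th0 Z D N.Var (X (Sum.inl 1)) • y) f := by
  rw [ev, Finset.sum_range_succ, hf (j + 1) (by omega), map_zero, MulOpposite.unop_zero,
    LinearMap.zero_apply, add_zero, ev]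
  refine Finset.sum_congr rfl fun k hk => ?_
  rw [ym_succ (Nat.lt_succ_iff.1 (Finset.mem_range.1 hk)), mul_smul]

theorem ev_C (y : P) (e : E) : ev u 0 y (Polynomial.C e) = (u e).unop y := by
  rw [ev, Finset.sum_range_one, Polynomial.coeff_C_zero, ym_zero, one_smul]

theorem ev_one (y : P) : ev u 0 y 1 = y := by
  rw [← Polynomial.C_1, ev_C, map_one, MulOpposite.unop_one, Module.End.one_apply]

theorem ev_lin (y : P) (a b : E) : ev u 1 y (Polynomial.C a * Polynomial.X + Polynomial.C b) =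
    th0 Z D N.Var (X (Sum.inl 0)) • (u a).unop y + th0 Z D N.Var (X (Sum.inl 1)) • (u b).unop y := by
  rw [ev_add, ev_C_mul, ← mul_one Polynomial.X, ev_X_mul, ev_one, ev_succ u 0 y (deg_C b), ev_C,
    map_smul]

theorem ev_lin_mul (j : ℕ) (y : P) (a b : E) {f : Polynomial E} (hf : DegLE j f) :
    ev u (j + 1) y ((Polynomial.C a * Polynomial.X + Polynomial.C b) * f) =
      ev u j (ev u 1 y (Polynomial.C a * Polynomial.X + Polynomial.C b)) f := by
  rw [ev_lin, add_mul, mul_assoc, ev_add, ev_C_mul, ev_C_mul, ev_X_mul, ev_succ u j _ hf,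
    ev_add_pt]

theorem pr_ev (h : Gr D N P) (j : ℕ) {y : P} (hy : pr D N.Var 0 • y = y) (f : Polynomial E) :
    pr D N.Var j • ev u j y f = ev u j y f := by
  rw [ev, Finset.smul_sum]
  refine Finset.sum_congr rfl fun k hk => ?_
  rw [← map_smul, pr_ym h (Nat.lt_succ_iff.1 (Finset.mem_range.1 hk)) hy]

theorem eq_lin {f : Polynomial E} (hf : DegLE 1 f) :
    f = Polynomial.C (f.coeff 1) * Polynomial.X + Polynomial.C (f.coeff 0) := by
  ext k
  rcases k with _ | _ | k
  · simp
  · simp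
  · rw [hf _ (by omega)]
    simp

end Ev

section Loc

variable {R : RD (Oo D N.Var)} {c k0 : ℤ}
variable {A : Type u} [AddCommGroup A] [Module (Oo D N.Var) A] {o : A}
variable {P : Type u} [AddCommGroup P] [Module (Oo D N.Var) P] {η : A →ₗ[Oo D N.Var] P}

theorem gr_loc (hR : IsRD R c k0) (hη : R.Loc η) : Gr D N P := by
  refine Gr.of_cover fun v => ?_
  obtain ⟨G, h1, -, h3, -, -⟩ := hη.cover {v} (Set.finite_singleton v)
  exact ⟨G, h1 rfl, ((hR.C_iff G).1 h3).1⟩

theorem neg_piece (hc : Ctx R o) (hη : R.Loc η) {j : ℤ} (hj : j < 0) {p : P}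
    (hp : pr D N.Var j • p = p) : p = 0 := by
  obtain ⟨G, h1, -, h3, -, h5⟩ := hη.cover {p} (Set.finite_singleton p)
  have hpG : p ∈ G := h1 rfl
  by_contra h0
  have h0' : (⟨p, hpG⟩ : G) ≠ 0 := fun h => h0 (congrArg Subtype.val h)
  have h6 := (hc.cyc G h3 (h5.tf h3) j ⟨p, hpG⟩ (Subtype.ext hp) h0').2
  have h7 := h5 (Submodule.span (Oo D N.Var) {(⟨p, hpG⟩ : G)})
    (by rwa [Ne, Submodule.span_singleton_eq_bot])
  omega

theorem endo_ext (hc : Ctx R o) (hη : R.Loc η) {ψ ψ' : Module.End (Oo D N.Var) P}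
    (h : ψ (η o) = ψ' (η o)) : ψ = ψ' := by
  obtain ⟨χ, -, hχ⟩ := hη.endo (ψ' ∘ₗ η)
  refine (hχ ψ ?_).trans (hχ ψ' rfl).symm
  exact LinearMap.ext_on hc.span fun a ha => by rw [ha]; exact h

theorem eta_ne (hc : Ctx R o) (hη : R.Loc η) : η o ≠ 0 := by
  intro h
  have ho : o = 0 := hη.inj (by rw [h, map_zero])
  have : Subsingleton A := by
    have h1 := hc.span
    rw [ho, Submodule.span_zero_singleton] at h1
    exact Submodule.subsingleton_iff (Oo D N.Var) |>.1 (subsingleton_of_bot_eq_top h1)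
  have h2 := (RD.of_subsingleton hc.CA).1
  have h3 := hc.rA
  omega

theorem tuple_inj (hc : Ctx R o) (hη : R.Loc η) (j : ℕ)
    (φ : Fin (j + 1) → Module.End (Oo D N.Var) P)
    (h : ∑ i, φ i (ym D N j i • η o) = 0) (i : Fin (j + 1)) : φ i = 0 := by
  classical
  obtain ⟨g', -, hg⟩ := hη.ext (Fin (j + 1) → A) _ (hc.tfpi (j + 1)).1 (hc.ss j) 0
  have h1 : (∑ i, (φ i ∘ₗ η) ∘ₗ LinearMap.proj i : (Fin (j + 1) → A) →ₗ[Oo D N.Var] P) = 0 := by
    refine (hg _ ?_).trans (hg 0 (LinearMap.zero_comp _)).symm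
    refine LinearMap.ext fun v => ?_
    obtain ⟨v, hv⟩ := v
    obtain ⟨a, rfl⟩ := Submodule.mem_span_singleton.1 hv
    rw [LinearMap.comp_apply, Submodule.subtype_apply, map_smul, LinearMap.zero_apply,
      LinearMap.sum_apply]
    simp only [LinearMap.comp_apply, LinearMap.proj_apply, map_smul] at h ⊢
    rw [h, smul_zero]
  refine endo_ext hc hη ?_
  have h2 := LinearMap.congr_fun h1 (Pi.single i o)
  rw [LinearMap.sum_apply, Finset.sum_eq_single i] at h2
  · simpa using h2
  · intro b _ hb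
    simp [Pi.single_eq_of_ne hb]
  · intro hi
    exact absurd (Finset.mem_univ i) hi

theorem tuple_surj (hR : IsRD R c k0) (hc : Ctx R o) (hη : R.Loc η) (j : ℕ) {p : P}
    (hp : pr D N.Var j • p = p) : ∃ φ : Fin (j + 1) → Module.End (Oo D N.Var) P,
      ∑ i, φ i (ym D N j i • η o) = p := by
  classical
  obtain ⟨G, h1, -, h3, -, h5⟩ := hη.cover {p} (Set.finite_singleton p)
  have hpG : p ∈ G := h1 rfl
  have hv : pr D N.Var j • (fun i : Fin (j + 1) => ym D N j i • o) =
      fun i : Fin (j + 1) => ym D N j i • o :=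
    funext fun i => pr_ym ((hR.C_iff A).1 hc.CA).1 (Nat.lt_succ_iff.1 i.2) hc.deg0
  have hann := hc.ann (Fin (j + 1) → A) G (hc.tfpi (j + 1)).1 (hc.tfpi (j + 1)).2 h3 (h5.tf h3) j
    _ ⟨p, hpG⟩ hv (Subtype.ext hp) (hc.vne j)
  have hann' : ∀ x : Oo D N.Var, x • (fun i : Fin (j + 1) => ym D N j i • o) = 0 →
      (RingHom.id _) x • p = 0 := fun x hx => congrArg Subtype.val (hann x hx)
  obtain ⟨g', hg, -⟩ := hη.ext (Fin (j + 1) → A) _ (hc.tfpi (j + 1)).1 (hc.ss j)
    (LinearPMap.mkSpanSingleton' _ p hann').toFun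
  have h6 : g' (fun i : Fin (j + 1) => ym D N j i • o) = p :=
    (LinearMap.congr_fun hg ⟨_, Submodule.mem_span_singleton_self _⟩).trans
      (LinearPMap.mkSpanSingleton'_apply_self _ p hann' _)
  choose φ hφ using fun i : Fin (j + 1) =>
    (hη.endo (g' ∘ₗ LinearMap.single (Oo D N.Var) (fun _ : Fin (j + 1) => A) i)).exists
  refine ⟨φ, ?_⟩
  rw [← h6, ← Finset.univ_sum_single (fun i : Fin (j + 1) => ym D N j i • o), map_sum]
  refine Finset.sum_congr rfl fun i _ => ?_
  rw [← map_smul]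
  exact LinearMap.congr_fun (hφ i) _

theorem exists_endo (hR : IsRD R c k0) (hc : Ctx R o) (hη : R.Loc η) {p : P}
    (hp : pr D N.Var 0 • p = p) : ∃ ψ : Module.End (Oo D N.Var) P, ψ (η o) = p := by
  obtain ⟨φ, hφ⟩ := tuple_surj hR hc hη 0 hp
  refine ⟨φ 0, ?_⟩
  rw [Fin.sum_univ_one] at hφ
  rw [← hφ]
  exact congrArg _ (by rw [Fin.val_zero, ym_zero, one_smul])

theorem pr_eta (hc : Ctx R o) (η : A →ₗ[Oo D N.Var] P) : pr D N.Var 0 • η o = η o := by
  rw [← map_smul, hc.deg0]

theorem ev_inj (hc : Ctx R o) (hη : R.Loc η) (j : ℕ)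
    {f : Polynomial (Module.End (Oo D N.Var) P)ᵐᵒᵖ} (hf : DegLE j f)
    (h : ev (RingHom.id _) j (η o) f = 0) : f = 0 := by
  rw [ev, Finset.sum_range] at h
  have h1 := tuple_inj hc hη j (fun i => (f.coeff i).unop) h
  ext k : 1
  rw [Polynomial.coeff_zero]
  by_cases hk : k < j + 1
  · exact MulOpposite.unop_eq_zero_iff _ |>.1 (h1 ⟨k, hk⟩)
  · exact hf k (by omega)

theorem ev_surj (hR : IsRD R c k0) (hc : Ctx R o) (hη : R.Loc η) (j : ℕ) {p : P}
    (hp : pr D N.Var j • p = p) : ∃ f : Polynomial (Module.End (Oo D N.Var) P)ᵐᵒᵖ,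
      DegLE j f ∧ ev (RingHom.id _) j (η o) f = p := by
  obtain ⟨φ, hφ⟩ := tuple_surj hR hc hη j hp
  have hco : ∀ k : ℕ, (∑ i : Fin (j + 1), Polynomial.monomial i (MulOpposite.op (φ i))).coeff k =
      if h : k < j + 1 then MulOpposite.op (φ ⟨k, h⟩) else 0 := by
    intro k
    rw [Polynomial.finsetSum_coeff]
    split_ifs with h
    · rw [Finset.sum_eq_single ⟨k, h⟩, Polynomial.coeff_monomial, if_pos rfl]
      · intro b _ hb
        rw [Polynomial.coeff_monomial, if_neg fun h' => hb (Fin.ext h')]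
      · intro hi
        exact absurd (Finset.mem_univ _) hi
    · refine Finset.sum_eq_zero fun b _ => ?_
      rw [Polynomial.coeff_monomial, if_neg fun h' : (b : ℕ) = k => h (h' ▸ b.2)]
  refine ⟨∑ i : Fin (j + 1), Polynomial.monomial i (MulOpposite.op (φ i)), fun k hk => ?_, ?_⟩
  · rw [hco, dif_neg (by omega)]
  · rw [ev, Finset.sum_range, ← hφ]
    refine Finset.sum_congr rfl fun i _ => ?_
    rw [hco, dif_pos i.2]
    rfl

theorem exists_iota (hR : IsRD R c k0) (hc : Ctx R o) (hη : R.Loc η) :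
    ∃ ι : D →+* (Module.End (Oo D N.Var) P)ᵐᵒᵖ, (∀ d, (ι d).unop (η o) = jD D N.Var d • η o) ∧
      ∀ z e, ι (algebraMap Z D z) * e = e * ι (algebraMap Z D z) := by
  have hd : ∀ d : D, pr D N.Var 0 • jD D N.Var d • η o = jD D N.Var d • η o := fun d => by
    rw [← mul_smul, ← (jD_commute_pr d 0).eq, mul_smul, pr_eta hc]
  choose ψ hψ using fun d : D => exists_endo hR hc hη (hd d)
  refine ⟨{ toFun := fun d => MulOpposite.op (ψ d)
            map_one' := ?_
            map_mul' := fun d e => ?_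
            map_zero' := ?_
            map_add' := fun d e => ?_ }, hψ, fun z e => ?_⟩
  · refine MulOpposite.unop_injective (endo_ext hc hη ?_)
    rw [MulOpposite.unop_op, hψ, map_one, one_smul, MulOpposite.unop_one, Module.End.one_apply]
  · refine MulOpposite.unop_injective (endo_ext hc hη ?_)
    rw [MulOpposite.unop_mul, MulOpposite.unop_op, MulOpposite.unop_op, MulOpposite.unop_op,
      Module.End.mul_apply, hψ, hψ, map_smul, hψ, map_mul, mul_smul]
  · refine MulOpposite.unop_injective (endo_ext hc hη ?_)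
    rw [MulOpposite.unop_op, hψ, map_zero, MulOpposite.unop_zero, LinearMap.zero_apply]
    exact zero_smul (Oo D N.Var) (η o)
  · refine MulOpposite.unop_injective (endo_ext hc hη ?_)
    rw [MulOpposite.unop_add, MulOpposite.unop_op, MulOpposite.unop_op, MulOpposite.unop_op,
      LinearMap.add_apply, hψ, hψ, hψ, map_add, add_smul]
  · have hcen : ∀ a : Oo D N.Var,
        jD D N.Var (algebraMap Z D z) * a = a * jD D N.Var (algebraMap Z D z) := fun a => by
      rw [← th0_C, ← MvPolynomial.algebraMap_eq, AlgHom.commutes]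
      exact Algebra.commutes z a
    let μ : Module.End (Oo D N.Var) P :=
      { toFun := fun p => jD D N.Var (algebraMap Z D z) • p
        map_add' := fun p q => smul_add _ p q
        map_smul' := fun a p => by
          rw [RingHom.id_apply, ← mul_smul, ← mul_smul, hcen] }
    have hμ : ψ (algebraMap Z D z) = μ := endo_ext hc hη (hψ _)
    refine MulOpposite.unop_injective (LinearMap.ext fun p => ?_)
    change e.unop (ψ (algebraMap Z D z) p) = ψ (algebraMap Z D z) (e.unop p)
    rw [hμ]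
    exact map_smul e.unop _ p

end Loc

end PsiC

end Vale.Agent.EGH
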