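import Vale.Agent.EGH.GrBasic
import Vale.Agent.EGH.RDBasic
import Vale.Agent.EGH.NodeBasic
import Vale.Agent.EGH.PsiCAux

/-! The localization is a polynomial ring over a division ring. -/

namespace Vale.Agent.EGH

open Module MvPolynomial Filter

universe u

variable {Z : Type u} [Field Z] {D : Type u} [DivisionRing D] [Algebra Z D] {N : Node Z}

/-- `Ψ i` identifies the polynomials of degree at most `i` with the piece of degree `i`. -/
structure IsPsi (s : Step D N) {P : Type u} [AddCommGroup P] [Module (Oo D N.Var) P] (x : P)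
    (Ψ : ℤ → Polynomial s.D' →ₗ[D] Und D N.Var P) : Prop where
  mem : ∀ i f, Ψ i f ∈ piece D N.Var P i
  inj : ∀ i f, DegLE i f → Ψ i f = 0 → f = 0
  surj : ∀ i, ∀ p ∈ piece D N.Var P i, ∃ f, DegLE i f ∧ Ψ i f = p
  mul : ∀ i f v, DegLE i f → Ψ (i + 1) (s.ρ (X v) * f) = th0 Z D N.Var (X v) • Ψ i f
  one : Ψ 0 1 = x

theorem IsUl.degLE_mul {D' : Type*} [Ring D'] [Algebra Z D'] {α β : N.W → D'}
    {ρ : MvPolynomial N.Var Z →ₐ[Z] Polynomial D'} (h : IsUl N α β ρ) (v : N.Var) {i : ℤ}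
    {f : Polynomial D'} (hf : DegLE i f) : DegLE (i + 1) (ρ (X v) * f) := by
  rcases v with v | w
  · fin_cases v
    · rw [Fin.zero_eta, h.y0]
      exact PsiC.deg_X_mul hf
    · rw [Fin.mk_one, h.y1, one_mul]
      exact PsiC.deg_succ hf
  · rw [h.out]
    exact PsiC.deg_lin_mul _ _ hf

namespace PsiC

section Core

variable {P : Type u} [AddCommGroup P] [Module (Oo D N.Var) P] {E : Type u} [Ring E]
variable {u : E →+* (Module.End (Oo D N.Var) P)ᵐᵒᵖ} {x : P}

/-- The linear forms `y v` represent the multiplication by the variables. -/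
structure Rep (u : E →+* (Module.End (Oo D N.Var) P)ᵐᵒᵖ) (x : P) (y : N.Var → Polynomial E) :
    Prop where
  deg : ∀ v (i : ℤ) f, DegLE i f → DegLE (i + 1) (y v * f)
  mul : ∀ v (j : ℕ) f, DegLE j f →
    ev u (j + 1) x (y v * f) = th0 Z D N.Var (X v) • ev u j x f

theorem exists_rep (hgr : Gr D N P) (hx : pr D N.Var 0 • x = x)
    (hsurj : ∀ (j : ℕ) (p : P), pr D N.Var j • p = p → ∃ f, DegLE j f ∧ ev u j x f = p) :
    ∃ α β : N.W → E, Rep u x (Sum.elim ![Polynomial.X, 1]
      fun w => Polynomial.C (α w) * Polynomial.X + Polynomial.C (β w)) := by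
  have h1 : ∀ w : N.W, pr D N.Var (1 : ℕ) • th0 Z D N.Var (X (Sum.inr w)) • x =
      th0 Z D N.Var (X (Sum.inr w)) • x := fun w => by
    have := hgr.var 0 (Sum.inr w) x
    rwa [hx] at this
  choose g hg1 hg2 using fun w => hsurj 1 _ (h1 w)
  refine ⟨fun w => (g w).coeff 1, fun w => (g w).coeff 0, fun v i f hf => ?_,
    fun v j f hf => ?_⟩
  · rcases v with v | w
    · fin_cases v
      · exact deg_X_mul hf
      · change DegLE (i + 1) (1 * f)
        rw [one_mul]
        exact deg_succ hf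
    · exact deg_lin_mul _ _ hf
  · rcases v with v | w
    · fin_cases v
      · exact (ev_X_mul u j x f).trans (ev_th0 u j x f _)
      · change ev u (j + 1) x (1 * f) = _
        rw [one_mul]
        exact (ev_succ u j x hf).trans (ev_th0 u j x f _)
    · refine (ev_lin_mul u j x _ _ hf).trans ?_
      rw [← eq_lin (hg1 w), hg2, ev_th0]

variable {y : N.Var → Polynomial E}

theorem Rep.deg1 (h : Rep u x y) (v : N.Var) : DegLE (1 : ℕ) (y v) := by
  have := h.deg v 0 1 deg_one
  rwa [mul_one] at this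

theorem Rep.ev1 (h : Rep u x y) (v : N.Var) : ev u 1 x (y v) = th0 Z D N.Var (X v) • x := by
  have := h.mul v 0 1 deg_one
  rwa [mul_one, ev_one] at this

theorem Rep.commute (h : Rep u x y)
    (hinj : ∀ (j : ℕ) (f : Polynomial E), DegLE j f → ev u j x f = 0 → f = 0) (v v' : N.Var) :
    Commute (y v) (y v') := by
  refine sub_eq_zero.1 (hinj 2 _ (deg_sub (h.deg v _ _ (h.deg1 v')) (h.deg v' _ _ (h.deg1 v))) ?_)
  rw [ev_sub, h.mul v 1 _ (h.deg1 v'), h.mul v' 1 _ (h.deg1 v), h.ev1, h.ev1, ← mul_smul,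
    ← mul_smul, ← map_mul, ← map_mul, mul_comm, sub_self]

theorem Rep.commute_C (h : Rep u x y)
    (hinj : ∀ (j : ℕ) (f : Polynomial E), DegLE j f → ev u j x f = 0 → f = 0) {e : E} {d : D}
    (he : (u e).unop x = jD D N.Var d • x) (v : N.Var) : Commute (Polynomial.C e) (y v) := by
  refine sub_eq_zero.1 (hinj 1 _ (deg_sub (deg_C_mul e (h.deg1 v)) (h.deg v 0 _ (deg_C e))) ?_)
  rw [ev_sub, ev_C_mul, he, ev_jD, h.ev1, h.mul v 0 _ (deg_C e), ev_C, he, ← mul_smul,
    ← mul_smul, (jD_commute_th0 d _).eq, sub_self]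

theorem Rep.mono [Algebra Z E] (h : Rep u x y)
    (hz : ∀ z, (u (algebraMap Z E z)).unop x = jD D N.Var (algebraMap Z D z) • x)
    {ρ : MvPolynomial N.Var Z →ₐ[Z] Polynomial E} (hρ : ∀ v, ρ (X v) = y v) (z : Z) (k : ℕ) :
    ∀ m : N.Var →₀ ℕ, m.degree = k → DegLE k (ρ (monomial m z)) ∧
      ev u k x (ρ (monomial m z)) = th0 Z D N.Var (monomial m z) • x := by
  classical
  induction k with
  | zero =>
    intro m hm
    rw [(Finsupp.degree_eq_zero_iff m).1 hm, monomial_zero', th0_C, ← MvPolynomial.algebraMap_eq,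
      AlgHom.commutes, Polynomial.algebraMap_apply, ev_C]
    exact ⟨deg_C _, hz z⟩
  | succ k ih =>
    intro m hm
    have hm0 : m ≠ 0 := by
      rintro rfl
      simp at hm
    obtain ⟨v, hv⟩ := Finsupp.ne_iff.1 hm0
    have h1 : Finsupp.single v 1 ≤ m := Finsupp.single_le_iff.2 (Nat.one_le_iff_ne_zero.2 hv)
    obtain ⟨m', rfl⟩ := exists_add_of_le h1
    rw [map_add, Finsupp.degree_single] at hm
    obtain ⟨h2, h3⟩ := ih m' (by omega)
    have h4 : (monomial (Finsupp.single v 1 + m') z : MvPolynomial N.Var Z) =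
        X v * monomial m' z := by
      rw [X, monomial_mul, one_mul]
    rw [h4, map_mul, map_mul, hρ, h.mul v k _ h2, h3, mul_smul]
    exact ⟨h.deg v k _ h2, rfl⟩

theorem Rep.homog [Algebra Z E] (h : Rep u x y)
    (hz : ∀ z, (u (algebraMap Z E z)).unop x = jD D N.Var (algebraMap Z D z) • x)
    {ρ : MvPolynomial N.Var Z →ₐ[Z] Polynomial E} (hρ : ∀ v, ρ (X v) = y v) {k : ℕ}
    {p : MvPolynomial N.Var Z} (hp : p.IsHomogeneous k) :
    DegLE k (ρ p) ∧ ev u k x (ρ p) = th0 Z D N.Var p • x := by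
  have key : ∀ s : Finset (N.Var →₀ ℕ), (∀ m ∈ s, m.degree = k) →
      DegLE k (ρ (∑ m ∈ s, MvPolynomial.monomial m (coeff m p))) ∧
      ev u k x (ρ (∑ m ∈ s, MvPolynomial.monomial m (coeff m p))) =
        th0 Z D N.Var (∑ m ∈ s, MvPolynomial.monomial m (coeff m p)) • x := by
    classical
    intro s
    induction s using Finset.induction_on with
    | empty =>
      intro _
      rw [Finset.sum_empty, map_zero, map_zero, ev_zero]
      exact ⟨deg_zero _, (zero_smul (Oo D N.Var) x).symm⟩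
    | insert m s hm ih =>
      intro hs
      obtain ⟨h1, h2⟩ := ih fun m' hm' => hs m' (Finset.mem_insert_of_mem hm')
      obtain ⟨h3, h4⟩ := h.mono hz hρ (coeff m p) k m (hs m (Finset.mem_insert_self m s))
      rw [Finset.sum_insert hm, map_add, map_add, ev_add, h2, h4, add_smul]
      exact ⟨deg_add h3 h1, rfl⟩
  have := key p.support fun m hm => by
    rw [Finsupp.degree_eq_weight_one]
    exact hp (mem_support_iff.1 hm)
  rwa [← as_sum] at this

end Core

theorem core' (s : Step D N) {P : Type u} [AddCommGroup P] [Module (Oo D N.Var) P]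
    (u : s.D' →+* (Module.End (Oo D N.Var) P)ᵐᵒᵖ) {x : P}
    (hι : ∀ d, (u (s.ι d)).unop x = jD D N.Var d • x) (hgr : Gr D N P)
    (hx : pr D N.Var 0 • x = x) (hneg : ∀ j < 0, ∀ p : P, pr D N.Var j • p = p → p = 0)
    (hinj : ∀ (j : ℕ) (f : Polynomial s.D'), DegLE j f → ev u j x f = 0 → f = 0)
    (hsurj : ∀ (j : ℕ) (p : P), pr D N.Var j • p = p → ∃ f, DegLE j f ∧ ev u j x f = p)
    (h : Rep u x fun v => s.ρ (X v)) :
    ∃ Ψ : ℤ → Polynomial s.D' →ₗ[D] Und D N.Var P, IsPsi s x Ψ := by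
  let Φ : ℕ → Polynomial s.D' →ₗ[D] Und D N.Var P := fun j =>
    { toFun := fun f => Und.mk D N.Var (ev u j x f)
      map_add' := fun f g => ev_add u j x f g
      map_smul' := fun d f => by
        rw [s.smul_poly]
        refine (ev_C_mul u j x (s.ι d) f).trans ?_
        rw [hι, ev_jD]
        rfl }
  have hpos : ∀ j : ℕ, (if 0 ≤ (j : ℤ) then Φ (j : ℤ).toNat else 0) = Φ j := fun j => by
    rw [if_pos (Int.natCast_nonneg j), Int.toNat_natCast]
  refine ⟨fun i => if 0 ≤ i then Φ i.toNat else 0, fun i f => ?_, fun i f hf h0 => ?_,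
    fun i p hp => ?_, fun i f v hf => ?_, ?_⟩
  · rcases lt_or_ge i 0 with hi | hi
    · rw [if_neg (not_le.2 hi)]
      exact Submodule.zero_mem _
    · lift i to ℕ using hi
      rw [hpos]
      exact pr_ev u hgr i hx f
  · rcases lt_or_ge i 0 with hi | hi
    · exact eq_zero_of_neg hi hf
    · lift i to ℕ using hi
      rw [hpos] at h0
      exact hinj i f hf h0
  · rcases lt_or_ge i 0 with hi | hi
    · exact ⟨0, deg_zero _, (map_zero _).trans (hneg i hi p hp).symm⟩
    · lift i to ℕ using hi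
      rw [hpos]
      exact hsurj i p hp
  · rcases lt_or_ge i 0 with hi | hi
    · rw [eq_zero_of_neg hi hf, mul_zero, map_zero, map_zero, smul_zero]
    · lift i to ℕ using hi
      have h1 := hpos (i + 1)
      rw [Nat.cast_succ] at h1
      rw [h1, hpos]
      exact h.mul v i f hf
  · exact (LinearMap.congr_fun (hpos 0) 1).trans (ev_one u x)

theorem core (hN : N.OK) {P : Type u} [AddCommGroup P] [Module (Oo D N.Var) P] {E : Type u}
    [DivisionRing E] [Algebra Z E] (u : E →+* (Module.End (Oo D N.Var) P)ᵐᵒᵖ) {x : P}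
    (ι : D →ₐ[Z] E) (hι : ∀ d, (u (ι d)).unop x = jD D N.Var d • x) (hgr : Gr D N P)
    (hx : pr D N.Var 0 • x = x) (hneg : ∀ j < 0, ∀ p : P, pr D N.Var j • p = p → p = 0)
    (hinj : ∀ (j : ℕ) (f : Polynomial E), DegLE j f → ev u j x f = 0 → f = 0)
    (hsurj : ∀ (j : ℕ) (p : P), pr D N.Var j • p = p → ∃ f, DegLE j f ∧ ev u j x f = p) :
    ∃ (s : Step D N) (Ψ : ℤ → Polynomial s.D' →ₗ[D] Und D N.Var P), IsPsi s x Ψ := by
  obtain ⟨α, β, h⟩ := exists_rep hgr hx hsurj
  obtain ⟨ρ, hρ⟩ := exists_algHom_of_commute (Z := Z) _ (h.commute hinj)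
  have hz : ∀ z, (u (algebraMap Z E z)).unop x = jD D N.Var (algebraMap Z D z) • x := fun z => by
    rw [← ι.commutes, hι]
  have hC : ∀ d v, Commute (Polynomial.C (ι d)) (ρ (X v)) := fun d v => by
    rw [hρ]
    exact h.commute_C hinj (hι d) v
  have hul : IsUl N α β ρ := by
    refine ⟨hρ _, hρ _, fun w => hρ _, fun w => ?_⟩
    obtain ⟨h1, h2⟩ := h.homog hz hρ (hN.eqn_hom w)
    exact hinj _ _ h1 (h2.trans (hgr.eqn w x))
  have hco : ∀ d w k, ι d * (Polynomial.C (α w) * Polynomial.X + Polynomial.C (β w)).coeff k =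
      (Polynomial.C (α w) * Polynomial.X + Polynomial.C (β w)).coeff k * ι d := fun d w k => by
    rw [← Polynomial.coeff_C_mul, ← Polynomial.coeff_mul_C, ← hul.out, (hC d _).eq]
  have hα : ∀ d w, ι d * α w = α w * ι d := fun d w => by simpa using hco d w 1
  have hβ : ∀ d w, ι d * β w = β w * ι d := fun d w => by simpa using hco d w 0
  have hp : ∀ d p, Commute (Polynomial.C (ι d)) (ρ p) := fun d p => by
    induction p using MvPolynomial.induction_on with
    | C z =>
      rw [← MvPolynomial.algebraMap_eq, AlgHom.commutes]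
      exact (Algebra.commutes z _).symm
    | add p q hp hq =>
      rw [map_add]
      exact hp.add_right hq
    | mul_X p v hp =>
      rw [map_mul]
      exact hp.mul_right (hC d v)
  rw [← funext hρ] at h
  exact ⟨⟨E, ι, α, β, ρ, hul, hα, hβ, hp⟩, core' ⟨E, ι, α, β, ρ, hul, hα, hβ, hp⟩ u hι hgr hx
    hneg hinj hsurj h⟩

end PsiC

theorem exists_psi (hN : N.OK) {R : RD (Oo D N.Var)} {c k0 : ℤ} (hR : IsRD R c k0)
    {A : Type u} [AddCommGroup A] [Module (Oo D N.Var) A] {o : A} (hc : Ctx R o)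
    {P : Type u} [AddCommGroup P] [Module (Oo D N.Var) P] {η : A →ₗ[Oo D N.Var] P}
    (hη : R.Loc η) :
    ∃ (s : Step D N) (Ψ : ℤ → Polynomial s.D' →ₗ[D] Und D N.Var P), IsPsi s (η o) Ψ := by
  obtain ⟨ι, hι, hz⟩ := PsiC.exists_iota hR hc hη
  have : Nontrivial P := ⟨η o, 0, PsiC.eta_ne hc hη⟩
  let _ : DivisionRing (Module.End (Oo D N.Var) P)ᵐᵒᵖ :=
    DivisionRing.ofIsUnitOrEqZero fun a => by
      by_cases ha : a = 0
      · exact Or.inr ha
      · exact Or.inl (isUnit_unop.1 (hη.unit _ fun h => ha (MulOpposite.unop_injective h)))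
  let _ : Algebra Z (Module.End (Oo D N.Var) P)ᵐᵒᵖ :=
    RingHom.toAlgebra' (ι.comp (algebraMap Z D)) hz
  exact PsiC.core hN (RingHom.id _) { ι with commutes' := fun _ => rfl } hι (PsiC.gr_loc hR hη)
    (PsiC.pr_eta hc η) (fun j hj p hp => PsiC.neg_piece hc hη hj hp)
    (fun j f hf h => PsiC.ev_inj hc hη j hf h) fun j p hp => PsiC.ev_surj hR hc hη j hp

end Vale.Agent.EGH
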