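import Vale.Agent.EGH.Calc
import Vale.Agent.EGH.Cyc

/-! Removing one equation that is linear in the parameters. -/

namespace Vale.Agent.EGH

open Module MvPolynomial Filter

universe u

namespace Psi

section Loc

variable {R : Type*} [CommRing R] {F : Type*} [Field F] {τ : Type*} {φ : R →+* F}

theorem clear (hfr : ∀ c : F, ∃ r s : R, φ s ≠ 0 ∧ φ s * c = φ r) (y : MvPolynomial τ F) :
    ∃ (s : R) (x : MvPolynomial τ R), φ s ≠ 0 ∧ MvPolynomial.map φ x = C (φ s) * y := by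
  induction y using MvPolynomial.induction_on with
  | C c =>
    obtain ⟨r, s, hs, h⟩ := hfr c
    exact ⟨s, C r, hs, by rw [map_C, ← C_mul, h]⟩
  | add p q hp hq =>
    obtain ⟨s, x, hs, h⟩ := hp
    obtain ⟨s', x', hs', h'⟩ := hq
    refine ⟨s * s', C s' * x + C s * x', by rw [map_mul]; exact mul_ne_zero hs hs', ?_⟩
    simp only [map_add, map_mul, map_C, h, h']
    ring
  | mul_X p v hp =>
    obtain ⟨s, x, hs, h⟩ := hp
    exact ⟨s, x * X v, hs, by rw [map_mul, h, map_X, mul_assoc]⟩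

theorem clear_ideal (hfr : ∀ c : F, ∃ r s : R, φ s ≠ 0 ∧ φ s * c = φ r)
    (T : Set (MvPolynomial τ R)) {y : MvPolynomial τ F}
    (hy : y ∈ Ideal.span (MvPolynomial.map φ '' T)) :
    ∃ (s : R) (x : MvPolynomial τ R), φ s ≠ 0 ∧ x ∈ Ideal.span T ∧
      MvPolynomial.map φ x = C (φ s) * y := by
  induction hy using Submodule.span_induction with
  | mem y hy =>
    obtain ⟨x, hx, rfl⟩ := hy
    exact ⟨1, x, by simp, Ideal.subset_span hx, by simp⟩
  | zero => exact ⟨1, 0, by simp, Ideal.zero_mem _, by simp⟩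
  | add p q _ _ hp hq =>
    obtain ⟨s, x, hs, hx, h⟩ := hp
    obtain ⟨s', x', hs', hx', h'⟩ := hq
    refine ⟨s * s', C s' * x + C s * x', by rw [map_mul]; exact mul_ne_zero hs hs',
      Ideal.add_mem _ (Ideal.mul_mem_left _ _ hx) (Ideal.mul_mem_left _ _ hx'), ?_⟩
    simp only [map_add, map_mul, map_C, h, h']
    ring
  | smul c p _ hp =>
    obtain ⟨s, x, hs, hx, h⟩ := hp
    obtain ⟨s', x', hs', h'⟩ := clear hfr c
    refine ⟨s * s', x' * x, by rw [map_mul]; exact mul_ne_zero hs hs',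
      Ideal.mul_mem_left _ _ hx, ?_⟩
    simp only [map_mul, h, h', smul_eq_mul]
    ring

theorem isWH_of_map (hφ : Function.Injective φ) {G : Type*} [AddCommMonoid G] {dg : τ → G}
    {x : MvPolynomial τ R} {d : G} (h : IsWeightedHomogeneous dg (MvPolynomial.map φ x) d) :
    IsWeightedHomogeneous dg x d := fun α hα => h (by
  rw [coeff_map]
  exact fun h0 => hα (hφ (by rw [h0, map_zero])))

end Loc

theorem descend {B : Type*} [CommRing B] {ψ : B →+* Polynomial B} (h0 : ∀ x, (ψ x).coeff 0 = x)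
    {g h : B} (hg : ψ g = Polynomial.C g - Polynomial.C h * Polynomial.X) {T : Set B}
    (hT : ∀ x ∈ T, ψ x = Polynomial.C x) {x : B} (hx : g * x ∈ Ideal.span T) :
    ∃ n : ℕ, h ^ n * x ∈ Ideal.span T := by
  have h1 : ∀ y ∈ Ideal.span T, ψ y ∈ (Ideal.span T).map Polynomial.C := by
    intro y hy
    have : Ideal.span T ≤ ((Ideal.span T).map Polynomial.C).comap ψ :=
      Ideal.span_le.2 fun z hz => by
        show ψ z ∈ (Ideal.span T).map Polynomial.C
        rw [hT z hz]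
        exact Ideal.mem_map_of_mem _ (Ideal.subset_span hz)
    exact this hy
  have h2 := Ideal.mem_map_C_iff.1 (h1 _ hx)
  have h3 : ∀ i, g * (ψ x).coeff (i + 1) - h * (ψ x).coeff i ∈ Ideal.span T := by
    intro i
    have := h2 (i + 1)
    rwa [map_mul, hg, sub_mul, mul_assoc, Polynomial.coeff_sub, Polynomial.coeff_C_mul,
      Polynomial.coeff_C_mul, Polynomial.coeff_X_mul] at this
  have h4 : ∀ m i, (ψ x).natDegree < i + m → h ^ m * (ψ x).coeff i ∈ Ideal.span T := by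
    intro m
    induction m with
    | zero =>
      intro i hi
      rw [Polynomial.coeff_eq_zero_of_natDegree_lt (show _ < i from hi), mul_zero]
      exact Ideal.zero_mem _
    | succ m ih =>
      intro i hi
      have e : h ^ (m + 1) * (ψ x).coeff i = g * (h ^ m * (ψ x).coeff (i + 1)) -
          h ^ m * (g * (ψ x).coeff (i + 1) - h * (ψ x).coeff i) := by ring
      rw [e]
      exact Ideal.sub_mem _ (Ideal.mul_mem_left _ _ (ih _ (by omega)))
        (Ideal.mul_mem_left _ _ (h3 i))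
  exact ⟨(ψ x).natDegree + 1, by simpa only [h0] using h4 ((ψ x).natDegree + 1) 0 (by omega)⟩

section Good

variable {R : Type*} [CommRing R] {τ G : Type*} [AddCommGroup G]

/-- Up to a power of `h` and modulo `g`, the element `x` is fixed by `ψ`. -/
def Good (dg : τ → G) (ψ : MvPolynomial τ R →+* Polynomial (MvPolynomial τ R))
    (g h : MvPolynomial τ R) (γ d : G) (x : MvPolynomial τ R) : Prop :=
  ∃ (n : ℕ) (y : MvPolynomial τ R), IsWeightedHomogeneous dg y (d + n • γ) ∧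
    ψ y = Polynomial.C y ∧ h ^ n * x - y ∈ Ideal.span {g}

variable {dg : τ → G} {ψ : MvPolynomial τ R →+* Polynomial (MvPolynomial τ R)}
  {g h : MvPolynomial τ R} {γ : G}

theorem Good.of_fix {d : G} {x : MvPolynomial τ R} (hx : IsWeightedHomogeneous dg x d)
    (hf : ψ x = Polynomial.C x) : Good dg ψ g h γ d x :=
  ⟨0, x, by simpa using hx, hf, by simp⟩

theorem Good.add (hh : IsWeightedHomogeneous dg h γ) (hf : ψ h = Polynomial.C h) {d : G}
    {x x' : MvPolynomial τ R} (h1 : Good dg ψ g h γ d x) (h2 : Good dg ψ g h γ d x') :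
    Good dg ψ g h γ d (x + x') := by
  obtain ⟨n, y, a1, a2, a3⟩ := h1
  obtain ⟨n', y', b1, b2, b3⟩ := h2
  refine ⟨n + n', h ^ n' * y + h ^ n * y', IsWeightedHomogeneous.add ?_ ?_, ?_, ?_⟩
  · have := (hh.pow n').mul a1
    rwa [show n' • γ + (d + n • γ) = d + (n + n') • γ by rw [add_nsmul]; abel] at this
  · have := (hh.pow n).mul b1
    rwa [show n • γ + (d + n' • γ) = d + (n + n') • γ by rw [add_nsmul]; abel] at this
  · simp only [map_add, map_mul, map_pow, hf, a2, b2]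
  · have e : h ^ (n + n') * (x + x') - (h ^ n' * y + h ^ n * y') =
        h ^ n' * (h ^ n * x - y) + h ^ n * (h ^ n' * x' - y') := by ring
    rw [e]
    exact Ideal.add_mem _ (Ideal.mul_mem_left _ _ a3) (Ideal.mul_mem_left _ _ b3)

theorem Good.mul {d d' : G} {x x' : MvPolynomial τ R} (h1 : Good dg ψ g h γ d x)
    (h2 : Good dg ψ g h γ d' x') : Good dg ψ g h γ (d + d') (x * x') := by
  obtain ⟨n, y, a1, a2, a3⟩ := h1
  obtain ⟨n', y', b1, b2, b3⟩ := h2
  refine ⟨n + n', y * y', ?_, ?_, ?_⟩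
  · have := a1.mul b1
    rwa [show d + n • γ + (d' + n' • γ) = d + d' + (n + n') • γ by rw [add_nsmul]; abel] at this
  · simp only [map_mul, a2, b2]
  · have e : h ^ (n + n') * (x * x') - y * y' =
        (h ^ n' * x') * (h ^ n * x - y) + y * (h ^ n' * x' - y') := by ring
    rw [e]
    exact Ideal.add_mem _ (Ideal.mul_mem_left _ _ a3) (Ideal.mul_mem_left _ _ b3)

theorem good_of_hom (hh : IsWeightedHomogeneous dg h γ) (hf : ψ h = Polynomial.C h)
    (hX : ∀ v, ψ (X v) = Polynomial.C (X v)) (hC : ∀ r, Good dg ψ g h γ 0 (C r)) {d : G}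
    {x : MvPolynomial τ R} (hx : IsWeightedHomogeneous dg x d) : Good dg ψ g h γ d x := by
  induction hx using IsWeightedHomogeneous.induction_on with
  | zero => exact Good.of_fix (isWeightedHomogeneous_zero R dg d) (by simp)
  | add p q _ _ hp hq => exact hp.add hh hf hq
  | monomial α r hr =>
    have h1 : Good dg ψ g h γ d (monomial α 1) := by
      refine Good.of_fix (isWeightedHomogeneous_monomial dg α 1 hr) ?_
      rw [monomial_eq, C_1, one_mul, Finsupp.prod, map_prod, map_prod]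
      exact Finset.prod_congr rfl fun v _ => by rw [map_pow, map_pow, hX]
    have h2 := (hC r).mul h1
    rwa [zero_add, C_mul_monomial, mul_one] at h2

end Good

section Core

variable {F : Type u} [Field F] {τ G : Type} [AddCommGroup G] {dg : τ → G}

theorem mem_of_maps {W : G → Submodule F (MvPolynomial τ F)} {x : MvPolynomial τ F} {d : G}
    (h : Maps (thF F F τ x) d (Fr F dg) W) : x ∈ W d := by
  have := h 0 1 (mem_Fr_self.2 (isWeightedHomogeneous_one F dg))
  rwa [thF_self, mul_one, zero_add] at this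

theorem maps_of_mem {W : G → Submodule F (MvPolynomial τ F)}
    (hW : Stable (fun v => thF F F τ (X v)) dg W) {x : MvPolynomial τ F} {d : G}
    (h : x ∈ W d) : Maps (thF F F τ x) d (Fr F dg) W := by
  intro e y hy
  have := Maps.of_hom isRep_thF hW (mem_Fr_self.1 hy) d x h
  rwa [thF_self, mul_comm, ← thF_self, add_comm] at this

theorem mem_of_span {W : G → Submodule F (MvPolynomial τ F)}
    (hW : Stable (fun v => thF F F τ (X v)) dg W) {T : Set (G × MvPolynomial τ F)}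
    (hT : Homog dg T) (hTW : ∀ p ∈ T, p.2 ∈ W p.1) {x : MvPolynomial τ F} {d : G}
    (hx : IsWeightedHomogeneous dg x d) (hs : x ∈ Ideal.span (Prod.snd '' T)) : x ∈ W d :=
  mem_of_maps (Maps.of_mem_span isRep_thF hW hT (fun p hp => maps_of_mem hW (hTW p hp)) hx hs)

/-- The homogeneous parts of an ideal. -/
noncomputable def part (dg : τ → G) (I : Ideal (MvPolynomial τ F)) (d : G) :
    Submodule F (MvPolynomial τ F) := Fr F dg d ⊓ I.restrictScalars F

theorem part_stable (I : Ideal (MvPolynomial τ F)) :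
    Stable (fun v => thF F F τ (X v)) dg (part dg I) := fun v d x hx =>
  ⟨Fr_stable dg v d x hx.1, by
    show thF F F τ (X v) x ∈ I
    rw [thF_self]
    exact I.mul_mem_left _ hx.2⟩

theorem unit_cancel {W : Submodule F (MvPolynomial τ F)} {c : F} (hc : c ≠ 0)
    {x : MvPolynomial τ F} (h : C c * x ∈ W) : x ∈ W := by
  have := W.smul_mem c⁻¹ h
  rwa [← smul_eq_C_mul, smul_smul, inv_mul_cancel₀ hc, one_smul] at this

variable {R : Type*} [CommRing R] {φ : R →+* F}
  {ψ : MvPolynomial τ R →+* Polynomial (MvPolynomial τ R)}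

variable (φ ψ dg) in
/-- Fixed homogeneous elements mapping into `NN`. -/
def Fx (NN : G → Submodule F (MvPolynomial τ F)) : Set (MvPolynomial τ R) :=
  {x | ψ x = Polynomial.C x ∧ ∃ d, IsWeightedHomogeneous dg x d ∧ MvPolynomial.map φ x ∈ NN d}

variable (φ ψ dg) in
/-- The ideal generated by the fixed elements. -/
noncomputable def idl (NN : G → Submodule F (MvPolynomial τ F)) : Ideal (MvPolynomial τ F) :=
  Ideal.span (MvPolynomial.map φ '' Fx dg φ ψ NN)

variable {NN : G → Submodule F (MvPolynomial τ F)}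

theorem part_le (hst : Stable (fun v => thF F F τ (X v)) dg NN) :
    part dg (idl dg φ ψ NN) ≤ NN := by
  intro d x hx
  refine mem_of_span hst (T := {p | IsWeightedHomogeneous dg p.2 p.1 ∧ p.2 ∈ NN p.1})
    (fun p hp => hp.1) (fun p hp => hp.2) hx.1 (Ideal.span_mono ?_ hx.2)
  rintro _ ⟨y, ⟨-, e, h1, h2⟩, rfl⟩
  exact ⟨(e, MvPolynomial.map φ y), ⟨isWH_map φ h1, h2⟩, rfl⟩

theorem mem_part {x : MvPolynomial τ R} {d : G} (h1 : IsWeightedHomogeneous dg x d)
    (h2 : ψ x = Polynomial.C x) (h3 : MvPolynomial.map φ x ∈ NN d) :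
    MvPolynomial.map φ x ∈ part dg (idl dg φ ψ NN) d :=
  ⟨isWH_map φ h1, Ideal.subset_span ⟨_, ⟨h2, _, h1, h3⟩, rfl⟩⟩

theorem tors1 (hφ : Function.Injective φ) (hfr : ∀ c : F, ∃ r s : R, φ s ≠ 0 ∧ φ s * c = φ r)
    {g h : MvPolynomial τ R} (ψ0 : ∀ x, (ψ x).coeff 0 = x)
    (ψg : ψ g = Polynomial.C g - Polynomial.C h * Polynomial.X) {v : MvPolynomial τ F}
    (h1 : MvPolynomial.map φ g * v ∈ idl dg φ ψ NN) :
    ∃ n : ℕ, MvPolynomial.map φ h ^ n * v ∈ idl dg φ ψ NN := by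
  obtain ⟨s, x, hs, hx⟩ := clear hfr v
  obtain ⟨s', x', hs', hx', e⟩ := clear_ideal hfr _ (Ideal.mul_mem_left _ (C (φ s)) h1)
  have e2 : x' = g * (C s' * x) := map_injective φ hφ (by
    rw [e, map_mul, map_mul, map_C, hx]; ring)
  rw [e2] at hx'
  obtain ⟨n, hn⟩ := descend ψ0 ψg (fun x hx => hx.1) hx'
  refine ⟨n, ?_⟩
  have h2 : MvPolynomial.map φ (h ^ n * (C s' * x)) ∈ idl dg φ ψ NN := by
    rw [idl, ← Ideal.map_span]
    exact Ideal.mem_map_of_mem _ hn
  refine unit_cancel (W := (idl dg φ ψ NN).restrictScalars F) (mul_ne_zero hs' hs) ?_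
  rw [map_mul, map_mul, map_pow, map_C, hx] at h2
  have e3 : C (φ s' * φ s) * (MvPolynomial.map φ h ^ n * v) =
      MvPolynomial.map φ h ^ n * (C (φ s') * (C (φ s) * v)) := by rw [C_mul]; ring
  rw [e3]; exact h2

theorem tors2 (hφ : Function.Injective φ) (hfr : ∀ c : F, ∃ r s : R, φ s ≠ 0 ∧ φ s * c = φ r)
    {g h : MvPolynomial τ R} {β γ : G} (hg : IsWeightedHomogeneous dg g β)
    (hh : IsWeightedHomogeneous dg h γ) (ψh : ψ h = Polynomial.C h)
    (ψX : ∀ v, ψ (X v) = Polynomial.C (X v)) (ψC : ∀ r, Good dg ψ g h γ 0 (C r))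
    (hst : Stable (fun v => thF F F τ (X v)) dg NN) (hgN : MvPolynomial.map φ g ∈ NN β)
    {W : G → Submodule F (MvPolynomial τ F)} (stW : Stable (fun v => thF F F τ (X v)) dg W)
    (hW : part dg (idl dg φ ψ NN) ≤ W) (hgW : MvPolynomial.map φ g ∈ W β)
    {d : G} {v : MvPolynomial τ F} (hv : v ∈ NN d) (hv' : IsWeightedHomogeneous dg v d) :
    ∃ n : ℕ, MvPolynomial.map φ h ^ n * v ∈ W (d + n • γ) := by
  obtain ⟨s, x, hs, hx⟩ := clear hfr v
  have h1 : IsWeightedHomogeneous dg x d := isWH_of_map hφ (by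
    rw [hx]; exact hv'.C_mul _)
  obtain ⟨n, y, a1, a2, a3⟩ := good_of_hom hh ψh ψX ψC h1
  refine ⟨n, ?_⟩
  have b1 : IsWeightedHomogeneous dg (MvPolynomial.map φ (h ^ n * x - y)) (d + n • γ) := by
    refine isWH_map φ (IsWeightedHomogeneous.sub ?_ a1)
    rw [add_comm]; exact (hh.pow n).mul h1
  have b2 : MvPolynomial.map φ (h ^ n * x - y) ∈
      Ideal.span (Prod.snd '' {(β, MvPolynomial.map φ g)}) := by
    have := Ideal.mem_map_of_mem (MvPolynomial.map φ) a3
    rw [Ideal.map_span, Set.image_singleton] at this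
    rwa [Set.image_singleton]
  have b0 : Homog dg {(β, MvPolynomial.map φ g)} := by
    rintro p rfl; exact isWH_map φ hg
  have b3 := mem_of_span hst b0 (by rintro p rfl; exact hgN) b1 b2
  have b4 := mem_of_span stW b0 (by rintro p rfl; exact hgW) b1 b2
  have b5 : MvPolynomial.map φ (h ^ n * x) ∈ NN (d + n • γ) := by
    have := Maps.of_hom isRep_thF hst (((isWH_map φ hh).pow n).C_mul (φ s)) d v hv
    rwa [thF_self, mul_comm (C _), mul_assoc, ← hx, ← map_pow, ← map_mul] at this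
  have b6 : MvPolynomial.map φ y ∈ NN (d + n • γ) := by
    have := (NN _).sub_mem b5 b3
    rwa [← map_sub, sub_sub_cancel] at this
  have b7 := Submodule.add_mem _ b4 (hW _ (mem_part a1 a2 b6))
  rw [← map_add, sub_add_cancel, map_mul, map_pow, hx, mul_left_comm] at b7
  exact unit_cancel hs b7

theorem core (hφ : Function.Injective φ)
    (hfr : ∀ c : F, ∃ r s : R, φ s ≠ 0 ∧ φ s * c = φ r) [Finite τ] {E : Type} [Fintype E]
    [DecidableEq E] (nd : τ → E)
    {g h : MvPolynomial τ R} {β γ : E → ℤ} (hg : IsWeightedHomogeneous (dgs nd) g β)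
    (hh : IsWeightedHomogeneous (dgs nd) h γ) (ψ0 : ∀ x, (ψ x).coeff 0 = x)
    (ψg : ψ g = Polynomial.C g - Polynomial.C h * Polynomial.X) (ψh : ψ h = Polynomial.C h)
    (ψX : ∀ v, ψ (X v) = Polynomial.C (X v)) (ψC : ∀ r, Good (dgs nd) ψ g h γ 0 (C r))
    {T : Set ((E → ℤ) × MvPolynomial τ F)}
    (hT : ∀ p ∈ T, ∃ x, IsWeightedHomogeneous (dgs nd) x p.1 ∧ ψ x = Polynomial.C x ∧
      MvPolynomial.map φ x = p.2)
    {L : ((E → ℤ) → ℤ) → Prop} (hL : Closed L)
    (H1 : MG F F (dgs nd) T fun f => L (act (1 - mon β) f))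
    (H2 : MG F F (dgs nd)
      (insert (γ, MvPolynomial.map φ h) (insert (β, MvPolynomial.map φ g) T)) L) :
    MG F F (dgs nd) (insert (β, MvPolynomial.map φ g) T) L := by
  have hg' := isWH_map φ hg
  have hh' := isWH_map φ hh
  refine CG.mg hL ?_ fun NN hst hle hk => ?_
  · rintro p (rfl | hp)
    · exact hg'
    · obtain ⟨x, h1, -, h2⟩ := hT p hp
      rw [← h2]; exact isWH_map φ h1
  have hcomm : ∀ i j : τ, Commute (thF F F τ (X i)) (thF F F τ (X j)) :=
    fun i j => rep_commute _ _ _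
  have hcg : ∀ i : τ, Commute (thF F F τ (MvPolynomial.map φ g)) (thF F F τ (X i)) :=
    fun i => rep_commute _ _ _
  have hst0 := part_stable (dg := dgs nd) (idl (dgs nd) φ ψ NN)
  have hle0 : part (dgs nd) (idl (dgs nd) φ ψ NN) ≤ Fr F (dgs nd) := fun d => inf_le_left
  have h0N := part_le (φ := φ) (ψ := ψ) hst
  have hT0 : ∀ p ∈ T, Maps (thF F F τ p.2) p.1 (Fr F (dgs nd))
      (part (dgs nd) (idl (dgs nd) φ ψ NN)) := by
    intro p hp
    obtain ⟨x, h1, h2, h3⟩ := hT p hp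
    have h4 := mem_of_maps (hk p (Or.inr hp))
    rw [← h3] at h4 ⊢
    exact maps_of_mem hst0 (mem_part h1 h2 h4)
  have P0 := (Fr_pair (Z := F) (D := F) nd).quot hst0 bot_le hle0
  have hgN : Maps (thF F F τ (MvPolynomial.map φ g)) β (Fr F (dgs nd)) NN :=
    hk (β, MvPolynomial.map φ g) (Or.inl rfl)
  have st1 := stable_supMap hcg β (Fr_stable (Z := F) (D := F) (dgs nd)) hst0
  have stK := stable_infComap hcg β (Fr_stable (Z := F) (D := F) (dgs nd)) hst0
  have h1N := supMap_le h0N hgN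
  have A1 : L (act (1 - mon β) (hf (Fr F (dgs nd)) - hf (part (dgs nd) (idl (dgs nd) φ ψ NN)))) :=
    H1 _ _ isRep_thF _ _ P0 hT0
  have A2 := MG.torsion hL hh' H2 isRep_thF
    (P0.sub hcomm stK (le_infComap hle0 (Maps.of_hom isRep_thF hst0 hg')) (infComap_le _ _ _ _))
    (by
      rintro p (rfl | hp)
      · exact maps_infComap _ _ _ _
      · exact (hT0 p hp).mono (infComap_le _ _ _ _) le_rfl)
    (by
      intro d v hv
      have h1 : thF F F τ (MvPolynomial.map φ g) v ∈ idl (dgs nd) φ ψ NN := hv.2.2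
      rw [thF_self] at h1
      obtain ⟨n, hn⟩ := tors1 hφ hfr ψ0 ψg h1
      refine ⟨n, Maps.of_hom isRep_thF (Fr_stable _) (hh'.pow n) d v hv.1, ?_⟩
      rw [thF_self]
      exact hn)
  have A3 := MG.torsion hL hh' H2 isRep_thF
    ((P0.quot st1 (le_supMap _ _ _ _) (h1N.trans hle)).sub hcomm hst h1N hle)
    (by
      rintro p (rfl | hp)
      · exact (maps_supMap _ _ _ _).mono hle le_rfl
      · exact (hT0 p hp).mono hle (le_supMap _ _ _ _))
    (by
      intro d v hv
      simp only [thF_self]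
      exact tors2 hφ hfr hg hh ψh ψX ψC hst (mem_of_maps hgN) st1 (le_supMap _ _ _ _)
        (mem_of_maps (maps_supMap _ _ _ _)) hv (mem_Fr_self.1 (hle d hv)))
  rw [act_one_sub_mon (thF F F τ (MvPolynomial.map φ g)) β _ _ P0.fd (P0.fd_of_le hle0)] at A1
  have := hL.sub (hL.add _ _ A1 (hL.act (mon β) _ A2)) A3
  rwa [sub_add_cancel, sub_sub_sub_cancel_right] at this

end Core

end Psi

variable {K : Type u} [Field K] {F : Type u} [Field F] [Algebra K F]
variable {κ σ Λ E : Type} [Fintype κ]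

variable (F Λ) in
/-- Base change and inclusion of the old variables. -/
noncomputable def upH : MvPolynomial σ K →+* MvPolynomial (σ ⊕ Λ) F :=
  (rename Sum.inl : MvPolynomial σ F →ₐ[F] MvPolynomial (σ ⊕ Λ) F).toRingHom.comp
    (MvPolynomial.map (algebraMap K F))

/-- The equation of a new variable. -/
noncomputable def gEq (t : κ → F) (b : Λ → ℕ) (q : κ → Λ → MvPolynomial σ K) (l : Λ) :
    MvPolynomial (σ ⊕ Λ) F :=
  X (Sum.inr l) ^ b l - ∑ k, C (t k) * upH F Λ (q k l)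

/-- The old equations `S` and the equations of the new variables in `A`. -/
def hSet [DecidableEq E] (ndΛ : Λ → E) (t : κ → F) (b : Λ → ℕ) (q : κ → Λ → MvPolynomial σ K)
    (S : Set ((E → ℤ) × MvPolynomial σ K)) (A : Set Λ) :
    Set ((E → ℤ) × MvPolynomial (σ ⊕ Λ) F) :=
  (fun p => (p.1, upH F Λ p.2)) '' S ∪ (fun l => (b l • eps (ndΛ l), gEq t b q l)) '' A

theorem isWH_upH {E : Type} [DecidableEq E] (nd : σ → E) (ndΛ : Λ → E) {p : MvPolynomial σ K}
    {γ : E → ℤ} (hp : IsWeightedHomogeneous (dgs nd) p γ) :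
    IsWeightedHomogeneous (dgs (Sum.elim nd ndΛ)) (upH F Λ p) γ :=
  isWH_rename (dg := dgs nd) Sum.inl (AddMonoidHom.id _) (fun _ => rfl) (isWH_map _ hp)

theorem isWH_gEq {E : Type} [DecidableEq E] (nd : σ → E) (ndΛ : Λ → E) (t : κ → F) (b : Λ → ℕ)
    {q : κ → Λ → MvPolynomial σ K}
    (hq : ∀ k l, IsWeightedHomogeneous (dgs nd) (q k l) (b l • eps (ndΛ l))) (l : Λ) :
    IsWeightedHomogeneous (dgs (Sum.elim nd ndΛ)) (gEq t b q l) (b l • eps (ndΛ l)) :=
  ((isWeightedHomogeneous_X F (dgs (Sum.elim nd ndΛ)) (Sum.inr l)).pow (b l)).sub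
    (IsWeightedHomogeneous.sum _ _ _ fun k _ => (isWH_upH nd ndΛ (hq k l)).C_mul _)

namespace Psi

variable (κ Λ) in
/-- Inclusion of the old variables over the parameter ring. -/
noncomputable def up0 : MvPolynomial σ K →+* MvPolynomial (σ ⊕ Λ) (MvPolynomial κ K) :=
  eval₂Hom (C.comp C) fun v => X (Sum.inl v)

/-- The equation of a new variable over the parameter ring. -/
noncomputable def g0 (b : Λ → ℕ) (q : κ → Λ → MvPolynomial σ K) (l : Λ) :
    MvPolynomial (σ ⊕ Λ) (MvPolynomial κ K) :=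
  X (Sum.inr l) ^ b l - ∑ k, C (X k) * up0 κ Λ (q k l)

variable (Λ) in
/-- Translation of the parameters in the direction `a`. -/
noncomputable def psi (a : κ → MvPolynomial σ K) : MvPolynomial (σ ⊕ Λ) (MvPolynomial κ K) →+*
    Polynomial (MvPolynomial (σ ⊕ Λ) (MvPolynomial κ K)) :=
  eval₂Hom (eval₂Hom (Polynomial.C.comp (C.comp C)) fun k =>
    Polynomial.C (C (X k)) + Polynomial.C (up0 κ Λ (a k)) * Polynomial.X)
    fun v => Polynomial.C (X v)

omit [Fintype κ] in
theorem map_up0 (t : κ → F) (p : MvPolynomial σ K) :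
    MvPolynomial.map (aeval t).toRingHom (up0 κ Λ p) = upH F Λ p := by
  have : (MvPolynomial.map (aeval t).toRingHom).comp (up0 κ Λ) = upH (σ := σ) (K := K) F Λ := by
    refine ringHom_ext (fun c => ?_) fun v => ?_ <;> simp [up0, upH]
  exact RingHom.congr_fun this p

theorem map_g0 (t : κ → F) (b : Λ → ℕ) (q : κ → Λ → MvPolynomial σ K) (l : Λ) :
    MvPolynomial.map (aeval t).toRingHom (g0 b q l) = gEq t b q l := by
  simp only [g0, gEq, map_sub, map_pow, map_sum, map_mul, map_X, map_C, map_up0]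
  simp

omit [Fintype κ] in
theorem psi_X (a : κ → MvPolynomial σ K) (v : σ ⊕ Λ) : psi Λ a (X v) = Polynomial.C (X v) := by
  simp [psi]

omit [Fintype κ] in
theorem psi_CC (a : κ → MvPolynomial σ K) (c : K) :
    psi Λ a (C (C c)) = Polynomial.C (C (C c)) := by
  simp [psi]

omit [Fintype κ] in
theorem psi_CX (a : κ → MvPolynomial σ K) (k : κ) : psi Λ a (C (X k)) =
    Polynomial.C (C (X k)) + Polynomial.C (up0 κ Λ (a k)) * Polynomial.X := by
  simp [psi]

omit [Fintype κ] in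
theorem psi_up0 (a : κ → MvPolynomial σ K) (p : MvPolynomial σ K) :
    psi Λ a (up0 κ Λ p) = Polynomial.C (up0 κ Λ p) := by
  have : (psi Λ a).comp (up0 κ Λ) = Polynomial.C.comp (up0 κ Λ) := by
    refine ringHom_ext (fun c => ?_) fun v => ?_
    · simpa [up0] using psi_CC a c
    · simpa [up0] using psi_X a _
  exact RingHom.congr_fun this p

omit [Fintype κ] in
theorem psi_zero (a : κ → MvPolynomial σ K) (x : MvPolynomial (σ ⊕ Λ) (MvPolynomial κ K)) :
    (psi Λ a x).coeff 0 = x := by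
  have : Polynomial.constantCoeff.comp (psi Λ a) = RingHom.id _ := by
    refine ringHom_ext' (ringHom_ext (fun c => ?_) fun k => ?_) fun v => ?_
    · simp [psi_CC]
    · simp [psi_CX]
    · simp [psi_X]
  exact RingHom.congr_fun this x

theorem psi_g0 (a : κ → MvPolynomial σ K) (b : Λ → ℕ) (q : κ → Λ → MvPolynomial σ K) (l : Λ) :
    psi Λ a (g0 b q l) = Polynomial.C (g0 b q l) -
      Polynomial.C (up0 κ Λ (∑ k, a k * q k l)) * Polynomial.X := by
  simp only [g0, map_sub, map_pow, map_sum, map_mul, psi_X, psi_CX, psi_up0, Finset.sum_mul]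
  rw [sub_sub, ← Finset.sum_add_distrib]
  exact congrArg _ (Finset.sum_congr rfl fun k _ => by ring)

omit [Fintype κ] in
theorem frac_of_PTB {t : κ → F} (ht : PTB K t) (c : F) : ∃ r s : MvPolynomial κ K,
    (aeval t).toRingHom s ≠ 0 ∧ (aeval t).toRingHom s * c = (aeval t).toRingHom r := by
  obtain ⟨r, s, h⟩ := (IntermediateField.mem_adjoin_range_iff K t c).1 (by rw [ht.top]; trivial)
  by_cases hs : aeval t s = 0
  · exact ⟨0, 1, by simp, by simp [h, hs]⟩
  · exact ⟨r, s, hs, by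
      show aeval t s * c = aeval t r
      rw [h, mul_div_cancel₀ _ hs]⟩

end Psi

variable [Finite σ] [Finite Λ] [Fintype E] [DecidableEq E]

omit [Finite σ] [Finite Λ] [Fintype E] in
theorem homog_hSet (nd : σ → E) (ndΛ : Λ → E) (t : κ → F) (b : Λ → ℕ)
    {q : κ → Λ → MvPolynomial σ K}
    (hq : ∀ k l, IsWeightedHomogeneous (dgs nd) (q k l) (b l • eps (ndΛ l)))
    {S : Set ((E → ℤ) × MvPolynomial σ K)} (hS : Homog (dgs nd) S) (A : Set Λ) :
    Homog (dgs (Sum.elim nd ndΛ)) (hSet ndΛ t b q S A) := by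
  rintro _ (⟨p, hp, rfl⟩ | ⟨l, -, rfl⟩)
  · exact isWH_upH nd ndΛ (hS p hp)
  · exact isWH_gEq nd ndΛ t b hq l

theorem psi_step (nd : σ → E) (ndΛ : Λ → E) {t : κ → F} (ht : PTB K t) (b : Λ → ℕ)
    {q : κ → Λ → MvPolynomial σ K}
    (hq : ∀ k l, IsWeightedHomogeneous (dgs nd) (q k l) (b l • eps (ndΛ l)))
    {S : Set ((E → ℤ) × MvPolynomial σ K)} (hS : Homog (dgs nd) S) (A : Set Λ) (l₀ : Λ)
    (a : κ → MvPolynomial σ K) (h : MvPolynomial σ K) (γ : E → ℤ)
    (hh : IsWeightedHomogeneous (dgs nd) h γ)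
    (ha : ∀ k, IsWeightedHomogeneous (dgs nd) (a k) (γ - b l₀ • eps (ndΛ l₀)))
    (h0 : ∑ k, a k * q k l₀ = h) (hA : ∀ l ∈ A, ∑ k, a k * q k l = 0)
    {L : ((E → ℤ) → ℤ) → Prop} (hL : Closed L)
    (H1 : MG F F (dgs (Sum.elim nd ndΛ)) (hSet ndΛ t b q S A)
      fun f => L (act (1 - mon (b l₀ • eps (ndΛ l₀))) f))
    (H2 : MG F F (dgs (Sum.elim nd ndΛ)) (hSet ndΛ t b q (insert (γ, h) S) (insert l₀ A)) L) :
    MG F F (dgs (Sum.elim nd ndΛ)) (hSet ndΛ t b q S (insert l₀ A)) L := by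
  have hφ : Function.Injective (aeval t : MvPolynomial κ K →ₐ[K] F).toRingHom := ht.ind
  have wu : ∀ {p : MvPolynomial σ K} {d : E → ℤ}, IsWeightedHomogeneous (dgs nd) p d →
      IsWeightedHomogeneous (dgs (Sum.elim nd ndΛ)) (Psi.up0 κ Λ p) d := fun hp =>
    Psi.isWH_of_map hφ (by rw [Psi.map_up0]; exact isWH_upH nd ndΛ hp)
  have wg : ∀ l, IsWeightedHomogeneous (dgs (Sum.elim nd ndΛ)) (Psi.g0 b q l)
      (b l • eps (ndΛ l)) := fun l =>
    Psi.isWH_of_map hφ (by rw [Psi.map_g0]; exact isWH_gEq nd ndΛ t b hq l)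
  have ψg := Psi.psi_g0 a b q l₀
  rw [h0] at ψg
  have key := Psi.core hφ (Psi.frac_of_PTB ht) (Sum.elim nd ndΛ) (wg l₀) (wu hh) (Psi.psi_zero a)
    ψg (Psi.psi_up0 a h) (Psi.psi_X a) (T := hSet ndΛ t b q S A) (L := L) (by
      intro r
      induction r using MvPolynomial.induction_on with
      | C c => exact Psi.Good.of_fix (isWeightedHomogeneous_C _ _) (Psi.psi_CC a c)
      | add p p' hp hp' =>
        rw [map_add]
        exact hp.add (wu hh) (Psi.psi_up0 a h) hp'
      | mul_X p k hp =>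
        rw [map_mul, ← add_zero (0 : E → ℤ)]
        refine hp.mul ⟨1, C (X k) * Psi.up0 κ Λ h + Psi.up0 κ Λ (a k) * Psi.g0 b q l₀,
          IsWeightedHomogeneous.add ?_ ?_, ?_, ?_⟩
        · simpa using (wu hh).C_mul (X k)
        · simpa using (wu (ha k)).mul (wg l₀)
        · simp only [map_add, map_mul, ψg, Psi.psi_up0, Psi.psi_CX]
          ring
        · refine Ideal.mem_span_singleton'.2 ⟨-Psi.up0 κ Λ (a k), ?_⟩
          ring)
    (by
      rintro _ (⟨p, hp, rfl⟩ | ⟨l, hl, rfl⟩)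
      · exact ⟨_, wu (hS p hp), Psi.psi_up0 a _, Psi.map_up0 t _⟩
      · refine ⟨_, wg l, ?_, Psi.map_g0 t b q l⟩
        rw [Psi.psi_g0, hA l hl]
        simp) hL H1 (H2.mono (by
      rw [Psi.map_up0, Psi.map_g0]
      rintro _ (⟨p, rfl | hp, rfl⟩ | ⟨l, rfl | hl, rfl⟩)
      · exact Or.inl rfl
      · exact Or.inr (Or.inr (Or.inl ⟨p, hp, rfl⟩))
      · exact Or.inr (Or.inl rfl)
      · exact Or.inr (Or.inr (Or.inr ⟨l, hl, rfl⟩))))
  refine key.mono ?_
  rw [Psi.map_g0]
  rintro _ (rfl | ⟨p, hp, rfl⟩ | ⟨l, hl, rfl⟩)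
  · exact Or.inr ⟨l₀, Or.inl rfl, rfl⟩
  · exact Or.inl ⟨p, hp, rfl⟩
  · exact Or.inr ⟨l, Or.inr hl, rfl⟩

end Vale.Agent.EGH
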