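import Vale.Agent.EGH.PsiC
import Vale.Agent.EGH.CtxB
import Vale.Agent.EGH.Loc

/-! The existence of a step. -/

namespace Vale.Agent.EGH

open Module MvPolynomial Filter

universe u

variable {Z : Type u} [Field Z] {D : Type u} [DivisionRing D] [Algebra Z D] {N : Node Z}

namespace StepDAux

theorem equiv_map {V V' : Type*} [AddCommGroup V] [Module D V] [AddCommGroup V'] [Module D V']
    (f : V →ₗ[D] V') (U : Submodule D V) (h : ∀ x ∈ U, f x = 0 → x = 0) :
    Nonempty (U ≃ₗ[D] U.map f) := by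
  have hinj : Function.Injective (f.domRestrict U) := by
    rw [injective_iff_map_eq_zero]
    intro x hx
    exact Subtype.ext (h x.1 x.2 hx)
  exact ⟨(LinearEquiv.ofInjective _ hinj).trans
    (LinearEquiv.ofEq _ _ (LinearMap.range_domRestrict U f))⟩

/-- Polynomials of bounded degree. -/
def degSub (s : Step D N) (i : ℤ) : Submodule D (Polynomial s.D') where
  carrier := {f | DegLE i f}
  add_mem' := fun {f g} hf hg k hk => by
    rw [Polynomial.coeff_add, hf k hk, hg k hk, add_zero]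
  zero_mem' := fun k _ => Polynomial.coeff_zero k
  smul_mem' := fun d f hf k hk => by
    rw [Polynomial.coeff_smul, hf k hk, smul_zero]

theorem th1_apply (s : Step D N) (p : MvPolynomial N.Var Z) (f : Polynomial s.D') :
    s.th1 p f = s.ρ p * f := rfl

theorem thn_apply (s : Step D N) (n : ℕ) (p : MvPolynomial N.Var Z)
    (y : Fin n → Polynomial s.D') (j : Fin n) : s.thn n p y j = s.ρ p * y j := rfl

variable {P : Type u} [AddCommGroup P] [Module (Oo D N.Var) P]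

/-- The componentwise map. -/
noncomputable def psiN {s : Step D N} (Ψ : Polynomial s.D' →ₗ[D] Und D N.Var P) (n : ℕ) :
    (Fin n → Polynomial s.D') →ₗ[D] Und D N.Var (Fin n → P) where
  toFun y := Und.mk D N.Var fun j => Und.out (Ψ (y j))
  map_add' y y' := funext fun j => map_add Ψ (y j) (y' j)
  map_smul' d y := funext fun j => map_smul Ψ d (y j)

theorem gr_of_loc {R : RD (Oo D N.Var)} {c k0 : ℤ} {A : Type u} [AddCommGroup A]
    [Module (Oo D N.Var) A] {η : A →ₗ[Oo D N.Var] P} (hR : IsRD R c k0) (hη : R.Loc η) :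
    Gr D N P := by
  refine Gr.of_cover fun v => ?_
  obtain ⟨G, h1, -, h2, -⟩ := hη.cover {v} (Set.finite_singleton v)
  exact ⟨G, h1 rfl, ((hR.C_iff _).1 h2).1⟩

/-- The polynomials of bounded degree that land in a submodule. -/
noncomputable def pull {s : Step D N} (Ψ : ℤ → Polynomial s.D' →ₗ[D] Und D N.Var P)
    (M : Submodule (Oo D N.Var) P) (i : ℤ) : Submodule D (Polynomial s.D') :=
  degSub s i ⊓ (undSub M).comap (Ψ i)

variable {s : Step D N} {Ψ : ℤ → Polynomial s.D' →ₗ[D] Und D N.Var P} {x : P}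

theorem pull_mul (hΨ : IsPsi s x Ψ) (M : Submodule (Oo D N.Var) P) (v : N.Var) (i : ℤ)
    {f : Polynomial s.D'} (hf : f ∈ pull Ψ M i) : s.ρ (X v) * f ∈ pull Ψ M (i + 1) := by
  refine ⟨s.ul.degLE_mul v hf.1, ?_⟩
  change Und.out (Ψ (i + 1) (s.ρ (X v) * f)) ∈ M
  rw [hΨ.mul i f v hf.1]
  exact M.smul_mem _ hf.2

theorem map_pull (hΨ : IsPsi s x Ψ) (M : Submodule (Oo D N.Var) P) (i : ℤ) :
    (pull Ψ M i).map (Ψ i) = piece D N.Var P i ⊓ undSub M := by
  apply le_antisymm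
  · rintro _ ⟨f, hf, rfl⟩
    exact ⟨hΨ.mem i f, hf.2⟩
  · rintro p ⟨h1, h2⟩
    obtain ⟨f, hf, rfl⟩ := hΨ.surj i p h1
    exact ⟨f, ⟨hf, h2⟩, rfl⟩

end StepDAux

open StepDAux

section

variable {R : RD (Oo D N.Var)} {c k0 : ℤ}
  {A : Type u} [AddCommGroup A] [Module (Oo D N.Var) A] {o : A}
  {P : Type u} [AddCommGroup P] [Module (Oo D N.Var) P] {η : A →ₗ[Oo D N.Var] P}
  {s : Step D N} {Ψ : ℤ → Polynomial s.D' →ₗ[D] Und D N.Var P}

theorem IsPsi.S2 (hR : IsRD R c k0) (hη : R.Loc η) (hΨ : IsPsi s (η o) Ψ) :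
    s.S2 N.deg c k0 := by
  intro A0 hA0
  obtain ⟨Gh, h1, -, hC, hd, -⟩ :=
    hη.cover ((fun a => Und.out (Ψ 0 (Polynomial.C a))) '' A0) (hA0.image _)
  obtain ⟨hGr, hfin⟩ := (hR.C_iff _).1 hC
  have heq : ∀ i, Nonempty (pull Ψ Gh i ≃ₗ[D]
      (piece D N.Var P i ⊓ undSub Gh : Submodule D (Und D N.Var P))) := fun i => by
    rw [← map_pull hΨ]
    exact equiv_map _ _ fun f hf => hΨ.inj i f hf.1
  have hst : Stable (fun v => s.th1 (X v)) (fun _ => (1 : ℤ)) (pull Ψ Gh) :=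
    fun v i f hf => pull_mul hΨ Gh v i hf
  refine ⟨pull Ψ Gh, ⟨stable_bot _ _, hst, bot_le, fun i => ?_, ?_⟩, fun i p hp => hp.1,
    fun a ha => ⟨fun k hk => ?_, h1 ⟨a, ha, rfl⟩⟩, R.r Gh, R.r Gh * k0 - R.d Gh,
    (hR.aff _ hC).congr (Eventually.of_forall fun i => ?_), by rw [hd]; ring⟩
  · obtain ⟨e⟩ := heq i
    have := hR.fd _ hC i
    have : FiniteDimensional D
        (piece D N.Var P i ⊓ undSub Gh : Submodule D (Und D N.Var P)) := by
      rw [← map_piece_subtype]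
      infer_instance
    exact e.symm.finiteDimensional
  · obtain ⟨B, hB, hB1, hB2⟩ := hGr.pair.fg
    have hch : ∀ p : ℤ × Und D N.Var Gh, ∃ f, p ∈ B →
        f ∈ pull Ψ Gh p.1 ∧ Ψ p.1 f = undMap Gh.subtype p.2 := by
      intro p
      by_cases hp : p ∈ B
      · have h2 : undMap Gh.subtype p.2 ∈ (pull Ψ Gh p.1).map (Ψ p.1) := by
          rw [map_pull hΨ, ← map_piece_subtype]
          exact ⟨p.2, hB1 p hp, rfl⟩
        obtain ⟨f, hf, e⟩ := h2
        exact ⟨f, fun _ => ⟨hf, e⟩⟩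
      · exact ⟨0, fun h => absurd h hp⟩
    choose f hf using hch
    have hmem : ∀ p ∈ (fun p => (p.1, f p)) '' B, p.2 ∈ pull Ψ Gh p.1 := by
      rintro _ ⟨p, hp, rfl⟩
      exact (hf p hp).1
    refine ⟨(fun p => (p.1, f p)) '' B, hB.image _, hmem, ?_⟩
    rw [bot_sup_eq] at hB2 ⊢
    have hle := Gen_le hst hmem
    have hW : Gen (fun x => thV Z D N.Var Gh (X x)) (fun _ => (1 : ℤ)) B ≤ fun i =>
        ((Gen (fun v => s.th1 (X v)) (fun _ => (1 : ℤ)) ((fun p => (p.1, f p)) '' B) i).map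
          (Ψ i)).comap (undMap Gh.subtype) := by
      refine Gen_le ?_ fun p hp => ⟨f p, mem_Gen _ _ (p := (p.1, f p)) ⟨p, hp, rfl⟩, (hf p hp).2⟩
      rintro v i y ⟨g, hg, e⟩
      refine ⟨s.th1 (X v) g, Gen_stable _ _ _ v i g hg, ?_⟩
      rw [th1_apply, hΨ.mul i g v (hle i hg).1, e]
      rfl
    intro i g hg
    have h2 : Ψ i g ∈ (piece D N.Var Gh i).map (undMap Gh.subtype) := by
      rw [map_piece_subtype, ← map_pull hΨ]
      exact ⟨g, hg, rfl⟩
    obtain ⟨y, hy, e⟩ := h2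
    obtain ⟨g', hg', e'⟩ := hW i (hB2 i hy)
    have h3 : g - g' = 0 := hΨ.inj i _ ((degSub s i).sub_mem hg.1 (hle i hg').1)
      (by rw [map_sub, e', e, sub_self])
    rw [sub_eq_zero.1 h3]
    exact hg'
  · exact Polynomial.coeff_C_of_ne_zero (by omega)
  · obtain ⟨e⟩ := heq i
    rw [hfO_sub, ← e.finrank_eq]
    rfl

theorem IsPsi.S3 (hN : N.OK) (hR : IsRD R c k0) (hc : Ctx R o) (hη : R.Loc η)
    (hΨ : IsPsi s (η o) Ψ) : s.S3 N.deg c k0 := by
  rintro n Y hY ⟨B, hB, hB1, hB2⟩ h1 r t haff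
  have hGr := gr_of_loc hR hη
  obtain ⟨Gh, g1, -, hC, -, hpos⟩ :=
    hη.cover (⋃ j : Fin n, (fun p => Und.out (Ψ p.1 (p.2 j))) '' B)
      (Set.finite_iUnion fun j => hB.image _)
  have hYle : Y ≤ fun i => Submodule.pi Set.univ fun _ => pull Ψ Gh i := by
    refine hB2.trans (Gen_le (fun v i y hy j _ => pull_mul hΨ Gh v i (hy j trivial))
      fun p hp j _ => ⟨hB1 p hp j, g1 (Set.mem_iUnion.2 ⟨j, p, hp, rfl⟩)⟩)
  obtain ⟨M, hM⟩ := (hGr.pi n).exists_sub_of_stable (fun i => (Y i).map (psiN (Ψ i) n))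
    (by
      rintro v i _ ⟨y, hy, rfl⟩
      exact ⟨s.thn n (X v) y, hY v i y hy,
        funext fun j => hΨ.mul i (y j) v (hYle i hy j trivial).1⟩)
    (by
      rintro i _ ⟨y, -, rfl⟩
      exact funext fun j => hΨ.mem i (y j))
  have ho : η o ≠ 0 := by
    intro h
    have h2 : o = 0 := hη.inj (h.trans (map_zero η).symm)
    apply hc.vne 0
    funext i
    rw [h2, smul_zero]
    rfl
  obtain ⟨hCM, hd⟩ := RD.le_d_of_pi Gh hC hpos (η o) ho n M
    (fun v hv j => hGr.mem_of_pr fun i => by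
      have h2 : Und.mk D N.Var (pr D N.Var i • v) ∈ piece D N.Var (Fin n → P) i ⊓ undSub M :=
        ⟨(hGr.pi n).same i v, M.smul_mem _ hv⟩
      rw [hM i] at h2
      obtain ⟨y, hy, e⟩ := h2
      have h3 : Und.out (Ψ i (y j)) = pr D N.Var i • v j := congrFun e j
      rw [← h3]
      exact (hYle i hy j trivial).2)
    (fun j => by
      have h2 : psiN (Ψ 0) n (Pi.single j 1) ∈ piece D N.Var (Fin n → P) 0 ⊓ undSub M := by
        rw [hM 0]
        exact ⟨_, h1 j, rfl⟩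
      have h3 : Und.out (psiN (Ψ 0) n (Pi.single j 1)) = Pi.single j (η o) := by
        funext j'
        change Und.out (Ψ 0 ((Pi.single j 1 : Fin n → Polynomial s.D') j')) = _
        by_cases h : j' = j
        · rw [h, Pi.single_eq_same, Pi.single_eq_same]
          exact hΨ.one
        · rw [Pi.single_eq_of_ne h, Pi.single_eq_of_ne h, map_zero]
          rfl
      rw [← h3]
      exact h2.2)
  have h4 : Aff N.deg c (hf Y) (R.r M) (R.r M * k0 - R.d M) :=
    (hR.aff _ hCM).congr (Eventually.of_forall fun i => by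
      obtain ⟨e⟩ := equiv_map (psiN (Ψ i) n) (Y i) fun y hy h =>
        funext fun j => hΨ.inj i (y j) (hYle i hy j trivial).1 (congrFun h j)
      rw [hfO_sub, hM i, ← e.finrank_eq]
      rfl)
  obtain ⟨e1, e2⟩ := Aff.unique hN.deg_pos.ne' haff h4
  rw [e1, e2]
  linarith

end

theorem exists_step (hN : N.OK) (c : ℤ)
    (H : MG Z D (fun _ => (1 : ℤ)) N.eqs (Lat fun i => N.deg * i + c)) :
    ∃ (s : Step D N) (k0 : ℤ), s.S2 N.deg c k0 ∧ s.S3 N.deg c k0 := by
  obtain ⟨k0, R, A, _, _, o, hR, hc⟩ := exists_ctx hN c H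
  obtain ⟨P, _, _, η, hη⟩ := R.exists_loc hc.CA hc.rA hc.dA hc.tf
  obtain ⟨s, Ψ, hΨ⟩ := exists_psi hN hR hc hη
  exact ⟨s, k0, hΨ.S2 hR hη, hΨ.S3 hN hR hc hη⟩

end Vale.Agent.EGH
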